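import Mathlib
import Crest.Prelude.Def_LiebThirring

/-!
# Row 332 (sharp one-dimensional Lieb–Thirring inequality for matrix potentials): common definitions

Everything is stated for `Matrix (Fin n) (Fin n) ℂ` with its product topology (no norm is chosen in the
definitions or statements; open `Matrix.Norms.L2Operator` or `Matrix.Norms.Frobenius` inside proofs if you
need a norm). Parameters: `1/2 < γ < 3/2`, `q = γ - 1/2 ∈ (0,1)`, `p = 1 + q = γ + 1/2`, `r = 1/q`.
-/

set_option autoImplicit false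

open MeasureTheory
open scoped ComplexOrder Matrix

namespace SLT

/-- Square complex matrices. -/
abbrev Mat (n : ℕ) : Type := Matrix (Fin n) (Fin n) ℂ

/-- Rectangular complex matrices. -/
abbrev RMat (n m : ℕ) : Type := Matrix (Fin n) (Fin m) ℂ

/-- Real part of the trace. -/
noncomputable def rtr {n : ℕ} (A : Mat n) : ℝ := (Matrix.trace A).re

/-- Square of the Hilbert–Schmidt norm, `tr (Aᴴ A)`. -/
noncomputable def hsq {n m : ℕ} (A : RMat n m) : ℝ := ∑ i, ∑ j, ‖A i j‖ ^ 2

/-- Real power of a (positive semidefinite) matrix by the real continuous functional calculus;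
`rtr (mpow A s) = tracePow A s` definitionally. -/
noncomputable def mpow {n : ℕ} (A : Mat n) (s : ℝ) : Mat n := cfc (fun t : ℝ => t ^ s) A

/-- Matrix logarithm (of a positive definite matrix) by the functional calculus. -/
noncomputable def mlog {n : ℕ} (A : Mat n) : Mat n := cfc Real.log A

/-- Matrix exponential (of a Hermitian matrix) by the functional calculus. -/
noncomputable def mexp {n : ℕ} (A : Mat n) : Mat n := cfc Real.exp A

/-- `K_τ = (k² + τ)^(1/2)`. -/
noncomputable def ktau {n : ℕ} (k : Mat n) (τ : ℝ) : Mat n :=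
  cfc (fun t : ℝ => Real.sqrt (t ^ 2 + τ)) k

/-- `D_τ(k,F) = log (K_τ - F) + log (K_τ + F) - log τ`. -/
noncomputable def Dtau {n : ℕ} (k F : Mat n) (τ : ℝ) : Mat n :=
  mlog (ktau k τ - F) + mlog (ktau k τ + F) - (Real.log τ : ℂ) • (1 : Mat n)

/-- `c_q = q sin (π q) / π`. -/
noncomputable def cq (q : ℝ) : ℝ := q * Real.sin (Real.pi * q) / Real.pi

/-- The calibration field paired with a direction `Z`:
`tr (Z P̂(F)) = c_q ∫_0^∞ τ^(q-1) tr (Z D_τ(k,F)) dτ`. -/
noncomputable def pihat {n : ℕ} (q : ℝ) (k F Z : Mat n) : ℝ :=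
  cq q * ∫ τ in Set.Ioi (0 : ℝ), τ ^ (q - 1) * rtr (Z * Dtau k F τ)

/-- The constant `c = q^q / (1+q)^(1+q)` (`= 1/(p (r+1)^(p-1))`). -/
noncomputable def cc (q : ℝ) : ℝ := q ^ q / (1 + q) ^ (1 + q)

/-- The constant `B_p = ∫_{-1}^1 (1-t²)^q dt`. -/
noncomputable def BB (q : ℝ) : ℝ := ∫ t in (-1 : ℝ)..1, (1 - t ^ 2) ^ q

/-- The deficit in the pointwise inequality (PI):
`c tr V^(1+q) - tr ((V - R) P̂(F))`, `R = k² - F²`. -/
noncomputable def dPI {n : ℕ} (q : ℝ) (k F V : Mat n) : ℝ :=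
  cc q * rtr (mpow V (1 + q)) - pihat q k F (V - (k * k - F * F))

/-- The deficit in Young's inequality for matrices:
`tr W^p / p + tr Q^(r+1) / (r+1) - tr (W Q)`, `p = 1 + q`, `r + 1 = (1+q)/q`. -/
noncomputable def dY {n : ℕ} (q : ℝ) (W Q : Mat n) : ℝ :=
  rtr (mpow W (1 + q)) / (1 + q) + q * rtr (mpow Q ((1 + q) / q)) / (1 + q) - rtr (W * Q)

/-- `F` is a Riccati path from `k` (for `x ≤ a`) to `-k` (for `b ≤ x`):
`F' = k² - F² - V` on the whole line and `-k ≤ F ≤ k`. -/
structure RPath {n : ℕ} (k : Mat n) (V F : ℝ → Mat n) (a b : ℝ) : Prop where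
  hk : k.PosSemidef
  deriv : ∀ x, HasDerivAt F (k * k - F x * F x - V x) x
  left : ∀ x, x ≤ a → F x = k
  right : ∀ x, b ≤ x → F x = -k
  le : ∀ x, (k - F x).PosSemidef
  ge : ∀ x, (k + F x).PosSemidef

end SLT
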