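import Mathlib
import Crest.Agent.SLT.Defs

/-! Row 332, (E): elementary consequences of the structure `RPath`. -/

set_option autoImplicit false

open Set Topology Filter MeasureTheory
open scoped ComplexOrder Matrix

namespace SLT

theorem hasDerivAt_mat {n m : ℕ} {A : ℝ → RMat n m} {A' : RMat n m} {x : ℝ} :
    HasDerivAt A A' x ↔ ∀ i j, HasDerivAt (fun y => A y i j) (A' i j) x := by
  constructor
  · intro h i j
    have h1 := (hasDerivAt_pi (φ := fun y => (A y : Fin n → Fin m → ℂ))).1 h i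
    exact hasDerivAt_pi.1 h1 j
  · intro h
    exact (hasDerivAt_pi (φ := fun y => (A y : Fin n → Fin m → ℂ))).2
      (fun i => hasDerivAt_pi.2 (h i))

theorem hasDerivAt_mat_mul {n m l : ℕ} {A : ℝ → RMat n m} {B : ℝ → RMat m l} {A' : RMat n m}
    {B' : RMat m l} {x : ℝ} (hA : HasDerivAt A A' x) (hB : HasDerivAt B B' x) :
    HasDerivAt (fun y => A y * B y) (A' * B x + A x * B') x := by
  rw [hasDerivAt_mat] at hA hB ⊢
  intro i j
  simp only [Matrix.mul_apply, Matrix.add_apply, ← Finset.sum_add_distrib]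
  exact HasDerivAt.fun_sum fun k _ => (hA i k).mul (hB k j)

theorem hasDerivAt_mat_conj {n m : ℕ} {A : ℝ → RMat n m} {A' : RMat n m}
    {x : ℝ} (hA : HasDerivAt A A' x) :
    HasDerivAt (fun y => (A y)ᴴ) (A'ᴴ) x := by
  rw [hasDerivAt_mat] at hA ⊢
  intro i j
  simp only [Matrix.conjTranspose_apply]
  exact (hA j i).star

theorem hasDerivAt_rtr {n : ℕ} {A : ℝ → Mat n} {A' : Mat n}
    {x : ℝ} (hA : HasDerivAt A A' x) :
    HasDerivAt (fun y => rtr (A y)) (rtr A') x := by
  rw [hasDerivAt_mat] at hA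
  have h1 : HasDerivAt (fun y => ∑ i, A y i i) (∑ i, A' i i) x :=
    HasDerivAt.fun_sum fun k _ => hA k k
  exact (Complex.reCLM.hasFDerivAt.comp_hasDerivAt x h1)

theorem RPath.hermitian {n : ℕ} {k : Mat n} {V F : ℝ → Mat n} {a b : ℝ} (h : RPath k V F a b)
    (x : ℝ) : (F x).IsHermitian := by
  have h1 := (h.le x).isHermitian
  have h2 := h.hk.isHermitian
  have h3 : F x = k - (k - F x) := by abel
  rw [h3]
  exact h2.sub h1

theorem RPath.continuous {n : ℕ} {k : Mat n} {V F : ℝ → Mat n} {a b : ℝ} (h : RPath k V F a b) :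
    Continuous F := by
  refine continuous_matrix fun i j => continuous_iff_continuousAt.2 fun x => ?_
  exact (hasDerivAt_mat.1 (h.deriv x) i j).continuousAt

/-- EX6. Positive definiteness of `k`: if `k v = 0` then `vᴴ (k ± F) v ≥ 0` forces `vᴴ F v = 0` and
(positive semidefinite matrices) `(k - F) v = 0`, so `F v = 0` for all `x`, hence
`0 = F' v = k² v - F (F v) - V v = -V v`. -/
theorem RPath.posDef {n : ℕ} {k : Mat n} {V F : ℝ → Mat n} {a b : ℝ} (h : RPath k V F a b)
    (hV : ∀ v : Fin n → ℂ, v ≠ 0 → ∃ x, (V x).mulVec v ≠ 0) : k.PosDef := by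
  refine Matrix.PosDef.of_dotProduct_mulVec_pos h.hk.isHermitian fun v hv => ?_
  have h0 : 0 ≤ star v ⬝ᵥ k.mulVec v := h.hk.dotProduct_mulVec_nonneg v
  rcases h0.lt_or_eq with h1 | h1
  · exact h1
  exfalso
  have hkv : k.mulVec v = 0 := (h.hk.dotProduct_mulVec_zero_iff v).1 h1.symm
  have hF : ∀ x, (F x).mulVec v = 0 := by
    intro x
    have e1 := (h.le x).dotProduct_mulVec_nonneg v
    have e2 := (h.ge x).dotProduct_mulVec_nonneg v
    rw [Matrix.sub_mulVec, hkv, zero_sub, dotProduct_neg] at e1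
    rw [Matrix.add_mulVec, hkv, zero_add] at e2
    have e3 : star v ⬝ᵥ (F x).mulVec v = 0 := le_antisymm (by simpa using e1) e2
    have e4 : star v ⬝ᵥ (k - F x).mulVec v = 0 := by
      rw [Matrix.sub_mulVec, hkv, zero_sub, dotProduct_neg, e3, neg_zero]
    have e5 := ((h.le x).dotProduct_mulVec_zero_iff v).1 e4
    rw [Matrix.sub_mulVec, hkv, zero_sub, neg_eq_zero] at e5
    exact e5
  obtain ⟨x, hx⟩ := hV v hv
  apply hx
  -- derivative of `F x *ᵥ v`
  have hd := h.deriv x
  have hd2 : ∀ i, HasDerivAt (fun y => (F y).mulVec v i)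
      ((k * k - F x * F x - V x).mulVec v i) x := by
    intro i
    rw [hasDerivAt_mat] at hd
    simp only [Matrix.mulVec, dotProduct]
    exact HasDerivAt.fun_sum fun j _ => (hd i j).mul_const (v j)
  have hd3 : (k * k - F x * F x - V x).mulVec v = 0 := by
    funext i
    have h2 := hd2 i
    have h3 : (fun y => (F y).mulVec v i) = fun _ => (0 : ℂ) := by
      funext y
      rw [hF y]; rfl
    rw [h3] at h2
    exact h2.unique (hasDerivAt_const x 0)
  rw [Matrix.sub_mulVec, Matrix.sub_mulVec, ← Matrix.mulVec_mulVec, ← Matrix.mulVec_mulVec, hkv,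
    hF x, Matrix.mulVec_zero, Matrix.mulVec_zero, sub_zero, zero_sub, neg_eq_zero] at hd3
  exact hd3

theorem rtr_add_P {n : ℕ} (A B : Mat n) : rtr (A + B) = rtr A + rtr B := by
  simp [rtr, Matrix.trace_add]

theorem rtr_sub_P {n : ℕ} (A B : Mat n) : rtr (A - B) = rtr A - rtr B := by
  simp [rtr, Matrix.trace_sub]

theorem rtr_conj_P {n : ℕ} (A : Mat n) : rtr Aᴴ = rtr A := by
  simp [rtr, Matrix.trace_conjTranspose]

theorem rtr_mul_comm_P {n m : ℕ} (A : RMat n m) (B : RMat m n) : rtr (A * B) = rtr (B * A) := by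
  simp only [rtr]
  rw [Matrix.trace_mul_comm]

theorem hsq_eq_P {n m : ℕ} (A : RMat n m) : hsq A = rtr (Aᴴ * A) := by
  simp only [hsq, rtr, Matrix.trace, Matrix.diag_apply, Matrix.mul_apply,
    Matrix.conjTranspose_apply, Complex.re_sum]
  rw [Finset.sum_comm]
  refine Finset.sum_congr rfl fun i _ => Finset.sum_congr rfl fun j _ => ?_
  have : star (A j i) * A j i = ((‖A j i‖ ^ 2 : ℝ) : ℂ) := by
    rw [← Complex.normSq_eq_norm_sq]
    exact (Complex.normSq_eq_conj_mul_self).symm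
  rw [this, Complex.ofReal_re]

theorem continuous_rtr_P {n : ℕ} : Continuous (rtr : Mat n → ℝ) :=
  Complex.continuous_re.comp (continuous_id.matrix_trace)

theorem hsq_zero_P {n m : ℕ} : hsq (0 : RMat n m) = 0 := by simp [hsq]

/-- EX7. Square completion: for a `C¹` compactly supported `U` (values `n × m` matrices),
`∫ ‖U' - F U‖² = ∫ ‖U'‖² + ∫ tr (k² U Uᴴ) - ∫ tr (V U Uᴴ)`. Proof:
`‖U' - F U‖² = ‖U'‖² + tr ((k² - V) U Uᴴ) - (tr (Uᴴ F U))'` pointwise, and
`tr (Uᴴ F U)` is `C¹` with compact support. -/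
theorem RPath.square {n m : ℕ} {k : Mat n} {V F : ℝ → Mat n} {a b : ℝ} (h : RPath k V F a b)
    (hV : Continuous V) (U U' : ℝ → RMat n m) (hU : ∀ x, HasDerivAt U (U' x) x)
    (hU' : Continuous U') (hc : HasCompactSupport U) :
    ∫ x, hsq (U' x - F x * U x) =
      (∫ x, hsq (U' x)) + (∫ x, rtr (k * k * (U x * (U x)ᴴ))) - ∫ x, rtr (V x * (U x * (U x)ᴴ)) := by
  have hF := h.continuous
  have hUc : Continuous U := by
    refine continuous_matrix fun i j => continuous_iff_continuousAt.2 fun x => ?_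
    exact (hasDerivAt_mat.1 (hU x) i j).continuousAt
  have hcs : ∀ x, x ∉ tsupport U → U x = 0 ∧ U' x = 0 := by
    intro x hx
    have h1 : U x = 0 := image_eq_zero_of_notMem_tsupport hx
    refine ⟨h1, ?_⟩
    have h2 : U =ᶠ[𝓝 x] fun _ => 0 := notMem_tsupport_iff_eventuallyEq.1 hx
    have h3 : ∀ i j, HasDerivAt (fun y => U y i j) (U' x i j) x := hasDerivAt_mat.1 (hU x)
    ext i j
    have h4 : (fun y => U y i j) =ᶠ[𝓝 x] fun _ => (0 : ℂ) := by
      filter_upwards [h2] with y hy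
      rw [hy]; rfl
    exact ((h3 i j).congr_of_eventuallyEq h4.symm).unique (hasDerivAt_const x 0)
  have hint : ∀ f : ℝ → ℝ, Continuous f → (∀ x, x ∉ tsupport U → f x = 0) → Integrable f := by
    intro f hf hf0
    exact hf.integrable_of_hasCompactSupport (HasCompactSupport.intro hc (fun x hx => hf0 x hx))
  have chsq : Continuous (fun A : RMat n m => hsq A) := by
    unfold hsq
    fun_prop
  set g : ℝ → ℝ := fun x => rtr ((U x)ᴴ * (F x * U x)) with hg
  set g' : ℝ → ℝ := fun x => rtr ((U' x)ᴴ * (F x * U x) +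
    (U x)ᴴ * ((k * k - F x * F x - V x) * U x + F x * U' x)) with hg'
  have hgd : ∀ x, HasDerivAt g (g' x) x := by
    intro x
    have h1 := hasDerivAt_mat_mul (h.deriv x) (hU x)
    have h2 := hasDerivAt_mat_mul (hasDerivAt_mat_conj (hU x)) h1
    exact hasDerivAt_rtr h2
  have hg'c : Continuous g' := by
    have : Continuous fun x => (U' x)ᴴ * (F x * U x) +
      (U x)ᴴ * ((k * k - F x * F x - V x) * U x + F x * U' x) := by fun_prop
    exact continuous_rtr_P.comp this
  have hgc : Continuous g := by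
    have : Continuous fun x => (U x)ᴴ * (F x * U x) := by fun_prop
    exact continuous_rtr_P.comp this
  have hrz : rtr (0 : Mat m) = 0 := by simp [rtr]
  have hrzn : rtr (0 : Mat n) = 0 := by simp [rtr]
  have ig : Integrable g := hint g hgc (fun x hx => by
    simp only [hg, (hcs x hx).1, Matrix.mul_zero, hrz])
  have ig' : Integrable g' := hint g' hg'c (fun x hx => by
    simp only [hg', (hcs x hx).1, (hcs x hx).2, Matrix.mul_zero, Matrix.conjTranspose_zero,
      add_zero, hrz])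
  have i0 : ∫ x, g' x = 0 := integral_eq_zero_of_hasDerivAt_of_integrable hgd ig' ig
  have i1 : Integrable fun x => hsq (U' x) := hint _ (chsq.comp hU') (fun x hx => by
    rw [(hcs x hx).2, hsq_zero_P])
  have i2 : Integrable fun x => rtr (k * k * (U x * (U x)ᴴ)) := by
    refine hint _ (continuous_rtr_P.comp (by fun_prop)) (fun x hx => ?_)
    simp only [(hcs x hx).1, Matrix.mul_zero, Matrix.zero_mul, hrzn]
  have i3 : Integrable fun x => rtr (V x * (U x * (U x)ᴴ)) := by
    refine hint _ (continuous_rtr_P.comp (by fun_prop)) (fun x hx => ?_)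
    simp only [(hcs x hx).1, Matrix.mul_zero, Matrix.zero_mul, hrzn]
  have key : ∀ x, hsq (U' x - F x * U x) =
      hsq (U' x) + rtr (k * k * (U x * (U x)ᴴ)) - rtr (V x * (U x * (U x)ᴴ)) - g' x := by
    intro x
    have hFh : (F x)ᴴ = F x := h.hermitian x
    have e1 : hsq (U' x - F x * U x) = hsq (U' x) - rtr ((U' x)ᴴ * (F x * U x))
        - rtr ((U x)ᴴ * (F x * U' x)) + rtr ((U x)ᴴ * (F x * F x * U x)) := by
      rw [hsq_eq_P, hsq_eq_P]
      have : (U' x - F x * U x)ᴴ * (U' x - F x * U x) =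
          (U' x)ᴴ * U' x - (U' x)ᴴ * (F x * U x) - (U x)ᴴ * (F x * U' x) +
            (U x)ᴴ * (F x * F x * U x) := by
        rw [Matrix.conjTranspose_sub, Matrix.conjTranspose_mul, hFh]
        simp only [Matrix.sub_mul, Matrix.mul_sub, Matrix.mul_assoc]
        abel
      rw [this, rtr_add_P, rtr_sub_P, rtr_sub_P]
    have e2 : rtr (k * k * (U x * (U x)ᴴ)) = rtr ((U x)ᴴ * (k * k * U x)) := by
      rw [← Matrix.mul_assoc, rtr_mul_comm_P]
    have e3 : rtr (V x * (U x * (U x)ᴴ)) = rtr ((U x)ᴴ * (V x * U x)) := by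
      rw [← Matrix.mul_assoc, rtr_mul_comm_P]
    have e4 : g' x = rtr ((U' x)ᴴ * (F x * U x)) + rtr ((U x)ᴴ * (k * k * U x))
        - rtr ((U x)ᴴ * (F x * F x * U x)) - rtr ((U x)ᴴ * (V x * U x))
        + rtr ((U x)ᴴ * (F x * U' x)) := by
      simp only [hg', Matrix.sub_mul, Matrix.mul_add, Matrix.mul_sub, rtr_add_P, rtr_sub_P]
      ring
    rw [e1, e2, e3, e4]
    ring
  have i12 : Integrable fun x => hsq (U' x) + rtr (k * k * (U x * (U x)ᴴ)) := i1.add i2
  have i123 : Integrable fun x => hsq (U' x) + rtr (k * k * (U x * (U x)ᴴ))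
      - rtr (V x * (U x * (U x)ᴴ)) := i12.sub i3
  calc ∫ x, hsq (U' x - F x * U x) = ∫ x, (hsq (U' x) + rtr (k * k * (U x * (U x)ᴴ))
        - rtr (V x * (U x * (U x)ᴴ)) - g' x) := by simp_rw [key]
    _ = _ := by
      rw [integral_sub i123 ig', integral_sub i12 i3, integral_add i1 i2, i0, sub_zero]

end SLT
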