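import Crest.Agent.SLT.StabSpec

/-!
# Row 332, STAB: Hilbert–Schmidt estimates from spectral double sums
-/

set_option autoImplicit false

open MeasureTheory
open scoped ComplexOrder Matrix

namespace SLT

variable {n m : ℕ}

theorem cfc_mul_fun {A : Mat n} (hA : A.IsHermitian) (f g : ℝ → ℝ) :
    cfc f A * cfc g A = cfc (fun t => f t * g t) A := by
  rw [cfc_spec hA, cfc_spec hA, cfc_spec hA]
  set U : Mat n := (hA.eigenvectorUnitary : Mat n)
  have hU : Uᴴ * U = 1 := by
    have := Unitary.coe_star_mul_self hA.eigenvectorUnitary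
    simpa [Matrix.star_eq_conjTranspose] using this
  have e (D E : Mat n) : U * D * Uᴴ * (U * E * Uᴴ) = U * (D * E) * Uᴴ := by
    calc U * D * Uᴴ * (U * E * Uᴴ) = U * (D * (Uᴴ * U) * E) * Uᴴ := by
          simp only [Matrix.mul_assoc]
      _ = _ := by rw [hU, Matrix.mul_one]
  rw [e, Matrix.diagonal_mul_diagonal]
  simp only [Complex.ofReal_mul]

theorem cfc_one_fun {A : Mat n} (hA : A.IsHermitian) : cfc (fun _ : ℝ => (1 : ℝ)) A = 1 :=
  cfc_const_one ℝ A hA

theorem cfc_id_fun {A : Mat n} (hA : A.IsHermitian) : cfc (fun t : ℝ => t) A = A :=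
  cfc_id' ℝ A hA

/-- the fundamental identity -/
theorem hsq_spec {A : Mat n} {B : Mat m} (hA : A.IsHermitian) (hB : B.IsHermitian)
    (X : RMat n m) (f g : ℝ → ℝ) :
    hsq (cfc f A * X - X * cfc g B) =
      ∑ i, ∑ j, (f (hA.eigenvalues i) - g (hB.eigenvalues j)) ^ 2 * swt hA hB X i j := by
  have e0 : (cfc f A * X - X * cfc g B) * (cfc f A * X - X * cfc g B)ᴴ
      = cfc f A * X * Xᴴ * cfc f A - cfc f A * X * cfc g B * Xᴴ
        - (X * cfc g B * Xᴴ * cfc f A - X * (cfc g B * cfc g B) * Xᴴ) := by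
    rw [Matrix.conjTranspose_sub, Matrix.conjTranspose_mul, Matrix.conjTranspose_mul,
      (cfc_herm f).eq, (cfc_herm g).eq, Matrix.sub_mul, Matrix.mul_sub, Matrix.mul_sub]
    simp only [Matrix.mul_assoc]
  have s1 : rtr (cfc f A * X * Xᴴ * cfc f A)
      = ∑ i, ∑ j, (f (hA.eigenvalues i) * f (hA.eigenvalues i)) * 1 * swt hA hB X i j := by
    rw [← spec_sum hA hB X (fun t => f t * f t) (fun _ => 1), rtr_mul_comm, ← Matrix.mul_assoc,
      ← Matrix.mul_assoc, cfc_mul_fun hA, cfc_one_fun hB, Matrix.mul_one]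
  have s2 := spec_sum hA hB X f g
  have s3 : rtr (X * cfc g B * Xᴴ * cfc f A) = rtr (cfc f A * X * cfc g B * Xᴴ) := by
    rw [rtr_mul_comm]
    simp only [Matrix.mul_assoc]
  have s4 : rtr (X * (cfc g B * cfc g B) * Xᴴ)
      = ∑ i, ∑ j, 1 * (g (hB.eigenvalues j) * g (hB.eigenvalues j)) * swt hA hB X i j := by
    rw [← spec_sum hA hB X (fun _ => 1) (fun t => g t * g t), cfc_mul_fun hB, cfc_one_fun hA,
      Matrix.one_mul]
  rw [hsq_eq_trace, e0, rtr_sub, rtr_sub, rtr_sub, s3, s1, s2, s4, ← Finset.sum_sub_distrib,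
    ← Finset.sum_sub_distrib, ← Finset.sum_sub_distrib]
  refine Finset.sum_congr rfl fun i _ => ?_
  rw [← Finset.sum_sub_distrib, ← Finset.sum_sub_distrib, ← Finset.sum_sub_distrib]
  exact Finset.sum_congr rfl fun j _ => by ring

theorem hsq_spec_id {A : Mat n} {B : Mat m} (hA : A.IsHermitian) (hB : B.IsHermitian)
    (X : RMat n m) :
    hsq (A * X - X * B) =
      ∑ i, ∑ j, (hA.eigenvalues i - hB.eigenvalues j) ^ 2 * swt hA hB X i j := by
  have := hsq_spec hA hB X (fun t => t) (fun t => t)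
  rwa [cfc_id_fun hA, cfc_id_fun hB] at this

theorem hsq_spec_wt {A : Mat n} {B : Mat m} (hA : A.IsHermitian) (hB : B.IsHermitian)
    (X : RMat n m) : hsq X = ∑ i, ∑ j, swt hA hB X i j := by
  have := hsq_spec hA hB X (fun _ => 1) (fun _ => 0)
  rw [cfc_one_fun hA, Matrix.one_mul, show cfc (fun _ : ℝ => (0 : ℝ)) B = 0 from
    cfc_const_zero ℝ B, Matrix.mul_zero, sub_zero] at this
  simpa using this

/-- functions with a Lipschitz bound on the spectra -/
theorem hsq_lip_eig {A : Mat n} {B : Mat m} (hA : A.IsHermitian) (hB : B.IsHermitian)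
    (X : RMat n m) (f g : ℝ → ℝ) (L : ℝ)
    (h : ∀ i j, |f (hA.eigenvalues i) - g (hB.eigenvalues j)| ≤
      L * |hA.eigenvalues i - hB.eigenvalues j|) :
    hsq (cfc f A * X - X * cfc g B) ≤ L ^ 2 * hsq (A * X - X * B) := by
  rw [hsq_spec hA hB, hsq_spec_id hA hB, Finset.mul_sum]
  refine Finset.sum_le_sum fun i _ => ?_
  rw [Finset.mul_sum]
  refine Finset.sum_le_sum fun j _ => ?_
  have h1 : (f (hA.eigenvalues i) - g (hB.eigenvalues j)) ^ 2 ≤
      L ^ 2 * (hA.eigenvalues i - hB.eigenvalues j) ^ 2 := by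
    rw [← sq_abs (f _ - _), ← sq_abs (hA.eigenvalues i - _), ← mul_pow]
    exact pow_le_pow_left₀ (abs_nonneg _) (h i j) 2
  calc _ ≤ (L ^ 2 * (hA.eigenvalues i - hB.eigenvalues j) ^ 2) * swt hA hB X i j :=
        mul_le_mul_of_nonneg_right h1 (swt_nonneg _ _ _ _ _)
    _ = _ := by ring

theorem eig_le {A : Mat n} (hA : A.IsHermitian) {c : ℝ}
    (h : ((c : ℂ) • (1 : Mat n) - A).PosSemidef) (i : Fin n) : hA.eigenvalues i ≤ c := by
  have h1 := hA.eigenvalues_eq i
  set v := (hA.eigenvectorBasis i).ofLp with hv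
  have h2 := h.re_dotProduct_nonneg v
  have hn : dotProduct (star v) v = 1 := by
    have := hA.eigenvectorBasis.orthonormal.1 i
    have h3 : inner ℂ (hA.eigenvectorBasis i) (hA.eigenvectorBasis i) = (1 : ℂ) := by
      rw [inner_self_eq_norm_sq_to_K, this]; simp
    rw [EuclideanSpace.inner_eq_star_dotProduct] at h3
    rw [dotProduct_comm]
    exact h3
  rw [Matrix.sub_mulVec, Matrix.smul_mulVec, Matrix.one_mulVec, dotProduct_sub, dotProduct_smul,
    hn] at h2
  rw [h1]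
  simpa using h2

theorem le_eig {A : Mat n} (hA : A.IsHermitian) {c : ℝ}
    (h : (A - (c : ℂ) • (1 : Mat n)).PosSemidef) (i : Fin n) : c ≤ hA.eigenvalues i := by
  have h1 := hA.eigenvalues_eq i
  set v := (hA.eigenvectorBasis i).ofLp with hv
  have h2 := h.re_dotProduct_nonneg v
  have hn : dotProduct (star v) v = 1 := by
    have := hA.eigenvectorBasis.orthonormal.1 i
    have h3 : inner ℂ (hA.eigenvectorBasis i) (hA.eigenvectorBasis i) = (1 : ℂ) := by
      rw [inner_self_eq_norm_sq_to_K, this]; simp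
    rw [EuclideanSpace.inner_eq_star_dotProduct] at h3
    rw [dotProduct_comm]
    exact h3
  rw [Matrix.sub_mulVec, Matrix.smul_mulVec, Matrix.one_mulVec, dotProduct_sub, dotProduct_smul,
    hn] at h2
  rw [h1]
  simpa using h2

/-- left multiplication by a bounded Hermitian matrix -/
theorem hsq_mul_le {P : Mat n} (hP : P.IsHermitian) {p : ℝ} (h : ∀ i, |hP.eigenvalues i| ≤ p)
    (X : RMat n m) : hsq (P * X) ≤ p ^ 2 * hsq X := by
  have hB : (0 : Mat m).IsHermitian := Matrix.isHermitian_zero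
  have e := hsq_spec hP hB X (fun t => t) (fun _ => 0)
  rw [cfc_id_fun hP, show cfc (fun _ : ℝ => (0 : ℝ)) (0 : Mat m) = 0 from
    cfc_const_zero ℝ _, Matrix.mul_zero, sub_zero] at e
  rw [e, hsq_spec_wt hP hB X, Finset.mul_sum]
  refine Finset.sum_le_sum fun i _ => ?_
  rw [Finset.mul_sum]
  refine Finset.sum_le_sum fun j _ => ?_
  refine mul_le_mul_of_nonneg_right ?_ (swt_nonneg _ _ _ _ _)
  rw [sub_zero, ← sq_abs]
  exact pow_le_pow_left₀ (abs_nonneg _) (h i) 2

theorem mul_hsq_le {P : Mat m} (hP : P.IsHermitian) {p : ℝ} (h : ∀ i, |hP.eigenvalues i| ≤ p)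
    (X : RMat n m) : hsq (X * P) ≤ p ^ 2 * hsq X := by
  have := hsq_mul_le hP h Xᴴ
  rw [hsq_conjTranspose] at this
  have e : P * Xᴴ = (X * P)ᴴ := by rw [Matrix.conjTranspose_mul, hP.eq]
  rwa [e, hsq_conjTranspose] at this

theorem hsq_rsmul (c : ℝ) (X : RMat n m) : hsq ((c : ℂ) • X) = c ^ 2 * hsq X := by
  unfold hsq
  rw [Finset.mul_sum]
  refine Finset.sum_congr rfl fun i _ => ?_
  rw [Finset.mul_sum]
  refine Finset.sum_congr rfl fun j _ => ?_
  rw [Matrix.smul_apply, smul_eq_mul, norm_mul, Complex.norm_real, mul_pow, Real.norm_eq_abs,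
    sq_abs]

end SLT
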