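import Crest.Agent.SLT.PIDefs
import Crest.Agent.SLT.PILog
import Crest.Agent.SLT.StabHS
import Crest.Agent.SLT.ExPos

/-! Row 332, (K), chunk PI-3: Klein's inequality for `G(a) = a log a - a` and the derivative of
`tr G(A(x))`. -/

set_option autoImplicit false

open MeasureTheory Set Filter Topology
open scoped ComplexOrder Matrix

namespace SLT

theorem rtr_Gent {n : ℕ} {A : Mat n} (hA : A.PosDef) :
    rtr (cfc Gent A) = rtr (A * mlog A) - rtr A := by
  have hh : A.IsHermitian := hA.isHermitian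
  have h1 : cfc Gent A = A * mlog A - A := by
    have e1 : (fun t : ℝ => t * Real.log t - t) = Gent := by funext t; rfl
    rw [← e1, ← cfc_sub_cfc hh, ← cfc_mul_fun hh (fun t => t) Real.log, cfc_id_fun hh]
    rfl
  rw [h1, rtr_sub]

private theorem gent_scalar {a b : ℝ} (ha : 0 < a) (hb : 0 < b) :
    (a - b) * Real.log b ≤ Gent a - Gent b := by
  unfold Gent
  have h1 := Real.log_le_sub_one_of_pos (div_pos hb ha)
  rw [Real.log_div hb.ne' ha.ne'] at h1
  have h2 : a * (Real.log b - Real.log a) ≤ b - a := by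
    calc a * (Real.log b - Real.log a) ≤ a * (b / a - 1) := mul_le_mul_of_nonneg_left h1 ha.le
      _ = b - a := by field_simp
  nlinarith

/-- Klein: `tr G(A) - tr G(B) ≥ tr ((A - B) log B)` for positive definite `A`, `B`
(double spectral sum `spec_sum` and the scalar inequality
`a log a - a - (b log b - b) - (a - b) log b = a log (a/b) - a + b ≥ 0`). -/
theorem klein_Gent {n : ℕ} {A B : Mat n} (hA : A.PosDef) (hB : B.PosDef) :
    rtr ((A - B) * mlog B) ≤ rtr (cfc Gent A) - rtr (cfc Gent B) := by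
  have hAh : A.IsHermitian := hA.isHermitian
  have hBh : B.IsHermitian := hB.isHermitian
  have e1 : rtr (cfc Gent A) = ∑ i, ∑ j, Gent (hAh.eigenvalues i) * 1 * wt hAh hBh i j := by
    rw [← rtr_cfc_mul_cfc hAh hBh Gent (fun _ => 1), cfc_one_fun hBh, Matrix.mul_one]
  have e2 : rtr (cfc Gent B) = ∑ i, ∑ j, 1 * Gent (hBh.eigenvalues j) * wt hAh hBh i j := by
    rw [← rtr_cfc_mul_cfc hAh hBh (fun _ => 1) Gent, cfc_one_fun hAh, Matrix.one_mul]
  have e3 : rtr (A * mlog B) = ∑ i, ∑ j, hAh.eigenvalues i * Real.log (hBh.eigenvalues j) *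
      wt hAh hBh i j := by
    rw [← rtr_cfc_mul_cfc hAh hBh (fun t => t) Real.log, cfc_id_fun hAh]; rfl
  have e4 : rtr (B * mlog B) = ∑ i, ∑ j, 1 * (hBh.eigenvalues j * Real.log (hBh.eigenvalues j)) *
      wt hAh hBh i j := by
    rw [← rtr_cfc_mul_cfc hAh hBh (fun _ => 1) (fun t => t * Real.log t), cfc_one_fun hAh,
      Matrix.one_mul, ← cfc_mul_fun hBh (fun t => t) Real.log, cfc_id_fun hBh]; rfl
  rw [Matrix.sub_mul, rtr_sub, e1, e2, e3, e4, ← Finset.sum_sub_distrib, ← Finset.sum_sub_distrib]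
  refine Finset.sum_le_sum fun i _ => ?_
  rw [← Finset.sum_sub_distrib, ← Finset.sum_sub_distrib]
  refine Finset.sum_le_sum fun j _ => ?_
  have h1 := gent_scalar (hA.eigenvalues_pos i) (hB.eigenvalues_pos j)
  have h2 := mul_le_mul_of_nonneg_right h1 (wt_nonneg hAh hBh i j)
  calc _ = (hAh.eigenvalues i - hBh.eigenvalues j) * Real.log (hBh.eigenvalues j) *
        wt hAh hBh i j := by ring
    _ ≤ _ := h2
    _ = _ := by ring

/-- `d/dx tr G(A(x)) = tr (A' log A)`: squeeze between `tr ((A(x)-A(x₀)) log A(x₀))` and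
`tr ((A(x)-A(x₀)) log A(x))` (Klein twice) and use the continuity of `mlog`. -/
theorem Gent_hasDerivAt {n : ℕ} (A : ℝ → Mat n) (A' : Mat n) (x₀ : ℝ)
    (hA : ∀ᶠ x in 𝓝 x₀, (A x).PosDef) (hd : HasDerivAt A A' x₀) :
    HasDerivAt (fun x => rtr (cfc Gent (A x))) (rtr (A' * mlog (A x₀))) x₀ := by
  have hx0 : (A x₀).PosDef := hA.self_of_nhds
  have hcr : Continuous (rtr : Mat n → ℝ) :=
    Complex.continuous_re.comp (continuous_id.matrix_trace)
  have hde := hasDerivAt_mat.1 hd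
  have hds : Tendsto (fun x => (x - x₀)⁻¹ • (A x - A x₀)) (𝓝[≠] x₀) (𝓝 A') := by
    refine tendsto_pi_nhds.2 fun i => tendsto_pi_nhds.2 fun j => ?_
    have h := hasDerivAt_iff_tendsto_slope.1 (hde i j)
    refine h.congr fun x => ?_
    rw [slope_def_module]
    rfl
  have hAt : Tendsto A (𝓝[≠] x₀) (𝓝 (A x₀)) := by
    refine tendsto_pi_nhds.2 fun i => tendsto_pi_nhds.2 fun j => ?_
    exact ((hde i j).continuousAt.tendsto).mono_left nhdsWithin_le_nhds
  rw [hasDerivAt_iff_tendsto_slope]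
  have hAc : Tendsto A (𝓝[≠] x₀) (𝓝[{A | A.PosDef}] (A x₀)) :=
    tendsto_nhdsWithin_of_tendsto_nhds_of_eventually_within _ hAt (nhdsWithin_le_nhds hA)
  have hL : Tendsto (fun x => mlog (A x)) (𝓝[≠] x₀) (𝓝 (mlog (A x₀))) :=
    ((mlog_continuousOn n) _ hx0).tendsto.comp hAc
  have h1 : Tendsto (fun x => rtr (((x - x₀)⁻¹ • (A x - A x₀)) * mlog (A x₀))) (𝓝[≠] x₀)
      (𝓝 (rtr (A' * mlog (A x₀)))) :=
    (hcr.tendsto _).comp (hds.mul tendsto_const_nhds)
  have h2 : Tendsto (fun x => rtr (((x - x₀)⁻¹ • (A x - A x₀)) * mlog (A x))) (𝓝[≠] x₀)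
      (𝓝 (rtr (A' * mlog (A x₀)))) :=
    (hcr.tendsto _).comp (hds.mul hL)
  have h3 := h1.min h2
  have h4 := h1.max h2
  rw [min_self] at h3
  rw [max_self] at h4
  have hkey : ∀ᶠ x in 𝓝[≠] x₀, min (rtr (((x - x₀)⁻¹ • (A x - A x₀)) * mlog (A x₀)))
      (rtr (((x - x₀)⁻¹ • (A x - A x₀)) * mlog (A x))) ≤ slope (fun x => rtr (cfc Gent (A x))) x₀ x ∧
      slope (fun x => rtr (cfc Gent (A x))) x₀ x ≤ max (rtr (((x - x₀)⁻¹ • (A x - A x₀)) * mlog (A x₀)))
      (rtr (((x - x₀)⁻¹ • (A x - A x₀)) * mlog (A x))) := by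
    filter_upwards [nhdsWithin_le_nhds hA, self_mem_nhdsWithin] with x hx hne
    have k1 := klein_Gent hx hx0
    have k2 := klein_Gent hx0 hx
    have k3 : rtr (cfc Gent (A x)) - rtr (cfc Gent (A x₀)) ≤ rtr ((A x - A x₀) * mlog (A x)) := by
      have : rtr ((A x₀ - A x) * mlog (A x)) = - rtr ((A x - A x₀) * mlog (A x)) := by
        rw [← rtr_neg, ← Matrix.neg_mul, neg_sub]
      linarith
    have s1 : ∀ M : Mat n, rtr (((x - x₀)⁻¹ • (A x - A x₀)) * M) =
        (x - x₀)⁻¹ * rtr ((A x - A x₀) * M) := by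
      intro M
      rw [Matrix.smul_mul, rtr_rsmul]
    have s2 : slope (fun x => rtr (cfc Gent (A x))) x₀ x =
        (x - x₀)⁻¹ * (rtr (cfc Gent (A x)) - rtr (cfc Gent (A x₀))) := by
      rw [slope_def_module, smul_eq_mul]
    rw [s1, s1, s2]
    rcases lt_or_gt_of_ne (sub_ne_zero.2 hne : x - x₀ ≠ 0) with hlt | hgt
    · have hi : (x - x₀)⁻¹ ≤ 0 := (inv_lt_zero.2 hlt).le
      exact ⟨min_le_of_right_le (mul_le_mul_of_nonpos_left k3 hi),
        le_max_of_le_left (mul_le_mul_of_nonpos_left k1 hi)⟩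
    · have hi : 0 ≤ (x - x₀)⁻¹ := (inv_pos.2 hgt).le
      exact ⟨min_le_of_left_le (mul_le_mul_of_nonneg_left k1 hi),
        le_max_of_le_right (mul_le_mul_of_nonneg_left k3 hi)⟩
  exact tendsto_of_tendsto_of_tendsto_of_le_of_le' h3 h4 (hkey.mono fun _ h => h.1)
    (hkey.mono fun _ h => h.2)

end SLT
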