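import Crest.Agent.SLT.PIDefs
import Crest.Agent.SLT.StabHS

/-! Row 332, (PI), chunk PI-1: elementary facts about `K_τ = (k² + τ)^(1/2)`, `K_τ ± F`.
Everything by diagonalising `k` (`cfc_spec`, `Matrix.IsHermitian.spectral_theorem`). -/

set_option autoImplicit false

open MeasureTheory Set Filter Topology
open scoped ComplexOrder Matrix

namespace SLT

theorem ktau_herm {n : ℕ} (k : Mat n) (τ : ℝ) : (ktau k τ).IsHermitian :=
  cfc_predicate (R := ℝ) _ k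

theorem ktau_sq {n : ℕ} {k : Mat n} (hk : k.PosSemidef) {τ : ℝ} (hτ : 0 ≤ τ) :
    ktau k τ * ktau k τ = k * k + (τ : ℂ) • (1 : Mat n) := by
  unfold ktau
  rw [cfc_mul_cfc hk.1, ← cfc_const_eq hk.1]
  have e : k * k = cfc (fun t : ℝ => t * t) k := by
    rw [← cfc_mul_cfc hk.1, cfc_fun_id hk.1]
  rw [e, cfc_add_cfc hk.1]
  refine cfc_congr_spec hk.1 fun s _ => ?_
  rw [Real.mul_self_sqrt (by positivity)]
  ring

theorem ktau_comm {n : ℕ} {k : Mat n} (hk : k.PosSemidef) (τ : ℝ) :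
    ktau k τ * k = k * ktau k τ := by
  unfold ktau
  have h1 : cfc (fun t : ℝ => Real.sqrt (t ^ 2 + τ)) k * cfc (fun t : ℝ => t) k
      = cfc (fun t : ℝ => t) k * cfc (fun t : ℝ => Real.sqrt (t ^ 2 + τ)) k := by
    rw [cfc_mul_cfc hk.1, cfc_mul_cfc hk.1]
    refine cfc_congr_spec hk.1 fun s _ => ?_
    ring
  rwa [cfc_fun_id hk.1] at h1

private theorem pk_sqrt_sub_ge {t κ τ : ℝ} (ht : 0 ≤ t) (htκ : t ≤ κ) (hτ : 0 < τ) :
    τ / (Real.sqrt (κ ^ 2 + τ) + κ) ≤ Real.sqrt (t ^ 2 + τ) - t := by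
  have hκ : 0 ≤ κ := ht.trans htκ
  have h1 : 0 < Real.sqrt (κ ^ 2 + τ) := Real.sqrt_pos.mpr (by positivity)
  have h2 : Real.sqrt (t ^ 2 + τ) ≤ Real.sqrt (κ ^ 2 + τ) :=
    Real.sqrt_le_sqrt (by nlinarith)
  have h3 : t < Real.sqrt (t ^ 2 + τ) := Real.lt_sqrt_of_sq_lt (by linarith)
  have h4 : (Real.sqrt (t ^ 2 + τ) - t) * (Real.sqrt (t ^ 2 + τ) + t) = τ := by
    have := Real.mul_self_sqrt (show 0 ≤ t ^ 2 + τ by positivity)
    nlinarith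
  rw [div_le_iff₀ (by positivity)]
  calc τ = (Real.sqrt (t ^ 2 + τ) - t) * (Real.sqrt (t ^ 2 + τ) + t) := h4.symm
    _ ≤ (Real.sqrt (t ^ 2 + τ) - t) * (Real.sqrt (κ ^ 2 + τ) + κ) := by
        refine mul_le_mul_of_nonneg_left ?_ (by linarith)
        linarith

/-- `K_τ - k ≥ τ / (√(κ² + τ) + κ)`. -/
private theorem pk_ktau_sub_ge {n : ℕ} {k : Mat n} {κ τ : ℝ} (hk : k.PosSemidef)
    (hκ : ((κ : ℂ) • (1 : Mat n) - k).PosSemidef) (hτ : 0 < τ) :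
    (ktau k τ - k - ((τ / (Real.sqrt (κ ^ 2 + τ) + κ) : ℝ) : ℂ) • (1 : Mat n)).PosSemidef := by
  have e : ktau k τ - k = cfc (fun t : ℝ => Real.sqrt (t ^ 2 + τ) - t) k := by
    rw [← cfc_sub_cfc hk.1, cfc_fun_id hk.1]
    rfl
  rw [e]
  exact cfc_ge hk.1 fun s hs => pk_sqrt_sub_ge (spec_nonneg hk hs) (spec_le hk.1 hκ hs) hτ

private theorem pk_ktau_le {n : ℕ} {k : Mat n} {κ : ℝ} (hk : k.PosSemidef)
    (hκ : ((κ : ℂ) • (1 : Mat n) - k).PosSemidef)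
    (τ : ℝ) :
    (((Real.sqrt (κ ^ 2 + τ) : ℝ) : ℂ) • (1 : Mat n) - ktau k τ).PosSemidef := by
  refine cfc_le hk.1 fun s hs => Real.sqrt_le_sqrt ?_
  have h1 := spec_nonneg hk hs
  have h2 := spec_le hk.1 hκ hs
  nlinarith

/-- `k ≤ κ` implies `K_τ - k ≥ τ / ((κ²+τ)^(1/2) + κ)`; hence the same lower bound for `K_τ - F`. -/
theorem A_lower {n : ℕ} {k F : Mat n} (h : KF k F) {κ τ : ℝ} (hκ : 0 ≤ κ)
    (hkκ : ((κ : ℂ) • (1 : Mat n) - k).PosSemidef) (hτ : 0 < τ) :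
    (ktau k τ - F - ((τ / (Real.sqrt (κ ^ 2 + τ) + κ) : ℝ) : ℂ) • (1 : Mat n)).PosSemidef := by
  have := (pk_ktau_sub_ge h.hk hkκ hτ).add h.le
  convert this using 1
  abel

theorem A_upper {n : ℕ} {k F : Mat n} (h : KF k F) {κ τ : ℝ} (hκ : 0 ≤ κ)
    (hkκ : ((κ : ℂ) • (1 : Mat n) - k).PosSemidef) (hτ : 0 < τ) :
    (((Real.sqrt (κ ^ 2 + τ) + κ : ℝ) : ℂ) • (1 : Mat n) - (ktau k τ - F)).PosSemidef := by
  have h3 := (pk_ktau_le h.hk hkκ τ).add (hkκ.add h.ge)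
  convert h3 using 1
  push_cast
  rw [add_smul]
  abel

/-- Every positive semidefinite matrix is bounded by some multiple of the identity. -/
theorem exists_upper {n : ℕ} {k : Mat n} (hk : k.PosSemidef) :
    ∃ κ : ℝ, 0 ≤ κ ∧ ((κ : ℂ) • (1 : Mat n) - k).PosSemidef :=
  ⟨rtr k, rtr_nonneg hk, le_rtr_smul hk⟩

private theorem pk_posDef_of_ge {n : ℕ} {A : Mat n} {c : ℝ} (hc : 0 < c)
    (h : (A - (c : ℂ) • (1 : Mat n)).PosSemidef) : A.PosDef := by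
  have h1 : ((c : ℂ) • (1 : Mat n)).PosDef :=
    Matrix.PosDef.one.smul (by exact_mod_cast hc)
  have h2 := h1.add_posSemidef h
  have e : (c : ℂ) • (1 : Mat n) + (A - (c : ℂ) • (1 : Mat n)) = A := by abel
  rwa [e] at h2

theorem A_posDef {n : ℕ} {k F : Mat n} (h : KF k F) {τ : ℝ} (hτ : 0 < τ) :
    (ktau k τ - F).PosDef := by
  obtain ⟨κ, hκ, hkκ⟩ := exists_upper h.hk
  exact pk_posDef_of_ge (by positivity) (A_lower h hκ hkκ hτ)

theorem B_posDef {n : ℕ} {k F : Mat n} (h : KF k F) {τ : ℝ} (hτ : 0 < τ) :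
    (ktau k τ + F).PosDef := by
  have := A_posDef h.neg hτ
  simpa using this

theorem ktau_posDef {n : ℕ} {k : Mat n} (hk : k.PosSemidef) {τ : ℝ} (hτ : 0 < τ) :
    (ktau k τ).PosDef :=
  cfc_posDef hk.1 fun s _ => Real.sqrt_pos.mpr (by positivity)

private theorem pk_hasDerivAt_mat {n m : ℕ} {A : ℝ → RMat n m} {A' : RMat n m} {x : ℝ} :
    HasDerivAt A A' x ↔ ∀ i j, HasDerivAt (fun y => A y i j) (A' i j) x := by
  constructor
  · intro h i j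
    have h1 := (hasDerivAt_pi (φ := fun y => (A y : Fin n → Fin m → ℂ))).1 h i
    exact hasDerivAt_pi.1 h1 j
  · intro h
    exact (hasDerivAt_pi (φ := fun y => (A y : Fin n → Fin m → ℂ))).2
      (fun i => hasDerivAt_pi.2 (h i))

private theorem pk_deriv_conj {m : ℕ} (A B : Mat m) (f : Fin m → ℝ → ℝ) (f' : Fin m → ℝ) (x : ℝ)
    (h : ∀ i, HasDerivAt (f i) (f' i) x) :
    HasDerivAt (fun y => A * Matrix.diagonal (fun i => ((f i y : ℝ) : ℂ)) * B)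
      (A * Matrix.diagonal (fun i => ((f' i : ℝ) : ℂ)) * B) x := by
  rw [pk_hasDerivAt_mat]
  intro i j
  have e : ∀ d : Fin m → ℂ, (A * Matrix.diagonal d * B) i j = ∑ l, A i l * d l * B l j := by
    intro d
    rw [Matrix.mul_apply]
    refine Finset.sum_congr rfl fun l _ => ?_
    rw [Matrix.mul_diagonal]
  simp only [e]
  refine HasDerivAt.fun_sum fun l _ => ?_
  exact (((h l).ofReal_comp).const_mul (A i l)).mul_const (B l j)

/-- `d/dτ K_τ = (2 K_τ)⁻¹`. -/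
theorem ktau_hasDerivAt {n : ℕ} {k : Mat n} (hk : k.PosSemidef) {τ : ℝ} (hτ : 0 < τ) :
    HasDerivAt (fun t => ktau k t) (((2 : ℂ) • ktau k τ)⁻¹) τ := by
  have e1 : ((2 : ℂ) • ktau k τ)⁻¹ = cfc (fun s : ℝ => 1 / (2 * Real.sqrt (s ^ 2 + τ))) k := by
    apply Matrix.inv_eq_right_inv
    unfold ktau
    have h2 : (2 : ℂ) • cfc (fun t : ℝ => Real.sqrt (t ^ 2 + τ)) k
        = ((2 : ℝ) : ℂ) • cfc (fun t : ℝ => Real.sqrt (t ^ 2 + τ)) k := by norm_num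
    rw [h2, smul_cfc hk.1, cfc_mul_cfc hk.1]
    have h3 := cfc_const_eq hk.1 1
    rw [Complex.ofReal_one, one_smul] at h3
    rw [← h3]
    refine cfc_congr_spec hk.1 fun s _ => ?_
    have h4 : 0 < Real.sqrt (s ^ 2 + τ) := Real.sqrt_pos.mpr (by positivity)
    field_simp
  rw [e1, cfc_eq_conj hk.1]
  have e2 : (fun t => ktau k t) = fun t => eU hk.1 *
      Matrix.diagonal (fun i => ((Real.sqrt (hk.1.eigenvalues i ^ 2 + t) : ℝ) : ℂ)) *
        (eU hk.1)ᴴ := by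
    funext t
    unfold ktau
    rw [cfc_eq_conj hk.1]
  rw [e2]
  refine pk_deriv_conj (eU hk.1) (eU hk.1)ᴴ
    (fun i t => Real.sqrt (hk.1.eigenvalues i ^ 2 + t)) _ τ fun i => ?_
  have h5 : hk.1.eigenvalues i ^ 2 + τ ≠ 0 := by positivity
  have h6 := ((hasDerivAt_id τ).const_add (hk.1.eigenvalues i ^ 2)).sqrt h5
  simpa using h6

end SLT
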