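import Crest.Agent.SLT.PIDefs
import Crest.Agent.SLT.PIKtau
import Crest.Agent.SLT.StabHS

/-! Row 332, (PI), chunk PI-5: bounds for `D_τ = log(K_τ-F) + log(K_τ+F) - log τ`. -/

set_option autoImplicit false

open MeasureTheory Set Filter Topology
open scoped ComplexOrder Matrix

namespace SLT

private theorem hsq_cfc_le_pi5 {n : ℕ} {A : Mat n} (hA : A.IsHermitian) {f : ℝ → ℝ} {p : ℝ}
    (h : ∀ s ∈ spectrum ℝ A, |f s| ≤ p) : hsq (cfc f A) ≤ n * p ^ 2 := by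
  have h1 : hsq (cfc f A) = ∑ i, (f (hA.eigenvalues i)) ^ 2 := by
    rw [hsq_eq_rtr, (cfc_isHermitian f).eq, cfc_mul_cfc hA, rtr_cfc hA]
    simp only [sq]
  rw [h1]
  calc ∑ i, (f (hA.eigenvalues i)) ^ 2 ≤ ∑ _i : Fin n, p ^ 2 := by
        refine Finset.sum_le_sum fun i _ => ?_
        have h2 := h _ (hA.eigenvalues_mem_spectrum_real i)
        rw [← sq_abs]
        exact pow_le_pow_left₀ (abs_nonneg _) h2 2
    _ = n * p ^ 2 := by simp

private theorem log_bd_small {κ T τ a : ℝ} (hκ : 0 ≤ κ) (hT : 1 ≤ T) (hτ : 0 < τ) (hτT : τ ≤ T)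
    (h1 : τ / (Real.sqrt (κ ^ 2 + τ) + κ) ≤ a) (h2 : a ≤ Real.sqrt (κ ^ 2 + τ) + κ) :
    |Real.log a| ≤ |Real.log τ| + Real.log (Real.sqrt (κ ^ 2 + T) + κ) := by
  have hs : 0 < Real.sqrt (κ ^ 2 + τ) := Real.sqrt_pos.2 (by positivity)
  have hu : 0 < Real.sqrt (κ ^ 2 + τ) + κ := by positivity
  have ha : 0 < a := lt_of_lt_of_le (by positivity) h1
  have hU1 : Real.sqrt (κ ^ 2 + τ) + κ ≤ Real.sqrt (κ ^ 2 + T) + κ := by
    have := Real.sqrt_le_sqrt (show κ ^ 2 + τ ≤ κ ^ 2 + T by linarith)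
    linarith
  have hU : 0 < Real.sqrt (κ ^ 2 + T) + κ := hu.trans_le hU1
  have h3 : Real.log a ≤ Real.log (Real.sqrt (κ ^ 2 + T) + κ) :=
    Real.log_le_log ha (h2.trans hU1)
  have h4 : Real.log τ - Real.log (Real.sqrt (κ ^ 2 + T) + κ) ≤ Real.log a := by
    rw [← Real.log_div hτ.ne' hU.ne']
    refine Real.log_le_log (by positivity) (le_trans ?_ h1)
    exact div_le_div_of_nonneg_left hτ.le hu hU1
  rw [abs_le]
  constructor
  · have := neg_abs_le (Real.log τ)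
    linarith
  · have := abs_nonneg (Real.log τ)
    linarith

private theorem sub_one_bd {κ τ a : ℝ} (hκ : 0 ≤ κ) (hτ : 1 ≤ τ)
    (h1 : τ / (Real.sqrt (κ ^ 2 + τ) + κ) ≤ a) (h2 : a ≤ Real.sqrt (κ ^ 2 + τ) + κ) :
    |a / Real.sqrt τ - 1| ≤ (κ ^ 2 / 2 + κ) / Real.sqrt τ := by
  have hτ0 : 0 < τ := by linarith
  have hs : 1 ≤ Real.sqrt τ := Real.one_le_sqrt.2 hτ
  have hs0 : 0 < Real.sqrt τ := by linarith
  have hss : Real.sqrt τ * Real.sqrt τ = τ := Real.mul_self_sqrt hτ0.le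
  have hu0 : 0 < Real.sqrt (κ ^ 2 + τ) := Real.sqrt_pos.2 (by positivity)
  set s := Real.sqrt τ with hsdef
  set c := κ ^ 2 / 2 + κ with hc
  have hc0 : 0 ≤ c := by positivity
  have hu : Real.sqrt (κ ^ 2 + τ) ≤ s + κ ^ 2 / 2 := by
    rw [Real.sqrt_le_left (by positivity)]
    nlinarith [sq_nonneg (κ ^ 2), mul_nonneg (sq_nonneg κ) (sub_nonneg.2 hs)]
  have h3 : a ≤ s + c := by linarith
  have h4 : s - c ≤ a := by
    refine le_trans ?_ h1
    rw [le_div_iff₀ (by positivity)]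
    rcases le_total s c with h | h
    · have : (s - c) * (Real.sqrt (κ ^ 2 + τ) + κ) ≤ 0 :=
        mul_nonpos_of_nonpos_of_nonneg (by linarith) (by positivity)
      linarith
    · have : (s - c) * (Real.sqrt (κ ^ 2 + τ) + κ) ≤ (s - c) * (s + c) :=
        mul_le_mul_of_nonneg_left (by linarith) (by linarith)
      nlinarith [sq_nonneg c]
  rw [show a / s - 1 = (a - s) / s by field_simp, abs_div, abs_of_pos hs0]
  refine div_le_div_of_nonneg_right ?_ hs0.le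
  rw [abs_le]
  constructor <;> linarith

private theorem log_sub_bd {y : ℝ} (hy : |y - 1| ≤ 1 / 2) :
    |Real.log y - (y - 1)| ≤ 2 * |y - 1| ^ 2 := by
  have h1 : |1 - y| < 1 := by rw [abs_sub_comm]; linarith
  have h := Real.abs_log_sub_add_sum_range_le h1 1
  simp only [Finset.sum_range_one, zero_add, pow_one, Nat.cast_zero, div_one] at h
  rw [show 1 - (1 - y) = y by ring, abs_sub_comm 1 y] at h
  have e : Real.log y - (y - 1) = 1 - y + Real.log y := by ring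
  rw [e]
  refine h.trans ?_
  have h2 : 0 < 1 - |y - 1| := by linarith
  rw [div_le_iff₀ h2]
  have h3 : 0 ≤ |y - 1| ^ 2 * (1 / 2 - |y - 1|) :=
    mul_nonneg (sq_nonneg _) (by linarith)
  have h4 : |y - 1| ^ (1 + 1) = |y - 1| ^ 2 := by norm_num
  rw [h4]
  nlinarith [h3]

private theorem ktau_sub_bd {κ τ t : ℝ} (hτ : 0 < τ) (h0 : 0 ≤ t) (ht : t ≤ κ) :
    |2 * (Real.sqrt (t ^ 2 + τ) * (Real.sqrt τ)⁻¹ - 1)| ≤ κ ^ 2 / τ := by
  have hs0 : 0 < Real.sqrt τ := Real.sqrt_pos.2 hτ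
  have hss : Real.sqrt τ * Real.sqrt τ = τ := Real.mul_self_sqrt hτ.le
  have h1 : Real.sqrt τ ≤ Real.sqrt (t ^ 2 + τ) :=
    Real.sqrt_le_sqrt (by nlinarith [sq_nonneg t])
  have h2 : Real.sqrt (t ^ 2 + τ) ≤ Real.sqrt τ + t ^ 2 / (2 * Real.sqrt τ) := by
    rw [Real.sqrt_le_left (by positivity)]
    have e : (Real.sqrt τ + t ^ 2 / (2 * Real.sqrt τ)) ^ 2 =
        τ + t ^ 2 + (t ^ 2 / (2 * Real.sqrt τ)) ^ 2 := by
      have : (Real.sqrt τ + t ^ 2 / (2 * Real.sqrt τ)) ^ 2 = Real.sqrt τ * Real.sqrt τ +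
        2 * Real.sqrt τ * (t ^ 2 / (2 * Real.sqrt τ)) + (t ^ 2 / (2 * Real.sqrt τ)) ^ 2 := by ring
      rw [this, hss]
      congr 2
      field_simp
    rw [e]
    nlinarith [sq_nonneg (t ^ 2 / (2 * Real.sqrt τ))]
  have h3 : Real.sqrt (t ^ 2 + τ) * (Real.sqrt τ)⁻¹ - 1 ≤ κ ^ 2 / (2 * τ) := by
    have h4 : Real.sqrt (t ^ 2 + τ) * (Real.sqrt τ)⁻¹ ≤
        (Real.sqrt τ + t ^ 2 / (2 * Real.sqrt τ)) * (Real.sqrt τ)⁻¹ :=
      mul_le_mul_of_nonneg_right h2 (by positivity)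
    have h5 : (Real.sqrt τ + t ^ 2 / (2 * Real.sqrt τ)) * (Real.sqrt τ)⁻¹ =
        1 + t ^ 2 / (2 * τ) := by
      have h50 : (Real.sqrt τ + t ^ 2 / (2 * Real.sqrt τ)) * (Real.sqrt τ)⁻¹ =
          1 + t ^ 2 / (2 * (Real.sqrt τ * Real.sqrt τ)) := by
        generalize Real.sqrt τ = w at hs0
        field_simp
      rw [h50, hss]
    have h6 : t ^ 2 / (2 * τ) ≤ κ ^ 2 / (2 * τ) :=
      div_le_div_of_nonneg_right (pow_le_pow_left₀ h0 ht 2) (by positivity)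
    linarith
  have h7 : 0 ≤ Real.sqrt (t ^ 2 + τ) * (Real.sqrt τ)⁻¹ - 1 := by
    have : Real.sqrt τ * (Real.sqrt τ)⁻¹ ≤ Real.sqrt (t ^ 2 + τ) * (Real.sqrt τ)⁻¹ :=
      mul_le_mul_of_nonneg_right h1 (by positivity)
    rw [mul_inv_cancel₀ hs0.ne'] at this
    linarith
  rw [abs_of_nonneg (by positivity)]
  have h8 : κ ^ 2 / τ = 2 * (κ ^ 2 / (2 * τ)) := by field_simp
  rw [h8]
  linarith

/-- `log A = (log τ)/2 + (A/√τ - 1) + f(A)` -/
private theorem cfc_f_eq {n : ℕ} {A : Mat n} (hA : A.IsHermitian) (τ : ℝ) :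
    cfc (fun a : ℝ => Real.log a - Real.log τ / 2 - (a / Real.sqrt τ - 1)) A =
      mlog A - ((Real.log τ / 2 : ℝ) : ℂ) • (1 : Mat n) -
        ((((Real.sqrt τ)⁻¹ : ℝ) : ℂ) • A - (1 : Mat n)) := by
  have h1 : (((Real.sqrt τ)⁻¹ : ℝ) : ℂ) • A = cfc (fun t : ℝ => (Real.sqrt τ)⁻¹ * t) A := by
    conv_lhs => rw [← cfc_fun_id hA]
    exact smul_cfc hA _ _
  have h2 : (1 : Mat n) = cfc (fun _ : ℝ => (1 : ℝ)) A := by
    rw [cfc_const_eq hA]
    simp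
  have h3 : ((Real.log τ / 2 : ℝ) : ℂ) • (1 : Mat n) = cfc (fun _ : ℝ => Real.log τ / 2) A := by
    rw [cfc_const_eq hA]
  rw [h3, h1]
  conv_rhs => rw [h2]
  unfold mlog
  rw [cfc_sub_cfc hA, cfc_sub_cfc hA, cfc_sub_cfc hA]
  congr 1
  funext t
  ring

private theorem cfc_g_eq {n : ℕ} {k : Mat n} (hk : k.IsHermitian) (τ : ℝ) :
    cfc (fun t : ℝ => 2 * (Real.sqrt (t ^ 2 + τ) * (Real.sqrt τ)⁻¹ - 1)) k =
      (2 : ℂ) • ((((Real.sqrt τ)⁻¹ : ℝ) : ℂ) • ktau k τ - (1 : Mat n)) := by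
  have h2 : (1 : Mat n) = cfc (fun _ : ℝ => (1 : ℝ)) k := by
    rw [cfc_const_eq hk]
    simp
  have h3 : (2 : ℂ) = ((2 : ℝ) : ℂ) := by norm_num
  unfold ktau
  rw [smul_cfc hk]
  conv_rhs => rw [h2]
  rw [cfc_sub_cfc hk, h3, smul_cfc hk]
  congr 1
  funext t
  ring

private theorem Dtau_split {n : ℕ} {k F : Mat n} (h : KF k F) (τ : ℝ) :
    Dtau k F τ =
      cfc (fun a : ℝ => Real.log a - Real.log τ / 2 - (a / Real.sqrt τ - 1)) (ktau k τ - F) +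
      cfc (fun a : ℝ => Real.log a - Real.log τ / 2 - (a / Real.sqrt τ - 1)) (ktau k τ + F) +
      cfc (fun t : ℝ => 2 * (Real.sqrt (t ^ 2 + τ) * (Real.sqrt τ)⁻¹ - 1)) k := by
  have hA : (ktau k τ - F).IsHermitian := (ktau_herm k τ).sub h.herm
  have hB : (ktau k τ + F).IsHermitian := (ktau_herm k τ).add h.herm
  rw [cfc_f_eq hA, cfc_f_eq hB, cfc_g_eq h.hk.isHermitian]
  unfold Dtau
  have e : ((Real.log τ : ℝ) : ℂ) • (1 : Mat n) =
      ((Real.log τ / 2 : ℝ) : ℂ) • (1 : Mat n) + ((Real.log τ / 2 : ℝ) : ℂ) • (1 : Mat n) := by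
    rw [← add_smul]
    congr 1
    push_cast
    ring
  rw [e, smul_sub, smul_add, smul_sub, two_smul, two_smul]
  abel

/-- PI-5. Uniform bounds for `D_τ`. Small `τ` (`τ ≤ T`): the spectra of `K_τ ± F` lie in
`[τ/((κ²+τ)^(1/2)+κ), (κ²+τ)^(1/2)+κ]` (`A_lower`, `A_upper`), so `|log| ≤ C (1 + |log τ|)` on them.
Large `τ`: `K_τ ∓ F = √τ (1 + X_∓)` with `X_∓ = (K_τ/√τ - 1) ∓ F/√τ`, `hsq X_∓ ≤ C/τ`,
`0 ≤ K_τ/√τ - 1 ≤ k²/(2τ)`; `|log (1+x) - x| ≤ x²` for `|x| ≤ 1/2` gives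
`hsq (log (1+X) - X) ≤ (hsq X)²`, and the terms `∓F/√τ` cancel in the sum. -/
theorem Dtau_bound (n : ℕ) {κ : ℝ} (hκ : 0 ≤ κ) :
    ∃ C T : ℝ, 0 < C ∧ 1 ≤ T ∧ ∀ k F : Mat n, KF k F → ((κ : ℂ) • (1 : Mat n) - k).PosSemidef →
      (∀ τ, 0 < τ → τ ≤ T → hsq (Dtau k F τ) ≤ (C * (1 + |Real.log τ|)) ^ 2) ∧
      (∀ τ, T ≤ τ → hsq (Dtau k F τ) ≤ (C / τ) ^ 2) := by
  set c : ℝ := κ ^ 2 / 2 + κ with hc
  have hc0 : 0 ≤ c := by positivity
  set T : ℝ := 1 + 4 * c ^ 2 with hT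
  have hT1 : 1 ≤ T := by nlinarith [sq_nonneg c]
  set U : ℝ := Real.sqrt (κ ^ 2 + T) + κ with hU
  have hU1 : 1 ≤ U := by
    have : 1 ≤ Real.sqrt (κ ^ 2 + T) := Real.one_le_sqrt.2 (by nlinarith [sq_nonneg κ])
    linarith
  have hlU : 0 ≤ Real.log U := Real.log_nonneg hU1
  have hn : (0 : ℝ) ≤ n := Nat.cast_nonneg n
  set C1 : ℝ := 4 * (n + 1) * (1 + Real.log U) with hC1
  set C2 : ℝ := 6 * (n + 1) * (c ^ 2 + κ ^ 2) with hC2
  have hC1p : 0 < C1 := by positivity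
  have hC2p : 0 ≤ C2 := by positivity
  refine ⟨C1 + C2, T, by positivity, hT1, fun k F h hkκ => ⟨fun τ hτ hτT => ?_, fun τ hτ => ?_⟩⟩
  · have hA : (ktau k τ - F).IsHermitian := (ktau_herm k τ).sub h.herm
    have hB : (ktau k τ + F).IsHermitian := (ktau_herm k τ).add h.herm
    set b : ℝ := |Real.log τ| + Real.log U with hb
    have hb0 : 0 ≤ b := by positivity
    have h1 : hsq (mlog (ktau k τ - F)) ≤ n * b ^ 2 := by
      refine hsq_cfc_le_pi5 hA fun s hs => ?_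
      exact log_bd_small hκ hT1 hτ hτT (le_spec hA (A_lower h hκ hkκ hτ) hs)
        (spec_le hA (A_upper h hκ hkκ hτ) hs)
    have h2 : hsq (mlog (ktau k τ + F)) ≤ n * b ^ 2 := by
      have hL := A_lower h.neg hκ hkκ hτ
      have hR := A_upper h.neg hκ hkκ hτ
      rw [sub_neg_eq_add] at hL hR
      refine hsq_cfc_le_pi5 hB fun s hs => ?_
      exact log_bd_small hκ hT1 hτ hτT (le_spec hB hL hs) (spec_le hB hR hs)
    have h3 : hsq ((Real.log τ : ℂ) • (1 : Mat n)) ≤ n * b ^ 2 := by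
      rw [← cfc_const_eq h.hk.isHermitian]
      refine hsq_cfc_le_pi5 h.hk.isHermitian fun s _ => ?_
      linarith
    have h4 : hsq (Dtau k F τ) ≤ 10 * n * b ^ 2 := by
      unfold Dtau
      have e1 := hsq_sub_le (mlog (ktau k τ - F) + mlog (ktau k τ + F))
        ((Real.log τ : ℂ) • (1 : Mat n))
      have e2 := hsq_add_le (mlog (ktau k τ - F)) (mlog (ktau k τ + F))
      nlinarith
    have h5 : b ≤ (1 + Real.log U) * (1 + |Real.log τ|) := by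
      nlinarith [abs_nonneg (Real.log τ), mul_nonneg hlU (abs_nonneg (Real.log τ))]
    have h6 : 10 * n * b ^ 2 ≤ (4 * (n + 1) * b) ^ 2 := by
      nlinarith [sq_nonneg b, mul_nonneg hn (sq_nonneg b),
        mul_nonneg (mul_nonneg hn hn) (sq_nonneg b)]
    refine (h4.trans h6).trans ?_
    refine pow_le_pow_left₀ (by positivity) ?_ 2
    calc 4 * (n + 1) * b ≤ 4 * (n + 1) * ((1 + Real.log U) * (1 + |Real.log τ|)) :=
          mul_le_mul_of_nonneg_left h5 (by positivity)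
      _ = C1 * (1 + |Real.log τ|) := by rw [hC1]; ring
      _ ≤ (C1 + C2) * (1 + |Real.log τ|) :=
          mul_le_mul_of_nonneg_right (by linarith) (by positivity)
  · have hτ1 : 1 ≤ τ := hT1.trans hτ
    have hτ0 : 0 < τ := by linarith
    have hs0 : 0 < Real.sqrt τ := Real.sqrt_pos.2 hτ0
    have hss : Real.sqrt τ * Real.sqrt τ = τ := Real.mul_self_sqrt hτ0.le
    have hA : (ktau k τ - F).IsHermitian := (ktau_herm k τ).sub h.herm
    have hB : (ktau k τ + F).IsHermitian := (ktau_herm k τ).add h.herm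
    -- the scalar bound
    have hsc : ∀ a : ℝ, τ / (Real.sqrt (κ ^ 2 + τ) + κ) ≤ a → a ≤ Real.sqrt (κ ^ 2 + τ) + κ →
        |Real.log a - Real.log τ / 2 - (a / Real.sqrt τ - 1)| ≤ 2 * c ^ 2 / τ := by
      intro a ha1 ha2
      have hu : 0 < Real.sqrt (κ ^ 2 + τ) + κ := by
        have : 0 < Real.sqrt (κ ^ 2 + τ) := Real.sqrt_pos.2 (by positivity)
        linarith
      have ha0 : 0 < a := lt_of_lt_of_le (by positivity) ha1
      have e1 := sub_one_bd hκ hτ1 ha1 ha2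
      rw [← hc] at e1
      have e2 : c / Real.sqrt τ ≤ 1 / 2 := by
        rw [div_le_iff₀ hs0]
        have : (2 * c) ≤ Real.sqrt τ := by
          apply Real.le_sqrt_of_sq_le
          nlinarith
        linarith
      have e3 := log_sub_bd (e1.trans e2)
      have e4 : Real.log (a / Real.sqrt τ) = Real.log a - Real.log τ / 2 := by
        rw [Real.log_div ha0.ne' hs0.ne', Real.log_sqrt hτ0.le]
      rw [e4] at e3
      refine e3.trans ?_
      have e5 : |a / Real.sqrt τ - 1| ^ 2 ≤ (c / Real.sqrt τ) ^ 2 :=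
        pow_le_pow_left₀ (abs_nonneg _) e1 2
      have e6 : (c / Real.sqrt τ) ^ 2 = c ^ 2 / τ := by
        rw [div_pow, sq (Real.sqrt τ), hss]
      rw [e6] at e5
      calc 2 * |a / Real.sqrt τ - 1| ^ 2 ≤ 2 * (c ^ 2 / τ) := by linarith
        _ = 2 * c ^ 2 / τ := by ring
    have h1 : hsq (cfc (fun a : ℝ => Real.log a - Real.log τ / 2 - (a / Real.sqrt τ - 1))
        (ktau k τ - F)) ≤ n * (2 * c ^ 2 / τ) ^ 2 := by
      refine hsq_cfc_le_pi5 hA fun s hs => ?_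
      exact hsc s (le_spec hA (A_lower h hκ hkκ hτ0) hs) (spec_le hA (A_upper h hκ hkκ hτ0) hs)
    have h2 : hsq (cfc (fun a : ℝ => Real.log a - Real.log τ / 2 - (a / Real.sqrt τ - 1))
        (ktau k τ + F)) ≤ n * (2 * c ^ 2 / τ) ^ 2 := by
      have hL := A_lower h.neg hκ hkκ hτ0
      have hR := A_upper h.neg hκ hkκ hτ0
      rw [sub_neg_eq_add] at hL hR
      refine hsq_cfc_le_pi5 hB fun s hs => ?_
      exact hsc s (le_spec hB hL hs) (spec_le hB hR hs)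
    have h3 : hsq (cfc (fun t : ℝ => 2 * (Real.sqrt (t ^ 2 + τ) * (Real.sqrt τ)⁻¹ - 1)) k) ≤
        n * (κ ^ 2 / τ) ^ 2 := by
      refine hsq_cfc_le_pi5 h.hk.isHermitian fun s hs => ?_
      exact ktau_sub_bd hτ0 (spec_nonneg h.hk hs) (spec_le h.hk.isHermitian hkκ hs)
    rw [Dtau_split h τ]
    refine (hsq_add_le _ _).trans ?_
    have h4 := hsq_add_le
      (cfc (fun a : ℝ => Real.log a - Real.log τ / 2 - (a / Real.sqrt τ - 1)) (ktau k τ - F))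
      (cfc (fun a : ℝ => Real.log a - Real.log τ / 2 - (a / Real.sqrt τ - 1)) (ktau k τ + F))
    have h5 : 2 * (2 * (n * (2 * c ^ 2 / τ) ^ 2 + n * (2 * c ^ 2 / τ) ^ 2) +
        n * (κ ^ 2 / τ) ^ 2) = n * (32 * c ^ 4 + 2 * κ ^ 4) / τ ^ 2 := by
      field_simp
      ring
    have h6 : n * (32 * c ^ 4 + 2 * κ ^ 4) / τ ^ 2 ≤ ((C1 + C2) / τ) ^ 2 := by
      rw [div_pow]
      refine div_le_div_of_nonneg_right ?_ (by positivity)
      have h7 : n * (32 * c ^ 4 + 2 * κ ^ 4) ≤ C2 ^ 2 := by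
        rw [hC2]
        have e1 : (0 : ℝ) ≤ n * c ^ 4 := by positivity
        have e2 : (0 : ℝ) ≤ n * κ ^ 4 := by positivity
        have e3 : (6 * (n + 1) * (c ^ 2 + κ ^ 2)) ^ 2 = 36 * (n ^ 2 + 1) * (c ^ 2 + κ ^ 2) ^ 2 +
            72 * (n * c ^ 4) + 144 * (n * (c ^ 2 * κ ^ 2)) + 72 * (n * κ ^ 4) := by ring
        have e4 : (0 : ℝ) ≤ 36 * (n ^ 2 + 1) * (c ^ 2 + κ ^ 2) ^ 2 := by positivity
        have e5 : (0 : ℝ) ≤ n * (c ^ 2 * κ ^ 2) := by positivity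
        rw [e3]
        linarith
      refine h7.trans ?_
      exact pow_le_pow_left₀ hC2p (by linarith) 2
    linarith

end SLT
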