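import Crest.Agent.SLT.PIDefs
import Crest.Agent.SLT.PIDtau
import Crest.Agent.SLT.PILog
import Crest.Agent.SLT.StabHS

/-! Row 332, (PI)/(K), chunk PI-8: integrability and continuity of `τ ↦ tr (Z D_τ)`. -/

set_option autoImplicit false

open MeasureTheory Set Filter Topology
open scoped ComplexOrder Matrix

namespace SLT

/-- PI-8a. Joint continuity of `D_τ(k,F)` in `(τ,F)` on `τ > 0`, `-k ≤ F ≤ k`. -/
theorem Dtau_continuousOn {n : ℕ} {k : Mat n} (hk : k.PosSemidef) :
    ContinuousOn (fun p : ℝ × Mat n => Dtau k p.2 p.1) (Ioi 0 ×ˢ {F | KF k F}) := by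
  have hK : Continuous (fun p : ℝ × Mat n => ktau k p.1) := by
    have e : (fun p : ℝ × Mat n => ktau k p.1) = fun p : ℝ × Mat n =>
        (hk.isHermitian.eigenvectorUnitary : Mat n) *
          Matrix.diagonal (fun i =>
            ((Real.sqrt (hk.isHermitian.eigenvalues i ^ 2 + p.1) : ℝ) : ℂ)) *
            (hk.isHermitian.eigenvectorUnitary : Mat n)ᴴ := by
      funext p
      exact cfc_spec hk.isHermitian _
    rw [e]
    refine (Continuous.matrix_mul continuous_const ?_).matrix_mul continuous_const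
    refine Continuous.matrix_diagonal ?_
    refine continuous_pi fun i => ?_
    exact Complex.continuous_ofReal.comp
      (Real.continuous_sqrt.comp (continuous_const.add continuous_fst))
  have h1 : ContinuousOn (fun p : ℝ × Mat n => mlog (ktau k p.1 - p.2))
      (Ioi 0 ×ˢ {F | KF k F}) := by
    refine (mlog_continuousOn n).comp (hK.sub continuous_snd).continuousOn ?_
    rintro ⟨τ, F⟩ ⟨h0, h⟩
    exact A_posDef h h0
  have h2 : ContinuousOn (fun p : ℝ × Mat n => mlog (ktau k p.1 + p.2))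
      (Ioi 0 ×ˢ {F | KF k F}) := by
    refine (mlog_continuousOn n).comp (hK.add continuous_snd).continuousOn ?_
    rintro ⟨τ, F⟩ ⟨h0, h⟩
    exact B_posDef h h0
  have h3 : ContinuousOn (fun p : ℝ × Mat n => (Real.log p.1 : ℂ) • (1 : Mat n))
      (Ioi 0 ×ˢ {F | KF k F}) := by
    have h3' : ContinuousOn (fun p : ℝ × Mat n => ((Real.log p.1 : ℝ) : ℂ))
        (Ioi 0 ×ˢ {F | KF k F}) := by
      refine Complex.continuous_ofReal.comp_continuousOn ?_
      refine ContinuousOn.log continuous_fst.continuousOn ?_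
      rintro ⟨τ, F⟩ ⟨h0, h⟩
      exact ne_of_gt h0
    exact h3'.smul continuousOn_const
  exact (h1.add h2).sub h3

private theorem rtr_mul_le_of_hsq {n : ℕ} (Z D : Mat n) {b : ℝ} (hb : 0 ≤ b)
    (h : hsq D ≤ b ^ 2) : |rtr (Z * D)| ≤ Real.sqrt (hsq Z) * b := by
  have h1 := rtr_mul_abs_le Zᴴ D
  rw [Matrix.conjTranspose_conjTranspose, hsq_conjTranspose] at h1
  refine h1.trans ?_
  refine mul_le_mul_of_nonneg_left ?_ (Real.sqrt_nonneg _)
  rw [Real.sqrt_le_left hb]
  exact h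

private theorem abs_log_le {q τ T : ℝ} (hq : 0 < q) (hτ : 0 < τ) (hT : τ ≤ T) (_ : 1 ≤ T) :
    |Real.log τ| ≤ T + 2 / q * τ ^ (-(q / 2)) := by
  rcases le_total τ 1 with h | h
  · have h2 := (Real.abs_log_mul_self_rpow_lt τ (q / 2) hτ h (by positivity)).le
    have h3 : |Real.log τ * τ ^ (q / 2)| = |Real.log τ| * τ ^ (q / 2) := by
      rw [abs_mul, abs_of_pos (Real.rpow_pos_of_pos hτ _)]
    rw [h3] at h2
    have h4 : 0 < τ ^ (q / 2) := Real.rpow_pos_of_pos hτ _
    have h5 : |Real.log τ| ≤ 1 / (q / 2) / τ ^ (q / 2) := by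
      rw [le_div_iff₀ h4]; exact h2
    have h6 : 1 / (q / 2) / τ ^ (q / 2) = 2 / q * τ ^ (-(q / 2)) := by
      rw [Real.rpow_neg hτ.le]
      field_simp
    rw [h6] at h5
    linarith
  · have h2 : |Real.log τ| ≤ T := by
      rw [abs_of_nonneg (Real.log_nonneg h)]
      exact (Real.log_le_self hτ.le).trans hT
    have h3 : 0 ≤ 2 / q * τ ^ (-(q / 2)) := by positivity
    linarith

/-- PI-8b. Dominating function: `τ^(q-1) |tr (Z D_τ)|` is bounded by `√(hsq Z)` times an integrable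
function which depends only on `n`, `κ`, `q` (from `Dtau_bound`, Cauchy–Schwarz). -/
theorem Dtau_dominated (n : ℕ) {q κ : ℝ} (hq : 0 < q) (hq' : q < 1) (hκ : 0 ≤ κ) :
    ∃ g : ℝ → ℝ, IntegrableOn g (Ioi 0) ∧ (∀ τ, 0 ≤ g τ) ∧
      ∀ k F Z : Mat n, KF k F → ((κ : ℂ) • (1 : Mat n) - k).PosSemidef → ∀ τ, 0 < τ →
        |τ ^ (q - 1) * rtr (Z * Dtau k F τ)| ≤ Real.sqrt (hsq Z) * g τ := by
  obtain ⟨C, T, hC, hT, hb⟩ := Dtau_bound n hκ
  have hT0 : 0 < T := by linarith
  set g1 : ℝ → ℝ := fun τ => C * ((1 + T) * τ ^ (q - 1) + 2 / q * τ ^ (q / 2 - 1)) with hg1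
  set g2 : ℝ → ℝ := fun τ => C * τ ^ (q - 2) with hg2
  refine ⟨fun τ => |(Ioc 0 T).indicator g1 τ| + |(Ioi T).indicator g2 τ|, ?_, ?_, ?_⟩
  · have i1 : IntegrableOn g1 (Ioc 0 T) := by
      have a1 : IntegrableOn (fun τ : ℝ => τ ^ (q - 1)) (Ioc 0 T) := by
        have := intervalIntegral.intervalIntegrable_rpow' (a := 0) (b := T)
          (show -1 < q - 1 by linarith)
        rwa [intervalIntegrable_iff_integrableOn_Ioc_of_le hT0.le] at this
      have a2 : IntegrableOn (fun τ : ℝ => τ ^ (q / 2 - 1)) (Ioc 0 T) := by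
        have := intervalIntegral.intervalIntegrable_rpow' (a := 0) (b := T)
          (show -1 < q / 2 - 1 by linarith)
        rwa [intervalIntegrable_iff_integrableOn_Ioc_of_le hT0.le] at this
      exact ((a1.const_mul _).add (a2.const_mul _)).const_mul _
    have i2 : IntegrableOn g2 (Ioi T) :=
      (integrableOn_Ioi_rpow_of_lt (by linarith) hT0).const_mul _
    have j1 : Integrable ((Ioc 0 T).indicator g1) :=
      (integrable_indicator_iff measurableSet_Ioc).2 i1
    have j2 : Integrable ((Ioi T).indicator g2) :=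
      (integrable_indicator_iff measurableSet_Ioi).2 i2
    exact (j1.abs.add j2.abs).integrableOn
  · intro τ
    positivity
  · intro k F Z hKF hk τ hτ
    obtain ⟨b1, b2⟩ := hb k F hKF hk
    rw [abs_mul, abs_of_pos (Real.rpow_pos_of_pos hτ _)]
    have hpos : 0 < τ ^ (q - 1) := Real.rpow_pos_of_pos hτ _
    rcases le_or_gt τ T with h | h
    · have h1 := rtr_mul_le_of_hsq Z (Dtau k F τ) (b := C * (1 + |Real.log τ|)) (by positivity)
        (b1 τ hτ h)
      have h2 := abs_log_le hq hτ h hT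
      have e1 : (Ioc 0 T).indicator g1 τ = g1 τ :=
        indicator_of_mem (show τ ∈ Ioc 0 T from ⟨hτ, h⟩) _
      have e2 : (Ioi T).indicator g2 τ = 0 := indicator_of_notMem (by simpa using h) _
      have e3 : τ ^ (q - 1) * τ ^ (-(q / 2)) = τ ^ (q / 2 - 1) := by
        rw [← Real.rpow_add hτ]; congr 1; ring
      simp only [e1, e2, abs_zero, add_zero]
      have hg : τ ^ (q - 1) * (C * (1 + |Real.log τ|)) ≤ g1 τ := by
        have : g1 τ = τ ^ (q - 1) * (C * (1 + (T + 2 / q * τ ^ (-(q / 2))))) := by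
          rw [hg1]
          simp only
          rw [← e3]; ring
        rw [this]
        gcongr
      calc τ ^ (q - 1) * |rtr (Z * Dtau k F τ)|
          ≤ τ ^ (q - 1) * (Real.sqrt (hsq Z) * (C * (1 + |Real.log τ|))) := by gcongr
        _ = Real.sqrt (hsq Z) * (τ ^ (q - 1) * (C * (1 + |Real.log τ|))) := by ring
        _ ≤ Real.sqrt (hsq Z) * |g1 τ| :=
            mul_le_mul_of_nonneg_left (hg.trans (le_abs_self _)) (Real.sqrt_nonneg _)
    · have h1 := rtr_mul_le_of_hsq Z (Dtau k F τ) (b := C / τ) (by positivity)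
        (b2 τ h.le)
      have e1 : (Ioc 0 T).indicator g1 τ = 0 :=
        indicator_of_notMem (by simp only [mem_Ioc, not_and, not_le]; exact fun _ => h) _
      have e2 : (Ioi T).indicator g2 τ = g2 τ := indicator_of_mem h _
      simp only [e1, e2, abs_zero, zero_add]
      have hg : τ ^ (q - 1) * (C / τ) = g2 τ := by
        rw [hg2]
        simp only
        have : τ ^ (q - 2) = τ ^ (q - 1) / τ := by
          rw [show q - 2 = (q - 1) - 1 by ring, Real.rpow_sub_one hτ.ne']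
        rw [this]; ring
      calc τ ^ (q - 1) * |rtr (Z * Dtau k F τ)|
          ≤ τ ^ (q - 1) * (Real.sqrt (hsq Z) * (C / τ)) := by gcongr
        _ = Real.sqrt (hsq Z) * (τ ^ (q - 1) * (C / τ)) := by ring
        _ ≤ Real.sqrt (hsq Z) * |g2 τ| := by
            rw [hg]
            exact mul_le_mul_of_nonneg_left (le_abs_self _) (Real.sqrt_nonneg _)

private theorem rtr_continuous {n : ℕ} : Continuous (rtr : Mat n → ℝ) :=
  Complex.continuous_re.comp (continuous_id.matrix_trace)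

private theorem Dtau_cont_tau {n : ℕ} {k F : Mat n} (h : KF k F) :
    ContinuousOn (fun τ : ℝ => Dtau k F τ) (Ioi 0) := by
  have h2 : Continuous (fun τ : ℝ => ((τ, F) : ℝ × Mat n)) := Continuous.prodMk_left F
  have h3 : MapsTo (fun τ : ℝ => ((τ, F) : ℝ × Mat n)) (Ioi 0) (Ioi 0 ×ˢ {F | KF k F}) :=
    fun τ hτ => Set.mem_prod.2 ⟨hτ, h⟩
  exact ContinuousOn.comp (g := fun p : ℝ × Mat n => Dtau k p.2 p.1)
    (f := fun τ : ℝ => ((τ, F) : ℝ × Mat n)) (Dtau_continuousOn h.hk) h2.continuousOn h3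

/-- PI-8c. -/
theorem Dtau_integrable {n : ℕ} {q : ℝ} (hq : 0 < q) (hq' : q < 1) {k F : Mat n} (h : KF k F)
    (Z : Mat n) : IntegrableOn (fun τ : ℝ => τ ^ (q - 1) * rtr (Z * Dtau k F τ)) (Ioi 0) := by
  obtain ⟨κ, hκ, hκk⟩ := exists_upper h.hk
  obtain ⟨g, hg, hg0, hb⟩ := Dtau_dominated n hq hq' hκ
  refine Integrable.mono' (hg.const_mul (Real.sqrt (hsq Z))) ?_ ?_
  · refine ContinuousOn.aestronglyMeasurable ?_ measurableSet_Ioi
    refine ContinuousOn.mul ?_ ?_
    · exact continuousOn_id.rpow_const fun x hx => Or.inl (ne_of_gt hx)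
    · exact rtr_continuous.comp_continuousOn
        ((Continuous.matrix_mul continuous_const continuous_id).comp_continuousOn
          (Dtau_cont_tau h))
  · filter_upwards [ae_restrict_mem measurableSet_Ioi] with τ hτ
    rw [Real.norm_eq_abs]
    exact hb k F Z h hκk τ hτ

/-- PI-8d. `τ^q tr (Z D_τ) → 0` at `0+` and at `∞`. -/
theorem Dtau_tendsto_zero {n : ℕ} {q : ℝ} (hq : 0 < q) (hq' : q < 1) {k F : Mat n} (h : KF k F)
    (Z : Mat n) :
    Tendsto (fun τ : ℝ => τ ^ q * rtr (Z * Dtau k F τ)) (𝓝[>] 0) (𝓝 0) ∧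
      Tendsto (fun τ : ℝ => τ ^ q * rtr (Z * Dtau k F τ)) atTop (𝓝 0) := by
  obtain ⟨κ, hκ, hκk⟩ := exists_upper h.hk
  obtain ⟨C, T, hC, hT, hb⟩ := Dtau_bound n hκ
  obtain ⟨b1, b2⟩ := hb k F h hκk
  have hT0 : 0 < T := by linarith
  constructor
  · have l1 : Tendsto (fun τ : ℝ => τ ^ q) (𝓝[>] 0) (𝓝 0) := by
      have : ContinuousAt (fun τ : ℝ => τ ^ q) 0 :=
        Real.continuousAt_rpow_const _ _ (Or.inr hq.le)
      have h0 := this.tendsto
      rw [Real.zero_rpow hq.ne'] at h0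
      exact h0.mono_left nhdsWithin_le_nhds
    have l2 : Tendsto (fun τ : ℝ => |Real.log τ * τ ^ q|) (𝓝[>] 0) (𝓝 0) := by
      have := (tendsto_log_mul_rpow_nhdsGT_zero hq).abs
      rwa [abs_zero] at this
    have l3 : Tendsto (fun τ : ℝ => Real.sqrt (hsq Z) * C * (τ ^ q + |Real.log τ * τ ^ q|))
        (𝓝[>] 0) (𝓝 0) := by
      have := (l1.add l2).const_mul (Real.sqrt (hsq Z) * C)
      rwa [add_zero, mul_zero] at this
    refine squeeze_zero_norm' ?_ l3
    have hT' : ∀ᶠ τ : ℝ in 𝓝[>] 0, τ < T := by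
      exact nhdsWithin_le_nhds (Iio_mem_nhds hT0)
    filter_upwards [self_mem_nhdsWithin, hT'] with τ (hτ : 0 < τ) hτT
    have hp : 0 < τ ^ q := Real.rpow_pos_of_pos hτ _
    have h1 := rtr_mul_le_of_hsq Z (Dtau k F τ) (b := C * (1 + |Real.log τ|)) (by positivity)
      (b1 τ hτ hτT.le)
    rw [Real.norm_eq_abs, abs_mul, abs_of_pos hp, abs_mul, abs_of_pos hp]
    calc τ ^ q * |rtr (Z * Dtau k F τ)|
        ≤ τ ^ q * (Real.sqrt (hsq Z) * (C * (1 + |Real.log τ|))) := by gcongr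
      _ = _ := by ring
  · have l1 : Tendsto (fun τ : ℝ => Real.sqrt (hsq Z) * C * τ ^ (-(1 - q))) atTop (𝓝 0) := by
      have := (tendsto_rpow_neg_atTop (show 0 < 1 - q by linarith)).const_mul
        (Real.sqrt (hsq Z) * C)
      rwa [mul_zero] at this
    refine squeeze_zero_norm' ?_ l1
    filter_upwards [eventually_ge_atTop T] with τ hτT
    have hτ : 0 < τ := by linarith
    have hp : 0 < τ ^ q := Real.rpow_pos_of_pos hτ _
    have h1 := rtr_mul_le_of_hsq Z (Dtau k F τ) (b := C / τ) (by positivity)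
      (b2 τ hτT)
    rw [Real.norm_eq_abs, abs_mul, abs_of_pos hp]
    have e : τ ^ (-(1 - q)) = τ ^ q / τ := by
      rw [show -(1 - q) = q - 1 by ring, Real.rpow_sub_one hτ.ne']
    calc τ ^ q * |rtr (Z * Dtau k F τ)|
        ≤ τ ^ q * (Real.sqrt (hsq Z) * (C / τ)) := by gcongr
      _ = _ := by rw [e]; ring

end SLT
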