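import Crest.Agent.SLT.PIDefs
import Crest.Agent.SLT.PIInt
import Crest.Agent.SLT.PIGent
import Crest.Agent.SLT.PIScalar
import Crest.Agent.SLT.ExPos

/-! Row 332, (K), chunk K-1: the fixed-tau identity. -/

set_option autoImplicit false

open MeasureTheory Set Filter Topology
open scoped ComplexOrder Matrix

namespace SLT

private theorem RPath.kf1 {n : ℕ} {k : Mat n} {V F : ℝ → Mat n} {a b : ℝ} (h : RPath k V F a b)
    (x : ℝ) : KF k (F x) := ⟨h.hk, h.le x, h.ge x⟩

/-- `ktau k τ + k = g(k)`. -/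
private theorem ktau_add {n : ℕ} {k : Mat n} (hk : k.IsHermitian) (τ : ℝ) :
    ktau k τ + k = cfc (fun t : ℝ => Real.sqrt (t ^ 2 + τ) + t) k := by
  unfold ktau
  rw [← cfc_add_cfc hk, cfc_id_fun hk]

private theorem ktau_sub {n : ℕ} {k : Mat n} (hk : k.IsHermitian) (τ : ℝ) :
    ktau k τ - k = cfc (fun t : ℝ => Real.sqrt (t ^ 2 + τ) - t) k := by
  unfold ktau
  rw [← cfc_sub_cfc hk, cfc_id_fun hk]

/-- composition of functional calculi without continuity -/
private theorem cfc_comp_k {n : ℕ} {k : Mat n} (hk : k.IsHermitian) (f g : ℝ → ℝ) :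
    cfc f (cfc g k) = cfc (fun t => f (g t)) k := by
  have hf : ContinuousOn f (g '' spectrum ℝ k) :=
    (Matrix.finite_real_spectrum.image g).continuousOn _
  have hg : ContinuousOn g (spectrum ℝ k) := Matrix.finite_real_spectrum.continuousOn _
  exact (cfc_comp' f g k hf hg hk).symm

/-- K-1. For fixed `τ > 0`: `d/dx { tr G(K_τ - F) - tr G(K_τ + F) + log τ tr F } = - tr (F' D_τ)`,
integrated over `[a,b]` with `F(a) = k`, `F(b) = -k` and `-F' = V - R`. -/
theorem K_tau {n : ℕ} {k : Mat n} {V F : ℝ → Mat n} {a b : ℝ} (hab : a ≤ b)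
    (h : RPath k V F a b) (hV : Continuous V) {τ : ℝ} (hτ : 0 < τ) :
    ∫ x in a..b, rtr ((V x - (k * k - F x * F x)) * Dtau k (F x) τ) =
      rtr (cfc (fun t : ℝ => 2 * (Gent (Real.sqrt (t ^ 2 + τ) + t) -
        Gent (Real.sqrt (t ^ 2 + τ) - t) - t * Real.log τ)) k) := by
  have hk := h.hk
  have hkh : k.IsHermitian := hk.isHermitian
  have hFc : Continuous F := h.continuous
  have hcr : Continuous (rtr : Mat n → ℝ) :=
    Complex.continuous_re.comp (continuous_id.matrix_trace)
  have hDc : Continuous fun x => Dtau k (F x) τ := by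
    have h1 := Dtau_continuousOn hk
    have h2 : Continuous fun x => ((τ, F x) : ℝ × Mat n) := continuous_const.prodMk hFc
    exact h1.comp_continuous h2 (fun x => ⟨hτ, h.kf1 x⟩)
  have hint : Continuous fun x => rtr ((V x - (k * k - F x * F x)) * Dtau k (F x) τ) :=
    hcr.comp (by fun_prop)
  set Φ : ℝ → ℝ := fun x => rtr (cfc Gent (ktau k τ - F x)) - rtr (cfc Gent (ktau k τ + F x)) +
    Real.log τ * rtr (F x) with hΦ
  have hder : ∀ x, HasDerivAt Φ (rtr ((V x - (k * k - F x * F x)) * Dtau k (F x) τ)) x := by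
    intro x
    have hd := h.deriv x
    have h1 : HasDerivAt (fun x => ktau k τ - F x) (-(k * k - F x * F x - V x)) x := by
      refine hasDerivAt_mat.2 fun i j => ?_
      exact (hasDerivAt_mat.1 hd i j).const_sub _
    have h2 : HasDerivAt (fun x => ktau k τ + F x) (k * k - F x * F x - V x) x := by
      refine hasDerivAt_mat.2 fun i j => ?_
      exact (hasDerivAt_mat.1 hd i j).const_add _
    have g1 := Gent_hasDerivAt _ _ x (Eventually.of_forall fun y => A_posDef (h.kf1 y) hτ) h1
    have g2 := Gent_hasDerivAt _ _ x (Eventually.of_forall fun y => B_posDef (h.kf1 y) hτ) h2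
    have g3 := (hasDerivAt_rtr hd).const_mul (Real.log τ)
    refine ((g1.sub g2).add g3).congr_deriv ?_
    unfold Dtau
    have e : V x - (k * k - F x * F x) = -(k * k - F x * F x - V x) := by abel
    rw [e]
    generalize k * k - F x * F x - V x = Z
    simp only [Matrix.mul_sub, Matrix.mul_add, rtr_sub, rtr_add, Matrix.mul_smul, Matrix.mul_one,
      rtr_smul, Matrix.neg_mul, rtr_neg, smul_neg]
    ring
  rw [intervalIntegral.integral_eq_sub_of_hasDerivAt (fun x _ => hder x)
    (hint.intervalIntegrable a b)]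
  simp only [hΦ]
  rw [h.left a le_rfl, h.right b le_rfl, sub_neg_eq_add, ← sub_eq_add_neg, rtr_neg,
    ktau_add hkh, ktau_sub hkh, cfc_comp_k hkh, cfc_comp_k hkh]
  rw [rtr_cfc hkh, rtr_cfc hkh, rtr_cfc hkh]
  have hk2 : rtr k = ∑ i, hkh.eigenvalues i := by
    have := rtr_cfc hkh (fun t => t)
    rwa [cfc_id_fun hkh] at this
  rw [hk2, mul_neg, Finset.mul_sum, ← sub_eq_zero]
  simp only [← Finset.sum_sub_distrib, ← Finset.sum_neg_distrib, ← Finset.sum_add_distrib]
  apply Finset.sum_eq_zero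
  intro i _
  ring

end SLT
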