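import Crest.Agent.SLT.PIDefs
import Crest.Agent.SLT.PIInt
import Crest.Agent.SLT.PIGent
import Crest.Agent.SLT.PIScalar
import Crest.Agent.SLT.ExPos

/-! Row 332, (K), chunk K-2: Fubini. -/

set_option autoImplicit false

open MeasureTheory Set Filter Topology
open scoped ComplexOrder Matrix

namespace SLT

theorem k2_exists_upper {n : ℕ} {k : Mat n} (hk : k.PosSemidef) :
    ∃ κ : ℝ, 0 ≤ κ ∧ ((κ : ℂ) • (1 : Mat n) - k).PosSemidef := by
  classical
  have hH := hk.isHermitian
  set U : Mat n := (hH.eigenvectorUnitary : Mat n) with hU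
  have hUU' : U * star U = 1 := by
    rw [hU]; exact Unitary.coe_mul_star_self _
  have hspec : k = U * Matrix.diagonal (RCLike.ofReal ∘ hH.eigenvalues) * star U := by
    have := hH.spectral_theorem
    rw [Unitary.conjStarAlgAut_apply] at this
    exact this
  have hnn : ∀ i, 0 ≤ hH.eigenvalues i := hk.eigenvalues_nonneg
  set κ : ℝ := ∑ i, hH.eigenvalues i with hκ
  refine ⟨κ, Finset.sum_nonneg fun i _ => hnn i, ?_⟩
  have h1 : (κ : ℂ) • (1 : Mat n) - k =
      U * Matrix.diagonal (fun i => ((κ - hH.eigenvalues i : ℝ) : ℂ)) * star U := by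
    have h2 : (Matrix.diagonal (fun i => ((κ - hH.eigenvalues i : ℝ) : ℂ)) : Mat n) =
        (κ : ℂ) • (1 : Mat n) - Matrix.diagonal (RCLike.ofReal ∘ hH.eigenvalues) := by
      rw [← Matrix.diagonal_one, ← Matrix.diagonal_smul, Matrix.diagonal_sub]
      congr 1
      funext i
      simp
    rw [h2, Matrix.mul_sub, Matrix.sub_mul, ← hspec, Matrix.mul_smul, Matrix.smul_mul,
      Matrix.mul_one, hUU']
  rw [h1, Matrix.star_eq_conjTranspose]
  refine Matrix.PosSemidef.mul_mul_conjTranspose_same ?_ U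
  rw [Matrix.posSemidef_diagonal_iff]
  intro i
  have : hH.eigenvalues i ≤ κ :=
    Finset.single_le_sum (f := fun i => hH.eigenvalues i) (fun j _ => hnn j) (Finset.mem_univ i)
  exact_mod_cast sub_nonneg.2 this

theorem k2_continuous_hsq {n m : ℕ} : Continuous (hsq : RMat n m → ℝ) := by
  unfold hsq
  refine continuous_finsetSum _ fun i _ => continuous_finsetSum _ fun j _ => ?_
  exact ((continuous_apply_apply i j).norm).pow 2

/-- K-2. Fubini and continuity of `x ↦ tr (Z(x) P̂(F(x)))` for continuous `Z`, `F` with `-k ≤ F ≤ k`. -/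
theorem pihat_fubini {n : ℕ} {q : ℝ} (hq : 0 < q) (hq' : q < 1) {k : Mat n} (hk : k.PosSemidef)
    {F Z : ℝ → Mat n} (hF : Continuous F) (hZ : Continuous Z) (hKF : ∀ x, KF k (F x))
    {a b : ℝ} (hab : a ≤ b) :
    Continuous (fun x => pihat q k (F x) (Z x)) ∧
    ∫ x in a..b, pihat q k (F x) (Z x) =
      cq q * ∫ τ in Ioi (0 : ℝ), τ ^ (q - 1) * ∫ x in a..b, rtr (Z x * Dtau k (F x) τ) := by
  obtain ⟨κ, hκ, hκk⟩ := k2_exists_upper hk
  obtain ⟨g, hg, hg0, hdom⟩ := Dtau_dominated n hq hq' hκ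
  have hhsq : Continuous (fun x => Real.sqrt (hsq (Z x))) :=
    (k2_continuous_hsq.comp hZ).sqrt
  set f : ℝ → ℝ → ℝ := fun x τ => τ ^ (q - 1) * rtr (Z x * Dtau k (F x) τ) with hf
  have hbd : ∀ x τ, 0 < τ → ‖f x τ‖ ≤ Real.sqrt (hsq (Z x)) * g τ := fun x τ hτ => by
    rw [Real.norm_eq_abs]
    exact hdom k (F x) (Z x) (hKF x) hκk τ hτ
  -- joint continuity
  have hjoint : ContinuousOn (fun p : ℝ × ℝ => f p.1 p.2) (univ ×ˢ Ioi 0) := by
    have h1 : ContinuousOn (fun p : ℝ × ℝ => Dtau k (F p.1) p.2) (univ ×ˢ Ioi 0) := by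
      refine (Dtau_continuousOn hk).comp (f := fun p : ℝ × ℝ => ((p.2, F p.1) : ℝ × Mat n))
        (Continuous.continuousOn (by fun_prop)) ?_
      rintro ⟨x, τ⟩ hp
      exact ⟨hp.2, hKF x⟩
    have h2 : ContinuousOn (fun p : ℝ × ℝ => Z p.1 * Dtau k (F p.1) p.2) (univ ×ˢ Ioi 0) :=
      (hZ.comp continuous_fst).continuousOn.mul h1
    have h3 : ContinuousOn (fun p : ℝ × ℝ => rtr (Z p.1 * Dtau k (F p.1) p.2)) (univ ×ˢ Ioi 0) :=
      continuous_rtr_P.comp_continuousOn h2
    have h4 : ContinuousOn (fun p : ℝ × ℝ => p.2 ^ (q - 1)) (univ ×ˢ Ioi 0) := by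
      intro p hp
      have hp2 : p.2 ≠ 0 := ne_of_gt hp.2
      exact (continuousAt_snd.rpow_const (Or.inl hp2)).continuousWithinAt
    exact h4.mul h3
  have hmeas : ∀ x, AEStronglyMeasurable (f x) (volume.restrict (Ioi 0)) := fun x =>
    (Dtau_integrable hq hq' (hKF x) (Z x)).aestronglyMeasurable
  have hpi : ∀ x, pihat q k (F x) (Z x) = cq q * ∫ τ in Ioi (0 : ℝ), f x τ := fun x => rfl
  constructor
  · simp only [hpi]
    refine Continuous.mul continuous_const ?_
    refine continuous_iff_continuousAt.2 fun x₀ => ?_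
    obtain ⟨C, hC⟩ : ∃ C, ∀ᶠ x in 𝓝 x₀, Real.sqrt (hsq (Z x)) ≤ C := by
      refine ⟨Real.sqrt (hsq (Z x₀)) + 1, ?_⟩
      filter_upwards [(hhsq.tendsto x₀).eventually (gt_mem_nhds (lt_add_one _))] with x hx
      exact hx.le
    refine continuousAt_of_dominated (bound := fun τ => C * g τ) ?_ ?_ ?_ ?_
    · exact Eventually.of_forall hmeas
    · filter_upwards [hC] with x hx
      refine (ae_restrict_iff' measurableSet_Ioi).2 (Eventually.of_forall fun τ hτ => ?_)
      exact (hbd x τ hτ).trans (mul_le_mul_of_nonneg_right hx (hg0 τ))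
    · exact hg.const_mul C
    · refine (ae_restrict_iff' measurableSet_Ioi).2 (Eventually.of_forall fun τ hτ => ?_)
      have : Continuous (fun x => f x τ) := by
        have := hjoint.comp_continuous (f := fun x : ℝ => (x, τ)) (by fun_prop)
          (fun x => ⟨mem_univ _, hτ⟩)
        exact this
      exact this.continuousAt
  · simp only [hpi]
    rw [intervalIntegral.integral_const_mul]
    congr 1
    obtain ⟨C, hC⟩ : ∃ C, ∀ x ∈ Icc a b, Real.sqrt (hsq (Z x)) ≤ C := by
      obtain ⟨C, hC⟩ := (isCompact_Icc (a := a) (b := b)).bddAbove_image hhsq.continuousOn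
      exact ⟨C, fun x hx => hC ⟨x, hx, rfl⟩⟩
    have hint : Integrable (Function.uncurry f)
        ((volume.restrict (Ioc a b)).prod (volume.restrict (Ioi (0 : ℝ)))) := by
      refine Integrable.mono' (g := fun p : ℝ × ℝ => C * g p.2) ?_ ?_ ?_
      · exact (integrable_const C).mul_prod hg
      · rw [Measure.prod_restrict]
        refine ContinuousOn.aestronglyMeasurable ?_ (measurableSet_Ioc.prod measurableSet_Ioi)
        exact hjoint.mono (prod_mono (subset_univ _) Subset.rfl)
      · rw [Measure.prod_restrict]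
        refine (ae_restrict_iff' (measurableSet_Ioc.prod measurableSet_Ioi)).2
          (Eventually.of_forall ?_)
        rintro ⟨x, τ⟩ ⟨hx, hτ⟩
        exact (hbd x τ hτ).trans
          (mul_le_mul_of_nonneg_right (hC x (Ioc_subset_Icc_self hx)) (hg0 τ))
    rw [intervalIntegral.integral_of_le hab]
    rw [integral_integral_swap hint]
    refine setIntegral_congr_fun measurableSet_Ioi fun τ hτ => ?_
    simp only [hf]
    rw [intervalIntegral.integral_of_le hab, integral_const_mul]

end SLT
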