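import Crest.Agent.SLT.PIDefs
import Crest.Agent.SLT.PIInt
import Crest.Agent.SLT.PIGent
import Crest.Agent.SLT.PIScalar
import Crest.Agent.SLT.ExPos
import Crest.Agent.SLT.K1
import Crest.Agent.SLT.K2

/-! Row 332, (K), chunk K-3, K-4: the calibration identity. -/

set_option autoImplicit false

open MeasureTheory Set Filter Topology
open scoped ComplexOrder Matrix

namespace SLT

theorem RPath.kf {n : ℕ} {k : Mat n} {V F : ℝ → Mat n} {a b : ℝ} (h : RPath k V F a b) (x : ℝ) :
    KF k (F x) := ⟨h.hk, h.le x, h.ge x⟩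

/-- K-3. The calibration identity. -/
theorem K_identity {n : ℕ} {q : ℝ} (hq : 0 < q) (hq' : q < 1) {k : Mat n} {V F : ℝ → Mat n}
    {a b : ℝ} (hab : a ≤ b) (h : RPath k V F a b) (hV : Continuous V) :
    ∫ x in a..b, pihat q k (F x) (V x - (k * k - F x * F x)) =
      BB q * rtr (mpow k (2 * q + 1)) := by
  have hkh : k.IsHermitian := h.hk.isHermitian
  have hFc : Continuous F := h.continuous
  have hZ : Continuous fun x => V x - (k * k - F x * F x) := by fun_prop
  rw [(pihat_fubini hq hq' h.hk hFc hZ h.kf hab).2]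
  have hnn : ∀ i, 0 ≤ hkh.eigenvalues i := fun i => h.hk.eigenvalues_nonneg i
  have h1 : ∫ τ in Ioi (0 : ℝ), τ ^ (q - 1) *
      ∫ x in a..b, rtr ((V x - (k * k - F x * F x)) * Dtau k (F x) τ) =
      ∫ τ in Ioi (0 : ℝ), ∑ i, τ ^ (q - 1) * (2 * (Gent (Real.sqrt (hkh.eigenvalues i ^ 2 + τ) +
        hkh.eigenvalues i) - Gent (Real.sqrt (hkh.eigenvalues i ^ 2 + τ) - hkh.eigenvalues i) -
        hkh.eigenvalues i * Real.log τ)) := by
    apply setIntegral_congr_fun measurableSet_Ioi
    intro τ hτ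
    simp only
    rw [K_tau hab h hV hτ, rtr_cfc hkh, Finset.mul_sum]
  rw [h1, integral_finsetSum _ (fun i _ => (integral_boundary hq hq' (hnn i)).1), Finset.mul_sum]
  unfold mpow
  rw [rtr_cfc hkh, Finset.mul_sum]
  exact Finset.sum_congr rfl fun i _ => (integral_boundary hq hq' (hnn i)).2

/-- K-4. Consequence: the integrated deficit. -/
theorem integral_dPI {n : ℕ} {q : ℝ} (hq : 0 < q) (hq' : q < 1) {k : Mat n} {V F : ℝ → Mat n}
    {a b : ℝ} (hab : a ≤ b) (h : RPath k V F a b) (hV : Continuous V)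
    (hVi : IntervalIntegrable (fun x => rtr (mpow (V x) (1 + q))) volume a b) :
    ∫ x in a..b, dPI q k (F x) (V x) =
      cc q * (∫ x in a..b, rtr (mpow (V x) (1 + q))) - BB q * rtr (mpow k (2 * q + 1)) := by
  have hFc : Continuous F := h.continuous
  have hZ : Continuous fun x => V x - (k * k - F x * F x) := by fun_prop
  have hc := (pihat_fubini hq hq' h.hk hFc hZ h.kf hab).1
  unfold dPI
  rw [intervalIntegral.integral_sub (hVi.const_mul _) (hc.intervalIntegrable a b),
    intervalIntegral.integral_const_mul, K_identity hq hq' hab h hV]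

end SLT
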