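import Mathlib
import Crest.Prelude.Def_LiebThirring
import Crest.Agent.SLT.Defs

/-!
Row 332: the constants. `BB q = √π Γ(q+1)/Γ(q+3/2)`, `sharpConst γ = cc (γ-1/2) / BB (γ-1/2)`,
`∫ cosh^{-2p} = BB (p-1)`, and the integral of a power of the soliton profile.
-/

set_option autoImplicit false

open MeasureTheory Set
open Crest.MathPhysics.LiebThirring

namespace SLT

/-- Beta integral in real form. -/
lemma beta_real {s : ℝ} (hs : 0 < s) :
    ∫ x in (0 : ℝ)..1, x ^ (s - 1) * (1 - x) ^ (s - 1) =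
      Real.Gamma s * Real.Gamma s / Real.Gamma (2 * s) := by
  have h := ProbabilityTheory.beta_eq_betaIntegralReal s s hs hs
  unfold ProbabilityTheory.beta Complex.betaIntegral at h
  rw [← two_mul] at h
  rw [h]
  have h2 : (∫ x in (0 : ℝ)..1, (x : ℂ) ^ ((s : ℂ) - 1) * (1 - (x : ℂ)) ^ ((s : ℂ) - 1)) =
      ((∫ x in (0 : ℝ)..1, x ^ (s - 1) * (1 - x) ^ (s - 1) : ℝ) : ℂ) := by
    rw [← intervalIntegral.integral_ofReal]
    apply intervalIntegral.integral_congr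
    intro x hx
    rw [uIcc_of_le zero_le_one] at hx
    have h1 : ((x : ℂ)) ^ ((s : ℂ) - 1) = ((x ^ (s - 1) : ℝ) : ℂ) := by
      rw [Complex.ofReal_cpow hx.1]; push_cast; rfl
    have h3 : (1 - (x : ℂ)) ^ ((s : ℂ) - 1) = (((1 - x) ^ (s - 1) : ℝ) : ℂ) := by
      rw [Complex.ofReal_cpow (by linarith [hx.2])]; push_cast; rfl
    simp only
    rw [h1, h3]; push_cast; rfl
  rw [h2, Complex.ofReal_re]

/-- `BB q = √π Γ(q+1)/Γ(q+3/2)`. -/
lemma BB_eq {q : ℝ} (hq : -1 < q) :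
    BB q = Real.sqrt Real.pi * Real.Gamma (q + 1) / Real.Gamma (q + 3 / 2) := by
  have h1 : BB q = 2 * 4 ^ q * ∫ x in (0 : ℝ)..1, x ^ (q + 1 - 1) * (1 - x) ^ (q + 1 - 1) := by
    unfold BB
    have h := intervalIntegral.integral_comp_mul_add (a := (0 : ℝ)) (b := 1)
      (fun t : ℝ => (1 - t ^ 2) ^ q) (c := (2 : ℝ)) two_ne_zero (-1)
    norm_num at h
    have h5 : (∫ x in (0 : ℝ)..1, (1 - (2 * x + -1) ^ 2) ^ q) =
        4 ^ q * ∫ x in (0 : ℝ)..1, x ^ (q + 1 - 1) * (1 - x) ^ (q + 1 - 1) := by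
      rw [← intervalIntegral.integral_const_mul]
      apply intervalIntegral.integral_congr
      intro x hx
      rw [uIcc_of_le zero_le_one] at hx
      simp only
      rw [show (1 - (2 * x + -1) ^ 2 : ℝ) = 4 * (x * (1 - x)) by ring,
        Real.mul_rpow (by norm_num) (mul_nonneg hx.1 (by linarith [hx.2])),
        Real.mul_rpow hx.1 (by linarith [hx.2])]
      simp
    have h6 : (∫ t in (-1 : ℝ)..1, (1 - t ^ 2) ^ q) =
        2 * ∫ x in (0 : ℝ)..1, (1 - (2 * x + -1) ^ 2) ^ q := by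
      rw [h]; ring
    rw [h6, h5]; ring
  rw [h1, beta_real (by linarith : 0 < q + 1)]
  have h2 := Real.Gamma_mul_Gamma_add_half (q + 1)
  rw [show q + 1 + 1 / 2 = q + 3 / 2 by ring] at h2
  have hG1 : Real.Gamma (q + 3 / 2) ≠ 0 := (Real.Gamma_pos_of_pos (by linarith)).ne'
  have hG2 : Real.Gamma (2 * (q + 1)) ≠ 0 := (Real.Gamma_pos_of_pos (by linarith)).ne'
  have h4 : (2 : ℝ) * 4 ^ q * 2 ^ (1 - 2 * (q + 1)) = 1 := by
    rw [show (4 : ℝ) = 2 ^ (2 : ℝ) by norm_num, ← Real.rpow_mul (by norm_num)]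
    nth_rewrite 1 [show (2 : ℝ) = 2 ^ (1 : ℝ) by norm_num]
    rw [← Real.rpow_add (by norm_num), ← Real.rpow_add (by norm_num)]
    have : (1 : ℝ) + 2 * q + (1 - 2 * (q + 1)) = 0 := by ring
    rw [this, Real.rpow_zero]
  have h5 : Real.Gamma (q + 1) * Real.Gamma (q + 1) / Real.Gamma (2 * (q + 1)) =
      (Real.Gamma (q + 1) * Real.Gamma (q + 3 / 2)) * Real.Gamma (q + 1) /
        (Real.Gamma (2 * (q + 1)) * Real.Gamma (q + 3 / 2)) := by
    rw [div_eq_div_iff hG2 (mul_ne_zero hG2 hG1)]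
    ring
  rw [h5, h2]
  calc 2 * 4 ^ q * (Real.Gamma (2 * (q + 1)) * 2 ^ (1 - 2 * (q + 1)) * √Real.pi *
        Real.Gamma (q + 1) / (Real.Gamma (2 * (q + 1)) * Real.Gamma (q + 3 / 2)))
      = (2 * 4 ^ q * 2 ^ (1 - 2 * (q + 1))) * (√Real.pi * Real.Gamma (q + 1) /
        Real.Gamma (q + 3 / 2)) * (Real.Gamma (2 * (q + 1)) / Real.Gamma (2 * (q + 1))) := by
        ring
    _ = _ := by rw [h4, div_self hG2]; ring

lemma BB_pos {q : ℝ} (hq : -1 < q) : 0 < BB q := by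
  rw [BB_eq hq]
  have h1 : 0 < Real.Gamma (q + 1) := Real.Gamma_pos_of_pos (by linarith)
  have h2 : 0 < Real.Gamma (q + 3 / 2) := Real.Gamma_pos_of_pos (by linarith)
  positivity

lemma cc_pos {q : ℝ} (hq : 0 < q) : 0 < cc q := by
  unfold cc; positivity

/-- The sharp constant is `c / B`. -/
lemma sharpConst_eq {γ : ℝ} (hγ : 1 / 2 < γ) :
    sharpConst γ = cc (γ - 1 / 2) / BB (γ - 1 / 2) := by
  rw [BB_eq (by linarith)]
  unfold sharpConst cc
  have e1 : γ - 1 / 2 + 1 = γ + 1 / 2 := by ring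
  have e2 : γ - 1 / 2 + 3 / 2 = γ + 1 := by ring
  have e3 : 1 + (γ - 1 / 2) = γ + 1 / 2 := by ring
  rw [e1, e2, e3]
  have e4 : Real.Gamma (γ + 3 / 2) = (γ + 1 / 2) * Real.Gamma (γ + 1 / 2) := by
    rw [show γ + 3 / 2 = (γ + 1 / 2) + 1 by ring, Real.Gamma_add_one (by linarith)]
  rw [e4, Real.div_rpow (by linarith) (by linarith)]
  have e5 : (γ + 1 / 2) ^ (γ + 1 / 2) = (γ + 1 / 2) ^ (γ - 1 / 2) * (γ + 1 / 2) := by
    conv_lhs => rw [show γ + 1 / 2 = (γ - 1 / 2) + 1 by ring]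
    rw [Real.rpow_add_one (by linarith)]
    ring_nf
  rw [e5]
  have h1 : Real.Gamma (γ + 1 / 2) ≠ 0 := (Real.Gamma_pos_of_pos (by linarith)).ne'
  have h2 : Real.Gamma (γ + 1) ≠ 0 := (Real.Gamma_pos_of_pos (by linarith)).ne'
  have h3 : (γ + 1 / 2) ^ (γ - 1 / 2) ≠ 0 := (Real.rpow_pos_of_pos (by linarith) _).ne'
  have h4 : γ + 1 / 2 ≠ 0 := by linarith
  have h5 : Real.sqrt Real.pi ≠ 0 := by positivity
  field_simp

/-- `∫ cosh^{-2p} = BB (p-1)`. -/
lemma integral_cosh_rpow (p : ℝ) :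
    ∫ x : ℝ, (1 / Real.cosh x ^ 2) ^ p = BB (p - 1) := by
  have hder : ∀ x : ℝ, HasDerivAt Real.tanh (1 / Real.cosh x ^ 2) x := by
    intro x
    have h := (Real.hasDerivAt_sinh x).div (Real.hasDerivAt_cosh x) (Real.cosh_pos x).ne'
    have h3 : (Real.sinh / Real.cosh) = Real.tanh := by
      funext y; simp [Real.tanh_eq_sinh_div_cosh]
    have h4 : (Real.cosh x * Real.cosh x - Real.sinh x * Real.sinh x) / Real.cosh x ^ 2 =
        1 / Real.cosh x ^ 2 := by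
      congr 1
      nlinarith [Real.cosh_sq x]
    rw [h4, h3] at h
    exact h
  have h := integral_image_eq_integral_abs_deriv_smul (s := univ) MeasurableSet.univ
    (fun x _ => (hder x).hasDerivWithinAt) (Real.tanh_injective.injOn)
    (fun t : ℝ => (1 - t ^ 2) ^ (p - 1))
  rw [Real.tanh_bijOn.image_eq] at h
  unfold BB
  rw [intervalIntegral.integral_of_le (by norm_num), integral_Ioc_eq_integral_Ioo, h]
  rw [Measure.restrict_univ]
  apply integral_congr_ae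
  filter_upwards with x
  have hc : 0 < Real.cosh x := Real.cosh_pos x
  have h1 : 1 - Real.tanh x ^ 2 = 1 / Real.cosh x ^ 2 := by
    rw [Real.tanh_eq_sinh_div_cosh]
    field_simp
    nlinarith [Real.cosh_sq x]
  rw [h1, abs_of_pos (by positivity), smul_eq_mul]
  have h2 : (0 : ℝ) < 1 / Real.cosh x ^ 2 := by positivity
  conv_lhs => rw [show p = 1 + (p - 1) by ring, Real.rpow_add h2, Real.rpow_one]

/-- The soliton profile: integral of its `p`-th power, `p = q + 1`, `r = 1/q`. -/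
lemma integral_soliton_rpow {q : ℝ} (hq : 0 < q) {a : ℝ} (ha : 0 ≤ a) (c : ℝ) :
    cc q * ∫ x, soliton q⁻¹ a c x ^ (1 + q) = BB q * a ^ (2 * q + 1) := by
  rcases ha.eq_or_lt with rfl | ha
  · have : ∀ x, soliton q⁻¹ 0 c x = 0 := by intro x; simp [soliton]
    simp only [this]
    rw [Real.zero_rpow (by linarith), Real.zero_rpow (by linarith)]
    simp
  have h1 : ∀ x, soliton q⁻¹ a c x ^ (1 + q) =
      ((q⁻¹ + 1) * a ^ 2) ^ (1 + q) * (1 / Real.cosh (q⁻¹ * a * (x - c)) ^ 2) ^ (1 + q) := by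
    intro x
    have hc : 0 < Real.cosh (q⁻¹ * a * (x - c)) := Real.cosh_pos _
    rw [← Real.mul_rpow (by positivity) (by positivity)]
    unfold soliton
    congr 1
    ring
  simp only [h1]
  rw [integral_const_mul]
  have h2 : ∫ x, (1 / Real.cosh (q⁻¹ * a * (x - c)) ^ 2) ^ (1 + q) = (q / a) * BB q := by
    have e1 := integral_sub_right_eq_self
      (fun x : ℝ => (1 / Real.cosh (q⁻¹ * a * x) ^ 2) ^ (1 + q)) (μ := volume) c
    rw [e1]
    have e2 := Measure.integral_comp_mul_left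
      (fun x : ℝ => (1 / Real.cosh x ^ 2) ^ (1 + q)) (q⁻¹ * a)
    rw [e2, integral_cosh_rpow, abs_of_pos (by positivity), smul_eq_mul]
    rw [show 1 + q - 1 = q by ring]
    field_simp
  rw [h2]
  unfold cc
  have h3 : ((q⁻¹ + 1) * a ^ 2) ^ (1 + q) = ((1 + q) ^ (1 + q) / q ^ (1 + q)) * (a ^ (2 * q + 1) * a) := by
    rw [Real.mul_rpow (by positivity) (by positivity)]
    congr 1
    · rw [← Real.div_rpow (by positivity) (by positivity)]
      congr 1
      field_simp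
      try ring
    · rw [← Real.rpow_natCast, ← Real.rpow_mul ha.le, ← Real.rpow_add_one ha.ne']
      congr 1
      push_cast; ring
  rw [h3]
  have h4 : q ^ (1 + q) = q ^ q * q := by
    rw [add_comm, Real.rpow_add_one hq.ne']
  rw [h4]
  have h5 : (0 : ℝ) < (1 + q) ^ (1 + q) := by positivity
  have h6 : (0 : ℝ) < q ^ q := by positivity
  field_simp

/-- `C_γ ∫ soliton^{γ+1/2} = a^{2γ}`. -/
lemma sharpConst_mul_integral_soliton {γ : ℝ} (hγ : 1 / 2 < γ) {a : ℝ} (ha : 0 ≤ a) (c : ℝ) :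
    sharpConst γ * ∫ x, soliton (γ - 1 / 2)⁻¹ a c x ^ (γ + 1 / 2) = a ^ (2 * γ) := by
  have h := integral_soliton_rpow (q := γ - 1 / 2) (by linarith) ha c
  rw [show 1 + (γ - 1 / 2) = γ + 1 / 2 by ring, show 2 * (γ - 1 / 2) + 1 = 2 * γ by ring] at h
  rw [sharpConst_eq hγ, div_mul_eq_mul_div, h]
  have := BB_pos (q := γ - 1 / 2) (by linarith)
  rw [mul_div_assoc, mul_comm, div_mul_cancel₀ _ this.ne']

end SLT
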