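import Mathlib
import Crest.Agent.SLT.Defs

/-! Row 332: Frobenius (Hilbert–Schmidt) norm facts for positive semidefinite matrices. -/

set_option autoImplicit false

open scoped ComplexOrder Matrix Matrix.Norms.Frobenius

namespace SLT

private theorem exists_sqrt {n : ℕ} {B : Mat n} (hB : B.PosSemidef) :
    ∃ X : Mat n, Xᴴ = X ∧ B = X * X := by
  open scoped MatrixOrder in
  obtain ⟨X, hX, -, hXB⟩ :=
    CFC.exists_sqrt_of_isSelfAdjoint_of_quasispectrumRestricts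
      (show IsSelfAdjoint B from hB.isHermitian)
      (QuasispectrumRestricts.nnreal_of_nonneg hB.nonneg)
  exact ⟨X, hX.star_eq, hXB.symm⟩

private theorem rtr_nonneg' {n : ℕ} {A : Mat n} (hA : A.PosSemidef) : 0 ≤ rtr A :=
  (Complex.nonneg_iff.mp hA.trace_nonneg).1

/-- EX4c. `tr (A B) ≥ 0` for positive semidefinite `A`, `B`. -/
theorem rtr_mul_nonneg {n : ℕ} {A B : Mat n} (hA : A.PosSemidef) (hB : B.PosSemidef) :
    0 ≤ rtr (A * B) := by
  obtain ⟨X, hX, rfl⟩ := exists_sqrt hB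
  have h1 : rtr (A * (X * X)) = rtr (Xᴴ * A * X) := by
    unfold rtr
    rw [← Matrix.mul_assoc, Matrix.trace_mul_comm, ← Matrix.mul_assoc, hX]
  rw [h1]
  exact rtr_nonneg' (hA.conjTranspose_mul_mul_same X)

theorem frob_sq {n m : ℕ} (A : RMat n m) : ‖A‖ ^ 2 = hsq A := by
  have h0 : 0 ≤ ∑ i, ∑ j, ‖A i j‖ ^ (2 : ℝ) := by positivity
  rw [Matrix.frobenius_norm_def, ← Real.sqrt_eq_rpow, Real.sq_sqrt h0]
  unfold hsq
  simp only [Real.rpow_two]

theorem hsq_eq_rtr_X {n m : ℕ} (A : RMat n m) : hsq A = rtr (Aᴴ * A) := by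
  unfold hsq rtr
  rw [Finset.sum_comm, Matrix.trace, Complex.re_sum]
  refine Finset.sum_congr rfl fun j _ => ?_
  rw [Matrix.diag_apply, Matrix.mul_apply, Complex.re_sum]
  refine Finset.sum_congr rfl fun i _ => ?_
  rw [Matrix.conjTranspose_apply, Complex.star_def, ← Complex.normSq_eq_conj_mul_self,
    Complex.ofReal_re, Complex.normSq_eq_norm_sq]

/-- EX4a. The Hilbert–Schmidt norm is monotone on positive semidefinite matrices:
`tr A² ≤ tr A B ≤ tr B²`. -/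
theorem frob_mono {n : ℕ} {A B : Mat n} (hA : A.PosSemidef) (hAB : (B - A).PosSemidef) :
    ‖A‖ ≤ ‖B‖ := by
  have hB : B.PosSemidef := by
    have := hA.add hAB
    simpa using this
  have h1 : 0 ≤ rtr (A * (B - A)) := rtr_mul_nonneg hA hAB
  have h2 : 0 ≤ rtr ((B - A) * B) := rtr_mul_nonneg hAB hB
  have e1 : rtr (A * (B - A)) = rtr (A * B) - hsq A := by
    rw [hsq_eq_rtr_X, hA.isHermitian.eq]
    unfold rtr
    rw [Matrix.mul_sub, Matrix.trace_sub, Complex.sub_re]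
  have e2 : rtr ((B - A) * B) = hsq B - rtr (A * B) := by
    rw [hsq_eq_rtr_X, hB.isHermitian.eq]
    unfold rtr
    rw [Matrix.sub_mul, Matrix.trace_sub, Complex.sub_re]
  have h3 : ‖A‖ ^ 2 ≤ ‖B‖ ^ 2 := by
    rw [frob_sq, frob_sq]; linarith
  exact (pow_le_pow_iff_left₀ (norm_nonneg _) (norm_nonneg _) two_ne_zero).mp h3

/-- EX4b. `‖A‖_HS ≤ tr A` for positive semidefinite `A`
(`|A i j|² ≤ A i i * A j j`, or eigenvalues). -/
theorem frob_le_rtr {n : ℕ} {A : Mat n} (hA : A.PosSemidef) : ‖A‖ ≤ rtr A := by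
  obtain ⟨X, hX, rfl⟩ := exists_sqrt hA
  have h1 : ‖X‖ * ‖X‖ = rtr (X * X) := by
    rw [← sq, frob_sq, hsq_eq_rtr_X, hX]
  rw [← h1]
  exact Matrix.frobenius_norm_mul X X

end SLT
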