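import Mathlib

/-! Row 332, (E): ordinary differential equations with bounded, globally Lipschitz vector fields. -/

set_option autoImplicit false

open Set Topology Filter

namespace SLT

/-- EX2a. Global existence on `[a,b]` for a bounded, globally Lipschitz, continuous-in-time field.
Proof: `IsPicardLindelof` on a ball of radius `L * (b - a)`, see
`IsPicardLindelof.exists_eq_forall_mem_Icc_hasDerivWithinAt₀`. -/
theorem ode_exists {E : Type*} [NormedAddCommGroup E] [NormedSpace ℝ E] [CompleteSpace E]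
    (f : ℝ → E → E) (a b : ℝ) (hab : a ≤ b) (K : NNReal) (L : ℝ)
    (hlip : ∀ t ∈ Icc a b, LipschitzWith K (f t))
    (hcont : ∀ x, ContinuousOn (fun t => f t x) (Icc a b))
    (hbd : ∀ t ∈ Icc a b, ∀ x, ‖f t x‖ ≤ L) (x₀ : E) :
    ∃ α : ℝ → E, α a = x₀ ∧ ∀ t ∈ Icc a b, HasDerivWithinAt α (f t (α t)) (Icc a b) t := by
  have hL : 0 ≤ L := (norm_nonneg _).trans (hbd a ⟨le_rfl, hab⟩ x₀)
  have h : IsPicardLindelof f (⟨a, le_rfl, hab⟩ : Icc a b) x₀
      (⟨L * (b - a), mul_nonneg hL (sub_nonneg.2 hab)⟩ : NNReal) 0 (⟨L, hL⟩ : NNReal) K :=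
    { lipschitzOnWith := fun t ht => (hlip t ht).lipschitzOnWith
      continuousOn := fun x _ => hcont x
      norm_le := fun t ht x _ => hbd t ht x
      mul_max_le := by
        have : max (b - a) 0 = b - a := max_eq_left (sub_nonneg.2 hab)
        simp only [sub_self, this, NNReal.coe_zero, sub_zero]
        exact le_rfl }
  obtain ⟨α, h0, h1⟩ := h.exists_eq_forall_mem_Icc_hasDerivWithinAt₀
  exact ⟨α, h0, h1⟩

/-- EX2b. Continuity of the end value in a parameter. (Gronwall: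
`dist_le_of_approx_trajectories_ODE` on `[a,b]`.) -/
theorem ode_param {P E : Type*} [TopologicalSpace P] [NormedAddCommGroup E] [NormedSpace ℝ E]
    (s : Set P) (f : P → ℝ → E → E) (a b : ℝ) (hab : a ≤ b) (K : NNReal)
    (hlip : ∀ p ∈ s, ∀ t ∈ Icc a b, LipschitzWith K (f p t))
    (hunif : ∀ p ∈ s, ∀ ε > 0, ∀ᶠ q in 𝓝[s] p, ∀ t ∈ Icc a b, ∀ x, ‖f q t x - f p t x‖ ≤ ε)
    (x₀ : E) (α : P → ℝ → E) (hα0 : ∀ p ∈ s, α p a = x₀)
    (hα : ∀ p ∈ s, ∀ t ∈ Icc a b, HasDerivWithinAt (α p) (f p t (α p t)) (Icc a b) t) :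
    ContinuousOn (fun p => α p b) s := by
  intro p hp
  rw [Metric.continuousWithinAt_iff']
  intro ε hε
  have hc : ContinuousAt (fun e => gronwallBound 0 K e (b - a)) 0 :=
    (gronwallBound_continuous_ε 0 K (b - a)).continuousAt
  have h0 : gronwallBound 0 K 0 (b - a) = 0 := gronwallBound_ε0_δ0 _ _
  obtain ⟨δ, hδ, hδ'⟩ := Metric.continuousAt_iff.mp hc ε hε
  have hδ2 : gronwallBound 0 K (δ / 2) (b - a) < ε := by
    have h1 := hδ' (x := δ / 2) (by
      rw [Real.dist_eq, sub_zero, abs_of_pos (by positivity)]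
      linarith)
    rw [h0, Real.dist_eq, sub_zero] at h1
    exact (le_abs_self _).trans_lt h1
  filter_upwards [hunif p hp (δ / 2) (by positivity), self_mem_nhdsWithin] with q hq hqs
  have hcts : ∀ r ∈ s, ContinuousOn (α r) (Icc a b) := fun r hr t ht =>
    (hα r hr t ht).continuousWithinAt
  have hder : ∀ r ∈ s, ∀ t ∈ Ico a b, HasDerivWithinAt (α r) (f r t (α r t)) (Ici t) t := by
    intro r hr t ht
    exact (hα r hr t (Ico_subset_Icc_self ht)).mono_of_mem_nhdsWithin (Icc_mem_nhdsGE_of_mem ht)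
  have key := dist_le_of_approx_trajectories_ODE_of_mem (v := f p) (K := K) (s := fun _ => univ)
    (f := α q) (g := α p) (f' := fun t => f q t (α q t)) (g' := fun t => f p t (α p t))
    (a := a) (b := b) (εf := δ / 2) (εg := 0) (δ := 0)
    (fun t ht => (hlip p hp t (Ico_subset_Icc_self ht)).lipschitzOnWith)
    (hcts q hqs) (hder q hqs)
    (fun t ht => by rw [dist_eq_norm]; exact hq t (Ico_subset_Icc_self ht) _)
    (fun _ _ => trivial) (hcts p hp) (hder p hp) (fun t _ => by simp) (fun _ _ => trivial)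
    (by rw [hα0 q hqs, hα0 p hp, dist_self]) b ⟨hab, le_rfl⟩
  rw [add_zero] at key
  exact key.trans_lt hδ2

/-- The radial truncation at level `N`. -/
noncomputable def trunc {E : Type*} [NormedAddCommGroup E] [NormedSpace ℝ E] (N : ℝ) (x : E) : E :=
  (N / max N ‖x‖) • x

/-- EX2c. -/
theorem trunc_lipschitz {E : Type*} [NormedAddCommGroup E] [NormedSpace ℝ E] (N : ℝ) (hN : 0 < N) :
    LipschitzWith 2 (trunc N : E → E) := by
  refine LipschitzWith.of_dist_le_mul fun x y => ?_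
  rw [dist_eq_norm, dist_eq_norm]
  have hx : 0 < max N ‖x‖ := lt_of_lt_of_le hN (le_max_left _ _)
  have hy : 0 < max N ‖y‖ := lt_of_lt_of_le hN (le_max_left _ _)
  have e1 : trunc N x - trunc N y =
      (N / max N ‖x‖) • (x - y) + (N / max N ‖x‖ - N / max N ‖y‖) • y := by
    simp only [trunc, smul_sub, sub_smul]
    abel
  have e2 : ‖(N / max N ‖x‖) • (x - y)‖ ≤ ‖x - y‖ := by
    rw [norm_smul, Real.norm_of_nonneg (by positivity)]
    have : N / max N ‖x‖ ≤ 1 := (div_le_one hx).2 (le_max_left _ _)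
    exact mul_le_of_le_one_left (norm_nonneg _) this
  have e3 : ‖(N / max N ‖x‖ - N / max N ‖y‖) • y‖ ≤ ‖x - y‖ := by
    rw [norm_smul, Real.norm_eq_abs]
    have h1 : N / max N ‖x‖ - N / max N ‖y‖ =
        N * (max N ‖y‖ - max N ‖x‖) / (max N ‖x‖ * max N ‖y‖) := by
      field_simp
    have h2 : |max N ‖y‖ - max N ‖x‖| ≤ ‖x - y‖ := by
      calc |max N ‖y‖ - max N ‖x‖| ≤ |‖y‖ - ‖x‖| := by
            have := abs_max_sub_max_le_max N ‖y‖ N ‖x‖
            simpa using this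
        _ ≤ ‖y - x‖ := abs_norm_sub_norm_le _ _
        _ = ‖x - y‖ := norm_sub_rev _ _
    rw [h1, abs_div, abs_mul, abs_of_pos hN, abs_of_pos (mul_pos hx hy), div_mul_eq_mul_div,
      div_le_iff₀ (mul_pos hx hy)]
    have h3 : N ≤ max N ‖x‖ := le_max_left _ _
    have h4 : ‖y‖ ≤ max N ‖y‖ := le_max_right _ _
    calc N * |max N ‖y‖ - max N ‖x‖| * ‖y‖ ≤ max N ‖x‖ * ‖x - y‖ * max N ‖y‖ := by gcongr
      _ = ‖x - y‖ * (max N ‖x‖ * max N ‖y‖) := by ring
  rw [e1]
  refine (norm_add_le _ _).trans ?_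
  have : ((2 : NNReal) : ℝ) = 2 := rfl
  rw [this]
  linarith

theorem trunc_norm_le {E : Type*} [NormedAddCommGroup E] [NormedSpace ℝ E] (N : ℝ) (hN : 0 < N)
    (x : E) : ‖trunc N x‖ ≤ N := by
  have h : 0 < max N ‖x‖ := lt_of_lt_of_le hN (le_max_left _ _)
  rw [trunc, norm_smul, Real.norm_of_nonneg (by positivity), div_mul_eq_mul_div, div_le_iff₀ h]
  exact mul_le_mul_of_nonneg_left (le_max_right _ _) hN.le

theorem trunc_eq {E : Type*} [NormedAddCommGroup E] [NormedSpace ℝ E] (N : ℝ) (hN : 0 < N)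
    (x : E) (hx : ‖x‖ ≤ N) : trunc N x = x := by
  rw [trunc, max_eq_left hx, div_self hN.ne', one_smul]

end SLT
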