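import Mathlib
import Crest.Agent.SLT.Defs

/-! Row 332, (E): positivity of solutions of linear Lyapunov equations, and the a priori bounds. -/

set_option autoImplicit false

open Set Topology Filter MeasureTheory
open scoped ComplexOrder Matrix

namespace SLT

section IntFac

open scoped Matrix.Norms.Frobenius

private theorem real_smul_eq {n : ℕ} (c : ℝ) (A : Mat n) : c • A = (c : ℂ) • A := by
  ext i j
  simp [Matrix.smul_apply]

private theorem exists_intfac {n : ℕ} (a b : ℝ) (hab : a ≤ b) (κ : Mat n) (hκ : κ.IsHermitian)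
    (s : ℝ → ℝ) (hs : ContinuousOn s (Icc a b)) :
    ∃ E : ℝ → Mat n,
      (∀ x ∈ Icc a b, HasDerivWithinAt E ((s x : ℂ) • (κ * E x)) (Icc a b) x) ∧
      (∀ x, (E x).IsHermitian) ∧ (∀ x, κ * E x = E x * κ) ∧ (∀ x, IsUnit (E x)) ∧ E a = 1 := by
  have hs' : Continuous (IccExtend hab ((Icc a b).domRestrict s)) :=
    (continuousOn_iff_continuous_domRestrict.mp hs).Icc_extend'
  set s' : ℝ → ℝ := IccExtend hab ((Icc a b).domRestrict s) with hs'def
  let σ : ℝ → ℝ := fun x => ∫ t in a..x, s' t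
  have hσ : ∀ x, HasDerivAt σ (s' x) x := fun x => (hs'.integral_hasStrictDerivAt a x).hasDerivAt
  refine ⟨fun x => NormedSpace.exp (σ x • κ), ?_, ?_, ?_, ?_, ?_⟩
  · intro x hx
    have h1 := (hasDerivAt_exp_smul_const' (𝕂 := ℝ) κ (σ x)).scomp x (hσ x)
    have h2 : s' x = s x := by
      rw [hs'def, IccExtend_of_mem hab _ hx]; rfl
    rw [h2, real_smul_eq] at h1
    exact h1.hasDerivWithinAt
  · intro x
    refine Matrix.IsHermitian.exp ?_
    rw [real_smul_eq]
    unfold Matrix.IsHermitian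
    rw [Matrix.conjTranspose_smul, hκ.eq]
    simp
  · intro x
    have h1 : Commute κ (σ x • κ) := (Commute.refl κ).smul_right _
    exact (h1.exp_right).eq
  · intro x
    exact Matrix.isUnit_exp _
  · show NormedSpace.exp ((∫ t in a..a, s' t) • κ) = 1
    simp

private theorem G_deriv {n : ℕ} (a b : ℝ) (κ : Mat n)
    (D E : ℝ → Mat n) (S : Mat n) (s : ℝ → ℝ) (x : ℝ)
    (hD : HasDerivWithinAt D (S - (s x : ℂ) • (κ * D x + D x * κ)) (Icc a b) x)
    (hE : HasDerivWithinAt E ((s x : ℂ) • (κ * E x)) (Icc a b) x)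
    (hc : κ * E x = E x * κ) :
    HasDerivWithinAt (fun y => E y * D y * E y) (E x * S * E x) (Icc a b) x := by
  have h1 : HasDerivWithinAt (fun y => E y * D y * E y)
      (((s x : ℂ) • (κ * E x) * D x + E x * (S - (s x : ℂ) • (κ * D x + D x * κ))) * E x
        + (E x * D x) * ((s x : ℂ) • (κ * E x))) (Icc a b) x := (hE.fun_mul hD).fun_mul hE
  have h2 : ((s x : ℂ) • (κ * E x) * D x + E x * (S - (s x : ℂ) • (κ * D x + D x * κ))) * E x
        + (E x * D x) * ((s x : ℂ) • (κ * E x)) = E x * S * E x := by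
    have e1 : κ * E x * D x * E x = E x * (κ * D x) * E x := by
      rw [hc]; simp only [Matrix.mul_assoc]
    have e2 : E x * D x * (κ * E x) = E x * (D x * κ) * E x := by
      simp only [Matrix.mul_assoc]
    rw [Matrix.mul_smul, e2, Matrix.smul_mul, Matrix.mul_sub, Matrix.mul_smul, Matrix.mul_add,
      Matrix.add_mul, Matrix.smul_mul, e1, Matrix.sub_mul, Matrix.smul_mul, Matrix.add_mul,
      smul_add]
    abel
  rw [h2] at h1
  exact h1

private theorem lin_mono {n : ℕ} (a b : ℝ) (G P : ℝ → Mat n)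
    (hG : ∀ x ∈ Icc a b, HasDerivWithinAt G (P x) (Icc a b) x)
    (l : Mat n →ₗ[ℝ] ℝ) (hl : ∀ x ∈ Icc a b, 0 ≤ l (P x)) (x : ℝ) (hx : x ∈ Icc a b) :
    l (G a) ≤ l (G x) := by
  have hd : ∀ y ∈ Icc a b, HasDerivWithinAt (fun z => l (G z)) (l (P y)) (Icc a b) y := by
    intro y hy
    have h1 := (LinearMap.toContinuousLinearMap l).hasFDerivAt.comp_hasDerivWithinAt y (hG y hy)
    exact h1
  have hc : ContinuousOn (fun z => l (G z)) (Icc a b) := fun y hy => (hd y hy).continuousWithinAt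
  have hm : MonotoneOn (fun z => l (G z)) (Icc a b) := by
    refine monotoneOn_of_hasDerivWithinAt_nonneg (f' := fun y => l (P y)) (convex_Icc a b) hc
      ?_ ?_
    · intro y hy
      exact (hd y (interior_subset hy)).mono interior_subset
    · intro y hy
      exact hl y (interior_subset hy)
  exact hm (left_mem_Icc.mpr (hx.1.trans hx.2)) hx hx.1

private theorem lin_const {n : ℕ} (a b : ℝ) (G P : ℝ → Mat n)
    (hG : ∀ x ∈ Icc a b, HasDerivWithinAt G (P x) (Icc a b) x)
    (l : Mat n →ₗ[ℝ] ℝ) (hl : ∀ x ∈ Icc a b, l (P x) = 0) (x : ℝ) (hx : x ∈ Icc a b) :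
    l (G x) = l (G a) := by
  have h1 := lin_mono a b G P hG l (fun y hy => (hl y hy).ge) x hx
  have h2 := lin_mono a b G P hG (-l) (fun y hy => by simp [hl y hy]) x hx
  simp only [LinearMap.neg_apply] at h2
  linarith

/-- The quadratic form `M ↦ vᴴ M v` as a real-linear map. -/
private noncomputable def qf {n : ℕ} (v : Fin n → ℂ) : Mat n →ₗ[ℝ] ℂ where
  toFun M := star v ⬝ᵥ (M *ᵥ v)
  map_add' A B := by rw [Matrix.add_mulVec, dotProduct_add]
  map_smul' c A := by rw [Matrix.smul_mulVec, dotProduct_smul]; rfl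

/-- The entry of `M - Mᴴ` as a real-linear map. -/
private noncomputable def sk {n : ℕ} (i j : Fin n) : Mat n →ₗ[ℝ] ℂ where
  toFun M := Mᴴ i j - M i j
  map_add' A B := by simp only [Matrix.conjTranspose_add, Matrix.add_apply]; ring
  map_smul' c A := by
    simp only [Matrix.conjTranspose_apply, Matrix.smul_apply, Complex.real_smul, star_mul',
      Complex.star_def, Complex.conj_ofReal, RingHom.id_apply]
    ring

private theorem psd_mono {n : ℕ} (a b : ℝ) (G P : ℝ → Mat n)
    (hG : ∀ x ∈ Icc a b, HasDerivWithinAt G (P x) (Icc a b) x)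
    (hP : ∀ x ∈ Icc a b, (P x).PosSemidef) (ha : (G a).PosSemidef) (x : ℝ) (hx : x ∈ Icc a b) :
    (G x).PosSemidef := by
  have hsk : ∀ (M : Mat n), M.PosSemidef → ∀ i j, sk i j M = 0 := by
    intro M hM i j
    show Mᴴ i j - M i j = 0
    rw [hM.isHermitian.eq, sub_self]
  have hqf : ∀ (M : Mat n), M.PosSemidef → ∀ v, 0 ≤ qf v M := by
    intro M hM v
    exact hM.dotProduct_mulVec_nonneg v
  refine Matrix.PosSemidef.of_dotProduct_mulVec_nonneg ?_ ?_
  · ext i j
    have h1 := lin_const a b G P hG (Complex.reLm ∘ₗ sk i j)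
      (fun y hy => by simp [hsk _ (hP y hy) i j]) x hx
    have h2 := lin_const a b G P hG (Complex.imLm ∘ₗ sk i j)
      (fun y hy => by simp [hsk _ (hP y hy) i j]) x hx
    simp only [LinearMap.comp_apply, hsk _ ha i j, map_zero] at h1 h2
    have h3 : sk i j (G x) = 0 := Complex.ext h1 h2
    exact sub_eq_zero.mp h3
  · intro v
    have h1 := lin_mono a b G P hG (Complex.reLm ∘ₗ qf v)
      (fun y hy => (Complex.nonneg_iff.mp (hqf _ (hP y hy) v)).1) x hx
    have h2 := lin_const a b G P hG (Complex.imLm ∘ₗ qf v)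
      (fun y hy => (Complex.nonneg_iff.mp (hqf _ (hP y hy) v)).2.symm) x hx
    have h3 := Complex.nonneg_iff.mp (hqf _ ha v)
    refine Complex.nonneg_iff.mpr ⟨h3.1.trans h1, ?_⟩
    exact (h3.2.trans h2.symm)

private theorem reflect_deriv {n : ℕ} (a b : ℝ) (E : ℝ → Mat n) (E' : Mat n) (x : ℝ)
    (h1 : HasDerivWithinAt E E' (Icc a b) (a + b - x))
    (hmaps : MapsTo (fun x : ℝ => a + b - x) (Icc a b) (Icc a b)) :
    HasDerivWithinAt (fun x : ℝ => E (a + b - x)) (-E') (Icc a b) x := by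
  have h2 : HasDerivWithinAt (fun x : ℝ => a + b - x) (-1) (Icc a b) x :=
    ((hasDerivAt_id x).const_sub (a + b)).hasDerivWithinAt
  have h3 := HasDerivWithinAt.scomp x h1 h2 hmaps
  rw [neg_one_smul] at h3
  exact h3

end IntFac

/-- EX3. If `D' = S - s(x) (κ D + D κ)` on `[a,b]` with `S` positive semidefinite, `κ` Hermitian,
`s` real continuous and `D a` positive semidefinite, then `D` is positive semidefinite on `[a,b]`.
Proof: `σ(x) = ∫_a^x s`, `G(x) = e^(σ κ) D e^(σ κ)` has `G' = e^(σ κ) S e^(σ κ)` positive semidefinite,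
so for every vector `v`, `vᴴ G v` is real and monotone; `D = e^(-σ κ) G e^(-σ κ)`.
(`NormedSpace.exp`, `Matrix.exp_conjTranspose`, `hasDerivAt_exp_smul_const`; prove that `vᴴ G(x) v ≥ 0`
in `ℂ` by treating the imaginary part (derivative `0`) and the real part (derivative `≥ 0`).) -/
theorem psd_forward {n : ℕ} (a b : ℝ) (hab : a ≤ b) (κ : Mat n) (hκ : κ.IsHermitian)
    (D S : ℝ → Mat n) (s : ℝ → ℝ) (hs : ContinuousOn s (Icc a b))
    (hD : ∀ x ∈ Icc a b, HasDerivWithinAt D (S x - (s x : ℂ) • (κ * D x + D x * κ)) (Icc a b) x)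
    (hS : ∀ x ∈ Icc a b, (S x).PosSemidef) (ha : (D a).PosSemidef) :
    ∀ x ∈ Icc a b, (D x).PosSemidef := by
  obtain ⟨E, hE, hEh, hEc, hEu, hEa⟩ := exists_intfac a b hab κ hκ s hs
  intro x hx
  have hG : ∀ y ∈ Icc a b,
      HasDerivWithinAt (fun y => E y * D y * E y) (E y * S y * E y) (Icc a b) y :=
    fun y hy => G_deriv a b κ D E (S y) s y (hD y hy) (hE y hy) (hEc y)
  have hP : ∀ y ∈ Icc a b, (E y * S y * E y).PosSemidef := by
    intro y hy
    have := (hS y hy).conjTranspose_mul_mul_same (E y)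
    rwa [(hEh y).eq] at this
  have hGa : (E a * D a * E a).PosSemidef := by
    rw [hEa, Matrix.one_mul, Matrix.mul_one]; exact ha
  have h1 : (E x * D x * E x).PosSemidef := psd_mono a b _ _ hG hP hGa x hx
  have h2 := h1.conjTranspose_mul_mul_same (E x)⁻¹
  have h3 : ((E x)⁻¹)ᴴ = (E x)⁻¹ := by
    rw [Matrix.conjTranspose_nonsing_inv, (hEh x).eq]
  have hdet : IsUnit (E x).det := (Matrix.isUnit_iff_isUnit_det _).mp (hEu x)
  have h4 : (E x)⁻¹ * (E x * D x * E x) * (E x)⁻¹ = D x := by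
    rw [Matrix.mul_assoc (E x), Matrix.nonsing_inv_mul_cancel_left _ _ hdet,
      Matrix.mul_nonsing_inv_cancel_right _ _ hdet]
  rwa [h3, h4] at h2

/-- EX3'. Backward version (apply `psd_forward` to `x ↦ E (a + b - x)`). -/
theorem psd_backward {n : ℕ} (a b : ℝ) (hab : a ≤ b) (κ : Mat n) (hκ : κ.IsHermitian)
    (E S : ℝ → Mat n) (s : ℝ → ℝ) (hs : ContinuousOn s (Icc a b))
    (hE : ∀ x ∈ Icc a b, HasDerivWithinAt E (-(S x) + (s x : ℂ) • (κ * E x + E x * κ)) (Icc a b) x)
    (hS : ∀ x ∈ Icc a b, (S x).PosSemidef) (hb : (E b).PosSemidef) :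
    ∀ x ∈ Icc a b, (E x).PosSemidef := by
  have hmaps : MapsTo (fun x => a + b - x) (Icc a b) (Icc a b) := by
    intro x hx
    exact ⟨by linarith [hx.2], by linarith [hx.1]⟩
  have key := psd_forward a b hab κ hκ (fun x => E (a + b - x)) (fun x => S (a + b - x))
    (fun x => s (a + b - x))
    (hs.comp (by fun_prop) hmaps)
    (by
      intro x hx
      have h1 := hE (a + b - x) (hmaps hx)
      have h3 := reflect_deriv a b E _ x h1 hmaps
      have h4 : -(-(S (a + b - x)) + (s (a + b - x) : ℂ) •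
          (κ * E (a + b - x) + E (a + b - x) * κ)) = S (a + b - x) - (s (a + b - x) : ℂ) •
          (κ * E (a + b - x) + E (a + b - x) * κ) := by
        abel
      rw [h4] at h3
      exact h3)
    (fun x hx => hS _ (hmaps hx)) (by simpa using hb)
  intro x hx
  have := key (a + b - x) (hmaps hx)
  simpa using this

end SLT
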