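import Mathlib
import Crest.Agent.SLT.Defs
import Crest.Agent.SLT.ExOde
import Crest.Agent.SLT.ExPsd

/-! Row 332, (E): the truncated Riccati field. Norm: Frobenius. -/

set_option autoImplicit false

open Set Topology Filter MeasureTheory
open scoped ComplexOrder Matrix Matrix.Norms.Frobenius

namespace SLT

/-- The truncated field: `W + t (-κ π(D) - π(D) κ + π(D) π(D)ᴴ)`, `π` the radial truncation. -/
noncomputable def tfield {n : ℕ} (N t : ℝ) (κ W D : Mat n) : Mat n :=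
  W + (t : ℂ) • (-(κ * trunc N D) - trunc N D * κ + trunc N D * (trunc N D)ᴴ)

/-- EX4d. Solutions of the truncated equation starting at `0` are positive semidefinite
(`psd_forward` with `s(x) = t N / max N ‖D x‖` and `S = W + t π(D) π(D)ᴴ`). -/
theorem tfield_psd {n : ℕ} (a b : ℝ) (hab : a ≤ b) (N t : ℝ) (hN : 0 < N) (ht : t ∈ Icc (0 : ℝ) 1)
    (κ : Mat n) (hκ : κ.IsHermitian) (W : ℝ → Mat n) (hW : ∀ x ∈ Icc a b, (W x).PosSemidef)
    (D : ℝ → Mat n)
    (hD : ∀ x ∈ Icc a b, HasDerivWithinAt D (tfield N t κ (W x) (D x)) (Icc a b) x)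
    (hDa : D a = 0) : ∀ x ∈ Icc a b, (D x).PosSemidef := by
  have hDc : ContinuousOn D (Icc a b) := fun x hx => (hD x hx).continuousWithinAt
  refine psd_forward a b hab κ hκ D (fun x => W x + (t : ℂ) • (trunc N (D x) * (trunc N (D x))ᴴ))
    (fun x => t * (N / max N ‖D x‖)) ?_ ?_ ?_ ?_
  · refine ContinuousOn.mul continuousOn_const (ContinuousOn.div continuousOn_const
      (ContinuousOn.sup continuousOn_const hDc.norm) fun x _ => ?_)
    exact (lt_of_lt_of_le hN (le_max_left _ _)).ne'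
  · intro x hx
    have h1 := hD x hx
    have e : tfield N t κ (W x) (D x) = (W x + (t : ℂ) • (trunc N (D x) * (trunc N (D x))ᴴ)) -
        ((t * (N / max N ‖D x‖) : ℝ) : ℂ) • (κ * D x + D x * κ) := by
      have e1 : trunc N (D x) = ((N / max N ‖D x‖ : ℝ) : ℂ) • D x := by
        rw [trunc]; exact (Complex.coe_smul _ _).symm
      rw [tfield, Complex.ofReal_mul, mul_smul]
      have e2 : κ * trunc N (D x) + trunc N (D x) * κ =
          ((N / max N ‖D x‖ : ℝ) : ℂ) • (κ * D x + D x * κ) := by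
        rw [e1, Matrix.mul_smul, Matrix.smul_mul, smul_add]
      rw [← e2]
      simp only [smul_add, smul_sub, smul_neg]
      abel
    rw [e] at h1
    exact h1
  · intro x hx
    refine (hW x hx).add ?_
    have : (trunc N (D x) * (trunc N (D x))ᴴ).PosSemidef :=
      Matrix.posSemidef_self_mul_conjTranspose _
    exact this.smul (by exact_mod_cast ht.1)
  · rw [hDa]; exact Matrix.PosSemidef.zero

theorem tcore_norm_le {n : ℕ} (N : ℝ) (hN : 0 < N) (κ D : Mat n) :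
    ‖-(κ * trunc N D) - trunc N D * κ + trunc N D * (trunc N D)ᴴ‖ ≤ 2 * ‖κ‖ * N + N ^ 2 := by
  have hT := trunc_norm_le N hN D
  have hT0 : 0 ≤ ‖trunc N D‖ := norm_nonneg _
  have h1 : ‖κ * trunc N D‖ ≤ ‖κ‖ * N :=
    (Matrix.frobenius_norm_mul _ _).trans (mul_le_mul_of_nonneg_left hT (norm_nonneg _))
  have h2 : ‖trunc N D * κ‖ ≤ ‖κ‖ * N := by
    refine (Matrix.frobenius_norm_mul _ _).trans ?_
    rw [mul_comm]
    exact mul_le_mul_of_nonneg_left hT (norm_nonneg _)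
  have h3 : ‖trunc N D * (trunc N D)ᴴ‖ ≤ N ^ 2 := by
    refine (Matrix.frobenius_norm_mul _ _).trans ?_
    rw [Matrix.frobenius_norm_conjTranspose, sq]
    exact mul_le_mul hT hT hT0 hN.le
  calc _ ≤ ‖-(κ * trunc N D) - trunc N D * κ‖ + ‖trunc N D * (trunc N D)ᴴ‖ := norm_add_le _ _
    _ ≤ ‖-(κ * trunc N D)‖ + ‖trunc N D * κ‖ + ‖trunc N D * (trunc N D)ᴴ‖ := by
        gcongr; exact norm_sub_le _ _
    _ ≤ 2 * ‖κ‖ * N + N ^ 2 := by rw [norm_neg]; linarith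

/-- EX4f. The truncated field is bounded by an explicit constant and globally Lipschitz in `D`. -/
theorem tfield_norm_le {n : ℕ} (N t : ℝ) (hN : 0 < N) (ht : t ∈ Icc (0 : ℝ) 1) (κ W D : Mat n) :
    ‖tfield N t κ W D‖ ≤ ‖W‖ + 2 * ‖κ‖ * N + N ^ 2 := by
  have h := tcore_norm_le N hN κ D
  have hnn : 0 ≤ 2 * ‖κ‖ * N + N ^ 2 := by positivity
  rw [tfield]
  refine (norm_add_le _ _).trans ?_
  rw [norm_smul, Complex.norm_real, Real.norm_of_nonneg ht.1]
  have : t * ‖-(κ * trunc N D) - trunc N D * κ + trunc N D * (trunc N D)ᴴ‖ ≤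
      1 * (2 * ‖κ‖ * N + N ^ 2) := mul_le_mul ht.2 h (norm_nonneg _) zero_le_one
  linarith

theorem tfield_lipschitz {n : ℕ} (N t R : ℝ) (hN : 0 < N) (hR : 0 ≤ R) (ht : t ∈ Icc (0 : ℝ) 1)
    (κ W : Mat n) (hκ : ‖κ‖ ≤ R) :
    LipschitzWith (Real.toNNReal (4 * R + 4 * N)) (fun D => tfield N t κ W D) := by
  refine LipschitzWith.of_dist_le_mul fun D D' => ?_
  rw [dist_eq_norm, dist_eq_norm, Real.coe_toNNReal _ (by positivity)]
  set A := trunc N D with hA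
  set B := trunc N D' with hB
  have hAN : ‖A‖ ≤ N := trunc_norm_le N hN D
  have hBN : ‖B‖ ≤ N := trunc_norm_le N hN D'
  have hAB : ‖A - B‖ ≤ 2 * ‖D - D'‖ := by
    have := (trunc_lipschitz (E := Mat n) N hN).dist_le_mul D D'
    rw [dist_eq_norm, dist_eq_norm] at this
    simpa using this
  have e : tfield N t κ W D - tfield N t κ W D' =
      (t : ℂ) • (-(κ * (A - B)) - (A - B) * κ + ((A - B) * Aᴴ + B * (A - B)ᴴ)) := by
    rw [tfield, tfield, ← hA, ← hB, add_sub_add_left_eq_sub, ← smul_sub]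
    congr 1
    rw [Matrix.conjTranspose_sub]
    simp only [Matrix.sub_mul, Matrix.mul_sub]
    abel
  rw [e, norm_smul, Complex.norm_real, Real.norm_of_nonneg ht.1]
  have h1 : ‖κ * (A - B)‖ ≤ R * ‖A - B‖ :=
    (Matrix.frobenius_norm_mul _ _).trans (mul_le_mul_of_nonneg_right hκ (norm_nonneg _))
  have h2 : ‖(A - B) * κ‖ ≤ R * ‖A - B‖ := by
    refine (Matrix.frobenius_norm_mul _ _).trans ?_
    rw [mul_comm]
    exact mul_le_mul_of_nonneg_right hκ (norm_nonneg _)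
  have h3 : ‖(A - B) * Aᴴ‖ ≤ N * ‖A - B‖ := by
    refine (Matrix.frobenius_norm_mul _ _).trans ?_
    rw [Matrix.frobenius_norm_conjTranspose, mul_comm]
    exact mul_le_mul_of_nonneg_right hAN (norm_nonneg _)
  have h4 : ‖B * (A - B)ᴴ‖ ≤ N * ‖A - B‖ := by
    refine (Matrix.frobenius_norm_mul _ _).trans ?_
    rw [Matrix.frobenius_norm_conjTranspose]
    exact mul_le_mul_of_nonneg_right hBN (norm_nonneg _)
  have h5 : ‖-(κ * (A - B)) - (A - B) * κ + ((A - B) * Aᴴ + B * (A - B)ᴴ)‖ ≤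
      (2 * R + 2 * N) * ‖A - B‖ := by
    calc _ ≤ ‖-(κ * (A - B)) - (A - B) * κ‖ + ‖(A - B) * Aᴴ + B * (A - B)ᴴ‖ := norm_add_le _ _
      _ ≤ (‖-(κ * (A - B))‖ + ‖(A - B) * κ‖) + (‖(A - B) * Aᴴ‖ + ‖B * (A - B)ᴴ‖) :=
          add_le_add (norm_sub_le _ _) (norm_add_le _ _)
      _ ≤ _ := by rw [norm_neg]; linarith
  calc _ ≤ 1 * ((2 * R + 2 * N) * ‖A - B‖) := mul_le_mul ht.2 h5 (norm_nonneg _) zero_le_one
    _ ≤ 1 * ((2 * R + 2 * N) * (2 * ‖D - D'‖)) := by gcongr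
    _ = _ := by ring

/-- EX4g. Dependence on the parameters, uniformly in `D`. -/
theorem tfield_diff {n : ℕ} (N t t' : ℝ) (hN : 0 < N) (ht : t ∈ Icc (0 : ℝ) 1)
    (ht' : t' ∈ Icc (0 : ℝ) 1) (κ κ' W W' D : Mat n) :
    ‖tfield N t κ W D - tfield N t' κ' W' D‖ ≤
      ‖W - W'‖ + 2 * N * ‖κ - κ'‖ + |t - t'| * (2 * ‖κ'‖ * N + N ^ 2) := by
  have hc := tcore_norm_le N hN κ' D
  set A := trunc N D with hA
  have hAN : ‖A‖ ≤ N := trunc_norm_le N hN D
  set X := -(κ' * A) - A * κ' + A * Aᴴ with hX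
  have e : tfield N t κ W D - tfield N t' κ' W' D =
      (W - W') + (t : ℂ) • (-((κ - κ') * A) - A * (κ - κ')) + ((t - t' : ℝ) : ℂ) • X := by
    rw [tfield, tfield, ← hA, Complex.ofReal_sub, sub_smul, hX]
    simp only [Matrix.sub_mul, Matrix.mul_sub, smul_add, smul_sub, smul_neg]
    abel
  rw [e]
  have h1 : ‖(κ - κ') * A‖ ≤ N * ‖κ - κ'‖ := by
    refine (Matrix.frobenius_norm_mul _ _).trans ?_
    rw [mul_comm]
    exact mul_le_mul_of_nonneg_right hAN (norm_nonneg _)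
  have h2 : ‖A * (κ - κ')‖ ≤ N * ‖κ - κ'‖ :=
    (Matrix.frobenius_norm_mul _ _).trans (mul_le_mul_of_nonneg_right hAN (norm_nonneg _))
  have h3 : ‖-((κ - κ') * A) - A * (κ - κ')‖ ≤ 2 * N * ‖κ - κ'‖ := by
    refine (norm_sub_le _ _).trans ?_
    rw [norm_neg]; linarith
  have h4 : ‖(t : ℂ) • (-((κ - κ') * A) - A * (κ - κ'))‖ ≤ 2 * N * ‖κ - κ'‖ := by
    rw [norm_smul, Complex.norm_real, Real.norm_of_nonneg ht.1]
    calc _ ≤ 1 * (2 * N * ‖κ - κ'‖) := mul_le_mul ht.2 h3 (norm_nonneg _) zero_le_one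
      _ = _ := one_mul _
  have h5 : ‖((t - t' : ℝ) : ℂ) • X‖ ≤ |t - t'| * (2 * ‖κ'‖ * N + N ^ 2) := by
    rw [norm_smul, Complex.norm_real, Real.norm_eq_abs]
    exact mul_le_mul_of_nonneg_left hc (abs_nonneg _)
  refine (norm_add_le _ _).trans (add_le_add ((norm_add_le _ _).trans ?_) h5)
  linarith

end SLT
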