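import Mathlib
import Crest.Agent.SLT.Defs
import Crest.Agent.SLT.ExTfield
import Crest.Agent.SLT.ExFrob

/-! Row 332, (E): the a priori bounds. Norm: Frobenius. -/

set_option autoImplicit false

open Set Topology Filter MeasureTheory
open scoped ComplexOrder Matrix Matrix.Norms.Frobenius

namespace SLT

/-- The real trace as a continuous linear functional. -/
private noncomputable def rtrL (n : ℕ) : Mat n →L[ℝ] ℝ :=
  LinearMap.toContinuousLinearMap
    { toFun := fun A => rtr A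
      map_add' := fun A B => by simp [rtr, Matrix.trace_add]
      map_smul' := fun c A => by simp [rtr, Matrix.trace_smul] }

private theorem rtrL_apply {n : ℕ} (A : Mat n) : rtrL n A = rtr A := rfl

private theorem rtr_add {n : ℕ} (A B : Mat n) : rtr (A + B) = rtr A + rtr B := by
  simp [rtr, Matrix.trace_add]

private theorem rtr_sub {n : ℕ} (A B : Mat n) : rtr (A - B) = rtr A - rtr B := by
  simp [rtr, Matrix.trace_sub]

private theorem rtr_neg {n : ℕ} (A : Mat n) : rtr (-A) = -rtr A := by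
  simp [rtr, Matrix.trace_neg]

private theorem rtr_csmul {n : ℕ} (t : ℝ) (A : Mat n) : rtr ((t : ℂ) • A) = t * rtr A := by
  simp [rtr, Matrix.trace_smul]

private theorem rtr_mul_comm {n : ℕ} (A B : Mat n) : rtr (A * B) = rtr (B * A) := by
  simp only [rtr, Matrix.trace_mul_comm A B]

/-- The backward comparison on an interval on which the truncation is inactive. -/
private theorem apriori_aux {n : ℕ} (a b : ℝ) (N t : ℝ) (hN : 0 < N) (ht : t ∈ Icc (0 : ℝ) 1)
    (κ : Mat n) (hκ : κ.PosSemidef) (W : ℝ → Mat n)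
    (hW : ∀ x ∈ Icc a b, (W x).PosSemidef) (D : ℝ → Mat n)
    (hD : ∀ x ∈ Icc a b, HasDerivWithinAt D (tfield N t κ (W x) (D x)) (Icc a b) x)
    (hDp : ∀ x ∈ Icc a b, (D x).PosSemidef) (hDb : D b = κ + κ)
    (c : ℝ) (hc : c ∈ Icc a b) (hcN : ∀ x ∈ Icc c b, ‖D x‖ ≤ N) :
    ∀ x ∈ Icc c b, (κ + κ - D x).PosSemidef := by
  have hsub : Icc c b ⊆ Icc a b := Icc_subset_Icc_left hc.1
  have hherm : ∀ x ∈ Icc c b, (κ + κ - D x).IsHermitian := fun x hx =>
    (hκ.isHermitian.add hκ.isHermitian).sub (hDp x (hsub hx)).isHermitian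
  refine psd_backward c b hc.2 κ hκ.isHermitian (fun x => κ + κ - D x)
    (fun x => W x + (t : ℂ) • ((κ + κ - D x) * (κ + κ - D x))) (fun _ => t) continuousOn_const
    ?_ ?_ ?_
  · intro x hx
    have h1 : HasDerivWithinAt (fun x => κ + κ - D x) (-(tfield N t κ (W x) (D x))) (Icc c b) x :=
      ((hD x (hsub hx)).mono hsub).const_sub (κ + κ)
    have h2 : -(tfield N t κ (W x) (D x)) =
        -(W x + (t : ℂ) • ((κ + κ - D x) * (κ + κ - D x))) +
          (t : ℂ) • (κ * (κ + κ - D x) + (κ + κ - D x) * κ) := by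
      have h3 : trunc N (D x) = D x := trunc_eq N hN _ (hcN x hx)
      have h4 : (D x)ᴴ = D x := (hDp x (hsub hx)).isHermitian
      unfold tfield
      rw [h3, h4, neg_add, neg_add, add_assoc, ← smul_neg, ← smul_neg, ← smul_add]
      congr 2
      noncomm_ring
    rw [← h2]
    exact h1
  · intro x hx
    refine (hW x (hsub hx)).add ?_
    have h5 : ((κ + κ - D x) * (κ + κ - D x)).PosSemidef := by
      have := Matrix.posSemidef_conjTranspose_mul_self (κ + κ - D x)
      rwa [(hherm x hx).eq] at this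
    have h6 : (0 : ℂ) ≤ (t : ℂ) := by exact_mod_cast ht.1
    exact h5.smul h6
  · show (κ + κ - D b).PosSemidef
    rw [hDb, sub_self]
    exact Matrix.PosSemidef.zero

/-- EX4e. A priori bounds for a solution with `D b = 2κ`, `‖κ‖ < N/2`: the truncation is never active,
`0 ≤ D ≤ 2κ`, and `2 tr κ ≤ ∫ tr W`.
Proof. If `‖D x‖ ≥ N` for some `x`, let `x₁` be the largest such point (compactness); `x₁ < b`; on
`[x₁,b]` the truncation is inactive (`‖D‖ ≤ N`, by continuity at `x₁`), `D` is Hermitian (EX4d) and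
`E = 2κ - D` satisfies `E' = -(W + t E²) + t (κ E + E κ)`, `E b = 0`, so `E ≥ 0` on `[x₁,b]` by
`psd_backward`, hence `‖D x₁‖ ≤ 2 ‖κ‖ < N` by `frob_mono`: contradiction. So the truncation is
inactive on `[a,b]` and `0 ≤ D ≤ 2κ` there. Finally
`2 tr κ = tr D(b) - tr D(a) = ∫ tr W - t ∫ tr (D (2κ - D)) ≤ ∫ tr W`. -/
theorem apriori {n : ℕ} (a b : ℝ) (hab : a ≤ b) (N t : ℝ) (hN : 0 < N) (ht : t ∈ Icc (0 : ℝ) 1)
    (κ : Mat n) (hκ : κ.PosSemidef) (hκN : ‖κ‖ < N / 2) (W : ℝ → Mat n)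
    (hWc : ContinuousOn W (Icc a b)) (hW : ∀ x ∈ Icc a b, (W x).PosSemidef) (D : ℝ → Mat n)
    (hD : ∀ x ∈ Icc a b, HasDerivWithinAt D (tfield N t κ (W x) (D x)) (Icc a b) x)
    (hDa : D a = 0) (hDb : D b = κ + κ) :
    (∀ x ∈ Icc a b, (D x).PosSemidef ∧ (κ + κ - D x).PosSemidef ∧ ‖D x‖ ≤ N) ∧
      2 * rtr κ ≤ ∫ x in a..b, rtr (W x) := by
  have hDp := tfield_psd a b hab N t hN ht κ hκ.isHermitian W hW D hD hDa
  have hDc : ContinuousOn D (Icc a b) := fun x hx => (hD x hx).continuousWithinAt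
  have h2κ : ‖κ + κ‖ < N := by
    have := norm_add_le κ κ
    linarith
  have hlt : ∀ x ∈ Icc a b, ‖D x‖ ≤ N := by
    by_contra hcon
    push Not at hcon
    obtain ⟨x₀, hx₀, hx₀N⟩ := hcon
    set S : Set ℝ := Icc a b ∩ (fun x => ‖D x‖) ⁻¹' (Ici N) with hS
    have hScl : IsClosed S := hDc.norm.preimage_isClosed_of_isClosed isClosed_Icc isClosed_Ici
    have hSne : S.Nonempty := ⟨x₀, hx₀, hx₀N.le⟩
    have hSbdd : BddAbove S := ⟨b, fun x hx => hx.1.2⟩
    have hx₁ : sSup S ∈ S := hScl.csSup_mem hSne hSbdd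
    set x₁ := sSup S with hx₁def
    have hgt : ∀ x ∈ Ioc x₁ b, ‖D x‖ < N := by
      intro x hx
      by_contra h
      push Not at h
      have : x ≤ x₁ := le_csSup hSbdd ⟨⟨hx₁.1.1.trans hx.1.le, hx.2⟩, h⟩
      exact absurd hx.1 (not_lt.2 this)
    have hx₁b : x₁ < b := by
      rcases lt_or_eq_of_le hx₁.1.2 with h | h
      · exact h
      · exfalso
        have h1 : N ≤ ‖D x₁‖ := hx₁.2
        rw [h, hDb] at h1
        linarith
    have hx₁N : ‖D x₁‖ ≤ N := by
      have hcw : ContinuousWithinAt (fun x => ‖D x‖) (Ioc x₁ b) x₁ :=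
        (hDc.norm x₁ hx₁.1).mono (fun x hx => ⟨hx₁.1.1.trans hx.1.le, hx.2⟩)
      have hne : (𝓝[Ioc x₁ b] x₁).NeBot := by
        rw [nhdsWithin_Ioc_eq_nhdsGT hx₁b]
        infer_instance
      exact le_of_tendsto hcw (by
        filter_upwards [self_mem_nhdsWithin] with x hx using (hgt x hx).le)
    have hcN : ∀ x ∈ Icc x₁ b, ‖D x‖ ≤ N := by
      intro x hx
      rcases eq_or_lt_of_le hx.1 with h | h
      · rw [← h]; exact hx₁N
      · exact (hgt x ⟨h, hx.2⟩).le
    have hE := apriori_aux a b N t hN ht κ hκ W hW D hD hDp hDb x₁ hx₁.1 hcN x₁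
      ⟨le_rfl, hx₁b.le⟩
    have h3 : ‖D x₁‖ ≤ ‖κ + κ‖ := frob_mono (hDp x₁ hx₁.1) hE
    have h4 : N ≤ ‖D x₁‖ := hx₁.2
    linarith
  have hE := apriori_aux a b N t hN ht κ hκ W hW D hD hDp hDb a ⟨le_rfl, hab⟩ hlt
  refine ⟨fun x hx => ⟨hDp x hx, hE x hx, hlt x hx⟩, ?_⟩
  have hWint : IntegrableOn (fun x => rtr (W x)) (Icc a b) := by
    have : ContinuousOn (fun x => rtr (W x)) (Icc a b) :=
      (rtrL n).continuous.comp_continuousOn hWc
    exact this.integrableOn_Icc
  have hg : ∀ x ∈ Icc a b, HasDerivWithinAt (fun x => rtr (D x))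
      (rtr (tfield N t κ (W x) (D x))) (Icc a b) x := fun x hx =>
    (rtrL n).hasFDerivAt.comp_hasDerivWithinAt x (hD x hx)
  have key := intervalIntegral.sub_le_integral_of_hasDeriv_right_of_le (g := fun x => rtr (D x))
    (g' := fun x => rtr (tfield N t κ (W x) (D x))) (φ := fun x => rtr (W x)) hab
    (fun x hx => (hg x hx).continuousWithinAt)
    (fun x hx => ((hg x (Ioo_subset_Icc_self hx)).mono_of_mem_nhdsWithin
      (Icc_mem_nhdsGT_of_mem (Ioo_subset_Ico_self hx)))) hWint ?_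
  · simp only [hDa, hDb] at key
    have h0 : rtr (0 : Mat n) = 0 := by simp [rtr]
    rw [rtr_add, h0] at key
    linarith
  · intro x hx
    have hx' := Ioo_subset_Icc_self hx
    have h3 : trunc N (D x) = D x := trunc_eq N hN _ (hlt x hx')
    have h4 : (D x)ᴴ = D x := (hDp x hx').isHermitian
    have h5 := rtr_mul_nonneg (hDp x hx') (hE x hx')
    show rtr (tfield N t κ (W x) (D x)) ≤ rtr (W x)
    unfold tfield
    rw [h3, h4, rtr_add, rtr_csmul, rtr_add, rtr_sub, rtr_neg, rtr_mul_comm κ (D x)]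
    rw [mul_sub, mul_add, rtr_sub, rtr_add] at h5
    have h6 : 0 ≤ t * (rtr (D x * κ) + rtr (D x * κ) - rtr (D x * D x)) := mul_nonneg ht.1 h5
    linarith
  
end SLT
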