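import Mathlib
import Crest.Agent.Lib.QT.BrouwerBorsuk

/-! Row 332, (E): Brouwer's fixed point theorem for compact convex sets (from `QT.brouwer_borsuk`). -/

set_option autoImplicit false

namespace SLT

/-- EX1. Brouwer's fixed point theorem in a finite dimensional Hausdorff topological vector space.
Proof: choose a continuous linear equivalence `e : E ≃L[ℝ] EuclideanSpace ℝ (Fin d)`
(`ContinuousLinearEquiv.ofFinrankEq`), transport `X`, and apply `QT.brouwer_borsuk` with
`V = ℝ` (or `EuclideanSpace ℝ (Fin 1)`), `F = EuclideanSpace ℝ (Fin 0)`, `G = 0` and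
`ψ W v = f W` (even in `v`). -/
theorem brouwer {E : Type*} [AddCommGroup E] [Module ℝ E] [TopologicalSpace E]
    [IsTopologicalAddGroup E] [ContinuousSMul ℝ E] [T2Space E] [FiniteDimensional ℝ E]
    (X : Set E) (hX : IsCompact X) (hXc : Convex ℝ X) (hXne : X.Nonempty)
    (f : E → E) (hf : ContinuousOn f X) (hmap : Set.MapsTo f X X) :
    ∃ x ∈ X, f x = x := by
  let e : E ≃L[ℝ] EuclideanSpace ℝ (Fin (Module.finrank ℝ E)) :=
    ContinuousLinearEquiv.ofFinrankEq (by rw [finrank_euclideanSpace_fin])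
  have hsymm : ∀ W ∈ e '' X, e.symm W ∈ X := by
    rintro _ ⟨x, hx, rfl⟩
    simpa using hx
  have hcont : ContinuousOn (fun W => e (f (e.symm W))) (e '' X) :=
    e.continuous.comp_continuousOn
      (hf.comp e.symm.continuous.continuousOn (fun W hW => hsymm W hW))
  obtain ⟨W, hW, v, -, -, hWv⟩ := QT.brouwer_borsuk (V := EuclideanSpace ℝ (Fin 1))
    (E := EuclideanSpace ℝ (Fin (Module.finrank ℝ E))) (F := EuclideanSpace ℝ (Fin 0))
    (by rw [finrank_euclideanSpace_fin, finrank_euclideanSpace_fin])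
    (e '' X) (hX.image e.continuous) (hXc.linear_image e.toLinearEquiv.toLinearMap)
    (hXne.image e) (fun _ _ => 0) continuousOn_const (fun _ _ _ _ => by simp)
    (fun W _ => e (f (e.symm W)))
    (hcont.comp continuous_fst.continuousOn (fun p hp => hp.1))
    (fun _ _ _ _ => rfl)
    (fun W hW v _ => ⟨f (e.symm W), hmap (hsymm W hW), rfl⟩)
  refine ⟨e.symm W, hsymm W hW, ?_⟩
  have := congrArg e.symm hWv
  simpa using this

end SLT
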