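import Mathlib
import Crest.Agent.SLT.Defs
import Crest.Agent.SLT.ExBrouwer
import Crest.Agent.SLT.ExApriori

/-! Row 332, (E): existence of a Riccati path by Brouwer's fixed point theorem. -/

set_option autoImplicit false

open Set Topology Filter MeasureTheory
open scoped ComplexOrder Matrix Matrix.Norms.Frobenius

namespace SLT

theorem isClosed_posSemidef (n : ℕ) : IsClosed {κ : Mat n | κ.PosSemidef} := by
  have h : {κ : Mat n | κ.PosSemidef} =
      {κ : Mat n | κᴴ = κ} ∩ ⋂ v : Fin n → ℂ, {κ : Mat n | 0 ≤ star v ⬝ᵥ (κ *ᵥ v)} := by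
    ext κ
    simp only [mem_ofPred_eq, mem_inter_iff, mem_iInter]
    exact Matrix.posSemidef_iff_dotProduct_mulVec
  rw [h]
  refine IsClosed.inter ?_ (isClosed_iInter fun v => ?_)
  · exact isClosed_eq (by fun_prop) continuous_id
  · exact isClosed_le continuous_const (by fun_prop)

theorem convex_posSemidef (n : ℕ) : Convex ℝ {κ : Mat n | κ.PosSemidef} := by
  intro A hA B hB s t hs ht _
  simp only [mem_ofPred_eq] at hA hB ⊢
  have h1 : (s • A) = ((s : ℂ) • A) := by ext i j; simp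
  have h2 : (t • B) = ((t : ℂ) • B) := by ext i j; simp
  rw [h1, h2]
  exact (hA.smul (by exact_mod_cast hs)).add (hB.smul (by exact_mod_cast ht))

/-- One-sided derivatives on `[a,b]`, constant continuation with matching zero derivatives. -/
theorem extend_hasDerivAt {n : ℕ} {a b : ℝ} (hab : a < b) (D D' : ℝ → Mat n) (ca cb : Mat n)
    (hD : ∀ x ∈ Icc a b, HasDerivWithinAt D (D' x) (Icc a b) x)
    (hDa : D a = ca) (hDb : D b = cb) (ha : D' a = 0) (hb : D' b = 0)
    (hleft : ∀ x, x < a → D' x = 0) (hright : ∀ x, b < x → D' x = 0) (x : ℝ) :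
    HasDerivAt (fun y => if y ≤ a then ca else if b ≤ y then cb else D y) (D' x) x := by
  set G : ℝ → Mat n := fun y => if y ≤ a then ca else if b ≤ y then cb else D y with hG
  have hGD : ∀ y ∈ Icc a b, G y = D y := by
    intro y hy
    rcases eq_or_lt_of_le hy.1 with h | h
    · simp [hG, ← h, hDa]
    · rcases eq_or_lt_of_le hy.2 with h' | h'
      · have : ¬ (y ≤ a) := not_le.2 h
        have h2 : ¬ (b ≤ a) := not_le.2 hab
        simp [hG, h', h2, hDb]
      · simp [hG, not_le.2 h, not_le.2 h']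
  rcases lt_trichotomy x a with h | h | h
  · rw [hleft x h]
    have : G =ᶠ[𝓝 x] fun _ => ca := by
      filter_upwards [Iio_mem_nhds h] with y hy
      simp [hG, le_of_lt (mem_Iio.1 hy)]
    exact (hasDerivAt_const x ca).congr_of_eventuallyEq this
  · subst h
    rw [ha]
    have h1 : HasDerivWithinAt G 0 (Iic x) x := by
      refine (hasDerivWithinAt_const x (Iic x) ca).congr (fun y hy => ?_) ?_
      · simp [hG, mem_Iic.1 hy]
      · simp [hG]
    have h2 : HasDerivWithinAt G 0 (Ici x) x := by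
      have h3 := hD x ⟨le_rfl, hab.le⟩
      rw [ha] at h3
      have h4 : HasDerivWithinAt G 0 (Icc x b) x :=
        h3.congr (fun y hy => hGD y hy) (hGD x ⟨le_rfl, hab.le⟩)
      exact h4.mono_of_mem_nhdsWithin (Icc_mem_nhdsGE hab)
    have := h1.union h2
    rwa [Iic_union_Ici, hasDerivWithinAt_univ] at this
  · rcases lt_trichotomy x b with h' | h' | h'
    · have h3 := (hD x ⟨h.le, h'.le⟩).hasDerivAt (Icc_mem_nhds h h')
      refine h3.congr_of_eventuallyEq ?_
      filter_upwards [Icc_mem_nhds h h'] with y hy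
      exact hGD y hy
    · subst h'
      rw [hb]
      have h1 : HasDerivWithinAt G 0 (Ici x) x := by
        refine (hasDerivWithinAt_const x (Ici x) cb).congr (fun y hy => ?_) ?_
        · have : ¬ (y ≤ a) := not_le.2 (lt_of_lt_of_le h (mem_Ici.1 hy))
          simp [hG, this, mem_Ici.1 hy]
        · simp [hG, not_le.2 h]
      have h2 : HasDerivWithinAt G 0 (Iic x) x := by
        have h3 := hD x ⟨h.le, le_rfl⟩
        rw [hb] at h3
        have h4 : HasDerivWithinAt G 0 (Icc a x) x :=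
          h3.congr (fun y hy => hGD y hy) (hGD x ⟨h.le, le_rfl⟩)
        exact h4.mono_of_mem_nhdsWithin (Icc_mem_nhdsLE h)
      have := h2.union h1
      rwa [Iic_union_Ici, hasDerivWithinAt_univ] at this
    · rw [hright x h']
      have : G =ᶠ[𝓝 x] fun _ => cb := by
        filter_upwards [Ioi_mem_nhds h'] with y hy
        have h2 : ¬ (y ≤ a) := not_le.2 (hab.trans (mem_Ioi.1 hy))
        simp [hG, h2, le_of_lt (mem_Ioi.1 hy)]
      exact (hasDerivAt_const x cb).congr_of_eventuallyEq this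

set_option maxHeartbeats 1600000 in
/-- (E). Existence of a Riccati path, for potentials `V t κ x` depending on the unknown `κ` (only the
value `t = 1` matters; `t ∈ [0,1]` is a homotopy which makes `V` independent of `κ` at `t = 0`). -/
theorem exists_rpath {n : ℕ} {a b : ℝ} (hab : a < b)
    (V : ℝ → Mat n → ℝ → Mat n)
    (hVc : ContinuousOn (fun p : ℝ × Mat n × ℝ => V p.1 p.2.1 p.2.2)
      (Icc (0 : ℝ) 1 ×ˢ {κ : Mat n | κ.PosSemidef} ×ˢ univ))
    (hVpsd : ∀ t ∈ Icc (0 : ℝ) 1, ∀ κ : Mat n, κ.PosSemidef → ∀ x, (V t κ x).PosSemidef)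
    (hV0 : ∀ κ κ' : Mat n, κ.PosSemidef → κ'.PosSemidef → ∀ x, V 0 κ x = V 0 κ' x)
    (hVout : ∀ t ∈ Icc (0 : ℝ) 1, ∀ κ : Mat n, κ.PosSemidef → ∀ x, x ≤ a ∨ b ≤ x → V t κ x = 0)
    (K0 : ℝ) (hK0 : ∀ t ∈ Icc (0 : ℝ) 1, ∀ κ : Mat n, κ.PosSemidef →
      ∫ x in a..b, rtr (V t κ x) ≤ 2 * K0) :
    ∃ (k : Mat n) (F : ℝ → Mat n), RPath k (V 1 k) F a b := by
  classical
  have h01 : (0 : ℝ) ∈ Icc (0 : ℝ) 1 := ⟨le_rfl, zero_le_one⟩
  have h11 : (1 : ℝ) ∈ Icc (0 : ℝ) 1 := ⟨zero_le_one, le_rfl⟩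
  have hps0 : (0 : Mat n).PosSemidef := Matrix.PosSemidef.zero
  -- `V t κ` is continuous in `x`
  have hVcx : ∀ t ∈ Icc (0 : ℝ) 1, ∀ κ : Mat n, κ.PosSemidef → Continuous (V t κ) := by
    intro t ht κ hκ
    rw [← continuousOn_univ]
    exact hVc.comp (f := fun x : ℝ => (t, κ, x)) (by fun_prop)
      (fun x _ => ⟨ht, hκ, mem_univ _⟩)
  have hrtr : ∀ A : Mat n, A.PosSemidef → 0 ≤ rtr A := fun A hA => by
    have := hA.trace_nonneg
    exact (Complex.le_def.1 this).1
  have hK0' : 0 ≤ K0 := by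
    have h1 := hK0 0 h01 0 hps0
    have h2 : 0 ≤ ∫ x in a..b, rtr (V 0 0 x) :=
      intervalIntegral.integral_nonneg hab.le fun x _ => hrtr _ (hVpsd 0 h01 0 hps0 x)
    linarith
  set R : ℝ := K0 + 1 with hR
  set N : ℝ := 2 * R + 1 with hNdef
  have hN : 0 < N := by linarith
  -- the solutions
  set S : Set (ℝ × Mat n) := Icc (0 : ℝ) 1 ×ˢ {κ : Mat n | κ.PosSemidef} with hS
  have hex : ∀ p : ℝ × Mat n, ∃ α : ℝ → Mat n, p ∈ S → (α a = 0 ∧
      ∀ x ∈ Icc a b, HasDerivWithinAt α (tfield N p.1 p.2 (V p.1 p.2 x) (α x)) (Icc a b) x) := by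
    intro p
    by_cases hp : p ∈ S
    · obtain ⟨C, hC⟩ := (isCompact_Icc (a := a) (b := b)).exists_bound_of_continuousOn
        (hVcx p.1 hp.1 p.2 hp.2).continuousOn
      obtain ⟨α, h1, h2⟩ := ode_exists (fun x D => tfield N p.1 p.2 (V p.1 p.2 x) D) a b hab.le
        (Real.toNNReal (4 * ‖p.2‖ + 4 * N)) (C + 2 * ‖p.2‖ * N + N ^ 2)
        (fun x _ => tfield_lipschitz N p.1 ‖p.2‖ hN (norm_nonneg _) hp.1 p.2 _ le_rfl)
        (fun D => by
          have := (hVcx p.1 hp.1 p.2 hp.2).continuousOn (s := Icc a b)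
          simp only [tfield]
          exact this.add continuousOn_const)
        (fun x hx D => (tfield_norm_le N p.1 hN hp.1 p.2 _ D).trans (by
          have := hC x hx
          linarith)) 0
      exact ⟨α, fun _ => ⟨h1, h2⟩⟩
    · exact ⟨fun _ => 0, fun h => absurd h hp⟩
  choose sol hsol using hex
  set H : ℝ × Mat n → Mat n := fun p => (2 : ℝ)⁻¹ • sol p b with hH
  have hsolpsd : ∀ p ∈ S, ∀ x ∈ Icc a b, (sol p x).PosSemidef := by
    intro p hp
    exact tfield_psd a b hab.le N p.1 hN hp.1 p.2 hp.2.isHermitian (fun x => V p.1 p.2 x)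
      (fun x _ => hVpsd p.1 hp.1 p.2 hp.2 x) (sol p) (hsol p hp).2 (hsol p hp).1
  have hHpsd : ∀ p ∈ S, (H p).PosSemidef := by
    intro p hp
    have h1 := hsolpsd p hp b ⟨hab.le, le_rfl⟩
    have h2 : H p = ((2 : ℝ)⁻¹ : ℂ) • sol p b := by
      ext i j; simp [hH]
    rw [h2]
    exact h1.smul (by norm_num [Complex.le_def])
  have hH2 : ∀ p, H p + H p = sol p b := by
    intro p
    rw [hH]
    simp only
    rw [← add_smul]; norm_num
  -- continuity on bounded parts
  have hHc : ∀ R' : ℝ, 0 ≤ R' → ContinuousOn H (S ∩ {p | ‖p.2‖ ≤ R'}) := by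
    intro R' hR'
    have hc : ContinuousOn (fun p => sol p b) (S ∩ {p | ‖p.2‖ ≤ R'}) := by
      refine ode_param (S ∩ {p | ‖p.2‖ ≤ R'})
        (fun p x D => tfield N p.1 p.2 (V p.1 p.2 x) D) a b hab.le
        (Real.toNNReal (4 * R' + 4 * N)) (fun p hp x _ =>
          tfield_lipschitz N p.1 R' hN hR' hp.1.1 p.2 _ hp.2) ?_ 0 sol
        (fun p hp => (hsol p hp.1).1) (fun p hp => (hsol p hp.1).2)
      intro p hp ε hε
      -- uniform closeness of `V`
      have hcont : ContinuousOn (Function.uncurry fun (q : ℝ × Mat n) (x : ℝ) => V q.1 q.2 x)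
          ((S ∩ {p | ‖p.2‖ ≤ R'}) ×ˢ Icc a b) := by
        refine hVc.comp (f := fun z : (ℝ × Mat n) × ℝ => (z.1.1, z.1.2, z.2)) (by fun_prop) ?_
        intro z hz
        exact ⟨hz.1.1.1, hz.1.1.2, mem_univ _⟩
      obtain ⟨v, hv, hv'⟩ := (isCompact_Icc (a := a) (b := b)).mem_uniformity_of_prod
        (f := fun (q : ℝ × Mat n) (x : ℝ) => V q.1 q.2 x) hcont hp
        (Metric.dist_mem_uniformity (half_pos hε))
      have hcl : ∀ᶠ q in 𝓝[S ∩ {p | ‖p.2‖ ≤ R'}] p,
          2 * N * ‖q.2 - p.2‖ + |q.1 - p.1| * (2 * ‖p.2‖ * N + N ^ 2) < ε / 2 := by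
        have hc2 : Continuous fun q : ℝ × Mat n =>
            2 * N * ‖q.2 - p.2‖ + |q.1 - p.1| * (2 * ‖p.2‖ * N + N ^ 2) := by fun_prop
        have h0 : (2 * N * ‖p.2 - p.2‖ + |p.1 - p.1| * (2 * ‖p.2‖ * N + N ^ 2)) < ε / 2 := by
          simp [half_pos hε]
        exact nhdsWithin_le_nhds (hc2.continuousAt.eventually_lt_const h0)
      filter_upwards [hv, hcl, self_mem_nhdsWithin] with q hq1 hq2 hq3 x hx D
      have h1 := hv' q hq1 x hx
      have h2 := tfield_diff N q.1 p.1 hN hq3.1.1 hp.1.1 q.2 p.2 (V q.1 q.2 x) (V p.1 p.2 x) D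
      have h3 : ‖V q.1 q.2 x - V p.1 p.2 x‖ < ε / 2 := by
        rw [← dist_eq_norm]; exact h1
      linarith
    exact hc.const_smul (2 : ℝ)⁻¹
  -- bound for `H` on `‖κ‖ ≤ R`
  obtain ⟨B, hB⟩ : ∃ B : ℝ, ∀ p ∈ S, ‖p.2‖ ≤ R → ‖H p‖ ≤ B := by
    have hcpt : IsCompact (S ∩ {p : ℝ × Mat n | ‖p.2‖ ≤ R}) := by
      have h1 : IsClosed (S ∩ {p : ℝ × Mat n | ‖p.2‖ ≤ R}) := by
        refine IsClosed.inter (isClosed_Icc.prod (isClosed_posSemidef n)) ?_
        exact isClosed_le (by fun_prop) continuous_const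
      have h2 : S ∩ {p : ℝ × Mat n | ‖p.2‖ ≤ R} ⊆
          Icc (0 : ℝ) 1 ×ˢ Metric.closedBall (0 : Mat n) R := by
        intro p hp
        refine ⟨hp.1.1, ?_⟩
        rw [mem_closedBall_zero_iff]
        exact hp.2
      have : ProperSpace (Mat n) := FiniteDimensional.proper_real (Mat n)
      exact (isCompact_Icc.prod (isCompact_closedBall _ _)).of_isClosed_subset h1 h2
    obtain ⟨B, hB⟩ := hcpt.exists_bound_of_continuousOn (hHc R (by linarith))
    exact ⟨B, fun p hp h => hB p ⟨hp, h⟩⟩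
  set R' : ℝ := max R B with hR'
  have hR'0 : 0 ≤ R' := le_trans (by linarith) (le_max_left R B)
  -- the cut-off
  set lam : Mat n → ℝ := fun κ => max 0 (min 1 (R - ‖κ‖)) with hlam
  have hlamc : Continuous lam := by
    simp only [hlam]; fun_prop
  have hlam01 : ∀ κ, lam κ ∈ Icc (0 : ℝ) 1 := fun κ =>
    ⟨le_max_left _ _, max_le zero_le_one (min_le_left _ _)⟩
  -- the constant value at `t = 0`
  set X : Set (Mat n) := {κ : Mat n | κ.PosSemidef} ∩ Metric.closedBall 0 R' with hX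
  have hXc : IsCompact X := by
    have : ProperSpace (Mat n) := FiniteDimensional.proper_real (Mat n)
    exact (isCompact_closedBall _ _).inter_left (isClosed_posSemidef n)
  have hXconv : Convex ℝ X := (convex_posSemidef n).inter (convex_closedBall _ _)
  have hXne : X.Nonempty := ⟨0, hps0, by simpa using hR'0⟩
  have hH0 : ∀ κ : Mat n, κ.PosSemidef → H (0, κ) = H (0, 0) := by
    intro κ hκ
    -- both solve the same ODE
    have e : ∀ κ' : Mat n, κ'.PosSemidef → ∀ x ∈ Icc a b,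
        HasDerivWithinAt (sol (0, κ')) (V 0 0 x) (Icc a b) x := by
      intro κ' hκ' x hx
      have h1 := (hsol (0, κ') ⟨h01, hκ'⟩).2 x hx
      have h2 : tfield N 0 κ' (V 0 κ' x) (sol (0, κ') x) = V 0 0 x := by
        simp [tfield, hV0 κ' 0 hκ' hps0 x]
      simpa [h2] using h1
    have e2 : ∀ κ' : Mat n, κ'.PosSemidef → sol (0, κ') b = ∫ x in a..b, V 0 0 x := by
      intro κ' hκ'
      have hcontV := hVcx 0 h01 0 hps0
      have h1 := intervalIntegral.integral_eq_sub_of_hasDerivAt_of_le hab.le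
        (f := sol (0, κ')) (f' := V 0 0)
        (fun x hx => (e κ' hκ' x hx).continuousWithinAt)
        (fun x hx => (e κ' hκ' x (Ioo_subset_Icc_self hx)).hasDerivAt (Icc_mem_nhds hx.1 hx.2))
        (hcontV.intervalIntegrable _ _)
      rw [h1, (hsol (0, κ') ⟨h01, hκ'⟩).1, sub_zero]
    simp only [hH, e2 κ hκ, e2 0 hps0]
  have hc0 : ‖H (0, 0)‖ ≤ K0 := by
    have hp : ((0 : ℝ), (0 : Mat n)) ∈ S := ⟨h01, hps0⟩
    refine (frob_le_rtr (hHpsd _ hp)).trans ?_
    -- trace of `∫ V / 2`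
    have hcontV := hVcx 0 h01 0 hps0
    have htr : ∀ x ∈ Icc a b, HasDerivWithinAt (fun y => rtr (sol (0, 0) y)) (rtr (V 0 0 x))
        (Icc a b) x := by
      intro x hx
      have h1 := (hsol (0, 0) hp).2 x hx
      have h2 : tfield N 0 0 (V 0 0 x) (sol (0, 0) x) = V 0 0 x := by simp [tfield]
      have h1' : HasDerivWithinAt (sol (0, 0)) (V 0 0 x) (Icc a b) x := by simpa [h2] using h1
      have h3 : ∀ i, HasDerivWithinAt (fun y => sol (0, 0) y i i) (V 0 0 x i i) (Icc a b) x := by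
        intro i
        have := hasDerivWithinAt_pi.1 h1' i
        exact hasDerivWithinAt_pi.1 this i
      have h4 : HasDerivWithinAt (fun y => ∑ i, sol (0, 0) y i i) (∑ i, V 0 0 x i i)
          (Icc a b) x := by
        simpa using HasDerivWithinAt.fun_sum (u := Finset.univ) (fun i _ => h3 i)
      have h5 := Complex.reCLM.hasFDerivAt.comp_hasDerivWithinAt x h4
      simpa [rtr, Matrix.trace, Function.comp_def] using h5
    have hcr : Continuous fun x => rtr (V 0 0 x) := by
      simp only [rtr]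
      exact Complex.continuous_re.comp (hcontV.matrix_trace)
    have h1 := intervalIntegral.integral_eq_sub_of_hasDerivAt_of_le hab.le
        (f := fun y => rtr (sol (0, 0) y)) (f' := fun x => rtr (V 0 0 x))
        (fun x hx => (htr x hx).continuousWithinAt)
        (fun x hx => (htr x (Ioo_subset_Icc_self hx)).hasDerivAt (Icc_mem_nhds hx.1 hx.2))
        (hcr.intervalIntegrable _ _)
    have h2 := hK0 0 h01 0 hps0
    rw [h1, (hsol (0, 0) hp).1] at h2
    have h3 : rtr (H (0, 0)) = 2⁻¹ * rtr (sol (0, 0) b) := by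
      simp [hH, rtr, Matrix.trace_smul]
    have h4 : rtr (0 : Mat n) = 0 := by simp [rtr]
    rw [h4] at h2
    rw [h3]; linarith
  -- the fixed point
  have hcontH : ContinuousOn (fun κ => H (lam κ, κ)) X := by
    have h1 := hHc R' hR'0
    have h2 : Continuous fun κ : Mat n => (lam κ, κ) := hlamc.prodMk continuous_id
    refine h1.comp h2.continuousOn ?_
    intro κ hκ
    refine ⟨⟨hlam01 κ, hκ.1⟩, ?_⟩
    have := hκ.2
    rw [mem_closedBall_zero_iff] at this
    exact this
  obtain ⟨κ, hκX, hκ⟩ := brouwer X hXc hXconv hXne (fun κ => H (lam κ, κ)) hcontH (by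
      intro κ hκ
      refine ⟨hHpsd _ ⟨hlam01 κ, hκ.1⟩, ?_⟩
      rw [mem_closedBall_zero_iff]
      by_cases h : ‖κ‖ ≤ R
      · have hpp : (lam κ, κ) ∈ S := ⟨hlam01 κ, hκ.1⟩
        have h9 : ‖H (lam κ, κ)‖ ≤ B := hB (lam κ, κ) hpp h
        exact h9.trans (le_max_right R B)
      · have h0 : lam κ = 0 := by
          simp only [hlam]
          rw [max_eq_left]
          exact (min_le_right _ _).trans (by linarith)
        have : H (lam κ, κ) = H (0, 0) := by rw [h0]; exact hH0 κ hκ.1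
        simp only [this]
        exact hc0.trans (le_trans (by linarith) (le_max_left R B)))
  have hκ' : H (lam κ, κ) = κ := hκ
  have hκR : ‖κ‖ < R := by
    by_contra hcon
    push Not at hcon
    have h0 : lam κ = 0 := by
      simp only [hlam]
      rw [max_eq_left]
      exact (min_le_right _ _).trans (by linarith)
    rw [h0, hH0 κ hκX.1] at hκ'
    rw [← hκ'] at hcon
    linarith
  have hpS : (lam κ, κ) ∈ S := ⟨hlam01 κ, hκX.1⟩
  have hDb : sol (lam κ, κ) b = κ + κ := by rw [← hH2, hκ']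
  have hap := apriori a b hab.le N (lam κ) hN (hlam01 κ) κ hκX.1 (by rw [hNdef]; linarith)
    (fun x => V (lam κ) κ x) ((hVcx _ (hlam01 κ) κ hκX.1).continuousOn)
    (fun x _ => hVpsd _ (hlam01 κ) κ hκX.1 x) (sol (lam κ, κ)) (hsol _ hpS).2 (hsol _ hpS).1 hDb
  have hlam1 : lam κ = 1 := by
    have h1 : ‖κ‖ ≤ K0 := by
      have h2 := hap.2
      have h3 := hK0 _ (hlam01 κ) κ hκX.1
      have h4 := frob_le_rtr hκX.1
      linarith
    simp only [hlam]
    rw [min_eq_left (by linarith), max_eq_right zero_le_one]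
  rw [hlam1] at hap hDb hpS
  have hsol1 := hsol _ hpS
  set D := sol (1, κ) with hDdef
  have hherm : κᴴ = κ := hκX.1.isHermitian
  have hDderiv : ∀ x ∈ Icc a b,
      HasDerivWithinAt D (V 1 κ x - κ * D x - D x * κ + D x * D x) (Icc a b) x := by
    intro x hx
    have h1 := hsol1.2 x hx
    have h2 : tfield N 1 κ (V 1 κ x) (D x) = V 1 κ x - κ * D x - D x * κ + D x * D x := by
      have h3 : trunc N (D x) = D x := trunc_eq N hN _ (hap.1 x hx).2.2
      have h4 : (D x)ᴴ = D x := (hap.1 x hx).1.isHermitian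
      simp only [tfield, h3, h4, Complex.ofReal_one, one_smul]
      abel
    rwa [h2] at h1
  refine ⟨κ, fun x => κ - (if x ≤ a then 0 else if b ≤ x then κ + κ else D x), ?_⟩
  have hext := fun x => extend_hasDerivAt hab D
    (fun x => if x ∈ Icc a b then V 1 κ x - κ * D x - D x * κ + D x * D x else 0) 0 (κ + κ)
    (fun x hx => by simpa only [if_pos hx] using hDderiv x hx) hsol1.1 hDb
    (by
      rw [if_pos ⟨le_rfl, hab.le⟩, hsol1.1, hVout 1 h11 κ hκX.1 a (Or.inl le_rfl)]
      simp)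
    (by
      rw [if_pos ⟨hab.le, le_rfl⟩, hDb, hVout 1 h11 κ hκX.1 b (Or.inr le_rfl)]
      noncomm_ring)
    (fun x hx => by rw [if_neg (fun h => absurd h.1 (not_le.2 hx))])
    (fun x hx => by rw [if_neg (fun h => absurd h.2 (not_le.2 hx))]) x
  refine ⟨hκX.1, fun x => ?_, fun x hx => ?_, fun x hx => ?_, fun x => ?_, fun x => ?_⟩
  · have h1 := (hext x).const_sub κ
    refine h1.congr_deriv ?_
    by_cases ha : x ≤ a
    · simp only [if_pos ha]
      rw [hVout 1 h11 κ hκX.1 x (Or.inl ha)]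
      by_cases hx : x ∈ Icc a b
      · have : x = a := le_antisymm ha hx.1
        subst this
        rw [if_pos hx, hsol1.1]
        noncomm_ring
      · rw [if_neg hx]; simp
    · by_cases hb : b ≤ x
      · simp only [if_neg ha, if_pos hb]
        rw [hVout 1 h11 κ hκX.1 x (Or.inr hb)]
        by_cases hx : x ∈ Icc a b
        · have : x = b := le_antisymm hx.2 hb
          subst this
          rw [if_pos hx, hDb]
          noncomm_ring
        · rw [if_neg hx]; noncomm_ring
      · simp only [if_neg ha, if_neg hb]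
        have hx : x ∈ Icc a b := ⟨(not_le.1 ha).le, (not_le.1 hb).le⟩
        rw [if_pos hx]
        noncomm_ring
  · simp [hx]
  · have : ¬ (x ≤ a) := not_le.2 (lt_of_lt_of_le hab hx)
    simp [this, hx]
  · rw [sub_sub_cancel]
    by_cases ha : x ≤ a
    · simp only [if_pos ha]; exact hps0
    · by_cases hb : b ≤ x
      · simp only [if_neg ha, if_pos hb]; exact hκX.1.add hκX.1
      · simp only [if_neg ha, if_neg hb]
        exact (hap.1 x ⟨(not_le.1 ha).le, (not_le.1 hb).le⟩).1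
  · by_cases ha : x ≤ a
    · simp only [if_pos ha, sub_zero]; exact hκX.1.add hκX.1
    · by_cases hb : b ≤ x
      · simp only [if_neg ha, if_pos hb]
        have : κ + (κ - (κ + κ)) = 0 := by abel
        rw [this]; exact hps0
      · simp only [if_neg ha, if_neg hb]
        have := (hap.1 x ⟨(not_le.1 ha).le, (not_le.1 hb).le⟩).2.1
        have h2 : κ + (κ - D x) = κ + κ - D x := by abel
        rw [h2]; exact this

/-- (E) for a fixed potential. -/
theorem exists_rpath_const {n : ℕ} {a b : ℝ} (hab : a < b) (V : ℝ → Mat n) (hVc : Continuous V)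
    (hVpsd : ∀ x, (V x).PosSemidef) (hVout : ∀ x, x ≤ a ∨ b ≤ x → V x = 0) :
    ∃ (k : Mat n) (F : ℝ → Mat n), RPath k V F a b :=
  exists_rpath hab (fun _ _ x => V x)
    ((hVc.comp continuous_snd.snd).continuousOn) (fun _ _ _ _ x => hVpsd x)
    (fun _ _ _ _ _ => rfl) (fun _ _ _ _ x hx => hVout x hx)
    ((∫ x in a..b, rtr (V x)) / 2) (fun _ _ _ _ => by linarith)

end SLT
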