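import Crest.Agent.SLT.RedZt
import Crest.Agent.SLT.Const
import Crest.Agent.SLT.ExFix
import Crest.Agent.SLT.ExPos

/-!
# Row 332, reduction (R): the two cases `γ ≥ 1` and `γ < 1`
-/

set_option autoImplicit false

open MeasureTheory Set Filter
open scoped ComplexOrder Matrix Topology

namespace SLT

open Crest.MathPhysics.LiebThirring

variable {m N : ℕ}

/-- The facts about the calibration (owner: helper72) used by the reduction. -/
structure PIFacts (q : ℝ) : Prop where
  nonneg : ∀ {n : ℕ} (k F V : Mat n), k.PosDef → (k - F).PosSemidef → (k + F).PosSemidef →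
    V.PosSemidef → 0 ≤ dPI q k F V
  int : ∀ {n : ℕ} {k : Mat n} {V F : ℝ → Mat n} {a b : ℝ}, a < b → k.PosDef → RPath k V F a b →
    Continuous V → (∀ x, (V x).PosSemidef) →
    IntervalIntegrable (fun x => dPI q k (F x) (V x)) volume a b
  K : ∀ {n : ℕ} {k : Mat n} {V F : ℝ → Mat n} {a b : ℝ}, a < b → k.PosDef → RPath k V F a b →
    Continuous V → (∀ x, (V x).PosSemidef) →
    ∫ x in a..b, dPI q k (F x) (V x) =
      cc q * (∫ x in a..b, tracePow (V x) (1 + q)) - BB q * tracePow k (2 * q + 1)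

theorem integral_symm_of_supp {f : ℝ → ℝ} {R : ℝ} (hR : 0 < R) (h : ∀ x, R ≤ |x| → f x = 0) :
    ∫ x, f x = ∫ x in (-R)..R, f x := by
  rw [intervalIntegral.integral_of_le (by linarith)]
  refine (setIntegral_eq_integral_of_forall_compl_eq_zero fun x hx => ?_).symm
  refine h x ?_
  by_contra hc
  push Not at hc
  exact hx ⟨(abs_lt.1 hc).1, (abs_lt.1 hc).2.le⟩

/-- RED-C0a. Balance + (K). -/
theorem balance_K {q : ℝ} (hq : 0 < q) (PI : PIFacts q) {W : ℝ → Mat m}
    (hW : ∀ i j, Measurable fun x => W x i j) (hWp : ∀ x, (W x).PosSemidef)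
    (hWi : Integrable fun x => tracePow (W x) (1 + q)) (D : DFam W N) {Z : Mat N}
    (hZ : Z.PosDef) {k : Mat N} {F : ℝ → Mat N}
    (hp : RPath k (pot q (fun y => Z * D.Φ y)) F (-D.R) D.R) :
    k.PosDef ∧
    (1 + q) * cc q * (∫ x, hsq (Z * D.Φ' x - F x * (Z * D.Φ x))) +
      (1 + q) * cc q * (∫ x, dY q (W x) ((Z * D.Φ x)ᴴ * (Z * D.Φ x))) +
      (∫ x in (-D.R)..D.R, dPI q k (F x) (pot q (fun y => Z * D.Φ y) x)) +
      BB q * tracePow k (2 * q + 1) +
      (1 + q) * cc q * rtr (Z * Z * (Matrix.diagonal (fun i => (D.lam i : ℂ)) - k * k)) =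
    cc q * ∫ x, tracePow (W x) (1 + q) := by
  have hUc : Continuous fun y => Z * D.Φ y := by
    have := D.continuous
    fun_prop
  have hU'c : Continuous fun y => Z * D.Φ' y := by
    have := D.hΦ'
    fun_prop
  have hVc := pot_continuous hq hUc
  have hk : k.PosDef := hp.posDef (pot_ne hq D hZ)
  refine ⟨hk, ?_⟩
  have hU : ∀ x, HasDerivAt (fun y => Z * D.Φ y) (Z * D.Φ' x) x := by
    intro x
    have h0 : HasDerivAt (fun _ : ℝ => Z) (0 : Mat N) x := by
      rw [hasDerivAt_mat]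
      intro i j
      exact hasDerivAt_const x _
    have := hasDerivAt_mat_mul h0 (D.hΦ x)
    simpa using this
  have hs : HasCompactSupport fun y => Z * D.Φ y := by
    refine D.hcs.mono' ?_
    intro x hx
    refine subset_tsupport _ ?_
    intro h
    apply hx
    simp [h]
  have hsquare := hp.square hVc (fun y => Z * D.Φ y) (fun y => Z * D.Φ' y) hU hU'c hs
  have hbal := balance hq hW hWp hWi D hZ.isHermitian k F hsquare
  have hK := PI.K (by linarith [D.R_pos]) hk hp hVc (fun x => pot_psd _ _ x)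
  have hint : ∫ x in (-D.R)..D.R, tracePow (pot q (fun y => Z * D.Φ y) x) (1 + q) =
      ∫ x, tracePow (pot q (fun y => Z * D.Φ y) x) (1 + q) := by
    refine (integral_symm_of_supp D.R_pos fun x hx => ?_).symm
    exact pot_pow_zero hq (by rw [D.supp x hx, Matrix.mul_zero])
  rw [hint] at hK
  have h1q : (1 + q) ≠ 0 := by positivity
  have hbal' := congrArg (fun t => (1 + q) * cc q * t) hbal
  simp only [mul_add] at hbal'
  have e1 : ∀ t : ℝ, (1 + q) * cc q * (1 / (1 + q) * t) = cc q * t := by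
    intro t; field_simp
  rw [e1, e1] at hbal'
  rw [hK]
  linarith

/-- RED-C0b. Assembly of `Red`. -/
theorem red_of_path {q : ℝ} (hq : 0 < q) (PI : PIFacts q) {W : ℝ → Mat m}
    (hW : ∀ i j, Measurable fun x => W x i j) (hWp : ∀ x, (W x).PosSemidef)
    (hWi : Integrable fun x => tracePow (W x) (1 + q)) (D : DFam W N) {Z : Mat N}
    (hZ : Z.PosDef) {k : Mat N} {F : ℝ → Mat N}
    (hp : RPath k (pot q (fun y => Z * D.Φ y)) F (-D.R) D.R) {L δ : ℝ}
    (hL : BB q * L ≤ BB q * tracePow k (2 * q + 1) +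
      (1 + q) * cc q * rtr (Z * Z * (Matrix.diagonal (fun i => (D.lam i : ℂ)) - k * k)) + δ) :
    Nonempty (Red q W L δ) := by
  obtain ⟨hk, hbal⟩ := balance_K hq PI hW hWp hWi D hZ hp
  have hUc : Continuous fun y => Z * D.Φ y := by
    have := D.continuous
    fun_prop
  have hU'c : Continuous fun y => Z * D.Φ' y := by
    have := D.hΦ'
    fun_prop
  refine ⟨{ N := N, k := k, F := F, U := fun y => Z * D.Φ y, U' := fun y => Z * D.Φ' y,
            a := -D.R, b := D.R, hab := by linarith [D.R_pos], k_pd := hk, path := hp,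
            potc := pot_continuous hq hUc, hU := ?_, hU' := hU'c, supp := ?_, total := ?_ }⟩
  · intro x
    have h0 : HasDerivAt (fun _ : ℝ => Z) (0 : Mat N) x := by
      rw [hasDerivAt_mat]
      intro i j
      exact hasDerivAt_const x _
    have := hasDerivAt_mat_mul h0 (D.hΦ x)
    simpa using this
  · intro x hx
    have : D.R ≤ |x| := by
      rcases hx with h | h
      · rw [abs_of_nonpos (by linarith [D.R_pos])]; linarith
      · rw [abs_of_nonneg (by linarith [D.R_pos])]; exact h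
    simp only [D.supp x this, Matrix.mul_zero]
  · linarith

/-- RED-C1. The case `γ ≥ 1` (`Z² = κ₀ Λ^(γ-1)` constant). -/
theorem red_case1 {γ : ℝ} (hγ : 1 ≤ γ) (PI : PIFacts (γ - 1 / 2)) {W : ℝ → Mat m}
    (hW : ∀ i j, Measurable fun x => W x i j) (hWp : ∀ x, (W x).PosSemidef)
    (hWi : Integrable fun x => tracePow (W x) (1 + (γ - 1 / 2))) (D : DFam W N) {δ : ℝ}
    (hδ : 0 < δ) : Nonempty (Red (γ - 1 / 2) W (∑ i, D.lam i ^ γ) δ) := by
  have hq : 0 < γ - 1 / 2 := by linarith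
  have hB : 0 < BB (γ - 1 / 2) := BB_pos (by linarith)
  have hc : 0 < cc (γ - 1 / 2) := cc_pos hq
  set q : ℝ := γ - 1 / 2 with hqdef
  set κ₀ : ℝ := γ * BB q / ((1 + q) * cc q) with hκ₀
  have hκ₀p : 0 < κ₀ := by positivity
  set Z : Mat N := Matrix.diagonal fun i => ((Real.sqrt (κ₀ * D.lam i ^ (γ - 1)) : ℝ) : ℂ) with hZdef
  have hpos : ∀ i, 0 < κ₀ * D.lam i ^ (γ - 1) := fun i =>
    mul_pos hκ₀p (Real.rpow_pos_of_pos (D.lam_pos i) _)
  have hZ : Z.PosDef := by
    rw [hZdef]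
    refine Matrix.PosDef.diagonal fun i => ?_
    have := Real.sqrt_pos.2 (hpos i)
    exact_mod_cast this
  have hZZ : Z * Z = (κ₀ : ℂ) • mpow (Matrix.diagonal fun i => (D.lam i : ℂ)) (γ - 1) := by
    rw [hZdef, Matrix.diagonal_mul_diagonal, mpow_diagonal, ← Matrix.diagonal_smul]
    congr 1
    funext i
    simp only [Pi.smul_apply, smul_eq_mul]
    rw [← Complex.ofReal_mul, Real.mul_self_sqrt (hpos i).le]
    push_cast
    rfl
  have hUc : Continuous fun y => Z * D.Φ y := by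
    have := D.continuous
    fun_prop
  obtain ⟨k, F, hp⟩ := exists_rpath_const (a := -D.R) (b := D.R) (by linarith [D.R_pos])
    (pot q (fun y => Z * D.Φ y)) (pot_continuous hq hUc) (fun x => pot_psd _ _ x) (by
      intro x hx
      have : D.R ≤ |x| := by
        rcases hx with h | h
        · rw [abs_of_nonpos (by linarith [D.R_pos])]; linarith
        · rw [abs_of_nonneg (by linarith [D.R_pos])]; exact h
      exact pot_zero hq (by rw [D.supp x this, Matrix.mul_zero]))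
  refine red_of_path hq PI hW hWp hWi D hZ hp ?_
  have hΛ : (Matrix.diagonal fun i => (D.lam i : ℂ)).PosDef := by
    refine Matrix.PosDef.diagonal fun i => ?_
    exact_mod_cast D.lam_pos i
  have hkk : (k * k).PosSemidef := by
    have := Matrix.posSemidef_conjTranspose_mul_self k
    rwa [hp.hk.isHermitian.eq] at this
  have h1 := klein_convex hΛ hkk hγ
  have h2 : tracePow (k * k) γ = tracePow k (2 * q + 1) := by
    change rtr (mpow (k * k) γ) = rtr (mpow k (2 * q + 1))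
    rw [← mpow_two hp.hk, mpow_mpow_eq hp.hk]
    congr 2
    rw [hqdef]; ring
  have h3 : tracePow (Matrix.diagonal fun i => (D.lam i : ℂ)) γ = ∑ i, D.lam i ^ γ := by
    change rtr (mpow _ γ) = _
    rw [mpow_diagonal, rtr, Matrix.trace_diagonal, Complex.re_sum]
    simp
  rw [h2, h3] at h1
  have h4 : (1 + q) * cc q * κ₀ = γ * BB q := by
    rw [hκ₀]; field_simp
  rw [hZZ, Matrix.smul_mul, rtr_smul]
  have h5 := mul_le_mul_of_nonneg_left h1 hB.le
  rw [← mul_assoc ((1 + q) * cc q), h4]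
  linarith

/-- RED-C2. The case `1/2 < γ < 1`. -/
theorem red_case2 {γ : ℝ} (hγ0 : 1 / 2 < γ) (hγ : γ < 1) (PI : PIFacts (γ - 1 / 2)) {W : ℝ → Mat m}
    (hW : ∀ i j, Measurable fun x => W x i j) (hWp : ∀ x, (W x).PosSemidef)
    (hWi : Integrable fun x => tracePow (W x) (1 + (γ - 1 / 2))) (D : DFam W N) {δ : ℝ}
    (hδ : 0 < δ) : Nonempty (Red (γ - 1 / 2) W (∑ i, D.lam i ^ γ) δ) := by
  have hq : 0 < γ - 1 / 2 := by linarith
  have hq1 : γ - 1 / 2 ≤ 1 := by linarith
  have hq1' : γ - 1 / 2 < 1 := by linarith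
  have hB : 0 < BB (γ - 1 / 2) := BB_pos (by linarith)
  have hc : 0 < cc (γ - 1 / 2) := cc_pos hq
  have h2γ : 2 * (γ - 1 / 2) + 1 = 2 * γ := by ring
  set q : ℝ := γ - 1 / 2 with hqdef
  set κ₀ : ℝ := γ * BB q / ((1 + q) * cc q) with hκ₀
  have hκ₀p : 0 < κ₀ := by
    have : 0 < γ := by linarith
    positivity
  have hκc : (1 + q) * cc q * κ₀ = γ * BB q := by
    rw [hκ₀]; field_simp
  set I : ℝ := ∫ x, tracePow (W x) (1 + q) with hI
  obtain ⟨ε, hε, hε1, hsh⟩ := exists_shift N (s := 2 * γ)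
    (C := cc q * I / ((1 - γ) * BB q)) (δ := δ / BB q) (by linarith) (by positivity)
  obtain ⟨K0, hK0⟩ := pot_trace_le hq hq1 D (α := γ - 1) hκ₀p hε hε1 (by linarith)
  obtain ⟨k, F, hp⟩ := exists_rpath (a := -D.R) (b := D.R) (by linarith [D.R_pos])
    (fun t κ x => pot q (fun y => Zt κ₀ ε (γ - 1) t κ * D.Φ y) x)
    (pot_continuousOn hq D hκ₀p hε) (fun t _ κ _ x => pot_psd _ _ x)
    (by
      intro κ κ' hκ hκ' x
      have e : ∀ κ : Mat N, κ.PosSemidef → Zt κ₀ ε (γ - 1) 0 κ = (Real.sqrt κ₀ : ℂ) • 1 := by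
        intro κ hκ
        unfold Zt
        congr 1
        simp only [zero_mul, Real.rpow_zero]
        exact cfc_one_fun hκ.isHermitian
      simp only [e κ hκ, e κ' hκ'])
    (by
      intro t _ κ _ x hx
      have : D.R ≤ |x| := by
        rcases hx with h | h
        · rw [abs_of_nonpos (by linarith [D.R_pos])]; linarith
        · rw [abs_of_nonneg (by linarith [D.R_pos])]; exact h
      exact pot_zero hq (by rw [D.supp x this, Matrix.mul_zero])) K0 hK0
  have hZ : (Zt κ₀ ε (γ - 1) 1 k).PosDef := Zt_posDef hκ₀p hε 1 hp.hk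
  have hp' : RPath k (pot q (fun y => Zt κ₀ ε (γ - 1) 1 k * D.Φ y)) F (-D.R) D.R := hp
  obtain ⟨hk, hbal⟩ := balance_K hq PI hW hWp hWi D hZ hp'
  have hZZ := Zt_sq (α := γ - 1) hκ₀p hε hp.hk
  set Mk : Mat N := cfc (fun s : ℝ => (s + ε) ^ (2 * (γ - 1))) k with hMk
  set Δ : Mat N := Matrix.diagonal (fun i => (D.lam i : ℂ)) - k * k with hΔ
  have hT : (1 + q) * cc q * rtr (Zt κ₀ ε (γ - 1) 1 k * Zt κ₀ ε (γ - 1) 1 k * Δ) =
      γ * BB q * rtr (Mk * Δ) := by
    rw [hZZ, Matrix.smul_mul, rtr_smul, ← mul_assoc, hκc]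
  rw [hT, h2γ] at hbal
  -- a priori bound
  have hlow := case2_lower (by linarith : 0 < γ) hγ.le hε hk D.lam D.lam_pos
  rw [← hΔ, ← hMk] at hlow
  have hPI : 0 ≤ ∫ x in (-D.R)..D.R,
      dPI q k (F x) (pot q (fun y => Zt κ₀ ε (γ - 1) 1 k * D.Φ y) x) :=
    intervalIntegral.integral_nonneg (by linarith [D.R_pos]) fun x _ =>
      PI.nonneg _ _ _ hk (hp.le x) (hp.ge x) (pot_psd _ _ _)
  have hH : 0 ≤ ∫ x, hsq (Zt κ₀ ε (γ - 1) 1 k * D.Φ' x -
      F x * (Zt κ₀ ε (γ - 1) 1 k * D.Φ x)) := integral_nonneg fun x => hsq_nonneg _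
  have hY : 0 ≤ ∫ x, dY q (W x) ((Zt κ₀ ε (γ - 1) 1 k * D.Φ x)ᴴ *
      (Zt κ₀ ε (γ - 1) 1 k * D.Φ x)) :=
    integral_nonneg fun x => dY_nonneg hq hq1' (hWp x) (Matrix.posSemidef_conjTranspose_mul_self _)
  have hpc : 0 < (1 + q) * cc q := by positivity
  have hap : tracePow k (2 * γ) ≤ cc q * I / ((1 - γ) * BB q) := by
    rw [le_div_iff₀ (by have : 0 < 1 - γ := by linarith
                        positivity)]
    have h1 := mul_nonneg hpc.le hH
    have h2 := mul_nonneg hpc.le hY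
    have hγp : 0 < γ := by linarith
    have h3 := mul_le_mul_of_nonneg_left hlow (by positivity : 0 ≤ γ * BB q)
    nlinarith
  have hs2 := hsh k hp.hk hap
  have hkl := case2_klein (by linarith : 0 < γ) hγ.le hε hp.hk D.lam D.lam_pos
  rw [← hΔ, ← hMk] at hkl
  refine red_of_path hq PI hW hWp hWi D hZ hp' ?_
  rw [← hΔ, hT, h2γ]
  have h5 : ∑ i, D.lam i ^ γ ≤ tracePow k (2 * γ) + δ / BB q + γ * rtr (Mk * Δ) := by linarith
  have h6 := mul_le_mul_of_nonneg_left h5 hB.le
  have h7 : BB q * (tracePow k (2 * γ) + δ / BB q + γ * rtr (Mk * Δ)) =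
      BB q * tracePow k (2 * γ) + γ * BB q * rtr (Mk * Δ) + δ := by
    field_simp
    ring
  linarith

end SLT
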