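import Crest.Agent.SLT.PINonneg
import Crest.Agent.SLT.KMain
import Crest.Agent.SLT.RedCase

/-! Row 332: the calibration facts `PIFacts q` used by the reduction. -/

set_option autoImplicit false

open MeasureTheory Set Filter Topology
open scoped ComplexOrder Matrix

namespace SLT

open Crest.MathPhysics.LiebThirring

private theorem continuous_rtr_mpow {n : ℕ} {V : ℝ → Mat n} (hV : Continuous V)
    (hVp : ∀ x, (V x).PosSemidef) {s : ℝ} (hs : 0 < s) :
    Continuous fun x => rtr (mpow (V x) s) := by
  have h1 : ContinuousOn (fun x => mpow (V x) s) univ :=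
    continuousOn_mpow hs (fun x _ => hVp x) hV.continuousOn
  rw [continuousOn_univ] at h1
  simp only [rtr]
  exact Complex.continuous_re.comp h1.matrix_trace

theorem dPI_continuous {n : ℕ} {q : ℝ} (hq : 0 < q) (hq' : q < 1) {k : Mat n} (hk : k.PosSemidef)
    {F V : ℝ → Mat n} (hF : Continuous F) (hV : Continuous V) (hKF : ∀ x, KF k (F x))
    (hVp : ∀ x, (V x).PosSemidef) : Continuous fun x => dPI q k (F x) (V x) := by
  have h1 := continuous_rtr_mpow hV hVp (s := 1 + q) (by linarith)
  have h2 := (pihat_fubini hq hq' hk hF (Z := fun x => V x - (k * k - F x * F x))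
    (by fun_prop) hKF le_rfl (a := 0) (b := 0)).1
  exact (h1.const_mul _).sub h2

theorem piFacts {q : ℝ} (hq : 0 < q) (hq' : q < 1) : PIFacts q where
  nonneg k F V hk h1 h2 hV := dPI_nonneg hq hq' ⟨hk.posSemidef, h1, h2⟩ hV
  int {n k V F a b} hab hk h hV hVp :=
    (dPI_continuous hq hq' hk.posSemidef h.continuous hV (fun x => ⟨h.hk, h.le x, h.ge x⟩)
      hVp).intervalIntegrable a b
  K {n k V F a b} hab hk h hV hVp :=
    integral_dPI hq hq' hab.le h hV
      ((continuous_rtr_mpow hV hVp (s := 1 + q) (by linarith)).intervalIntegrable a b)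

end SLT
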