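import Crest.Agent.SLT.RedW

/-!
# Row 332, reduction (R): diagonalisation of the energy matrix
-/

set_option autoImplicit false

open MeasureTheory Set Filter
open scoped ComplexOrder Matrix Topology ContDiff

namespace SLT

open Crest.MathPhysics.LiebThirring

variable {m : ℕ}

/-- The matrix whose rows are the conjugated vectors `φ_k(x)`. -/
noncomputable def rdX {n m : ℕ} (φ : Fin n → ℝ → Vec m) (x : ℝ) : RMat n m :=
  Matrix.of fun k j => star ((φ k x) j)

theorem rd_inner {n m : ℕ} (φ : Fin n → ℝ → Vec m) (x : ℝ) (k l : Fin n) :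
    inner ℂ (φ k x) (φ l x) = (rdX φ x * (rdX φ x)ᴴ) k l := by
  rw [EuclideanSpace.inner_eq_star_dotProduct]
  simp only [rdX, Matrix.mul_apply, dotProduct, Matrix.conjTranspose_apply, Matrix.of_apply,
    star_star, Pi.star_apply]
  exact Finset.sum_congr rfl fun j _ => mul_comm _ _

theorem rd_inner_W {n m : ℕ} (φ : Fin n → ℝ → Vec m) (W : Mat m) (x : ℝ) (k l : Fin n) :
    inner ℂ (φ k x) (Matrix.toEuclideanLin W (φ l x)) = (rdX φ x * W * (rdX φ x)ᴴ) k l := by
  have h0 : (Matrix.toEuclideanLin W (φ l x)).ofLp = W *ᵥ (φ l x).ofLp := rfl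
  rw [EuclideanSpace.inner_eq_star_dotProduct, h0, Matrix.mul_assoc]
  simp only [rdX, Matrix.mul_apply, dotProduct, Matrix.conjTranspose_apply, Matrix.of_apply,
    star_star, Pi.star_apply, Matrix.mulVec]
  exact Finset.sum_congr rfl fun j _ => mul_comm _ _

theorem rd_hasDerivAt_mat {n m : ℕ} {A : ℝ → RMat n m} {A' : RMat n m} {x : ℝ} :
    HasDerivAt A A' x ↔ ∀ i j, HasDerivAt (fun y => A y i j) (A' i j) x := by
  constructor
  · intro h i j
    have h1 := (hasDerivAt_pi (φ := fun y => (A y : Fin n → Fin m → ℂ))).1 h i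
    exact hasDerivAt_pi.1 h1 j
  · intro h
    exact (hasDerivAt_pi (φ := fun y => (A y : Fin n → Fin m → ℂ))).2
      (fun i => hasDerivAt_pi.2 (h i))

theorem rd_deriv {n m : ℕ} {φ : Fin n → ℝ → Vec m} (h : ∀ k, ContDiff ℝ ∞ (φ k)) (x : ℝ) :
    HasDerivAt (rdX φ) (rdX (fun k => deriv (φ k)) x) x := by
  rw [rd_hasDerivAt_mat]
  intro k j
  have h1 : HasDerivAt (φ k) (deriv (φ k) x) x :=
    ((h k).differentiable (by simp)).differentiableAt.hasDerivAt
  have h2 : HasDerivAt (fun y => (φ k y) j) ((deriv (φ k) x) j) x := by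
    have := ((EuclideanSpace.proj (𝕜 := ℂ) j : Vec m →L[ℂ] ℂ).restrictScalars
      ℝ).hasFDerivAt.comp_hasDerivAt x h1
    exact this
  exact h2.star

theorem rd_cont {n m : ℕ} {φ : Fin n → ℝ → Vec m} (h : ∀ k, Continuous (φ k)) :
    Continuous (rdX φ) := by
  refine continuous_matrix fun k j => ?_
  exact ((EuclideanSpace.proj (𝕜 := ℂ) j : Vec m →L[ℂ] ℂ).continuous.comp (h k)).star

theorem rd_int_conj {n N : ℕ} (V : RMat N n) (Y : ℝ → Mat n)
    (hY : ∀ k l, Integrable fun x => Y x k l) (i j : Fin N) :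
    ∫ x, (V * Y x * Vᴴ) i j = (V * (Matrix.of fun k l => ∫ x, Y x k l) * Vᴴ) i j := by
  simp only [Matrix.mul_apply, Matrix.conjTranspose_apply, Matrix.of_apply]
  rw [integral_finsetSum]
  · refine Finset.sum_congr rfl fun l _ => ?_
    rw [integral_mul_const]
    congr 1
    rw [integral_finsetSum]
    · exact Finset.sum_congr rfl fun k _ => integral_const_mul _ _
    · exact fun k _ => (hY k l).const_mul _
  · intro l _
    refine Integrable.mul_const ?_ _
    exact integrable_finsetSum _ fun k _ => (hY k l).const_mul _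

/-- RED-D. Diagonalisation: if `A = energyMatrix W φ` has eigenvalues `a_i` and eigenvectors `u_i`
(`A = u diag(a) uᴴ`), take the `i` with `a_i < 0`, `ψ_i = ∑_j u_ji φ_j`, `lam = -a_i`,
`Φ x i j = star (ψ_i(x)_j)`. -/
theorem exists_dfam {p : ℝ} (hp : 1 ≤ p) {W : ℝ → Mat m}
    (hW : ∀ i j, Measurable fun x => W x i j) (hWp : ∀ x, (W x).PosSemidef)
    (hWi : Integrable fun x => tracePow (W x) p) {n : ℕ} (φ : Fin n → ℝ → Vec m)
    (hφ : IsTrialFamily φ) {g : ℝ} (hg : 0 < g) :
    ∃ (N : ℕ) (D : DFam W N), negMoment (energyMatrix W φ) g = ∑ i, D.lam i ^ g := by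
  classical
  obtain ⟨hsm, hcs, horth⟩ := hφ
  set X : ℝ → RMat n m := rdX φ with hX
  set X' : ℝ → RMat n m := rdX (fun k => deriv (φ k)) with hX'
  have hXd : ∀ x, HasDerivAt X (X' x) x := fun x => rd_deriv hsm x
  have hXc : Continuous X := rd_cont fun k => (hsm k).continuous
  have hXc' : Continuous X' := rd_cont fun k => (hsm k).continuous_deriv (by simp)
  -- common support radius
  have hR : ∀ k, ∃ R : ℝ, 0 < R ∧ ∀ x : ℝ, R ≤ |x| → φ k x = 0 ∧ deriv (φ k) x = 0 := by
    intro k
    obtain ⟨R1, hR1, h1⟩ := (hcs k).exists_pos_le_norm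
    obtain ⟨R2, hR2, h2⟩ := (hcs k).deriv.exists_pos_le_norm
    refine ⟨max R1 R2, lt_max_of_lt_left hR1, fun x hx => ⟨h1 x ?_, h2 x ?_⟩⟩
    · rw [Real.norm_eq_abs]; exact (le_max_left _ _).trans hx
    · rw [Real.norm_eq_abs]; exact (le_max_right _ _).trans hx
  choose Rk hRk hRk' using hR
  set R : ℝ := ∑ k, Rk k + 1 with hRdef
  have hRpos : 0 < R := by
    have : 0 ≤ ∑ k, Rk k := Finset.sum_nonneg fun k _ => (hRk k).le
    linarith
  have hRle : ∀ k, Rk k ≤ R := fun k => by
    have : Rk k ≤ ∑ k, Rk k :=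
      Finset.single_le_sum (f := Rk) (fun j _ => (hRk j).le) (Finset.mem_univ k)
    linarith
  have hX0 : ∀ x, R ≤ |x| → X x = 0 := by
    intro x hx
    ext k j
    simp [hX, rdX, (hRk' k x ((hRle k).trans hx)).1]
  have hX0' : ∀ x, R ≤ |x| → X' x = 0 := by
    intro x hx
    ext k j
    simp [hX', rdX, (hRk' k x ((hRle k).trans hx)).2]
  have habs : ∀ x, x ∉ Icc (-R) R → R ≤ |x| := by
    intro x hx
    by_contra hc
    push Not at hc
    exact hx ⟨(abs_lt.1 hc).1.le, (abs_lt.1 hc).2.le⟩
  have hXcs : HasCompactSupport X :=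
    HasCompactSupport.intro isCompact_Icc fun x hx => hX0 x (habs x hx)
  -- integrability
  have hint1 : ∀ k l, Integrable fun x => (X x * (X x)ᴴ) k l := by
    intro k l
    refine Continuous.integrable_of_hasCompactSupport ?_
      (HasCompactSupport.intro (isCompact_Icc (a := -R) (b := R)) fun x hx => ?_)
    · exact (hXc.matrix_mul hXc.matrix_conjTranspose).matrix_elem k l
    · simp [hX0 x (habs x hx)]
  have hint2 : ∀ k l, Integrable fun x => (X' x * (X' x)ᴴ) k l := by
    intro k l
    refine Continuous.integrable_of_hasCompactSupport ?_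
      (HasCompactSupport.intro (isCompact_Icc (a := -R) (b := R)) fun x hx => ?_)
    · exact (hXc'.matrix_mul hXc'.matrix_conjTranspose).matrix_elem k l
    · simp [hX0' x (habs x hx)]
  have hint3 : ∀ k l, Integrable fun x => (X x * W x * (X x)ᴴ) k l := fun k l =>
    integrable_sandwich hW hWp hp hWi X X hXc hXc hXcs k l
  set Y : ℝ → Mat n := fun x => X' x * (X' x)ᴴ - X x * W x * (X x)ᴴ with hY
  have hYi : ∀ k l, Integrable fun x => Y x k l := fun k l => by
    simp only [hY, Matrix.sub_apply]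
    exact (hint2 k l).sub (hint3 k l)
  set A : Mat n := energyMatrix W φ with hAdef
  have hAY : A = Matrix.of fun k l => ∫ x, Y x k l := by
    ext k l
    rw [hAdef, energyMatrix, Matrix.of_apply, Matrix.of_apply]
    refine integral_congr_ae (Eventually.of_forall fun x => ?_)
    simp only [hY, Matrix.sub_apply]
    rw [rd_inner_W φ (W x) x k l, rd_inner (fun k => deriv (φ k)) x k l]
  have hYh : ∀ x, (Y x).IsHermitian := by
    intro x
    simp only [hY]
    refine (Matrix.isHermitian_mul_conjTranspose_self _).sub ?_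
    exact Matrix.isHermitian_mul_mul_conjTranspose _ (hWp x).isHermitian
  have hA : A.IsHermitian := by
    rw [hAY]
    ext k l
    rw [Matrix.conjTranspose_apply, Matrix.of_apply, Matrix.of_apply]
    have h1 : star (∫ x, Y x l k) = ∫ x, star (Y x l k) := by
      have := (integral_conj (μ := volume) (f := fun x => Y x l k))
      exact this.symm
    rw [h1]
    refine integral_congr_ae (Eventually.of_forall fun x => ?_)
    exact (hYh x).apply k l
  set U : Mat n := (hA.eigenvectorUnitary : Mat n) with hU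
  have hUU : Uᴴ * U = 1 := by
    rw [hU]; exact Unitary.coe_star_mul_self _
  have hspec : A = U * Matrix.diagonal (fun i => (hA.eigenvalues i : ℂ)) * Uᴴ := by
    have := hA.spectral_theorem
    rw [Unitary.conjStarAlgAut_apply] at this
    exact this
  have hUAU : Uᴴ * A * U = Matrix.diagonal (fun i => (hA.eigenvalues i : ℂ)) := by
    calc Uᴴ * A * U = (Uᴴ * U) * Matrix.diagonal (fun i => (hA.eigenvalues i : ℂ)) * (Uᴴ * U) := by
          conv_lhs => rw [hspec]
          simp only [Matrix.mul_assoc]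
      _ = _ := by rw [hUU, Matrix.one_mul, Matrix.mul_one]
  set N : ℕ := Fintype.card {i // hA.eigenvalues i < 0} with hN
  set e : Fin N ≃ {i // hA.eigenvalues i < 0} := (Fintype.equivFin _).symm with he
  set V : RMat N n := Matrix.of fun i k => Uᴴ (e i).1 k with hV
  have hVM : ∀ (M : Mat n) (i j : Fin N), (V * M * Vᴴ) i j = (Uᴴ * M * U) (e i).1 (e j).1 := by
    intro M i j
    simp [hV, Matrix.mul_apply]
  have hinj : ∀ i j : Fin N, (e i).1 = (e j).1 ↔ i = j := fun i j => by
    rw [Subtype.val_inj, e.injective.eq_iff]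
  refine ⟨N, ⟨fun x => V * X x, fun x => V * X' x, fun i => - hA.eigenvalues (e i).1, R, ?_, hRpos,
    ?_, ?_, ?_, ?_, ?_⟩, ?_⟩
  · intro i
    exact neg_pos.2 (e i).2
  · intro x
    rw [rd_hasDerivAt_mat]
    intro i j
    simp only [Matrix.mul_apply]
    exact HasDerivAt.fun_sum fun k _ => ((rd_hasDerivAt_mat.1 (hXd x)) k j).const_mul _
  · exact continuous_const.matrix_mul hXc'
  · intro x hx
    rw [hX0 x hx, Matrix.mul_zero]
  · intro i j
    have h1 : ∀ x, (V * X x * (V * X x)ᴴ) i j = (V * (X x * (X x)ᴴ) * Vᴴ) i j := fun x => by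
      rw [Matrix.conjTranspose_mul]
      simp only [Matrix.mul_assoc]
    simp only [h1]
    rw [rd_int_conj V (fun x => X x * (X x)ᴴ) hint1]
    have h2 : (Matrix.of fun k l => ∫ x, (X x * (X x)ᴴ) k l : Mat n) = 1 := by
      ext k l
      rw [Matrix.of_apply, Matrix.one_apply, ← horth k l]
      refine integral_congr_ae (Eventually.of_forall fun x => ?_)
      exact (rd_inner φ x k l).symm
    rw [h2, hVM, Matrix.mul_one, hUU, Matrix.one_apply]
    simp only [hinj]
  · intro i j
    have h1 : ∀ x, (V * X' x * (V * X' x)ᴴ - V * X x * W x * (V * X x)ᴴ) i j =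
        (V * Y x * Vᴴ) i j := fun x => by
      rw [Matrix.conjTranspose_mul, Matrix.conjTranspose_mul]
      simp only [hY, Matrix.mul_sub, Matrix.sub_mul, Matrix.mul_assoc]
    simp only [h1]
    rw [rd_int_conj V Y hYi, ← hAY, hVM, hUAU, Matrix.diagonal_apply]
    simp only [hinj]
    split_ifs with h
    · simp
    · rfl
  · simp only
    have h1 : negMoment A g = rtr (cfc (fun t : ℝ => (max (-t) 0) ^ g) A) := rfl
    rw [h1, rtr_cfc hA]
    have h2 : ∑ i, (max (-hA.eigenvalues i) 0) ^ g =
        ∑ i ∈ Finset.univ.filter (fun i => hA.eigenvalues i < 0), (-hA.eigenvalues i) ^ g := by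
      rw [Finset.sum_filter]
      refine Finset.sum_congr rfl fun i _ => ?_
      split_ifs with h
      · rw [max_eq_left (by linarith)]
      · rw [max_eq_right (by linarith), Real.zero_rpow hg.ne']
    rw [h2, Finset.sum_subtype (p := fun i => hA.eigenvalues i < 0) _ (by simp)]
    exact (Equiv.sum_comp e (fun i => (-hA.eigenvalues i.1) ^ g)).symm

end SLT
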