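import Crest.Agent.SLT.RedCase
import Crest.Agent.SLT.RedDiag

/-!
# Row 332, reduction (R): S0515 from the calibration facts
-/

set_option autoImplicit false

open MeasureTheory Set Filter
open scoped ComplexOrder Matrix Topology

namespace SLT

open Crest.MathPhysics.LiebThirring

variable {m : ℕ}

/-- The reduction: every trial family produces `Red` with `L = negMoment`. -/
theorem exists_red {γ : ℝ} (hγ : 1 / 2 < γ) (PI : PIFacts (γ - 1 / 2)) {W : ℝ → Mat m}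
    (hW : ∀ i j, Measurable fun x => W x i j) (hWp : ∀ x, (W x).PosSemidef)
    (hWi : Integrable fun x => tracePow (W x) (γ + 1 / 2)) {n : ℕ} (φ : Fin n → ℝ → Vec m)
    (hφ : IsTrialFamily φ) {δ : ℝ} (hδ : 0 < δ) :
    Nonempty (Red (γ - 1 / 2) W (negMoment (energyMatrix W φ) γ) δ) := by
  have e : γ + 1 / 2 = 1 + (γ - 1 / 2) := by ring
  rw [e] at hWi
  obtain ⟨N, D, hD⟩ := exists_dfam (by linarith) hW hWp hWi φ hφ (g := γ) (by linarith)
  rw [hD]
  rcases le_or_gt 1 γ with h | h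
  · exact red_case1 h PI hW hWp hWi D hδ
  · exact red_case2 hγ h PI hW hWp hWi D hδ

/-- S0515 from the calibration facts. -/
theorem sharp_of_PI {γ : ℝ} (hγ : 1 / 2 < γ) (hγ' : γ < 3 / 2) (PI : PIFacts (γ - 1 / 2)) {W : ℝ → Mat m}
    (hW : ∀ i j, Measurable fun x => W x i j) (hWp : ∀ x, (W x).PosSemidef)
    (hWi : Integrable fun x => tracePow (W x) (γ + 1 / 2)) {n : ℕ} (φ : Fin n → ℝ → Vec m)
    (hφ : IsTrialFamily φ) :
    negMoment (energyMatrix W φ) γ ≤ sharpConst γ * ∫ x, tracePow (W x) (γ + 1 / 2) := by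
  have hq : 0 < γ - 1 / 2 := by linarith
  have hq1 : γ - 1 / 2 < 1 := by linarith
  have hB : 0 < BB (γ - 1 / 2) := BB_pos (by linarith)
  have hc : 0 < cc (γ - 1 / 2) := cc_pos hq
  rw [sharpConst_eq hγ]
  have key : ∀ δ : ℝ, 0 < δ → BB (γ - 1 / 2) * negMoment (energyMatrix W φ) γ ≤
      cc (γ - 1 / 2) * (∫ x, tracePow (W x) (γ + 1 / 2)) + δ := by
    intro δ hδ
    obtain ⟨R⟩ := exists_red hγ PI hW hWp hWi φ hφ hδ
    have h1 := R.total
    have h2 : 0 ≤ ∫ x, hsq (R.U' x - R.F x * R.U x) :=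
      integral_nonneg fun x => hsq_nonneg _
    have h3 : 0 ≤ ∫ x, dY (γ - 1 / 2) (W x) ((R.U x)ᴴ * R.U x) :=
      integral_nonneg fun x => dY_nonneg hq hq1 (hWp x) (Matrix.posSemidef_conjTranspose_mul_self _)
    have h4 : 0 ≤ ∫ x in R.a..R.b, dPI (γ - 1 / 2) R.k (R.F x) (pot (γ - 1 / 2) R.U x) :=
      intervalIntegral.integral_nonneg R.hab.le fun x _ =>
        PI.nonneg _ _ _ R.k_pd (R.path.le x) (R.path.ge x) (pot_psd _ _ _)
    have e : γ + 1 / 2 = 1 + (γ - 1 / 2) := by ring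
    rw [e]
    have h5 : 0 ≤ (1 + (γ - 1 / 2)) * cc (γ - 1 / 2) := by positivity
    nlinarith [mul_nonneg h5 h2, mul_nonneg h5 h3]
  have h := le_of_forall_pos_le_add key
  rw [div_mul_eq_mul_div, le_div_iff₀ hB, mul_comm]
  exact h

end SLT
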