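import Crest.Agent.SLT.PIDefs
import Crest.Agent.SLT.PIKtau
import Crest.Agent.SLT.StabHS

/-! Row 332, (PI), chunk PI-GT: the Golden–Thompson inequality. -/

set_option autoImplicit false

open MeasureTheory Set Filter Topology
open scoped ComplexOrder Matrix

namespace SLT

/-! ### Trace inequality for powers -/

private theorem pow_herm {n : ℕ} {U : Mat n} (hU : U.IsHermitian) (m : ℕ) : (U ^ m).IsHermitian :=
  hU.pow m

private theorem rtr_mul_le_hsq {n : ℕ} (X Y : Mat n) (c : ℝ) (hX : hsq X = c) (hY : hsq Y = c)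
    (hc : 0 ≤ c) : rtr (X * Y) ≤ c := by
  have h := rtr_mul_sq_le Xᴴ Y
  rw [Matrix.conjTranspose_conjTranspose, hsq_conjTranspose, hX, hY] at h
  have h' : rtr (X * Y) ^ 2 ≤ c ^ 2 := by rw [pow_two c]; exact h
  exact (abs_le_of_sq_le_sq' h' hc).2

private theorem rtr_sq_le_hsq {n : ℕ} (X : Mat n) : rtr (X * X) ≤ hsq X :=
  rtr_mul_le_hsq X X _ rfl rfl (hsq_nonneg X)

/-- cyclicity: `tr (X Y)^m = tr (Y X)^m` -/
private theorem rtr_pow_mul_comm {n : ℕ} (X Y : Mat n) (m : ℕ) :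
    rtr ((X * Y) ^ m) = rtr ((Y * X) ^ m) := by
  cases m with
  | zero => simp
  | succ m =>
    have h : (X * Y) ^ (m + 1) = X * ((Y * X) ^ m * Y) := by
      rw [← mul_assoc]
      induction m with
      | zero => simp
      | succ m ih =>
        rw [pow_succ, ih, pow_succ (Y * X) m]
        simp only [mul_assoc]
    rw [h, rtr_mul_comm, mul_assoc, ← pow_succ]

private theorem main_ineq {n : ℕ} (j : ℕ) :
    (∀ Z : Mat n, hsq (Z ^ (2 ^ j)) ≤ rtr ((Z * Zᴴ) ^ (2 ^ j))) ∧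
    (∀ U V : Mat n, U.IsHermitian → V.IsHermitian →
      rtr ((U * V) ^ (2 ^ j)) ≤ rtr (U ^ (2 ^ j) * V ^ (2 ^ j))) := by
  induction j with
  | zero =>
    refine ⟨fun Z => ?_, fun U V _ _ => ?_⟩
    · rw [pow_zero, pow_one, pow_one, hsq_eq_rtr']
    · simp
  | succ j ih =>
    obtain ⟨ihL, ihP⟩ := ih
    refine ⟨fun Z => ?_, fun U V hU hV => ?_⟩
    · -- `L(2N)`
      have hU : (Zᴴ * Z).IsHermitian := Matrix.isHermitian_conjTranspose_mul_self Z
      have hV : (Z * Zᴴ).IsHermitian := Matrix.isHermitian_mul_conjTranspose_self Z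
      have h1 : Z ^ (2 ^ (j + 1)) = (Z * Z) ^ (2 ^ j) := by
        rw [← pow_two, ← pow_mul, pow_succ, mul_comm]
      rw [h1]
      refine (ihL (Z * Z)).trans ?_
      have h2 : rtr ((Z * Z * (Z * Z)ᴴ) ^ (2 ^ j)) = rtr (((Zᴴ * Z) * (Z * Zᴴ)) ^ (2 ^ j)) := by
        have e : Z * Z * (Z * Z)ᴴ = (Z * Z * Zᴴ) * Zᴴ := by
          rw [Matrix.conjTranspose_mul]; simp only [mul_assoc]
        rw [e, rtr_pow_mul_comm]
        congr 2
        simp only [mul_assoc]
      rw [h2]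
      refine (ihP _ _ hU hV).trans ?_
      set N := 2 ^ j with hN
      have hVV : rtr ((Z * Zᴴ) ^ (2 ^ (j + 1))) = hsq ((Z * Zᴴ) ^ N) := by
        rw [hsq_eq_rtr', (pow_herm hV N).eq, ← pow_add, pow_succ, mul_two]
      have hUU : hsq ((Zᴴ * Z) ^ N) = hsq ((Z * Zᴴ) ^ N) := by
        rw [hsq_eq_rtr', (pow_herm hU N).eq, ← pow_add, hsq_eq_rtr', (pow_herm hV N).eq, ← pow_add,
          rtr_pow_mul_comm]
      rw [hVV]
      exact rtr_mul_le_hsq _ _ _ hUU rfl (hsq_nonneg _)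
    · -- `PP(j+1)`
      set N := 2 ^ j with hN
      have h1 : (U * V) ^ (2 ^ (j + 1)) = (U * V) ^ N * (U * V) ^ N := by
        rw [← pow_add, pow_succ, mul_two]
      rw [h1]
      refine (rtr_sq_le_hsq _).trans ((ihL (U * V)).trans ?_)
      have h2 : rtr ((U * V * (U * V)ᴴ) ^ N) = rtr (((U * U) * (V * V)) ^ N) := by
        have e : U * V * (U * V)ᴴ = (U * V * V) * U := by
          rw [Matrix.conjTranspose_mul, hU.eq, hV.eq]; simp only [mul_assoc]
        rw [e, rtr_pow_mul_comm]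
        congr 2
        simp only [mul_assoc]
      rw [h2]
      have hU2 : (U * U).IsHermitian := by
        have := pow_herm hU 2
        rwa [pow_two] at this
      have hV2 : (V * V).IsHermitian := by
        have := pow_herm hV 2
        rwa [pow_two] at this
      refine (ihP _ _ hU2 hV2).trans (le_of_eq ?_)
      have e (W : Mat n) : (W * W) ^ N = W ^ (2 ^ (j + 1)) := by
        rw [← pow_two, ← pow_mul, pow_succ, mul_comm]
      rw [e, e]

/-! ### Lie–Trotter -/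

section trotter

variable {A : Type*} [NormedRing A] [NormOneClass A]

private theorem norm_pow_sub_pow_le (X Y : A) (M : ℝ) (hX : ‖X‖ ≤ M) (hY : ‖Y‖ ≤ M) (N : ℕ) :
    ‖X ^ (N + 1) - Y ^ (N + 1)‖ ≤ (N + 1) * M ^ N * ‖X - Y‖ := by
  have hM : 0 ≤ M := (norm_nonneg X).trans hX
  induction N with
  | zero => simp
  | succ N ih =>
    have e : X ^ (N + 1 + 1) - Y ^ (N + 1 + 1) =
        X ^ (N + 1) * (X - Y) + (X ^ (N + 1) - Y ^ (N + 1)) * Y := by
      rw [pow_succ X (N + 1), pow_succ Y (N + 1)]; noncomm_ring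
    rw [e]
    calc _ ≤ ‖X ^ (N + 1) * (X - Y)‖ + ‖(X ^ (N + 1) - Y ^ (N + 1)) * Y‖ := norm_add_le _ _
      _ ≤ M ^ (N + 1) * ‖X - Y‖ + ((N + 1) * M ^ N * ‖X - Y‖) * M := by
        refine add_le_add ?_ ?_
        · refine (norm_mul_le _ _).trans ?_
          gcongr
          exact (norm_pow_le _ _).trans (pow_le_pow_left₀ (norm_nonneg _) hX _)
        · refine (norm_mul_le _ _).trans ?_
          gcongr
      _ = _ := by push_cast; ring

private theorem trotter_aux [NormedAlgebra ℝ A] (X Y : ℕ → A) (L : A)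
    (hX : Tendsto (fun N : ℕ => (N : ℝ) • (X N - 1)) atTop (𝓝 L))
    (hY : Tendsto (fun N : ℕ => (N : ℝ) • (Y N - 1)) atTop (𝓝 L)) :
    Tendsto (fun N : ℕ => X N ^ N - Y N ^ N) atTop (𝓝 0) := by
  have hd : Tendsto (fun N : ℕ => (N : ℝ) • (X N - Y N)) atTop (𝓝 0) := by
    have := hX.sub hY
    rw [sub_self] at this
    refine this.congr fun N => ?_
    rw [← smul_sub]
    congr 1
    abel
  set C : ℝ := ‖L‖ + 1 with hC
  have hC0 : 0 ≤ C := by positivity
  have bX : ∀ᶠ N : ℕ in atTop, ‖(N : ℝ) • (X N - 1)‖ ≤ C :=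
    hX.norm.eventually_le_const (by rw [hC]; linarith)
  have bY : ∀ᶠ N : ℕ in atTop, ‖(N : ℝ) • (Y N - 1)‖ ≤ C :=
    hY.norm.eventually_le_const (by rw [hC]; linarith)
  have key : ∀ Z : A, ∀ N : ℕ, 1 ≤ N → ‖(N : ℝ) • (Z - 1)‖ ≤ C → ‖Z‖ ≤ 1 + C / N := by
    intro Z N hN hZ
    have hN0 : (0 : ℝ) < N := by exact_mod_cast hN
    rw [norm_smul, Real.norm_of_nonneg hN0.le] at hZ
    have h1 : ‖Z - 1‖ ≤ C / N := by
      rw [le_div_iff₀ hN0, mul_comm]; exact hZ
    calc ‖Z‖ = ‖1 + (Z - 1)‖ := by congr 1; abel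
      _ ≤ ‖(1 : A)‖ + ‖Z - 1‖ := norm_add_le _ _
      _ ≤ 1 + C / N := by rw [norm_one]; linarith
  refine squeeze_zero_norm' (a := fun N : ℕ => Real.exp C * ‖(N : ℝ) • (X N - Y N)‖) ?_ ?_
  · filter_upwards [bX, bY, eventually_ge_atTop 1] with N h1 h2 hN
    obtain ⟨m, rfl⟩ : ∃ m, N = m + 1 := ⟨N - 1, by omega⟩
    have hN0 : (0 : ℝ) < ((m + 1 : ℕ) : ℝ) := by positivity
    have h3 := norm_pow_sub_pow_le (X (m + 1)) (Y (m + 1)) _ (key _ _ hN h1) (key _ _ hN h2) m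
    refine h3.trans ?_
    rw [norm_smul, Real.norm_of_nonneg hN0.le]
    have h4 : (1 + C / ((m + 1 : ℕ) : ℝ)) ^ m ≤ Real.exp C := by
      have h5 : (1 : ℝ) ≤ 1 + C / ((m + 1 : ℕ) : ℝ) := by
        have : 0 ≤ C / ((m + 1 : ℕ) : ℝ) := by positivity
        linarith
      calc (1 + C / ((m + 1 : ℕ) : ℝ)) ^ m ≤ (1 + C / ((m + 1 : ℕ) : ℝ)) ^ (m + 1) :=
            pow_le_pow_right₀ h5 (Nat.le_succ m)
        _ ≤ (Real.exp (C / ((m + 1 : ℕ) : ℝ))) ^ (m + 1) := by
            refine pow_le_pow_left₀ (by linarith) ?_ _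
            rw [add_comm]
            exact Real.add_one_le_exp _
        _ = Real.exp C := by
            rw [← Real.exp_nat_mul]
            congr 1
            field_simp
    calc ((m : ℝ) + 1) * (1 + C / ((m + 1 : ℕ) : ℝ)) ^ m * ‖X (m + 1) - Y (m + 1)‖
        ≤ ((m : ℝ) + 1) * Real.exp C * ‖X (m + 1) - Y (m + 1)‖ := by gcongr
      _ = Real.exp C * (((m + 1 : ℕ) : ℝ) * ‖X (m + 1) - Y (m + 1)‖) := by push_cast; ring
  · have := (hd.norm).const_mul (Real.exp C)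
    simpa using this

omit [NormOneClass A] in
private theorem tendsto_nat_smul_of_hasDerivAt [NormedAlgebra ℝ A] (f : ℝ → A) (L : A)
    (h0 : f 0 = 1) (h : HasDerivAt f L 0) :
    Tendsto (fun N : ℕ => (N : ℝ) • (f ((N : ℝ)⁻¹) - 1)) atTop (𝓝 L) := by
  rw [hasDerivAt_iff_tendsto_slope_zero] at h
  have h1 : Tendsto (fun N : ℕ => ((N : ℝ)⁻¹)) atTop (𝓝[≠] 0) := by
    rw [tendsto_nhdsWithin_iff]
    refine ⟨tendsto_inv_atTop_nhds_zero_nat, ?_⟩
    filter_upwards [eventually_ge_atTop 1] with N hN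
    have : (N : ℝ) ≠ 0 := by positivity
    simpa using this
  refine (h.comp h1).congr fun N => ?_
  simp [h0]

end trotter

open scoped Matrix.Norms.L2Operator in
private theorem mexp_eq {n : ℕ} {A : Mat n} (hA : A.IsHermitian) : mexp A = NormedSpace.exp A := by
  unfold mexp
  exact CFC.real_exp_eq_normedSpace_exp hA

open scoped Matrix.Norms.L2Operator in
private theorem trotter_mat {n : ℕ} (hn : 1 ≤ n) (A B : Mat n) :
    Tendsto (fun N : ℕ => (NormedSpace.exp ((N : ℝ)⁻¹ • A) * NormedSpace.exp ((N : ℝ)⁻¹ • B)) ^ N)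
      atTop (𝓝 (NormedSpace.exp (A + B))) := by
  have : Nonempty (Fin n) := ⟨⟨0, hn⟩⟩
  have : NormOneClass (Mat n) := ⟨CStarRing.norm_one⟩
  have h0 (C : Mat n) : NormedSpace.exp ((0 : ℝ) • C) = 1 := by
    rw [zero_smul, NormedSpace.exp_zero]
  have hd (C : Mat n) : HasDerivAt (fun t : ℝ => NormedSpace.exp (t • C)) C 0 := by
    have := hasDerivAt_exp_smul_const (𝕂 := ℝ) C (0 : ℝ)
    rwa [h0, one_mul] at this
  have h1 := tendsto_nat_smul_of_hasDerivAt
    (fun t : ℝ => NormedSpace.exp (t • A) * NormedSpace.exp (t • B)) (A + B)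
    (by simp only [h0, mul_one]) (by
      have := (hd A).mul (hd B)
      simp only [h0, mul_one, one_mul] at this
      exact this)
  have h2 := tendsto_nat_smul_of_hasDerivAt
    (fun t : ℝ => NormedSpace.exp (t • (A + B))) (A + B) (h0 _) (hd _)
  have h3 := trotter_aux _ _ _ h1 h2
  have h4 : Tendsto (fun N : ℕ => NormedSpace.exp ((N : ℝ)⁻¹ • (A + B)) ^ N) atTop
      (𝓝 (NormedSpace.exp (A + B))) := by
    refine tendsto_const_nhds.congr' ?_
    filter_upwards [eventually_ge_atTop 1] with N hN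
    have hN0 : (N : ℝ) ≠ 0 := by positivity
    rw [← Matrix.exp_nsmul, ← Nat.cast_smul_eq_nsmul ℝ, smul_smul, mul_inv_cancel₀ hN0,
      one_smul]
  have h5 := h3.add h4
  rw [zero_add] at h5
  refine h5.congr fun N => ?_
  simp

/-- GT-1. For Hermitian `A`, `B`: `tr e^(A+B) ≤ tr (e^A e^B)`.
Proof. (i) For positive semidefinite `P`, `Q` and every `j`:
`tr (P Q)^(2^(j+1)) ≤ tr (P² Q²)^(2^j)`. Indeed for any square matrix `X` and `N ≥ 1`,
`|tr X^(2N)| ≤ tr (X Xᴴ)^N` for `N = 2^j` (Cauchy–Schwarz and induction; or Weyl's majorant), applied to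
`X = P Q`, `X Xᴴ = P Q² P`, and cyclicity `tr (P Q² P)^N = tr (P² Q²)^N`. Iterate with
`P = e^(A/2^j)`, `Q = e^(B/2^j)`: `tr (e^(A/2^j) e^(B/2^j))^(2^j) ≤ tr (e^A e^B)`.
(ii) Lie–Trotter: `(e^(A/N) e^(B/N))^N → e^(A+B)` (`‖X^N - Y^N‖ ≤ N max(‖X‖,‖Y‖)^(N-1) ‖X - Y‖` and
`‖e^(A/N) e^(B/N) - e^((A+B)/N)‖ ≤ C/N²`). `mexp = NormedSpace.exp` on Hermitian matrices
(`Matrix.exp_conj`/diagonalisation, or `CFC.exp_eq_normedSpace_exp`). -/
theorem golden_thompson {n : ℕ} {A B : Mat n} (hA : A.IsHermitian) (hB : B.IsHermitian) :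
    rtr (mexp (A + B)) ≤ rtr (mexp A * mexp B) := by
  rcases Nat.eq_zero_or_pos n with hn | hn
  · subst hn
    simp [rtr, Matrix.trace]
  rw [mexp_eq (hA.add hB), mexp_eq hA, mexp_eq hB]
  have hcont : Continuous (fun X : Mat n => rtr X) := by
    unfold rtr
    exact Complex.continuous_re.comp (Continuous.matrix_trace continuous_id)
  have h1 := (hcont.tendsto _).comp ((trotter_mat hn A B).comp
    (tendsto_pow_atTop_atTop_of_one_lt (r := 2) (by norm_num)))
  refine le_of_tendsto' h1 fun j => ?_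
  simp only [Function.comp_apply]
  have hherm (C : Mat n) (hC : C.IsHermitian) :
      (NormedSpace.exp ((((2 ^ j : ℕ) : ℝ))⁻¹ • C)).IsHermitian := by
    have h : ((((2 ^ j : ℕ) : ℝ))⁻¹ • C).IsHermitian := by
      rw [Matrix.IsHermitian, Matrix.conjTranspose_smul, hC.eq]
      simp
    exact h.exp
  have hpow (C : Mat n) : NormedSpace.exp ((((2 ^ j : ℕ) : ℝ))⁻¹ • C) ^ (2 ^ j) =
      NormedSpace.exp C := by
    have hN0 : ((2 ^ j : ℕ) : ℝ) ≠ 0 := by positivity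
    rw [← Matrix.exp_nsmul, ← Nat.cast_smul_eq_nsmul ℝ, smul_smul, mul_inv_cancel₀ hN0, one_smul]
  have h2 := (main_ineq j).2 _ _ (hherm A hA) (hherm B hB)
  rwa [hpow, hpow] at h2

/-- GT-2. `gtd ≥ 0`: `mexp (mlog A) = A` for positive definite `A`, and
`tr ((K_τ - F)(K_τ + F)) = tr (K_τ² - F²) = tr (R + τ)`. -/
theorem gtd_nonneg {n : ℕ} {k F : Mat n} (h : KF k F) {τ : ℝ} (hτ : 0 < τ) : 0 ≤ gtd k F τ := by
  have hexp : ∀ P : Mat n, P.PosDef → mexp (mlog P) = P := by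
    intro P hP
    unfold mexp mlog
    have hpos : ∀ x ∈ spectrum ℝ P, 0 < x := by
      intro x hx
      exact spec_pos hP hx
    have e1 := cfc_comp' Real.exp Real.log P (by fun_prop) (ContinuousOn.log continuousOn_id
      (fun x hx => (hpos x hx).ne')) hP.isHermitian
    refine e1.symm.trans ?_
    refine Eq.trans ?_ (cfc_id' ℝ P hP.isHermitian)
    refine cfc_congr fun x hx => ?_
    exact Real.exp_log (hpos x hx)
  have hA := A_posDef h hτ
  have hB := B_posDef h hτ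
  have hlA : (mlog (ktau k τ - F)).IsHermitian := cfc_herm _
  have hlB : (mlog (ktau k τ + F)).IsHermitian := cfc_herm _
  have h1 := golden_thompson hlA hlB
  rw [hexp _ hA, hexp _ hB] at h1
  have h2 : rtr ((ktau k τ - F) * (ktau k τ + F)) = rtr (k * k - F * F) + τ * n := by
    have e : (ktau k τ - F) * (ktau k τ + F) =
        ktau k τ * ktau k τ - F * F + (ktau k τ * F - F * ktau k τ) := by noncomm_ring
    rw [e, ktau_sq h.hk hτ.le, rtr_add, rtr_sub, rtr_sub, rtr_mul_comm (ktau k τ) F, sub_self,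
      add_zero, rtr_add, rtr_sub, rtr_smul, rtr_one]
    ring
  unfold gtd
  linarith

end SLT
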