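import Crest.Agent.SLT.PIDefs
import Crest.Agent.SLT.PIKtau
import Crest.Agent.SLT.StabHS

/-! Row 332, (PI), chunk PI-6: lower bound for `tr D_τ` as `τ → ∞`. -/

set_option autoImplicit false

open MeasureTheory Set Filter Topology
open scoped ComplexOrder Matrix

namespace SLT

private theorem one_le_prod_real {ι : Type*} (s : Finset ι) (f : ι → ℝ) (h : ∀ i ∈ s, 1 ≤ f i) :
    1 ≤ ∏ i ∈ s, f i := by
  classical
  induction s using Finset.induction_on with
  | empty => simp
  | insert a s ha ih =>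
    rw [Finset.prod_insert ha]
    have h1 := h a (Finset.mem_insert_self a s)
    have h2 := ih fun i hi => h i (Finset.mem_insert_of_mem hi)
    nlinarith

private theorem det_one_add_psd {n : ℕ} {X : Mat n} (hX : X.PosSemidef) :
    1 ≤ ‖((1 : Mat n) + X).det‖ := by
  have hH : ((1 : Mat n) + X).IsHermitian := Matrix.isHermitian_one.add hX.isHermitian
  have h1 : ∀ i, 1 ≤ hH.eigenvalues i := by
    intro i
    refine le_eig hH ?_ i
    simpa using hX
  rw [hH.det_eq_prod_eigenvalues, norm_prod]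
  refine one_le_prod_real _ _ fun i _ => ?_
  rw [RCLike.norm_ofReal]
  exact (h1 i).trans (le_abs_self _)

private theorem exists_sqrt {n : ℕ} {P : Mat n} (hP : P.PosDef) :
    ∃ S : Mat n, S.IsHermitian ∧ S * S = P ∧ IsUnit S.det := by
  refine ⟨cfc Real.sqrt P, cfc_isHermitian _, ?_, ?_⟩
  · rw [cfc_mul_cfc hP.1]
    have : cfc (fun t => Real.sqrt t * Real.sqrt t) P = cfc (fun t : ℝ => t) P :=
      cfc_congr_spec hP.1 fun s hs => Real.mul_self_sqrt (spec_pos hP hs).le
    rw [this, cfc_fun_id hP.1]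
  · have h : cfc Real.sqrt P * cfc Real.sqrt P = P := by
      rw [cfc_mul_cfc hP.1]
      have : cfc (fun t => Real.sqrt t * Real.sqrt t) P = cfc (fun t : ℝ => t) P :=
        cfc_congr_spec hP.1 fun s hs => Real.mul_self_sqrt (spec_pos hP hs).le
      rw [this, cfc_fun_id hP.1]
    have h2 : (cfc Real.sqrt P).det * (cfc Real.sqrt P).det = P.det := by
      rw [← Matrix.det_mul, h]
    have h3 : P.det ≠ 0 := hP.det_pos.ne'
    rw [isUnit_iff_ne_zero]
    intro h4
    rw [h4, mul_zero] at h2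
    exact h3 h2.symm

/-- PI-6a. If `P` is positive definite and `C` anti-Hermitian then `|det (P + C)| ≥ det P`
(`P^(-1/2) C P^(-1/2) = i H` with `H` Hermitian, `|det (1 + iH)|² = ∏ (1 + h_j²) ≥ 1`). -/
theorem det_add_antiherm {n : ℕ} {P C : Mat n} (hP : P.PosDef) (hC : Cᴴ = -C) :
    ‖P.det‖ ≤ ‖(P + C).det‖ := by
  obtain ⟨S, hS, hSS, hu⟩ := exists_sqrt hP
  set D : Mat n := S⁻¹ * C * S⁻¹ with hD
  have hSi : (S⁻¹)ᴴ = S⁻¹ := by rw [Matrix.conjTranspose_nonsing_inv, hS.eq]
  have hDa : Dᴴ = -D := by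
    rw [hD, Matrix.conjTranspose_mul, Matrix.conjTranspose_mul, hSi, hC]
    simp [Matrix.mul_assoc]
  have h1 : S * S⁻¹ = 1 := Matrix.mul_nonsing_inv _ hu
  have h2 : S⁻¹ * S = 1 := Matrix.nonsing_inv_mul _ hu
  have h3 : P + C = S * (1 + D) * S := by
    rw [Matrix.mul_add, Matrix.mul_one, Matrix.add_mul, hSS, hD]
    have : S * (S⁻¹ * C * S⁻¹) * S = (S * S⁻¹) * C * (S⁻¹ * S) := by
      simp only [Matrix.mul_assoc]
    rw [this, h1, h2, Matrix.one_mul, Matrix.mul_one]
  have h4 : (P + C).det = P.det * (1 + D).det := by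
    rw [h3, Matrix.det_mul, Matrix.det_mul, ← hSS, Matrix.det_mul]
    ring
  have h5 : 1 ≤ ‖((1 : Mat n) + D).det‖ ^ 2 := by
    have e1 : ((1 : Mat n) + D)ᴴ * (1 + D) = 1 + Dᴴ * D := by
      rw [Matrix.conjTranspose_add, Matrix.conjTranspose_one, hDa]
      rw [Matrix.add_mul, Matrix.mul_add, Matrix.one_mul, Matrix.one_mul, Matrix.mul_add,
        Matrix.mul_one]
      abel
    have e2 := det_one_add_psd (Matrix.posSemidef_conjTranspose_mul_self D)
    rw [← e1, Matrix.det_mul, Matrix.det_conjTranspose, norm_mul, norm_star] at e2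
    rw [sq]
    exact e2
  have h6 : 1 ≤ ‖((1 : Mat n) + D).det‖ := by
    by_contra hlt
    push Not at hlt
    have h0 := norm_nonneg ((1 : Mat n) + D).det
    nlinarith
  rw [h4, norm_mul]
  nlinarith [norm_nonneg P.det]

private theorem rtr_mlog {n : ℕ} {A : Mat n} (hA : A.PosDef) :
    rtr (mlog A) = Real.log ‖A.det‖ := by
  unfold mlog
  rw [rtr_cfc hA.1, hA.1.det_eq_prod_eigenvalues, norm_prod, Real.log_prod]
  · refine Finset.sum_congr rfl fun i _ => ?_
    rw [RCLike.norm_ofReal, Real.log_abs]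
  · intro i _
    rw [RCLike.norm_ofReal]
    exact (abs_pos.2 (hA.eigenvalues_pos i).ne').ne'

/-- PI-6b. `tr R - τ tr D_τ ≤ C/τ` for large `τ`, `R = k² - F²`. Proof: with `A = K_τ - F`,
`B = K_τ + F`, `A B = (R + τ) + [K_τ, F]` and `[K_τ,F]` is anti-Hermitian, so
`tr log A + tr log B = log det A + log det B = log |det (A B)| ≥ log det (R + τ)
= n log τ + Σ log (1 + ρ_i/τ)` (`ρ_i` the eigenvalues of `R`, `|ρ_i| ≤ C₀`, `τ ≥ 2 C₀`), and
`log (1+x) ≥ x - x²` for `|x| ≤ 1/2`. -/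
theorem trD_lower {n : ℕ} {k F : Mat n} (h : KF k F) :
    ∃ C T : ℝ, 0 < C ∧ 1 ≤ T ∧ ∀ τ, T ≤ τ →
      rtr (k * k - F * F) - τ * rtr (Dtau k F τ) ≤ C / τ := by
  set R : Mat n := k * k - F * F with hR
  have hk := h.hk.isHermitian
  have hF := h.herm
  have hRh : R.IsHermitian := by
    have e1 : (k * k).IsHermitian := by
      unfold Matrix.IsHermitian; rw [Matrix.conjTranspose_mul, hk.eq]
    have e2 : (F * F).IsHermitian := by
      unfold Matrix.IsHermitian; rw [Matrix.conjTranspose_mul, hF.eq]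
    exact e1.sub e2
  have hs0 : 0 ≤ hsq R := hsq_nonneg R
  refine ⟨2 * hsq R + 1, max 1 (2 * Real.sqrt (hsq R) + 1), by linarith, le_max_left _ _, ?_⟩
  intro τ hτ
  have hτ1 : 1 ≤ τ := (le_max_left _ _).trans hτ
  have hτ2 : 2 * Real.sqrt (hsq R) + 1 ≤ τ := (le_max_right _ _).trans hτ
  have hτ0 : 0 < τ := by linarith
  set P : Mat n := R + (τ : ℂ) • (1 : Mat n) with hP
  have hPh : P.IsHermitian := by
    refine hRh.add ?_
    unfold Matrix.IsHermitian
    rw [Matrix.conjTranspose_smul, Matrix.conjTranspose_one]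
    simp
  have hsum2 : ∑ i, (hPh.eigenvalues i - τ) ^ 2 = hsq R := by
    have e1 : R = cfc (fun t : ℝ => t - τ) P := by
      rw [← cfc_sub_cfc hPh (fun t => t) (fun _ => τ), cfc_fun_id hPh, cfc_const_eq hPh, hP]
      abel
    have e2 : hsq R = rtr (R * R) := by rw [hsq_eq_rtr, hRh.eq]
    rw [e2]
    have e3 : R * R = cfc (fun t : ℝ => (t - τ) * (t - τ)) P := by
      rw [← cfc_mul_cfc hPh (fun t => t - τ) (fun t => t - τ), ← e1]
    rw [e3, rtr_cfc hPh]
    refine Finset.sum_congr rfl fun i _ => by ring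
  have hsum1 : ∑ i, (hPh.eigenvalues i - τ) = rtr R := by
    have e1 : R = cfc (fun t : ℝ => t - τ) P := by
      rw [← cfc_sub_cfc hPh (fun t => t) (fun _ => τ), cfc_fun_id hPh, cfc_const_eq hPh, hP]
      abel
    conv_rhs => rw [e1]
    rw [rtr_cfc hPh]
  have hsmall : ∀ i, |hPh.eigenvalues i - τ| ≤ τ / 2 := by
    intro i
    have e1 : (hPh.eigenvalues i - τ) ^ 2 ≤ hsq R := by
      rw [← hsum2]
      exact Finset.single_le_sum (f := fun i => (hPh.eigenvalues i - τ) ^ 2)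
        (fun j _ => sq_nonneg _) (Finset.mem_univ i)
    have e2 : |hPh.eigenvalues i - τ| ≤ Real.sqrt (hsq R) := Real.abs_le_sqrt e1
    linarith
  have hpos : ∀ i, τ / 2 ≤ hPh.eigenvalues i := by
    intro i
    have := (abs_le.1 (hsmall i)).1
    linarith
  have hPd : P.PosDef := by
    rw [hPh.posDef_iff_eigenvalues_pos]
    intro i
    have := hpos i
    linarith
  -- lower bound of tr log P
  have hlogP : n * Real.log τ + (rtr R / τ - 2 * (hsq R / τ ^ 2)) ≤ rtr (mlog P) := by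
    unfold mlog
    rw [rtr_cfc hPh]
    have e : (n : ℝ) * Real.log τ + (rtr R / τ - 2 * (hsq R / τ ^ 2)) =
        ∑ i : Fin n, (Real.log τ + ((hPh.eigenvalues i - τ) / τ -
          2 * ((hPh.eigenvalues i - τ) ^ 2 / τ ^ 2))) := by
      rw [Finset.sum_add_distrib, Finset.sum_sub_distrib, ← Finset.mul_sum, ← Finset.sum_div,
        ← Finset.sum_div, hsum1, hsum2]
      simp
    rw [e]
    refine Finset.sum_le_sum fun i _ => ?_
    set p := hPh.eigenvalues i with hp
    have hp0 : 0 < p := by have := hpos i; linarith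
    set x := (p - τ) / τ with hx
    have hx1 : |x| ≤ 1 / 2 := by
      rw [hx, abs_div, abs_of_pos hτ0, div_le_iff₀ hτ0]
      have := hsmall i
      linarith
    have hp2 : p = τ * (1 + x) := by rw [hx]; field_simp; ring
    have hx0 : 0 < 1 + x := by have := (abs_le.1 hx1).1; linarith
    have hlog : x - 2 * x ^ 2 ≤ Real.log (1 + x) := by
      have h1 : 1 - (1 + x)⁻¹ ≤ Real.log (1 + x) := Real.one_sub_inv_le_log_of_pos hx0
      have h2 : 1 - (1 + x)⁻¹ = x / (1 + x) := by field_simp; ring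
      rw [h2] at h1
      refine le_trans ?_ h1
      rw [le_div_iff₀ hx0]
      have h3 : (1 : ℝ) / 2 ≤ 1 + x := by have := (abs_le.1 hx1).1; linarith
      nlinarith [mul_nonneg (sq_nonneg x) (sub_nonneg.2 h3)]
    have hlog2 : Real.log p = Real.log τ + Real.log (1 + x) := by
      rw [hp2, Real.log_mul hτ0.ne' hx0.ne']
    have e3 : (p - τ) ^ 2 / τ ^ 2 = x ^ 2 := by rw [hx, div_pow]
    rw [hlog2, e3]
    linarith
  -- comparison of determinants
  set A : Mat n := ktau k τ - F with hA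
  set B : Mat n := ktau k τ + F with hB
  have hAp : A.PosDef := A_posDef h hτ0
  have hBp : B.PosDef := B_posDef h hτ0
  have hKh := ktau_herm k τ
  set C : Mat n := ktau k τ * F - F * ktau k τ with hC
  have hCa : Cᴴ = -C := by
    rw [hC, Matrix.conjTranspose_sub, Matrix.conjTranspose_mul, Matrix.conjTranspose_mul, hKh.eq,
      hF.eq]
    abel
  have hAB : A * B = P + C := by
    rw [hA, hB, Matrix.sub_mul, Matrix.mul_add, Matrix.mul_add, ktau_sq h.hk hτ0.le, hP, hR, hC]
    abel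
  have hdet : ‖P.det‖ ≤ ‖A.det‖ * ‖B.det‖ := by
    have := det_add_antiherm (P := P) (C := C) hPd hCa
    rwa [← hAB, Matrix.det_mul, norm_mul] at this
  have hdP : 0 < ‖P.det‖ := norm_pos_iff.2 hPd.det_pos.ne'
  have hdA : 0 < ‖A.det‖ := norm_pos_iff.2 hAp.det_pos.ne'
  have hdB : 0 < ‖B.det‖ := norm_pos_iff.2 hBp.det_pos.ne'
  have hlogs : rtr (mlog P) ≤ rtr (mlog A) + rtr (mlog B) := by
    rw [rtr_mlog hPd, rtr_mlog hAp, rtr_mlog hBp, ← Real.log_mul hdA.ne' hdB.ne']
    exact Real.log_le_log hdP hdet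
  have hD : rtr (Dtau k F τ) = rtr (mlog A) + rtr (mlog B) - n * Real.log τ := by
    unfold Dtau
    rw [rtr_sub, rtr_add, rtr_smul]
    have : rtr (1 : Mat n) = n := by simp [rtr]
    rw [this]
    ring
  have hfin : rtr R / τ - 2 * (hsq R / τ ^ 2) ≤ rtr (Dtau k F τ) := by
    rw [hD]; linarith
  have hm := mul_le_mul_of_nonneg_left hfin hτ0.le
  have e4 : τ * (rtr R / τ - 2 * (hsq R / τ ^ 2)) = rtr R - 2 * hsq R / τ := by
    field_simp
  rw [e4] at hm
  have e5 : (2 * hsq R) / τ ≤ (2 * hsq R + 1) / τ := by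
    gcongr
    linarith
  linarith

end SLT
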