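import Crest.Agent.SLT.PIDefs
import Crest.Agent.SLT.PIScalar
import Crest.Agent.SLT.StabHS

/-! Row 332, (PI), chunk PI-7: matrix form of the entropy integral. -/

set_option autoImplicit false

open MeasureTheory Set Filter Topology
open scoped ComplexOrder Matrix

namespace SLT

private theorem Ytau_cfc {n : ℕ} (q : ℝ) {V : Mat n} (hV : V.IsHermitian) (τ : ℝ) :
    Ytau q V τ = cfc (fun t : ℝ => t + (1 + 1 / q) * τ) V := by
  rw [cfc_eq_conj hV]
  conv_lhs => rw [Ytau, eq_conj hV]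
  have h1 : (((1 + 1 / q) * τ : ℝ) : ℂ) • (1 : Mat n)
      = eU hV * ((((1 + 1 / q) * τ : ℝ) : ℂ) • (1 : Mat n)) * (eU hV)ᴴ := by
    rw [Matrix.mul_smul, Matrix.smul_mul, Matrix.mul_one, eU_mul_star]
  rw [h1, ← Matrix.add_mul, ← Matrix.mul_add]
  congr 2
  ext i j
  rcases eq_or_ne i j with rfl | hij
  · simp
  · simp [Matrix.diagonal_apply_ne _ hij, Matrix.one_apply_ne hij]

private theorem mlog_Ytau {n : ℕ} (q : ℝ) {V : Mat n} (hV : V.IsHermitian) (τ : ℝ) :
    mlog (Ytau q V τ) = cfc (fun t : ℝ => Real.log (t + (1 + 1 / q) * τ)) V := by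
  have hfin : (spectrum ℝ V).Finite := Matrix.finite_real_spectrum
  rw [mlog, Ytau_cfc q hV]
  exact (cfc_comp' Real.log (fun t : ℝ => t + (1 + 1 / q) * τ) V
    ((hfin.image _).continuousOn _) (hfin.continuousOn _) hV).symm

private theorem ent_point {n : ℕ} (q : ℝ) {V : Mat n} (hV : V.IsHermitian) (τ : ℝ) :
    τ ^ (q - 1) * (rtr (Ytau q V τ * mlog (Ytau q V τ))
      - Real.log ((1 + 1 / q) * τ) * rtr (Ytau q V τ) - rtr V)
    = ∑ i, τ ^ (q - 1) * ((hV.eigenvalues i + (1 + 1 / q) * τ) *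
        Real.log (hV.eigenvalues i + (1 + 1 / q) * τ)
      - (hV.eigenvalues i + (1 + 1 / q) * τ) * Real.log ((1 + 1 / q) * τ)
      - hV.eigenvalues i) := by
  rw [mlog_Ytau q hV, Ytau_cfc q hV, cfc_mul_fun hV, rtr_cfc hV, rtr_cfc hV]
  have h : rtr V = ∑ i, hV.eigenvalues i := by
    have := rtr_cfc hV (fun t => t)
    rwa [cfc_fun_id hV] at this
  rw [h, Finset.mul_sum, ← Finset.sum_sub_distrib, ← Finset.sum_sub_distrib, Finset.mul_sum]
  refine Finset.sum_congr rfl fun i _ => ?_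
  ring

/-- PI-7. `c tr V^(1+q) = c_q ∫ τ^(q-1) [tr (Y log Y) - log ((1+1/q)τ) tr Y - tr V] dτ`,
`Y = Ytau q V τ = V + (1+1/q) τ` (diagonalise `V` and apply `integral_entropy` to each eigenvalue). -/
theorem entropy_matrix {n : ℕ} {q : ℝ} (hq : 0 < q) (hq' : q < 1) {V : Mat n}
    (hV : V.PosSemidef) :
    IntegrableOn (fun τ : ℝ => τ ^ (q - 1) * (rtr (Ytau q V τ * mlog (Ytau q V τ))
      - Real.log ((1 + 1 / q) * τ) * rtr (Ytau q V τ) - rtr V)) (Ioi 0) ∧
    cq q * (∫ τ in Ioi (0 : ℝ), τ ^ (q - 1) * (rtr (Ytau q V τ * mlog (Ytau q V τ))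
      - Real.log ((1 + 1 / q) * τ) * rtr (Ytau q V τ) - rtr V)) = cc q * rtr (mpow V (1 + q)) := by
  simp only [ent_point q hV.isHermitian]
  have key := fun i => integral_entropy hq hq' (hV.eigenvalues_nonneg i)
  constructor
  · exact integrable_finsetSum _ fun i _ => (key i).1
  · rw [integral_finsetSum _ fun i _ => (key i).1, Finset.mul_sum, mpow,
      rtr_cfc hV.isHermitian, Finset.mul_sum]
    exact Finset.sum_congr rfl fun i _ => (key i).2

end SLT
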