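import Crest.Agent.SLT.PIDefs
import Crest.Agent.SLT.PIInt
import Crest.Agent.SLT.PIEnt
import Crest.Agent.SLT.PIDtr

/-! Row 332, (PI), chunk PI-9: the deficit inequality. -/

set_option autoImplicit false

open MeasureTheory Set Filter Topology
open scoped ComplexOrder Matrix Matrix.Norms.Frobenius

namespace SLT

private theorem mlog_herm {n : ℕ} (A : Mat n) : (mlog A).IsHermitian := cfc_predicate (R := ℝ) _ A

private theorem mexp_add_const {n : ℕ} {L : Mat n} (hL : L.IsHermitian) (c : ℝ) :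
    mexp (L + ((c : ℝ) : ℂ) • (1 : Mat n)) = ((Real.exp c : ℝ) : ℂ) • mexp L := by
  have hL' : IsSelfAdjoint L := hL
  have h1 : L + ((c : ℝ) : ℂ) • (1 : Mat n) = cfc (fun x : ℝ => x + c) L := by
    rw [cfc_add L (fun x : ℝ => x) (fun _ => c), cfc_id' ℝ L, cfc_const c L]
    congr 1
    rw [Algebra.algebraMap_eq_smul_one]
    ext i j
    simp
  have h2 : mexp (cfc (fun x : ℝ => x + c) L) = cfc (fun x : ℝ => Real.exp (x + c)) L := by
    unfold mexp
    rw [← cfc_comp' Real.exp (fun x : ℝ => x + c) L]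
  rw [h1, h2]
  have h3 : (fun x : ℝ => Real.exp (x + c)) = fun x => Real.exp c * Real.exp x := by
    funext x; rw [Real.exp_add, mul_comm]
  rw [h3, cfc_const_mul (Real.exp c) Real.exp L]
  unfold mexp
  ext i j
  simp

private theorem rtr_smul' {n : ℕ} (c : ℝ) (A : Mat n) : rtr ((c : ℂ) • A) = c * rtr A := by
  simp [rtr, Matrix.trace_smul]

private theorem rtr_one' {n : ℕ} : rtr (1 : Mat n) = n := by
  simp [rtr]

/-- Derivative of `τ ↦ tr (Z D_τ)`. -/
theorem Dtau_hasDerivAt {n : ℕ} {k F : Mat n} (h : KF k F) (Z : Mat n) {τ : ℝ} (hτ : 0 < τ) :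
    HasDerivAt (fun t => rtr (Z * Dtau k F t))
      (dlogt Z (ktau k τ - F) ((2 : ℂ) • ktau k τ)⁻¹ +
        dlogt Z (ktau k τ + F) ((2 : ℂ) • ktau k τ)⁻¹ - rtr Z / τ) τ := by
  have hk := ktau_hasDerivAt h.hk hτ
  have hA := mlog_hasDerivAt Z (fun t => ktau k t - F) _ τ
    (by filter_upwards [lt_mem_nhds hτ] with t ht using A_posDef h ht) (hk.sub_const F)
  have hB := mlog_hasDerivAt Z (fun t => ktau k t + F) _ τ
    (by filter_upwards [lt_mem_nhds hτ] with t ht using B_posDef h ht) (hk.add_const F)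
  have hl : HasDerivAt (fun t : ℝ => Real.log t * rtr Z) (rtr Z / τ) τ := by
    have := (Real.hasDerivAt_log hτ.ne').mul_const (rtr Z)
    simpa [div_eq_mul_inv, mul_comm] using this
  refine ((hA.add hB).sub hl).congr_of_eventuallyEq (Eventually.of_forall fun t => ?_)
  simp only [Dtau, Pi.add_apply, Pi.sub_apply]
  simp only [rtr, Matrix.mul_add, Matrix.mul_sub, Matrix.trace_add, Matrix.trace_sub,
    Matrix.mul_smul, Matrix.mul_one, Matrix.trace_smul, Complex.add_re, Complex.sub_re]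
  simp

/-- The pointwise algebraic identity. -/
private theorem pointwise {n : ℕ} {q : ℝ} (hq : 0 < q) {k F V : Mat n} {τ : ℝ} (hτ : 0 < τ) :
    rtr (Ytau q V τ * mlog (Ytau q V τ)) - Real.log ((1 + 1 / q) * τ) * rtr (Ytau q V τ) - rtr V
      - rtr ((V - (k * k - F * F)) * Dtau k F τ) =
    gibbs (Ytau q V τ) (Xtau q k F τ) + (1 + 1 / q) * gtd k F τ +
      ((rtr ((k * k - F * F) * Dtau k F τ) + τ * rtr (Dtau k F τ) - rtr (k * k - F * F)) +
        1 / q * (τ * rtr (Dtau k F τ) - rtr (k * k - F * F))) := by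
  have hr : 0 < 1 + 1 / q := by positivity
  set L : Mat n := mlog (ktau k τ - F) + mlog (ktau k τ + F) with hL
  have hLh : L.IsHermitian := (mlog_herm _).add (mlog_herm _)
  have hX : Xtau q k F τ = L + ((Real.log (1 + 1 / q) : ℝ) : ℂ) • (1 : Mat n) := rfl
  have hD : Dtau k F τ = L - ((Real.log τ : ℝ) : ℂ) • (1 : Mat n) := rfl
  have hlog : Real.log ((1 + 1 / q) * τ) = Real.log (1 + 1 / q) + Real.log τ :=
    Real.log_mul hr.ne' hτ.ne'
  have hexp : rtr (mexp (Xtau q k F τ)) = (1 + 1 / q) * rtr (mexp L) := by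
    rw [hX, mexp_add_const hLh, rtr_smul', Real.exp_log hr]
  set Y : Mat n := Ytau q V τ with hY
  set R : Mat n := k * k - F * F with hR
  have hYX : rtr (Y * Xtau q k F τ) = rtr (Y * L) + Real.log (1 + 1 / q) * rtr Y := by
    rw [hX, Matrix.mul_add, Matrix.mul_smul, Matrix.mul_one]
    have : rtr (Y * L + ((Real.log (1 + 1 / q) : ℝ) : ℂ) • Y) =
        rtr (Y * L) + rtr (((Real.log (1 + 1 / q) : ℝ) : ℂ) • Y) := by
      simp [rtr, Matrix.trace_add]
    rw [this, rtr_smul']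
  have hYL : rtr (Y * L) = rtr (V * L) + (1 + 1 / q) * τ * rtr L := by
    rw [hY, Ytau, Matrix.add_mul, Matrix.smul_mul, Matrix.one_mul]
    have : rtr (V * L + (((1 + 1 / q) * τ : ℝ) : ℂ) • L) =
        rtr (V * L) + rtr ((((1 + 1 / q) * τ : ℝ) : ℂ) • L) := by
      simp only [rtr, Matrix.trace_add, Complex.add_re]
    rw [this, rtr_smul']
  have hYt : rtr Y = rtr V + (1 + 1 / q) * τ * n := by
    have : rtr Y = rtr V + rtr ((((1 + 1 / q) * τ : ℝ) : ℂ) • (1 : Mat n)) := by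
      rw [hY, Ytau]
      simp only [rtr, Matrix.trace_add, Complex.add_re]
    rw [this, rtr_smul', rtr_one']
  have hZD : ∀ Z : Mat n, rtr (Z * Dtau k F τ) = rtr (Z * L) - Real.log τ * rtr Z := by
    intro Z
    rw [hD, Matrix.mul_sub, Matrix.mul_smul, Matrix.mul_one]
    have : rtr (Z * L - ((Real.log τ : ℝ) : ℂ) • Z) =
        rtr (Z * L) - rtr (((Real.log τ : ℝ) : ℂ) • Z) := by
      simp only [rtr, Matrix.trace_sub, Complex.sub_re]
    rw [this, rtr_smul']
  have hD1 : rtr (Dtau k F τ) = rtr L - Real.log τ * n := by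
    have := hZD 1
    rw [Matrix.one_mul, Matrix.one_mul, rtr_one'] at this
    exact this
  have hVR : rtr ((V - R) * Dtau k F τ) = rtr (V * L) - Real.log τ * rtr V -
      (rtr (R * L) - Real.log τ * rtr R) := by
    rw [← hZD, ← hZD, Matrix.sub_mul]
    simp only [rtr, Matrix.trace_sub, Complex.sub_re]
  have hRD := hZD R
  rw [hVR, hRD, hD1, gibbs, gtd, hexp, hYX, hYL, hlog, ← hL, ← hR, hYt]
  ring

/-- The boundary function `H(τ) = τ^q (tr (R D) + τ tr D - tr R)` and its derivative. -/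
private theorem H_hasDerivAt {n : ℕ} {q : ℝ} (hq : 0 < q) {k F : Mat n} (h : KF k F) {τ : ℝ}
    (hτ : 0 < τ) :
    HasDerivAt (fun t : ℝ => t ^ q * (rtr ((k * k - F * F) * Dtau k F t) + t * rtr (Dtau k F t)
        - rtr (k * k - F * F)))
      (q * (τ ^ (q - 1) * ((rtr ((k * k - F * F) * Dtau k F τ) + τ * rtr (Dtau k F τ)
        - rtr (k * k - F * F)) + 1 / q * (τ * rtr (Dtau k F τ) - rtr (k * k - F * F))))
        - τ ^ q * cde k F τ) τ := by
  set R : Mat n := k * k - F * F with hR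
  -- derivative of `G(t) = rtr (R D_t) + t rtr D_t` at `τ`
  have hZ := Dtau_hasDerivAt h (R + (τ : ℂ) • (1 : Mat n)) hτ
  have h1 := Dtau_hasDerivAt h (1 : Mat n) hτ
  have hG : HasDerivAt (fun t : ℝ => rtr (R * Dtau k F t) + t * rtr (Dtau k F t))
      (rtr (Dtau k F τ) - cde k F τ - rtr R / τ) τ := by
    have e : (fun t : ℝ => rtr (R * Dtau k F t) + t * rtr (Dtau k F t)) =
        fun t => rtr ((R + (τ : ℂ) • (1 : Mat n)) * Dtau k F t) +
          (t - τ) * rtr (1 * Dtau k F t) := by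
      funext t
      have : rtr ((R + (τ : ℂ) • (1 : Mat n)) * Dtau k F t) =
          rtr (R * Dtau k F t) + τ * rtr (Dtau k F t) := by
        rw [Matrix.add_mul, Matrix.smul_mul, Matrix.one_mul]
        have : rtr (R * Dtau k F t + (τ : ℂ) • Dtau k F t) =
            rtr (R * Dtau k F t) + rtr ((τ : ℂ) • Dtau k F t) := by
          simp only [rtr, Matrix.trace_add, Complex.add_re]
        rw [this, rtr_smul']
      rw [this, Matrix.one_mul]; ring
    rw [e]
    have h2 := hZ.add (((hasDerivAt_id τ).sub_const τ).mul h1)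
    refine h2.congr_deriv ?_
    simp only [id_eq, sub_self, zero_mul, add_zero, one_mul, Matrix.one_mul]
    have ht : rtr (R + (τ : ℂ) • (1 : Mat n)) = rtr R + τ * n := by
      have : rtr (R + (τ : ℂ) • (1 : Mat n)) = rtr R + rtr ((τ : ℂ) • (1 : Mat n)) := by
        simp only [rtr, Matrix.trace_add, Complex.add_re]
      rw [this, rtr_smul', rtr_one']
    rw [ht, cde]
    field_simp
    ring
  have hp := Real.hasDerivAt_rpow_const (x := τ) (p := q) (Or.inl hτ.ne')
  have hf := hp.mul (hG.sub_const (rtr R))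
  refine hf.congr_deriv ?_
  have e1 : τ ^ q = τ ^ (q - 1) * τ := by
    rw [← Real.rpow_add_one hτ.ne', sub_add_cancel]
  rw [e1]
  field_simp
  ring

set_option maxHeartbeats 800000 in
/-- PI-9. The deficit inequality; `hg`, `ht`, `hc` are `gibbs_nonneg`, `gtd_nonneg`, `cde_nonneg`.
(Approximate mean value form, so that no integrability of the deficits in `τ` is needed.)

Proof. For `τ > 0`, with `R = k² - F²`, `D = D_τ`, `r = 1/q`:
`tr (Y log Y) - log((1+r)τ) tr Y - tr V - tr ((V-R) D)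
  = gibbs + (1+r) gtd + {tr (R D) - (1+r) (tr R - τ tr D)}` (algebra), and
`τ^(q-1) {…} = (1/q) H'(τ) + (1/q) τ^q cde` where `H(τ) = τ^q tr (R D) - τ^q (tr R - τ tr D)`.
`H → 0` at `0+`, and `liminf H ≥ 0` at `∞` (PI-6, PI-8d). If
`cq q (τ^(q-1) gibbs + (1/q) τ^q cde) > dPI + η` for all `τ ∈ [1,2]`, integrate the inequality
`LHS ≥ (1/q) H' + (dPI+η)/cq 1_[1,2]` over `[ε,M]`
(`intervalIntegral.sub_le_integral_of_hasDeriv_right_of_le`), `ε → 0`, `M → ∞`: contradiction,
because `cq q ∫ LHS = dPI` by PI-7 and the definition of `pihat`. -/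
theorem dPI_ge {n : ℕ} {q : ℝ} (hq : 0 < q) (hq' : q < 1) {k F V : Mat n} (h : KF k F)
    (hV : V.PosSemidef)
    (hg : ∀ τ, 0 < τ → 0 ≤ gibbs (Ytau q V τ) (Xtau q k F τ))
    (ht : ∀ τ, 0 < τ → 0 ≤ gtd k F τ) (hc : ∀ τ, 0 < τ → 0 ≤ cde k F τ) {η : ℝ} (hη : 0 < η) :
    ∃ τ ∈ Icc (1 : ℝ) 2, cq q * (τ ^ (q - 1) * gibbs (Ytau q V τ) (Xtau q k F τ) +
      1 / q * τ ^ q * cde k F τ) ≤ dPI q k F V + η := by
  by_contra hcon
  push Not at hcon
  have hcq : 0 < cq q := by
    unfold cq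
    have : 0 < Real.sin (Real.pi * q) :=
      Real.sin_pos_of_pos_of_lt_pi (by positivity)
        (by nlinarith [Real.pi_pos])
    positivity
  set R : Mat n := k * k - F * F with hR
  set H : ℝ → ℝ := fun t : ℝ => t ^ q * (rtr (R * Dtau k F t) + t * rtr (Dtau k F t) - rtr R) with hH
  set H' : ℝ → ℝ := fun t => q * (t ^ (q - 1) * ((rtr (R * Dtau k F t) + t * rtr (Dtau k F t)
        - rtr R) + 1 / q * (t * rtr (Dtau k F t) - rtr R))) - t ^ q * cde k F t with hH'
  have hHd : ∀ t, 0 < t → HasDerivAt H (H' t) t := fun t ht0 => H_hasDerivAt hq h ht0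
  -- the integrand
  set E : ℝ → ℝ := fun τ => τ ^ (q - 1) * (rtr (Ytau q V τ * mlog (Ytau q V τ))
      - Real.log ((1 + 1 / q) * τ) * rtr (Ytau q V τ) - rtr V) with hE
  set P : ℝ → ℝ := fun τ => τ ^ (q - 1) * rtr ((V - R) * Dtau k F τ) with hP
  obtain ⟨hEi, hEv⟩ := entropy_matrix hq hq' hV
  have hPi : IntegrableOn P (Ioi 0) := Dtau_integrable hq hq' h (V - R)
  set φ : ℝ → ℝ := fun τ => E τ - P τ with hφ
  have hφi : IntegrableOn φ (Ioi 0) := hEi.sub hPi
  set I : ℝ := ∫ τ in Ioi (0 : ℝ), φ τ with hI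
  have hdPI : dPI q k F V = cq q * I := by
    have e1 : I = (∫ τ in Ioi (0 : ℝ), E τ) - ∫ τ in Ioi (0 : ℝ), P τ := integral_sub hEi hPi
    rw [dPI, pihat, e1, mul_sub, ← hEv]
  have hφeq : ∀ τ, 0 < τ → φ τ = τ ^ (q - 1) * gibbs (Ytau q V τ) (Xtau q k F τ) +
      τ ^ (q - 1) * ((1 + 1 / q) * gtd k F τ) + 1 / q * H' τ + 1 / q * τ ^ q * cde k F τ := by
    intro τ hτ
    have h1 := pointwise (V := V) (k := k) (F := F) hq hτ
    have h2 : φ τ = τ ^ (q - 1) * (rtr (Ytau q V τ * mlog (Ytau q V τ)) -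
        Real.log ((1 + 1 / q) * τ) * rtr (Ytau q V τ) - rtr V - rtr ((V - R) * Dtau k F τ)) := by
      simp only [hφ, hE, hP]; ring
    rw [h2, h1]
    simp only [hH']
    field_simp
    ring
  have hq1 : 0 < 1 / q := by positivity
  have hφge : ∀ τ, 0 < τ → 1 / q * H' τ ≤ φ τ := by
    intro τ hτ
    have h0 := hφeq τ hτ
    have p1 : 0 ≤ τ ^ (q - 1) * gibbs (Ytau q V τ) (Xtau q k F τ) :=
      mul_nonneg (by positivity) (hg τ hτ)
    have p2 : 0 ≤ τ ^ (q - 1) * ((1 + 1 / q) * gtd k F τ) :=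
      mul_nonneg (by positivity) (mul_nonneg (by positivity) (ht τ hτ))
    have p3 : 0 ≤ 1 / q * τ ^ q * cde k F τ := mul_nonneg (by positivity) (hc τ hτ)
    linarith
  set c0 : ℝ := (dPI q k F V + η) / cq q with hc0
  have hφge2 : ∀ τ ∈ Icc (1 : ℝ) 2, 1 / q * H' τ + c0 ≤ φ τ := by
    intro τ hτ
    have hτ0 : 0 < τ := lt_of_lt_of_le one_pos hτ.1
    have h0 := hφeq τ hτ0
    have p2 : 0 ≤ τ ^ (q - 1) * ((1 + 1 / q) * gtd k F τ) :=
      mul_nonneg (by positivity) (mul_nonneg (by positivity) (ht τ hτ0))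
    have h1 := hcon τ hτ
    have h2 : c0 < τ ^ (q - 1) * gibbs (Ytau q V τ) (Xtau q k F τ) +
        1 / q * τ ^ q * cde k F τ := by
      rw [hc0, div_lt_iff₀ hcq]; linarith
    linarith
  -- integrability on intervals
  have hint : ∀ a b, 0 ≤ a → a ≤ b → IntegrableOn φ (Icc a b) := by
    intro a b ha hab
    rw [integrableOn_Icc_iff_integrableOn_Ioc]
    exact hφi.mono_set fun x hx => lt_of_le_of_lt ha hx.1
  have hii : ∀ a b, 0 ≤ a → a ≤ b → IntervalIntegrable φ volume a b := by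
    intro a b ha hab
    rw [intervalIntegrable_iff_integrableOn_Icc_of_le hab]
    exact hint a b ha hab
  have piece : ∀ (c a b : ℝ), 0 < a → a ≤ b → (∀ x ∈ Ioo a b, 1 / q * H' x + c ≤ φ x) →
      1 / q * (H b - H a) + c * (b - a) ≤ ∫ x in a..b, φ x := by
    intro c a b ha hab hle
    have h1 := intervalIntegral.sub_le_integral_of_hasDeriv_right_of_le hab
      (g := fun x => 1 / q * H x + c * x) (g' := fun x => 1 / q * H' x + c) (φ := φ)
      (fun x hx => by
        have hx0 : 0 < x := lt_of_lt_of_le ha hx.1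
        exact (((hHd x hx0).const_mul (1 / q)).add
          ((hasDerivAt_id x).const_mul c)).continuousAt.continuousWithinAt)
      (fun x hx => by
        have hx0 : 0 < x := lt_trans ha hx.1
        have := ((hHd x hx0).const_mul (1 / q)).add ((hasDerivAt_id x).const_mul c)
        have h3 : 1 / q * H' x + c * 1 = 1 / q * H' x + c := by ring
        rw [h3] at this
        exact this.hasDerivWithinAt)
      (hint a b ha.le hab) hle
    calc 1 / q * (H b - H a) + c * (b - a) = (1 / q * H b + c * b) - (1 / q * H a + c * a) := by ring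
      _ ≤ _ := h1
  have total : ∀ ε M : ℝ, 0 < ε → ε ≤ 1 → 2 ≤ M →
      1 / q * (H M - H ε) + c0 ≤ (∫ x in (0 : ℝ)..M, φ x) - ∫ x in (0 : ℝ)..ε, φ x := by
    intro ε M hε hε1 hM
    have p1 := piece 0 ε 1 hε hε1 (fun x hx => by
      rw [add_zero]; exact hφge x (lt_trans hε hx.1))
    have p2 := piece c0 1 2 one_pos one_le_two (fun x hx => hφge2 x (Ioo_subset_Icc_self hx))
    have p3 := piece 0 2 M two_pos hM (fun x hx => by
      rw [add_zero]; exact hφge x (lt_trans two_pos hx.1))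
    have a1 := intervalIntegral.integral_add_adjacent_intervals
      (hii 0 ε le_rfl hε.le) (hii ε 1 hε.le hε1)
    have a2 := intervalIntegral.integral_add_adjacent_intervals
      (hii 0 1 le_rfl zero_le_one) (hii 1 2 zero_le_one one_le_two)
    have a3 := intervalIntegral.integral_add_adjacent_intervals
      (hii 0 2 le_rfl zero_le_two) (hii 2 M zero_le_two hM)
    have e : 1 / q * (H M - H ε) + c0 = (1 / q * (H 1 - H ε) + 0 * (1 - ε)) +
        (1 / q * (H 2 - H 1) + c0 * (2 - 1)) + (1 / q * (H M - H 2) + 0 * (M - 2)) := by ring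
    rw [e]
    linarith
  -- limits of `H`
  have hD0 := Dtau_tendsto_zero hq hq' h
  have hH0 : Tendsto H (𝓝[>] 0) (𝓝 0) := by
    have t1 := (hD0 R).1
    have t2 := (hD0 1).1
    have tid : Tendsto (fun τ : ℝ => τ) (𝓝[>] 0) (𝓝 0) :=
      tendsto_id.mono_left nhdsWithin_le_nhds
    have tq : Tendsto (fun τ : ℝ => τ ^ q) (𝓝[>] 0) (𝓝 0) := by
      have := (Real.continuousAt_rpow_const 0 q (Or.inr hq.le)).tendsto
      rw [Real.zero_rpow hq.ne'] at this
      exact this.mono_left nhdsWithin_le_nhds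
    have := (t1.add (tid.mul t2)).sub (tq.mul_const (rtr R))
    simp only [zero_mul, mul_zero, add_zero, sub_zero] at this
    refine this.congr fun τ => ?_
    simp only [hH, Matrix.one_mul]; ring
  obtain ⟨C, T, hC, hT, hlow⟩ := trD_lower h
  have hHinf : ∀ δ, 0 < δ → ∀ᶠ M in atTop, -δ ≤ H M := by
    intro δ hδ
    have t1 := (hD0 R).2
    have t2 : Tendsto (fun τ : ℝ => C * τ ^ (q - 1)) atTop (𝓝 0) := by
      have : Tendsto (fun τ : ℝ => τ ^ (-(1 - q))) atTop (𝓝 0) :=
        tendsto_rpow_neg_atTop (by linarith)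
      have h2 := this.const_mul C
      rw [mul_zero] at h2
      refine h2.congr fun τ => ?_
      rw [neg_sub]
    have t3 := t1.sub t2
    rw [sub_zero] at t3
    filter_upwards [t3.eventually (eventually_ge_nhds (show -δ < 0 by linarith)),
      eventually_ge_atTop T, eventually_gt_atTop 0] with M h1 h2 h3
    have h4 := hlow M h2
    have h5 : M ^ q * (rtr (k * k - F * F) - M * rtr (Dtau k F M)) ≤ C * M ^ (q - 1) := by
      have : M ^ q * (C / M) = C * M ^ (q - 1) := by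
        rw [Real.rpow_sub_one h3.ne']; ring
      rw [← this]
      exact mul_le_mul_of_nonneg_left h4 (by positivity)
    have h6 : H M = M ^ q * rtr (R * Dtau k F M) -
        M ^ q * (rtr (k * k - F * F) - M * rtr (Dtau k F M)) := by
      simp only [hH, ← hR]; ring
    rw [h6]
    linarith
  -- conclusion
  have hlimM : Tendsto (fun M : ℝ => ∫ x in (0 : ℝ)..M, φ x) atTop (𝓝 I) :=
    intervalIntegral_tendsto_integral_Ioi 0 hφi tendsto_id
  have step : ∀ δ, 0 < δ → ∀ ε, 0 < ε → ε ≤ 1 →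
      1 / q * (-δ - H ε) + c0 ≤ I - ∫ x in (0 : ℝ)..ε, φ x := by
    intro δ hδ ε hε hε1
    refine ge_of_tendsto (hlimM.sub_const (∫ x in (0 : ℝ)..ε, φ x)) ?_
    filter_upwards [hHinf δ hδ, eventually_ge_atTop (2 : ℝ)] with M h1 h2
    have h3 := total ε M hε hε1 h2
    have h4 : 1 / q * (-δ - H ε) ≤ 1 / q * (H M - H ε) :=
      mul_le_mul_of_nonneg_left (by linarith) hq1.le
    linarith
  have hlimε : Tendsto (fun ε : ℝ => ∫ x in (0 : ℝ)..ε, φ x) (𝓝[>] 0) (𝓝 0) := by
    have hc1 := intervalIntegral.continuousOn_primitive_interval (a := 0) (b := 1) (f := φ)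
      (μ := volume) (by rw [uIcc_of_le zero_le_one]; exact hint 0 1 le_rfl zero_le_one)
    have h1 := hc1 0 (by simp)
    have h2 : Tendsto (fun ε : ℝ => ∫ x in (0 : ℝ)..ε, φ x) (𝓝[uIcc 0 1] 0) (𝓝 0) := by
      simpa using h1.tendsto
    refine h2.mono_left ?_
    rw [uIcc_of_le zero_le_one]
    refine nhdsWithin_le_iff.2 ?_
    filter_upwards [Ioo_mem_nhdsGT (show (0 : ℝ) < 1 by norm_num)] with x hx
    exact ⟨hx.1.le, hx.2.le⟩
  have step2 : ∀ δ, 0 < δ → 1 / q * (-δ - 0) + c0 ≤ I - 0 := by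
    intro δ hδ
    refine le_of_tendsto_of_tendsto (((tendsto_const_nhds (x := -δ)).sub hH0).const_mul (1 / q)
      |>.add_const c0) ((tendsto_const_nhds (x := I)).sub hlimε) ?_
    filter_upwards [Ioo_mem_nhdsGT (show (0 : ℝ) < 1 by norm_num)] with ε hε
    exact step δ hδ ε hε.1 hε.2.le
  have hfin := step2 (q * (η / (2 * cq q))) (by positivity)
  have e1 : 1 / q * (-(q * (η / (2 * cq q))) - 0) = -(η / (2 * cq q)) := by field_simp; ring
  have e2 : c0 = I + η / cq q := by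
    rw [hc0, hdPI, add_div, mul_div_cancel_left₀ _ hcq.ne']
  rw [e1, e2] at hfin
  have e3 : η / cq q = 2 * (η / (2 * cq q)) := by field_simp
  have e4 : 0 < η / (2 * cq q) := by positivity
  linarith

end SLT
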