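import Crest.Agent.SLT.StabDefs

/-!
# Row 332, STAB: the Gibbs (Klein) deficit
-/

set_option autoImplicit false

open MeasureTheory
open scoped ComplexOrder Matrix

namespace SLT

variable {n m : ℕ}

/-- `e^t - 1 - t ≥ t²/4 e^{-|t|}` -/
theorem exp_sub_one_sub_ge (t : ℝ) : t ^ 2 / 4 * Real.exp (-|t|) ≤ Real.exp t - 1 - t := by
  have h1 : Real.exp t = Real.exp (t / 2) ^ 2 := by
    rw [← Real.exp_nat_mul]; congr 1; push_cast; ring
  have h2 : t / 2 + 1 ≤ Real.exp (t / 2) := Real.add_one_le_exp _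
  have h3 : (Real.exp (t / 2) - 1) ^ 2 ≤ Real.exp t - 1 - t := by
    rw [h1]; nlinarith
  refine le_trans ?_ h3
  have h4 : |t / 2| * Real.exp (-|t| / 2) ≤ |Real.exp (t / 2) - 1| := by
    rcases le_total 0 t with ht | ht
    · rw [abs_of_nonneg (by linarith : 0 ≤ t / 2), abs_of_nonneg ht]
      have : Real.exp (-t / 2) ≤ 1 := Real.exp_le_one_iff.mpr (by linarith)
      calc t / 2 * Real.exp (-t / 2) ≤ t / 2 * 1 :=
            mul_le_mul_of_nonneg_left this (by linarith)
        _ ≤ Real.exp (t / 2) - 1 := by linarith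
        _ ≤ _ := le_abs_self _
    · rw [abs_of_nonpos (by linarith : t / 2 ≤ 0), abs_of_nonpos ht]
      have e : Real.exp (- -t / 2) = Real.exp (t / 2) := by congr 1; ring
      rw [e, abs_sub_comm]
      have h5 : -(t / 2) + 1 ≤ Real.exp (-(t / 2)) := Real.add_one_le_exp _
      have h6 : Real.exp (-(t / 2)) * Real.exp (t / 2) = 1 := by
        rw [← Real.exp_add]; simp
      have h7 := Real.exp_pos (t / 2)
      have : -(t / 2) * Real.exp (t / 2) ≤ 1 - Real.exp (t / 2) := by nlinarith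
      exact this.trans (le_abs_self _)
  have h8 : (|t / 2| * Real.exp (-|t| / 2)) ^ 2 ≤ |Real.exp (t / 2) - 1| ^ 2 :=
    pow_le_pow_left₀ (by positivity) h4 2
  rw [sq_abs, mul_pow, sq_abs] at h8
  have h9 : Real.exp (-|t| / 2) ^ 2 = Real.exp (-|t|) := by
    rw [← Real.exp_nat_mul]; congr 1; push_cast; ring
  rw [h9] at h8
  calc t ^ 2 / 4 * Real.exp (-|t|) = (t / 2) ^ 2 * Real.exp (-|t|) := by ring
    _ ≤ _ := h8

/-- scalar Klein inequality with a quantitative deficit -/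
theorem klein_scalar {y x : ℝ} (hy : 0 < y) :
    y * ((Real.log y - x) ^ 2 / 4 * Real.exp (-|Real.log y - x|)) ≤
      y * Real.log y - y * x - y + Real.exp x := by
  have h := exp_sub_one_sub_ge (x - Real.log y)
  have e : Real.exp x = y * Real.exp (x - Real.log y) := by
    rw [Real.exp_sub, Real.exp_log hy]; field_simp
  rw [e, abs_sub_comm (Real.log y) x, show (Real.log y - x) ^ 2 = (x - Real.log y) ^ 2 by ring]
  have := mul_le_mul_of_nonneg_left h hy.le
  linarith

theorem gibbs_spec {Y X : Mat n} (hY : Y.IsHermitian) (hX : X.IsHermitian) :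
    gibbs Y X = ∑ i, ∑ j, (hY.eigenvalues i * Real.log (hY.eigenvalues i)
      - hY.eigenvalues i * hX.eigenvalues j - hY.eigenvalues i
        + Real.exp (hX.eigenvalues j)) * swt hY hX (1 : Mat n) i j := by
  have s1 : rtr (Y * mlog Y) = ∑ i, ∑ j, (hY.eigenvalues i * Real.log (hY.eigenvalues i)) * 1
      * swt hY hX (1 : Mat n) i j := by
    rw [← spec_sum hY hX (1 : Mat n) (fun t => t * Real.log t) (fun _ => 1),
      cfc_one_fun hX, ← cfc_mul_fun hY (fun t => t) Real.log, cfc_id_fun hY]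
    simp [mlog]
  have s2 : rtr (Y * X) = ∑ i, ∑ j, hY.eigenvalues i * hX.eigenvalues j
      * swt hY hX (1 : Mat n) i j := by
    rw [← spec_sum hY hX (1 : Mat n) (fun t => t) (fun t => t), cfc_id_fun hY, cfc_id_fun hX]
    simp
  have s3 : rtr Y = ∑ i, ∑ j, hY.eigenvalues i * 1 * swt hY hX (1 : Mat n) i j := by
    rw [← spec_sum hY hX (1 : Mat n) (fun t => t) (fun _ => 1), cfc_id_fun hY, cfc_one_fun hX]
    simp
  have s4 : rtr (mexp X) = ∑ i, ∑ j, 1 * Real.exp (hX.eigenvalues j)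
      * swt hY hX (1 : Mat n) i j := by
    rw [← spec_sum hY hX (1 : Mat n) (fun _ => 1) Real.exp, cfc_one_fun hY]
    simp [mexp]
  unfold gibbs
  rw [s1, s2, s3, s4, ← Finset.sum_sub_distrib, ← Finset.sum_sub_distrib, ← Finset.sum_add_distrib]
  refine Finset.sum_congr rfl fun i _ => ?_
  rw [← Finset.sum_sub_distrib, ← Finset.sum_sub_distrib, ← Finset.sum_add_distrib]
  exact Finset.sum_congr rfl fun j _ => by ring

theorem gibbs_nonneg {Y X : Mat n} (hY : Y.PosDef) (hX : X.IsHermitian) : 0 ≤ gibbs Y X := by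
  rw [gibbs_spec hY.isHermitian hX]
  refine Finset.sum_nonneg fun i _ => Finset.sum_nonneg fun j _ =>
    mul_nonneg ?_ (swt_nonneg _ _ _ _ _)
  have hy : 0 < hY.isHermitian.eigenvalues i := hY.eigenvalues_pos i
  exact le_trans (by positivity) (klein_scalar hy)

/-- quantitative Klein inequality: if `y₀ ≤ Y` and `|log Y|, |X| ≤ L` then
`y₀ e^{-2L}/4 ‖log Y - X‖² ≤ gibbs Y X`. -/
theorem gibbs_ge {Y X : Mat n} (hY : Y.IsHermitian) (hX : X.IsHermitian) {y₀ L : ℝ} (hy0 : 0 < y₀)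
    (h1 : ∀ i, y₀ ≤ hY.eigenvalues i) (h2 : ∀ i, |Real.log (hY.eigenvalues i)| ≤ L)
    (h3 : ∀ j, |hX.eigenvalues j| ≤ L) :
    y₀ * (Real.exp (-(2 * L)) / 4) * hsq (mlog Y - X) ≤ gibbs Y X := by
  have e := hsq_spec hY hX (1 : Mat n) Real.log (fun t => t)
  rw [cfc_id_fun hX, Matrix.mul_one, Matrix.one_mul] at e
  have e' : hsq (mlog Y - X) = _ := e
  rw [e', gibbs_spec hY hX, Finset.mul_sum]
  refine Finset.sum_le_sum fun i _ => ?_
  rw [Finset.mul_sum]
  refine Finset.sum_le_sum fun j _ => ?_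
  rw [← mul_assoc]
  refine mul_le_mul_of_nonneg_right ?_ (swt_nonneg _ _ _ _ _)
  have hy : 0 < hY.eigenvalues i := lt_of_lt_of_le hy0 (h1 i)
  refine le_trans ?_ (klein_scalar hy)
  set u := Real.log (hY.eigenvalues i) - hX.eigenvalues j
  have hu : |u| ≤ 2 * L := by
    calc |u| ≤ |Real.log (hY.eigenvalues i)| + |hX.eigenvalues j| := abs_sub _ _
      _ ≤ 2 * L := by linarith [h2 i, h3 j]
  have h4 : Real.exp (-(2 * L)) ≤ Real.exp (-|u|) := Real.exp_le_exp.mpr (by linarith)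
  have h5 := Real.exp_pos (-(2 * L))
  calc y₀ * (Real.exp (-(2 * L)) / 4) * u ^ 2
      ≤ hY.eigenvalues i * (Real.exp (-(2 * L)) / 4) * u ^ 2 := by
        refine mul_le_mul_of_nonneg_right (mul_le_mul_of_nonneg_right (h1 i) (by positivity))
          (sq_nonneg _)
    _ = hY.eigenvalues i * (u ^ 2 / 4 * Real.exp (-(2 * L))) := by ring
    _ ≤ _ := by
        refine mul_le_mul_of_nonneg_left (mul_le_mul_of_nonneg_left h4 (by positivity)) hy.le

end SLT
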