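import Crest.Agent.SLT.StabDuh
import Crest.Agent.SLT.StabGibbs
import Crest.Agent.SLT.PIMain
import Crest.Agent.SLT.PIGT

/-!
# Row 332: STAB, the dimension free stability estimate for the pointwise inequality (PI)
-/

set_option autoImplicit false

open MeasureTheory Set
open scoped ComplexOrder Matrix

namespace SLT.Stab

variable {n : ℕ}

/-- composition of functional calculi, no continuity needed -/
theorem cfc_of_eq {A B : Mat n} (hA : A.IsHermitian) (hB : B.IsHermitian) {g : ℝ → ℝ}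
    (h : A = cfc g B) (f : ℝ → ℝ) : cfc f A = cfc (fun t => f (g t)) B := by
  have h0 : hsq (A * (1 : Mat n) - (1 : Mat n) * cfc g B) = 0 := by
    rw [Matrix.mul_one, Matrix.one_mul, ← h, sub_self]
    simp [hsq]
  have e0 := hsq_spec hA hB (1 : Mat n) (fun t => t) g
  rw [cfc_id_fun hA, h0] at e0
  have e1 := hsq_spec hA hB (1 : Mat n) f (fun t => f (g t))
  have hz : ∀ i j, (hA.eigenvalues i - g (hB.eigenvalues j)) ^ 2 *
      swt hA hB (1 : Mat n) i j = 0 := by
    intro i j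
    have hn : ∀ i, 0 ≤ ∑ j, (hA.eigenvalues i - g (hB.eigenvalues j)) ^ 2 *
        swt hA hB (1 : Mat n) i j := fun i => Finset.sum_nonneg fun j _ =>
      mul_nonneg (sq_nonneg _) (swt_nonneg _ _ _ _ _)
    have h1 := (Finset.sum_eq_zero_iff_of_nonneg fun i _ => hn i).mp e0.symm i (Finset.mem_univ _)
    exact (Finset.sum_eq_zero_iff_of_nonneg fun j _ =>
      mul_nonneg (sq_nonneg _) (swt_nonneg _ _ _ _ _)).mp h1 j (Finset.mem_univ _)
  have h2 : hsq (cfc f A * (1 : Mat n) - (1 : Mat n) * cfc (fun t => f (g t)) B) = 0 := by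
    rw [e1]
    refine Finset.sum_eq_zero fun i _ => Finset.sum_eq_zero fun j _ => ?_
    rcases mul_eq_zero.mp (hz i j) with h3 | h3
    · have h4 : hA.eigenvalues i = g (hB.eigenvalues j) := by
        have := pow_eq_zero_iff two_ne_zero |>.mp h3
        linarith
      rw [h4]; ring
    · rw [h3, mul_zero]
  rw [Matrix.mul_one, Matrix.one_mul] at h2
  exact sub_eq_zero.mp (hsq_eq_zero.mp h2)

theorem mexp_add_smul {Z : Mat n} (hZ : Z.IsHermitian) {w : ℝ} (hw : 0 < w) :
    mexp (Z + ((Real.log w : ℝ) : ℂ) • (1 : Mat n)) = (w : ℂ) • mexp Z := by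
  have h1 : (Z + ((Real.log w : ℝ) : ℂ) • (1 : Mat n)).IsHermitian := by
    rw [add_smul_one_eq hZ]; exact cfc_herm _
  unfold mexp
  rw [cfc_of_eq h1 hZ (add_smul_one_eq hZ (Real.log w)), cfc_smul_fun hZ]
  refine cfc_congr_eig hZ fun i => ?_
  rw [Real.exp_add, Real.exp_log hw, mul_comm]

theorem hsq_comm_le {F E : Mat n} (hF : F.IsHermitian) {κ : ℝ}
    (h : ∀ i, |hF.eigenvalues i| ≤ κ) : hsq (F * E - E * F) ≤ 4 * κ ^ 2 * hsq E := by
  have h1 := hsq_sub_le (F * E) (E * F)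
  have h2 := hsq_mul_le hF h E
  have h3 := mul_hsq_le hF h E
  linarith

/-- the main computation, for one `τ ∈ [1, 2]` -/
theorem stab_tau {q κ M τ D : ℝ} (hq : 0 < q) (hq' : q < 1) (hκ0 : 0 ≤ κ)
    (hM0 : 0 ≤ M) {k F V : Mat n} (h : KF k F) (hκ : ((κ : ℂ) • (1 : Mat n) - k).PosSemidef)
    (hV : V.PosSemidef) (hM : ((M : ℂ) • (1 : Mat n) - V).PosSemidef)
    (h1τ : 1 ≤ τ) (hτ2 : τ ≤ 2)
    (hD1 : gibbs (Ytau q V τ) (Xtau q k F τ) ≤ D) (hD2 : cde k F τ ≤ D)
    {ρ w L₀ L P c : ℝ} (hρ : ρ = Real.sqrt (κ ^ 2 + 2)) (hw : w = 1 + 1 / q)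
    (hL₀ : L₀ = Real.log (2 * ρ)) (hL : L = 2 * L₀ + Real.log w + Real.log (M + 2 * w))
    (hP : P = (2 * ρ + 2) ^ 4 * (2 * (2 * ρ) ^ 2)) (hc : c = (2 * ρ)⁻¹) :
    hsq (V - (w : ℂ) • (k * k - F * F)) ≤
        (8 * Real.exp L ^ 2 * Real.exp (2 * L) + w ^ 2 * (Real.exp (2 * L₀) ^ 2 *
          (Real.exp L₀ ^ 2 * (Real.exp L₀ ^ 2 * (c⁻¹ ^ 2 * (c⁻¹ ^ 2 * 4))))) * P + w ^ 2 * P) * D ∧
      hsq (F * (k * k - F * F) - (k * k - F * F) * F) ≤ ρ ^ 2 * P * D := by
  have hτ : 0 < τ := by linarith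
  have hF := h.herm
  have hk := h.hk
  set K := ktau k τ with hK
  have hKh : K.IsHermitian := ktau_herm k τ
  have hρτ : Real.sqrt (κ ^ 2 + τ) ≤ ρ := by
    rw [hρ]; exact Real.sqrt_le_sqrt (by linarith)
  have hρ1 : 1 < ρ := by
    rw [hρ]; exact Real.lt_sqrt_of_sq_lt (by nlinarith)
  have hρ0 : 0 < ρ := by linarith
  have hsq0 : 0 < Real.sqrt (κ ^ 2 + τ) := Real.sqrt_pos.mpr (by positivity)
  have hc0 : 0 < c := by rw [hc]; positivity
  have hw1 : 2 < w := by
    rw [hw]
    have : 1 < 1 / q := by rw [lt_div_iff₀ hq]; linarith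
    linarith
  have hw0 : 0 < w := by linarith
  have hL₀0 : 0 < L₀ := by rw [hL₀]; exact Real.log_pos (by linarith)
  have hlogw : 0 < Real.log w := Real.log_pos (by linarith)
  have hlogM : 0 < Real.log (M + 2 * w) := Real.log_pos (by linarith)
  -- bounds for A and B
  have hge : ∀ G : Mat n, (k - G).PosSemidef → (K - G - (c : ℂ) • (1 : Mat n)).PosSemidef := by
    intro G hG
    have h1 := A_ge hk hκ hG hτ
    have h2 : (((τ / (2 * Real.sqrt (κ ^ 2 + τ)) - c : ℝ) : ℂ) • (1 : Mat n)).PosSemidef := by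
      refine Matrix.PosSemidef.one.smul (Complex.zero_le_real.mpr (sub_nonneg.mpr ?_))
      rw [hc, le_div_iff₀ (by positivity), inv_mul_le_iff₀ (by positivity)]
      nlinarith
    have h3 := h1.add h2
    convert h3 using 1
    push_cast
    rw [sub_smul]
    abel
  have hle : ∀ G : Mat n, (k + G).PosSemidef →
      (((2 * ρ : ℝ) : ℂ) • (1 : Mat n) - (K - G)).PosSemidef := by
    intro G hG
    have h1 := A_le hk hκ hG hτ hκ0
    have h2 : (((2 * ρ - 2 * Real.sqrt (κ ^ 2 + τ) : ℝ) : ℂ) • (1 : Mat n)).PosSemidef :=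
      Matrix.PosSemidef.one.smul (Complex.zero_le_real.mpr (by linarith))
    have h3 := h1.add h2
    convert h3 using 1
    push_cast
    rw [sub_smul]
    abel
  have gA : (K - F - (c : ℂ) • (1 : Mat n)).PosSemidef := hge F h.le
  have gB : (K + F - (c : ℂ) • (1 : Mat n)).PosSemidef := by
    have := hge (-F) (by simpa using h.ge)
    simpa using this
  have lA : (((2 * ρ : ℝ) : ℂ) • (1 : Mat n) - (K - F)).PosSemidef := hle F h.ge
  have lB : (((2 * ρ : ℝ) : ℂ) • (1 : Mat n) - (K + F)).PosSemidef := by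
    have := hle (-F) (by simpa [sub_eq_add_neg] using h.le)
    simpa using this
  have hA : (K - F).IsHermitian := hKh.sub hF
  have hB : (K + F).IsHermitian := hKh.add hF
  have logle : ∀ G : Mat n, G.IsHermitian → (G - (c : ℂ) • (1 : Mat n)).PosSemidef →
      (((2 * ρ : ℝ) : ℂ) • (1 : Mat n) - G).PosSemidef →
      ((L₀ : ℂ) • (1 : Mat n) - mlog G).PosSemidef := by
    intro G hG h1 h2
    refine cfc_le hG fun s hs => ?_
    have hs1 := le_spec hG h1 hs
    have hs2 := spec_le hG h2 hs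
    rw [hL₀]
    exact Real.log_le_log (by linarith) hs2
  have logge : ∀ G : Mat n, G.IsHermitian → (G - (c : ℂ) • (1 : Mat n)).PosSemidef →
      ((L₀ : ℂ) • (1 : Mat n) + mlog G).PosSemidef := by
    intro G hG h1
    have h3 : (mlog G - ((-L₀ : ℝ) : ℂ) • (1 : Mat n)).PosSemidef := by
      refine cfc_ge hG fun s hs => ?_
      have hs1 := le_spec hG h1 hs
      have : -L₀ = Real.log c := by rw [hL₀, hc, Real.log_inv]
      rw [this]
      exact Real.log_le_log hc0 hs1
    convert h3 using 1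
    push_cast
    rw [neg_smul, sub_neg_eq_add, add_comm]
  have a1 := logle _ hA gA lA
  have a2 := logge _ hA gA
  have b1 := logle _ hB gB lB
  have b2 := logge _ hB gB
  set Z := mlog (K - F) + mlog (K + F) with hZ
  have hZh : Z.IsHermitian := (cfc_herm _).add (cfc_herm _)
  -- the matrix X
  set X := Xtau q k F τ with hX
  have hXZ : X = Z + ((Real.log w : ℝ) : ℂ) • (1 : Mat n) := by
    rw [hX, hZ, hw]; rfl
  have hXh : X.IsHermitian := by
    rw [hXZ, add_smul_one_eq hZh]; exact cfc_herm _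
  have hX1 : ∀ i, |hXh.eigenvalues i| ≤ L := by
    intro i
    rw [abs_le]
    constructor
    · have h1 : (X - ((-(2 * L₀) + Real.log w : ℝ) : ℂ) • (1 : Mat n)).PosSemidef := by
        have := a2.add b2
        convert this using 1
        rw [hXZ, hZ]
        push_cast
        rw [add_smul, neg_smul, two_mul, add_smul]
        abel
      have := le_eig hXh h1 i
      rw [hL]
      linarith
    · have h1 : (((2 * L₀ + Real.log w : ℝ) : ℂ) • (1 : Mat n) - X).PosSemidef := by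
        have := a1.add b1
        convert this using 1
        rw [hXZ, hZ]
        push_cast
        rw [add_smul, two_mul, add_smul]
        abel
      have := eig_le hXh h1 i
      rw [hL]
      linarith
  -- the matrix Y
  set Y := Ytau q V τ with hY
  have hYV : Y = V + ((w * τ : ℝ) : ℂ) • (1 : Mat n) := by rw [hY, hw]; rfl
  have hYh : Y.IsHermitian := by
    rw [hYV, add_smul_one_eq hV.1]; exact cfc_herm _
  have hY1 : ∀ i, 1 ≤ hYh.eigenvalues i := by
    intro i
    refine le_eig hYh ?_ i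
    have h1 : (((w * τ - 1 : ℝ) : ℂ) • (1 : Mat n)).PosSemidef :=
      Matrix.PosSemidef.one.smul (Complex.zero_le_real.mpr (by nlinarith))
    have h2 := hV.add h1
    convert h2 using 1
    rw [hYV]
    push_cast
    rw [sub_smul]
    abel
  have hY2 : ∀ i, hYh.eigenvalues i ≤ M + 2 * w := by
    intro i
    refine eig_le hYh ?_ i
    have h1 : (((2 * w - w * τ : ℝ) : ℂ) • (1 : Mat n)).PosSemidef :=
      Matrix.PosSemidef.one.smul (Complex.zero_le_real.mpr (by nlinarith))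
    have h2 := hM.add h1
    convert h2 using 1
    rw [hYV]
    push_cast
    rw [sub_smul, add_smul]
    abel
  have hY3 : ∀ i, |Real.log (hYh.eigenvalues i)| ≤ L := by
    intro i
    rw [abs_of_nonneg (Real.log_nonneg (hY1 i))]
    have := Real.log_le_log (by linarith [hY1 i]) (hY2 i)
    rw [hL]
    linarith
  have hYd : Y.PosDef := by
    rw [hYh.posDef_iff_eigenvalues_pos]
    exact fun i => by linarith [hY1 i]
  -- first deficit
  have ha : hsq (mlog Y - X) ≤ 4 * Real.exp (2 * L) * D := by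
    have h1 := gibbs_ge hYh hXh one_pos hY1 hY3 hX1
    have h2 := h1.trans hD1
    have h3 : Real.exp (-(2 * L)) * Real.exp (2 * L) = 1 := by
      rw [← Real.exp_add]; simp
    have h4 := Real.exp_pos (2 * L)
    have h5 := mul_le_mul_of_nonneg_left h2 (by positivity : 0 ≤ 4 * Real.exp (2 * L))
    calc hsq (mlog Y - X) = 4 * Real.exp (2 * L) * (1 * (Real.exp (-(2 * L)) / 4) *
          hsq (mlog Y - X)) := by
            have : 4 * Real.exp (2 * L) * (1 * (Real.exp (-(2 * L)) / 4) * hsq (mlog Y - X))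
              = (Real.exp (-(2 * L)) * Real.exp (2 * L)) * hsq (mlog Y - X) := by ring
            rw [this, h3, one_mul]
      _ ≤ _ := h5
  -- second deficit
  have hD0 : 0 ≤ D := (cde_nonneg hk h.le h.ge hτ).trans hD2
  have hP0 : 0 ≤ P := by rw [hP]; positivity
  have hb : 4 * hsq (K * F - F * K) ≤ P * D := by
    have h1 := (cde_bounds hk hκ hκ0 h.le h.ge hτ).2
    rw [← hK] at h1
    refine h1.trans ?_
    have h2 : (2 * Real.sqrt (κ ^ 2 + τ) + 2) ^ 4 * (2 * (2 * Real.sqrt (κ ^ 2 + τ)) ^ 2) ≤ P := by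
      rw [hP]
      gcongr
    exact mul_le_mul h2 hD2 (cde_nonneg hk h.le h.ge hτ) hP0
  have hKK : K * K = k * k + (τ : ℂ) • (1 : Mat n) := ktau_sq hk hτ
  have hKle : ∀ i, |hKh.eigenvalues i| ≤ ρ := by
    intro i
    have h1 := eig_le hKh (ktau_le hk hκ τ) i
    have h2 := le_eig hKh (ktau_ge hk hτ) i
    rw [abs_of_nonneg ((Real.sqrt_nonneg _).trans h2)]
    exact h1.trans hρτ
  refine ⟨?_, ?_⟩
  · -- V - w R
    have e1 : hsq (Y - mexp X) ≤ Real.exp L ^ 2 * hsq (mlog Y - X) := by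
      have hYl : (mlog Y).IsHermitian := cfc_herm _
      have hYle : ∀ i, hYl.eigenvalues i ≤ L := by
        intro i
        refine eig_le hYl ?_ i
        refine cfc_le hYh fun s hs => ?_
        obtain ⟨j, rfl⟩ := spec_eq hYh hs
        exact (le_abs_self _).trans (hY3 j)
      have := hsq_lip_eig hYl hXh (1 : Mat n) Real.exp Real.exp (Real.exp L) fun i j =>
        exp_lip (hYle i) ((le_abs_self _).trans (hX1 j))
      rw [Matrix.mul_one, Matrix.one_mul, Matrix.mul_one, Matrix.one_mul] at this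
      have e : cfc Real.exp (mlog Y) = Y := mexp_mlog hYd
      rw [e] at this
      exact this
    have hdu := duhamel hA hB hc0 gA gB hL₀0.le a1 a2 b1
    rw [← hZ] at hdu
    have e2 : hsq ((K - F) * (K + F) - (K + F) * (K - F)) = 4 * hsq (K * F - F * K) := by
      have : (K - F) * (K + F) - (K + F) * (K - F) = ((2 : ℝ) : ℂ) • (K * F - F * K) := by
        push_cast
        rw [two_smul]
        noncomm_ring
      rw [this, hsq_rsmul]
      norm_num
    rw [e2] at hdu
    have e3 : V - (w : ℂ) • (k * k - F * F) = (Y - mexp X) +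
        (w : ℂ) • ((mexp Z - (K - F) * (K + F)) + (K * F - F * K)) := by
      have e4 : mexp X = (w : ℂ) • mexp Z := by rw [hXZ]; exact mexp_add_smul hZh hw0
      have e5 : (K - F) * (K + F) = k * k + (τ : ℂ) • (1 : Mat n) - F * F + (K * F - F * K) := by
        rw [← hKK]; noncomm_ring
      rw [e4, e5, hYV]
      push_cast
      simp only [smul_add, smul_sub, smul_smul]
      abel
    rw [e3]
    have e6 := hsq_add_le (Y - mexp X)
      ((w : ℂ) • ((mexp Z - (K - F) * (K + F)) + (K * F - F * K)))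
    rw [hsq_rsmul] at e6
    have e7 := hsq_add_le (mexp Z - (K - F) * (K + F)) (K * F - F * K)
    set Q := Real.exp (2 * L₀) ^ 2 * (Real.exp L₀ ^ 2 * (Real.exp L₀ ^ 2 * (c⁻¹ ^ 2 *
      (c⁻¹ ^ 2 * 4)))) with hQ
    have e8 : hsq (mexp Z - (K - F) * (K + F)) ≤ Q * hsq (K * F - F * K) := by
      refine hdu.trans (le_of_eq ?_)
      rw [hQ]; ring
    have hQ0 : 0 ≤ Q := by rw [hQ]; positivity
    have hw2 : 0 ≤ w ^ 2 := by positivity
    have hbb := hsq_nonneg (K * F - F * K)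
    have e9 : w ^ 2 * hsq (mexp Z - (K - F) * (K + F) + (K * F - F * K)) ≤
        w ^ 2 * (2 * (Q * hsq (K * F - F * K) + hsq (K * F - F * K))) := by
      refine mul_le_mul_of_nonneg_left ?_ hw2
      linarith
    have e10 : Real.exp L ^ 2 * hsq (mlog Y - X) ≤ Real.exp L ^ 2 *
        (4 * Real.exp (2 * L) * D) := mul_le_mul_of_nonneg_left ha (by positivity)
    have e11 : w ^ 2 * Q * (4 * hsq (K * F - F * K)) ≤ w ^ 2 * Q * (P * D) :=
      mul_le_mul_of_nonneg_left hb (by positivity)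
    have e12 : w ^ 2 * (4 * hsq (K * F - F * K)) ≤ w ^ 2 * (P * D) :=
      mul_le_mul_of_nonneg_left hb (by positivity)
    calc hsq ((Y - mexp X) + (w : ℂ) • ((mexp Z - (K - F) * (K + F)) + (K * F - F * K)))
        ≤ 2 * (hsq (Y - mexp X) + w ^ 2 * hsq (mexp Z - (K - F) * (K + F) +
          (K * F - F * K))) := e6
      _ ≤ 2 * (Real.exp L ^ 2 * (4 * Real.exp (2 * L) * D) +
          w ^ 2 * (2 * (Q * hsq (K * F - F * K) + hsq (K * F - F * K)))) := by linarith
      _ = 8 * Real.exp L ^ 2 * Real.exp (2 * L) * D + (w ^ 2 * Q * (4 * hsq (K * F - F * K)) +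
          w ^ 2 * (4 * hsq (K * F - F * K))) := by ring
      _ ≤ 8 * Real.exp L ^ 2 * Real.exp (2 * L) * D + (w ^ 2 * Q * (P * D) +
          w ^ 2 * (P * D)) := by linarith
      _ = _ := by rw [hQ]; ring
  · -- [F, R]
    have e1 : F * (k * k - F * F) - (k * k - F * F) * F =
        -(K * (K * F - F * K) + (K * F - F * K) * K) := by
      have : k * k = K * K - (τ : ℂ) • (1 : Mat n) := by rw [hKK]; abel
      rw [this]
      simp only [Matrix.mul_sub, Matrix.sub_mul, Matrix.mul_smul, Matrix.smul_mul, Matrix.mul_one,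
        Matrix.one_mul]
      simp only [← Matrix.mul_assoc]
      abel
    rw [e1, hsq_neg]
    have e2 := hsq_add_le (K * (K * F - F * K)) ((K * F - F * K) * K)
    have e3 := hsq_mul_le hKh hKle (K * F - F * K)
    have e4 := mul_hsq_le hKh hKle (K * F - F * K)
    have e5 : ρ ^ 2 * (4 * hsq (K * F - F * K)) ≤ ρ ^ 2 * (P * D) :=
      mul_le_mul_of_nonneg_left hb (by positivity)
    linarith

end SLT.Stab

namespace SLT

open Stab

/-- STAB: dimension free stability of the pointwise inequality (PI). -/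
theorem stab {q : ℝ} (hq : 0 < q) (hq' : q < 1) {κ M : ℝ} (hκ0 : 0 ≤ κ) (hM0 : 0 ≤ M) :
    ∃ C : ℝ, 0 < C ∧ ∀ (n : ℕ) (k F V : Mat n), KF k F →
      ((κ : ℂ) • (1 : Mat n) - k).PosSemidef → V.PosSemidef →
      ((M : ℂ) • (1 : Mat n) - V).PosSemidef →
      hsq (F * V - V * F) + hsq (V - ((1 + 1 / q : ℝ) : ℂ) • (k * k - F * F)) ≤
        C * dPI q k F V := by
  have hcq : 0 < cq q := by
    unfold cq
    have : 0 < Real.sin (Real.pi * q) :=
      Real.sin_pos_of_pos_of_lt_pi (by positivity) (by nlinarith [Real.pi_pos])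
    positivity
  set ρ := Real.sqrt (κ ^ 2 + 2) with hρ
  set w := 1 + 1 / q with hw
  set L₀ := Real.log (2 * ρ) with hL₀
  set L := 2 * L₀ + Real.log w + Real.log (M + 2 * w) with hL
  set P := (2 * ρ + 2) ^ 4 * (2 * (2 * ρ) ^ 2) with hP
  set c := (2 * ρ)⁻¹ with hc
  set C₁ := 8 * Real.exp L ^ 2 * Real.exp (2 * L) + w ^ 2 * (Real.exp (2 * L₀) ^ 2 *
          (Real.exp L₀ ^ 2 * (Real.exp L₀ ^ 2 * (c⁻¹ ^ 2 * (c⁻¹ ^ 2 * 4))))) * P + w ^ 2 * P
    with hC₁
  have hw0 : 0 < w := by rw [hw]; positivity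
  have hC₁0 : 0 < C₁ := by rw [hC₁]; positivity
  have hρP : 0 ≤ ρ ^ 2 * P := by positivity
  set C := ((8 * κ ^ 2 + 1) * C₁ + 2 * w ^ 2 * (ρ ^ 2 * P)) * (2 / cq q) with hC
  have hC0 : 0 < C := by
    rw [hC]
    have h1 : 0 < (8 * κ ^ 2 + 1) * C₁ := by positivity
    have h2 : 0 ≤ 2 * w ^ 2 * (ρ ^ 2 * P) := by positivity
    have h3 : 0 < 2 / cq q := by positivity
    exact mul_pos (by linarith) h3
  refine ⟨C, hC0, fun n k F V h hκ hV hM => ?_⟩
  have hYd : ∀ τ : ℝ, 0 < τ → (Ytau q V τ).PosDef := fun τ hτ => by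
    have h1 : 0 < (1 + 1 / q) * τ := by positivity
    exact Matrix.PosDef.posSemidef_add hV
      (Matrix.PosDef.one.smul (Complex.zero_lt_real.mpr h1))
  have hXh : ∀ τ : ℝ, (Xtau q k F τ).IsHermitian := fun τ => by
    have hZh : (mlog (ktau k τ - F) + mlog (ktau k τ + F)).IsHermitian :=
      (cfc_herm _).add (cfc_herm _)
    unfold Xtau
    rw [add_smul_one_eq hZh]
    exact cfc_herm _
  have hg : ∀ τ, 0 < τ → 0 ≤ gibbs (Ytau q V τ) (Xtau q k F τ) := fun τ hτ =>
    gibbs_nonneg (hYd τ hτ) (hXh τ)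
  have ht : ∀ τ, 0 < τ → 0 ≤ gtd k F τ := fun τ hτ => gtd_nonneg h hτ
  have hcd : ∀ τ, 0 < τ → 0 ≤ cde k F τ := fun τ hτ => cde_nonneg h.hk h.le h.ge hτ
  have hF := h.herm
  have hFκ : ∀ i, |hF.eigenvalues i| ≤ κ := by
    intro i
    rw [abs_le]
    constructor
    · have h1 : (F - ((-κ : ℝ) : ℂ) • (1 : Mat n)).PosSemidef := by
        have := hκ.add h.ge
        convert this using 1
        push_cast
        rw [neg_smul]
        abel
      exact le_eig hF h1 i
    · have h1 : ((κ : ℂ) • (1 : Mat n) - F).PosSemidef := by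
        have := hκ.add h.le
        convert this using 1
        abel
      exact eig_le hF h1 i
  have main : ∀ η : ℝ, 0 < η →
      hsq (F * V - V * F) + hsq (V - ((1 + 1 / q : ℝ) : ℂ) • (k * k - F * F)) ≤
        C * (dPI q k F V + η) := by
    intro η hη
    obtain ⟨τ, hτ, hle⟩ := dPI_ge hq hq' h hV hg ht hcd hη
    have hτ0 : 0 < τ := by linarith [hτ.1]
    have g0 := hg τ hτ0
    have c0 := hcd τ hτ0
    have p1 : 1 / 2 ≤ τ ^ (q - 1) := by
      have h1 : (2 : ℝ) ^ (q - 1) ≤ τ ^ (q - 1) :=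
        Real.rpow_le_rpow_of_nonpos hτ0 hτ.2 (by linarith)
      have h2 : (2 : ℝ) ^ (-1 : ℝ) ≤ (2 : ℝ) ^ (q - 1) :=
        Real.rpow_le_rpow_of_exponent_le (by norm_num) (by linarith)
      have h3 : (2 : ℝ) ^ (-1 : ℝ) = 1 / 2 := by
        rw [Real.rpow_neg_one]; norm_num
      exact h3 ▸ h2.trans h1
    have p2 : 1 ≤ τ ^ q := Real.one_le_rpow hτ.1 hq.le
    have p3 : 1 ≤ 1 / q := by rw [le_div_iff₀ hq]; linarith
    have hD : cq q * (1 / 2 * gibbs (Ytau q V τ) (Xtau q k F τ) + cde k F τ) ≤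
        dPI q k F V + η := by
      refine le_trans (mul_le_mul_of_nonneg_left ?_ hcq.le) hle
      have h1 := mul_le_mul_of_nonneg_right p1 g0
      have h2 : 1 ≤ 1 / q * τ ^ q := by nlinarith
      have h3 := mul_le_mul_of_nonneg_right h2 c0
      linarith
    set D := 2 / cq q * (dPI q k F V + η) with hDdef
    have hD1 : gibbs (Ytau q V τ) (Xtau q k F τ) ≤ D := by
      rw [hDdef, div_mul_eq_mul_div, le_div_iff₀ hcq]
      nlinarith
    have hD2 : cde k F τ ≤ D := by
      rw [hDdef, div_mul_eq_mul_div, le_div_iff₀ hcq]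
      nlinarith
    obtain ⟨r1, r2⟩ := stab_tau hq hq' hκ0 hM0 h hκ hV hM hτ.1 hτ.2 hD1 hD2 hρ hw hL₀ hL hP hc
    rw [← hC₁] at r1
    have hD0 : 0 ≤ D := c0.trans hD2
    set E := V - (w : ℂ) • (k * k - F * F) with hE
    have e1 : F * V - V * F = (F * E - E * F) +
        (w : ℂ) • (F * (k * k - F * F) - (k * k - F * F) * F) := by
      rw [hE]
      simp only [Matrix.mul_sub, Matrix.sub_mul, Matrix.mul_smul, Matrix.smul_mul, smul_sub]
      abel
    have e2 := hsq_add_le (F * E - E * F)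
      ((w : ℂ) • (F * (k * k - F * F) - (k * k - F * F) * F))
    rw [hsq_rsmul, ← e1] at e2
    have e3 := hsq_comm_le (E := E) hF hFκ
    have e4 : w ^ 2 * hsq (F * (k * k - F * F) - (k * k - F * F) * F) ≤ w ^ 2 * (ρ ^ 2 * P * D) :=
      mul_le_mul_of_nonneg_left r2 (by positivity)
    have e5 : 4 * κ ^ 2 * hsq E ≤ 4 * κ ^ 2 * (C₁ * D) :=
      mul_le_mul_of_nonneg_left r1 (by positivity)
    have e6 : C * (dPI q k F V + η) = ((8 * κ ^ 2 + 1) * C₁ + 2 * w ^ 2 * (ρ ^ 2 * P)) * D := by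
      rw [hC, hDdef]; ring
    rw [e6]
    have e7 : hsq E ≤ C₁ * D := r1
    calc hsq (F * V - V * F) + hsq E
        ≤ 2 * (hsq (F * E - E * F) + w ^ 2 * hsq (F * (k * k - F * F) -
          (k * k - F * F) * F)) + C₁ * D := by linarith
      _ ≤ 2 * (4 * κ ^ 2 * (C₁ * D) + w ^ 2 * (ρ ^ 2 * P * D)) + C₁ * D := by linarith
      _ = _ := by ring
  refine le_of_forall_pos_le_add fun ε hε => ?_
  have := main (ε / C) (by positivity)
  calc _ ≤ C * (dPI q k F V + ε / C) := this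
    _ = C * dPI q k F V + ε := by field_simp

end SLT
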