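import Crest.Agent.SLT.RigDefs
import Crest.Agent.SLT.RedMain
import Crest.Agent.SLT.PIFactsP
import Crest.Agent.SLT.Stab

/-!
# Row 332, S0516: `chain_stable`, the interface to the proof of S0515 (helper90)
-/

set_option autoImplicit false

open MeasureTheory Filter Set
open scoped ComplexOrder Matrix Topology

namespace SLT

open Crest.MathPhysics.LiebThirring

/-- The calibration deficit vanishes where there is no potential and `F = ± k`. -/
theorem dPI_zero {n : ℕ} {q : ℝ} (hq : 0 < q) (k F : Mat n) (h : k * k - F * F = 0) :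
    dPI q k F 0 = 0 := by
  unfold dPI pihat
  rw [mpow_zero_left (by positivity), h, sub_zero]
  simp [rtr]

/-- a positive semidefinite matrix with `tr A^s ≤ C` is bounded -/
theorem smul_one_sub_psd {n : ℕ} {k : Mat n} (hk : k.PosSemidef) {s C : ℝ} (hs : 0 < s)
    (h : tracePow k s ≤ C) : (((C ^ (1 / s) : ℝ) : ℂ) • (1 : Mat n) - k).PosSemidef := by
  have h1 : ((((C ^ (1 / s) : ℝ) : ℝ) : ℂ) • (1 : Mat n) - cfc (fun t : ℝ => t) k).PosSemidef := by
    rw [smul_one_sub_cfc hk.isHermitian]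
    exact cfc_psd hk.isHermitian fun i =>
      sub_nonneg.2 (eig_le_of_tracePow hk hs h i)
  rwa [cfc_fun_id hk.isHermitian] at h1

theorem negMoment_nonneg' {n : ℕ} (A : Mat n) (g : ℝ) : 0 ≤ negMoment A g := by
  by_cases hA : A.IsHermitian
  · have : negMoment A g = rtr (cfc (fun t : ℝ => (max (-t) 0) ^ g) A) := rfl
    rw [this, rtr_cfc hA]
    exact Finset.sum_nonneg fun i _ => Real.rpow_nonneg (le_max_right _ _) _
  · have : cfc (fun t : ℝ => (max (-t) 0) ^ g) A = 0 := cfc_apply_of_not_predicate A hA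
    simp [negMoment, this]

namespace Red

variable {m : ℕ} {q L δ : ℝ} {W : ℝ → Mat m} (R : Red q W L δ)

theorem Ucont : Continuous R.U := by
  refine continuous_matrix fun i j => continuous_iff_continuousAt.2 fun x => ?_
  exact (hasDerivAt_mat.1 (R.hU x) i j).continuousAt

theorem Ucs : HasCompactSupport R.U := by
  refine HasCompactSupport.intro (isCompact_Icc (a := R.a) (b := R.b)) fun x hx => ?_
  refine R.supp x ?_
  by_contra h
  push Not at h
  exact hx ⟨h.1.le, h.2.le⟩

theorem supp' (x : ℝ) (hx : x < R.a ∨ R.b < x) : R.U' x = 0 := by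
  have h1 : ∀ᶠ y in 𝓝 x, R.U y = 0 := by
    rcases hx with hx | hx
    · filter_upwards [Iio_mem_nhds hx] with y hy
      exact R.supp y (Or.inl (le_of_lt hy))
    · filter_upwards [Ioi_mem_nhds hx] with y hy
      exact R.supp y (Or.inr (le_of_lt hy))
  have h3 : ∀ i j, HasDerivAt (fun y => R.U y i j) (R.U' x i j) x := hasDerivAt_mat.1 (R.hU x)
  ext i j
  have h4 : (fun y => R.U y i j) =ᶠ[𝓝 x] fun _ => (0 : ℂ) := by
    filter_upwards [h1] with y hy
    rw [hy]; rfl
  exact ((h3 i j).congr_of_eventuallyEq h4.symm).unique (hasDerivAt_const x 0)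

theorem int_hsq : Integrable fun x => hsq (R.U' x - R.F x * R.U x) := by
  have hc : Continuous fun x => hsq (R.U' x - R.F x * R.U x) := by
    have h1 := R.hU'
    have h2 := R.path.continuous
    have h3 := R.Ucont
    have h4 : Continuous fun x => R.U' x - R.F x * R.U x := by fun_prop
    have h5 : Continuous (fun A : RMat R.N m => hsq A) := by
      unfold hsq
      fun_prop
    exact h5.comp h4
  refine hc.integrable_of_hasCompactSupport ?_
  refine HasCompactSupport.intro (isCompact_Icc (a := R.a) (b := R.b)) fun x hx => ?_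
  have hx' : x < R.a ∨ R.b < x := by
    by_contra h
    push Not at h
    exact hx ⟨h.1, h.2⟩
  rw [R.supp' x hx', R.supp x (hx'.imp le_of_lt le_of_lt), Matrix.mul_zero, sub_zero]
  simp [hsq]

theorem dPI_out (hq : 0 < q) (x : ℝ) (hx : x ≤ R.a ∨ R.b ≤ x) :
    dPI q R.k (R.F x) (pot q R.U x) = 0 := by
  rw [pot_zero hq (R.supp x hx)]
  refine dPI_zero hq _ _ ?_
  rcases hx with hx | hx
  · rw [R.path.left x hx, sub_self]
  · rw [R.path.right x hx]; noncomm_ring

theorem dPI_nn (hq : 0 < q) (hq1 : q < 1) (x : ℝ) : 0 ≤ dPI q R.k (R.F x) (pot q R.U x) :=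
  (piFacts hq hq1).nonneg _ _ _ R.k_pd (R.path.le x) (R.path.ge x) (pot_psd _ _ _)

theorem int_dPI (hq : 0 < q) (hq1 : q < 1) :
    Integrable (fun x => dPI q R.k (R.F x) (pot q R.U x)) ∧
      ∫ x, dPI q R.k (R.F x) (pot q R.U x) = ∫ x in R.a..R.b, dPI q R.k (R.F x) (pot q R.U x) := by
  have h1 := (piFacts hq hq1).int R.hab R.k_pd R.path R.potc (fun x => pot_psd _ _ _)
  rw [intervalIntegrable_iff_integrableOn_Ioc_of_le R.hab.le] at h1
  have h2 : ∀ x, x ∉ Ioc R.a R.b → dPI q R.k (R.F x) (pot q R.U x) = 0 := by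
    intro x hx
    refine R.dPI_out hq x ?_
    by_contra h
    push Not at h
    exact hx ⟨h.1, h.2.le⟩
  refine ⟨?_, ?_⟩
  · rw [← integrableOn_univ]
    exact h1.of_forall_sdiff_eq_zero MeasurableSet.univ fun x hx => h2 x hx.2
  · rw [intervalIntegral.integral_of_le R.hab.le]
    exact (setIntegral_eq_integral_of_forall_compl_eq_zero fun x hx => h2 x hx).symm

theorem Q_cs : HasCompactSupport fun x => (R.U x)ᴴ * R.U x := by
  refine R.Ucs.mono' ?_
  intro x hx
  refine subset_tsupport _ ?_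
  intro h
  apply hx
  simp [h]

theorem Q_cont : Continuous fun x => (R.U x)ᴴ * R.U x := by
  have := R.Ucont
  fun_prop

end Red

/-- INTERFACE to the proof of S0515 (reduction with deficits + STAB). For a fixed potential `W`
there are constants such that every trial family which is optimal up to `δ/2` produces chain data
with total deficit at most `δ`. -/
theorem chain_stable {γ : ℝ} (hγ : 1 / 2 < γ) (hγ' : γ < 3 / 2) {m : ℕ} (hm : 1 ≤ m)
    (W : ℝ → Mat m) (hW : ∀ i j, Measurable fun x => W x i j)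
    (hWp : ∀ x, (W x).PosSemidef) (hWi : Integrable fun x => tracePow (W x) (γ + 1 / 2)) :
    ∃ (K C₀ : ℝ) (Cf : ℝ → ℝ), 0 ≤ K ∧ 0 ≤ C₀ ∧ ∀ δ : ℝ, 0 < δ → δ ≤ 1 →
      ∀ (n : ℕ) (φ : Fin n → ℝ → Vec m), IsTrialFamily φ →
        sharpConst γ * (∫ x, tracePow (W x) (γ + 1 / 2)) - δ / 2 <
          negMoment (energyMatrix W φ) γ →
        Nonempty (ChainData m (γ - 1 / 2) K C₀ Cf W δ) := by
  have hq : 0 < γ - 1 / 2 := by linarith
  have hq1 : γ - 1 / 2 < 1 := by linarith
  have hB : 0 < BB (γ - 1 / 2) := BB_pos (by linarith)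
  have hc : 0 < cc (γ - 1 / 2) := cc_pos hq
  have hWi' := hWi
  rw [sharpConst_eq hγ]
  rw [show γ + 1 / 2 = 1 + (γ - 1 / 2) by ring] at hWi' ⊢
  set q : ℝ := γ - 1 / 2 with hqdef
  set I : ℝ := ∫ x, tracePow (W x) (1 + q) with hI
  have hpc : 0 < (1 + q) * cc q := by positivity
  have hIn : 0 ≤ I := by
    refine integral_nonneg fun x => ?_
    exact rtr_nonneg (mpow_psd (hWp x) _)
  -- constants
  set K1 : ℝ := (cc q / BB q) * (2 * (1 + q) / q) * (BB q / ((1 + q) * cc q) + I / (1 + q))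
    with hK1
  have hK1n : 0 ≤ K1 := by positivity
  set K : ℝ := K1 ^ (1 / (2 * q + 1)) with hK
  have hKn : 0 ≤ K := Real.rpow_nonneg hK1n _
  have hst : ∀ M : ℝ, 0 ≤ M → ∃ C : ℝ, 0 < C ∧ ∀ (n : ℕ) (k F V : Mat n), KF k F →
      ((K : ℂ) • (1 : Mat n) - k).PosSemidef → V.PosSemidef →
      ((M : ℂ) • (1 : Mat n) - V).PosSemidef →
      hsq (F * V - V * F) + hsq (V - ((1 + 1 / q : ℝ) : ℂ) • (k * k - F * F)) ≤
        C * dPI q k F V := fun M hM => stab hq hq1 hKn hM
  choose Cs hCs0 hCs using hst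
  refine ⟨K, BB q / ((1 + q) * cc q),
    fun M => Cs ((max M 0) ^ (1 / q)) (Real.rpow_nonneg (le_max_right _ _) _) * BB q,
    hKn, by positivity, ?_⟩
  intro δ hδ hδ1 n φ hφ hnear
  obtain ⟨R⟩ := exists_red hγ (piFacts hq hq1) hW hWp hWi φ hφ
    (δ := BB q * (δ / 2)) (by positivity)
  rw [← hqdef] at R
  set L : ℝ := negMoment (energyMatrix W φ) γ with hL
  have i1 := R.int_hsq
  have i2 := R.int_dPI hq hq1
  have i3 : Integrable fun x => dY q (W x) ((R.U x)ᴴ * R.U x) :=
    integrable_dY hq hW hWp hWi' _ R.Q_cont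
      (fun x => Matrix.posSemidef_conjTranspose_mul_self _) R.Q_cs
  have htot := R.total
  rw [← hI] at htot
  have hnn1 : ∀ x, 0 ≤ hsq (R.U' x - R.F x * R.U x) := fun x => hsq_nonneg _
  have hnn2 : ∀ x, 0 ≤ dY q (W x) ((R.U x)ᴴ * R.U x) := fun x =>
    dY_nonneg hq hq1 (hWp x) (Matrix.posSemidef_conjTranspose_mul_self _)
  have hnn3 := R.dPI_nn hq hq1
  have hn1 : 0 ≤ ∫ x, hsq (R.U' x - R.F x * R.U x) := integral_nonneg hnn1
  have hn2 : 0 ≤ ∫ x, dY q (W x) ((R.U x)ᴴ * R.U x) := integral_nonneg hnn2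
  have hn3 : 0 ≤ ∫ x in R.a..R.b, dPI q R.k (R.F x) (pot q R.U x) :=
    intervalIntegral.integral_nonneg R.hab.le fun x _ => hnn3 x
  have hnear' : cc q * I - BB q * (δ / 2) < BB q * L := by
    have h1 := mul_lt_mul_of_pos_left hnear hB
    have h2 : BB q * (cc q / BB q * I - δ / 2) = cc q * I - BB q * (δ / 2) := by
      field_simp
    linarith
  have hsum : (1 + q) * cc q * (∫ x, hsq (R.U' x - R.F x * R.U x)) +
      (1 + q) * cc q * (∫ x, dY q (W x) ((R.U x)ᴴ * R.U x)) +
      (∫ x in R.a..R.b, dPI q R.k (R.F x) (pot q R.U x)) ≤ BB q * δ := by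
    linarith
  -- the bound for `k`
  have hkK : ((K : ℂ) • (1 : Mat R.N) - R.k).PosSemidef := by
    refine smul_one_sub_psd R.k_pd.posSemidef (by linarith) ?_
    have hKid := (piFacts hq hq1).K R.hab R.k_pd R.path R.potc (fun x => pot_psd _ _ _)
    have hVint : Integrable fun x => tracePow (pot q R.U x) (1 + q) := by
      refine (pot_pow_continuous hq R.Ucont).integrable_of_hasCompactSupport (R.Ucs.mono' ?_)
      intro x hx
      refine subset_tsupport _ ?_
      intro h
      apply hx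
      exact pot_pow_zero hq h
    have hV1 : ∫ x in R.a..R.b, tracePow (pot q R.U x) (1 + q) =
        ∫ x, tracePow (pot q R.U x) (1 + q) := by
      rw [intervalIntegral.integral_of_le R.hab.le]
      refine setIntegral_eq_integral_of_forall_compl_eq_zero fun x hx => ?_
      refine pot_pow_zero hq (R.supp x ?_)
      by_contra h
      push Not at h
      exact hx ⟨h.1, h.2.le⟩
    have hV2 : q / (2 * (1 + q)) * ∫ x, tracePow (pot q R.U x) (1 + q) ≤
        (∫ x, dY q (W x) ((R.U x)ᴴ * R.U x)) + 1 / (1 + q) * I := by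
      rw [← integral_const_mul, hI, ← integral_const_mul, ← integral_add i3 (hWi'.const_mul _)]
      refine integral_mono (hVint.const_mul _) (i3.add (hWi'.const_mul _)) fun x => ?_
      have := rtr_mpow_le_dY hq hq1 (hWp x) (Matrix.posSemidef_conjTranspose_mul_self (R.U x))
      simp only
      rw [pot_pow' hq R.U x]
      exact this
    have hY1 : (∫ x, dY q (W x) ((R.U x)ᴴ * R.U x)) ≤ BB q / ((1 + q) * cc q) := by
      rw [le_div_iff₀ hpc]
      have h1 := mul_nonneg hpc.le hn1
      nlinarith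
    have hV3 : (∫ x, tracePow (pot q R.U x) (1 + q)) ≤
        (2 * (1 + q) / q) * (BB q / ((1 + q) * cc q) + I / (1 + q)) := by
      have h1 : q / (2 * (1 + q)) * (∫ x, tracePow (pot q R.U x) (1 + q)) ≤
          BB q / ((1 + q) * cc q) + I / (1 + q) := by
        have : 1 / (1 + q) * I = I / (1 + q) := by ring
        linarith
      have h2 := mul_le_mul_of_nonneg_left h1 (by positivity : 0 ≤ 2 * (1 + q) / q)
      have h3 : 2 * (1 + q) / q * (q / (2 * (1 + q)) *
          (∫ x, tracePow (pot q R.U x) (1 + q))) = ∫ x, tracePow (pot q R.U x) (1 + q) := by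
        field_simp
      linarith
    rw [hV1] at hKid
    have h4 : BB q * tracePow R.k (2 * q + 1) ≤
        cc q * ∫ x, tracePow (pot q R.U x) (1 + q) := by linarith
    have h5 : tracePow R.k (2 * q + 1) ≤
        (cc q / BB q) * ∫ x, tracePow (pot q R.U x) (1 + q) := by
      rw [div_mul_eq_mul_div, le_div_iff₀ hB]; linarith
    calc tracePow R.k (2 * q + 1) ≤ (cc q / BB q) * ∫ x, tracePow (pot q R.U x) (1 + q) := h5
      _ ≤ (cc q / BB q) * ((2 * (1 + q) / q) * (BB q / ((1 + q) * cc q) + I / (1 + q))) :=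
          mul_le_mul_of_nonneg_left hV3 (by positivity)
      _ = K1 := by rw [hK1]; ring
  -- the deficit density
  set e : ℝ → ℝ := fun x => ((1 + q) * cc q * hsq (R.U' x - R.F x * R.U x) +
    (1 + q) * cc q * dY q (W x) ((R.U x)ᴴ * R.U x) + dPI q R.k (R.F x) (pot q R.U x)) / BB q
    with he
  have hie : Integrable e := (((i1.const_mul _).add (i3.const_mul _)).add i2.1).div_const _
  have hC0 : BB q / ((1 + q) * cc q) * ((1 + q) * cc q) = BB q := by field_simp
  have heB : ∀ x, BB q * e x = (1 + q) * cc q * hsq (R.U' x - R.F x * R.U x) +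
    (1 + q) * cc q * dY q (W x) ((R.U x)ᴴ * R.U x) + dPI q R.k (R.F x) (pot q R.U x) := by
    intro x
    rw [he]
    field_simp
  have hen : ∀ x, 0 ≤ e x := fun x => by
    have h1 := mul_nonneg hpc.le (hnn1 x)
    have h2 := mul_nonneg hpc.le (hnn2 x)
    have h3 := hnn3 x
    rw [he]
    positivity
  have hCe : ∀ x, BB q / ((1 + q) * cc q) * e x = hsq (R.U' x - R.F x * R.U x) +
      dY q (W x) ((R.U x)ᴴ * R.U x) +
      dPI q R.k (R.F x) (pot q R.U x) / ((1 + q) * cc q) := by
    intro x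
    rw [div_mul_eq_mul_div, heB]
    field_simp
  have hstab : ∀ M x, rtr ((R.U x)ᴴ * R.U x) ≤ M →
      hsq (R.F x * pot q R.U x - pot q R.U x * R.F x) +
      hsq (pot q R.U x - ((1 + 1 / q : ℝ) : ℂ) • (R.k * R.k - R.F x * R.F x)) ≤
      Cs ((max M 0) ^ (1 / q)) (Real.rpow_nonneg (le_max_right _ _) _) * BB q * e x := by
    intro M x hM
    have hVle : ((((max M 0) ^ (1 / q) : ℝ) : ℂ) • (1 : Mat R.N) - pot q R.U x).PosSemidef := by
      have h1 := le_rtr_smul (pot_psd q R.U x)
      have hUU : (R.U x * (R.U x)ᴴ).PosSemidef := Matrix.posSemidef_self_mul_conjTranspose _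
      have h2 : rtr (pot q R.U x) ≤ (max M 0) ^ (1 / q) := by
        have h3 : (1 : ℝ) ≤ 1 / q := by
          rw [le_div_iff₀ hq]; linarith
        have h4 := rtr_mpow_le_rpow hUU h3
        have h5 : rtr (R.U x * (R.U x)ᴴ) = rtr ((R.U x)ᴴ * R.U x) := rtr_mul_comm _ _
        refine h4.trans ?_
        refine Real.rpow_le_rpow (rtr_nonneg hUU) ?_ (by positivity)
        rw [h5]; exact hM.trans (le_max_left _ _)
      have h6 : (((((max M 0) ^ (1 / q) - rtr (pot q R.U x) : ℝ)) : ℂ) •
          (1 : Mat R.N)).PosSemidef :=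
        Matrix.PosSemidef.one.smul (by exact_mod_cast sub_nonneg.2 h2)
      have h7 := h1.add h6
      convert h7 using 1
      push_cast
      rw [sub_smul]
      abel
    have h1 := hCs ((max M 0) ^ (1 / q)) (Real.rpow_nonneg (le_max_right _ _) _) R.N R.k (R.F x)
      (pot q R.U x) ⟨R.k_pd.posSemidef, R.path.le x, R.path.ge x⟩ hkK (pot_psd _ _ _) hVle
    refine h1.trans ?_
    rw [mul_assoc]
    refine mul_le_mul_of_nonneg_left ?_ (hCs0 _ _).le
    rw [heB]
    have h1 := mul_nonneg hpc.le (hnn1 x)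
    have h2 := mul_nonneg hpc.le (hnn2 x)
    linarith
  refine ⟨{ N := R.N, k := R.k, F := R.F, U := R.U, U' := R.U', e := e,
            k_psd := R.k_pd.posSemidef, k_le := hkK, F_le := R.path.le, F_ge := R.path.ge,
            hF := R.path.deriv, hU := R.hU, hU' := R.hU', e_nonneg := hen, e_int := hie,
            e_le := ?_, hE := ?_, hY := ?_, hC := ?_, hV := ?_ }⟩
  · have i4 : Integrable fun x => (1 + q) * cc q * hsq (R.U' x - R.F x * R.U x) +
        (1 + q) * cc q * dY q (W x) ((R.U x)ᴴ * R.U x) := (i1.const_mul _).add (i3.const_mul _)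
    rw [he, integral_div, integral_add i4 i2.1,
      integral_add (i1.const_mul _) (i3.const_mul _), integral_const_mul, integral_const_mul,
      i2.2, div_le_iff₀ hB]
    linarith
  · intro x
    rw [hCe]
    have h1 := hnn2 x
    have h2 : 0 ≤ dPI q R.k (R.F x) (pot q R.U x) / ((1 + q) * cc q) :=
      div_nonneg (hnn3 x) hpc.le
    linarith
  · intro x
    rw [hCe]
    have h1 := hnn1 x
    have h2 : 0 ≤ dPI q R.k (R.F x) (pot q R.U x) / ((1 + q) * cc q) :=
      div_nonneg (hnn3 x) hpc.le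
    linarith
  · intro M x hM
    have h1 := hstab M x hM
    have h2 := hsq_nonneg (pot q R.U x - ((1 + 1 / q : ℝ) : ℂ) • (R.k * R.k - R.F x * R.F x))
    change hsq (R.F x * pot q R.U x - pot q R.U x * R.F x) ≤ _
    linarith
  · intro M x hM
    have h1 := hstab M x hM
    have h2 := hsq_nonneg (R.F x * pot q R.U x - pot q R.U x * R.F x)
    change hsq (pot q R.U x - ((1 + 1 / q : ℝ) : ℂ) • (R.k * R.k - R.F x * R.F x)) ≤ _
    linarith

end SLT
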