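import Crest.Agent.SLT.RigDefs

/-!
# Row 332, S0516: simultaneous diagonalisation (chunk F1)
-/

set_option autoImplicit false

open MeasureTheory Filter Set
open scoped ComplexOrder Matrix Topology

namespace SLT

open Module.End in
/-- Joint eigenbasis of two commuting symmetric operators. -/
theorem joint_eigenbasis {m : ℕ} {A B : EuclideanSpace ℂ (Fin m) →ₗ[ℂ] EuclideanSpace ℂ (Fin m)}
    (hA : A.IsSymmetric) (hB : B.IsSymmetric) (hAB : Commute A B) :
    ∃ (b : OrthonormalBasis (Fin m) ℂ (EuclideanSpace ℂ (Fin m))) (q g : Fin m → ℝ),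
      (∀ i, A (b i) = ((q i : ℝ) : ℂ) • b i) ∧ (∀ i, B (b i) = ((g i : ℝ) : ℂ) • b i) := by
  classical
  let V : (Eigenvalues A × Eigenvalues B) → Submodule ℂ (EuclideanSpace ℂ (Fin m)) :=
    fun i => eigenspace A (i.1 : ℂ) ⊓ eigenspace B (i.2 : ℂ)
  have hfam : OrthogonalFamily ℂ (fun i => V i) (fun i => (V i).subtypeₗᵢ) := by
    refine OrthogonalFamily.of_pairwise fun i j hij v hv => ?_
    obtain ⟨hv1, hv2⟩ := hv
    intro w hw
    obtain ⟨hw1, hw2⟩ := hw
    by_cases h1 : (i.1 : ℂ) = (j.1 : ℂ)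
    · have h2 : (i.2 : ℂ) ≠ (j.2 : ℂ) := fun h2 => hij (Prod.ext (Subtype.ext h1) (Subtype.ext h2))
      exact hB.orthogonalFamily_eigenspaces.pairwise h2 hv2 w hw2
    · exact hA.orthogonalFamily_eigenspaces.pairwise h1 hv1 w hw1
  have hsup : (⨆ i, V i) = ⊤ := by
    have h0 := hA.iSup_iSup_eigenspace_inf_eigenspace_eq_top_of_commute hB hAB
    rw [eq_top_iff, ← h0]
    refine iSup_le fun α => iSup_le fun γ => ?_
    by_cases hα : eigenspace A α = ⊥
    · rw [hα, bot_inf_eq]; exact bot_le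
    by_cases hγ : eigenspace B γ = ⊥
    · rw [hγ, inf_bot_eq]; exact bot_le
    exact le_iSup V (⟨α, hα⟩, ⟨γ, hγ⟩)
  have hint : DirectSum.IsInternal V := by
    rw [hfam.isInternal_iff, hsup, Submodule.top_orthogonal_eq_bot]
  have hn : Module.finrank ℂ (EuclideanSpace ℂ (Fin m)) = m := by simp
  let b := hint.subordinateOrthonormalBasis hn hfam
  let idx := fun i => hint.subordinateOrthonormalBasisIndex hn i hfam
  have hb : ∀ i, b i ∈ V (idx i) := fun i =>
    hint.subordinateOrthonormalBasis_subordinate hn i hfam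
  have key : ∀ (T : EuclideanSpace ℂ (Fin m) →ₗ[ℂ] EuclideanSpace ℂ (Fin m))
      (_ : T.IsSymmetric) (μ : ℂ) (i : Fin m), b i ∈ eigenspace T μ →
      T (b i) = ((μ.re : ℝ) : ℂ) • b i := by
    intro T hT μ i hi
    have h2 : b i ≠ 0 := by simpa using b.toBasis.ne_zero i
    have h3 := hT.conj_eigenvalue_eq_self (hasEigenvalue_of_hasEigenvector ⟨hi, h2⟩)
    have h4 : ((μ.re : ℝ) : ℂ) = μ := Complex.conj_eq_iff_re.mp h3
    rw [h4]
    exact mem_eigenspace_iff.mp hi
  exact ⟨b, fun i => ((idx i).1 : ℂ).re, fun i => ((idx i).2 : ℂ).re,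
    fun i => key A hA _ i (hb i).1, fun i => key B hB _ i (hb i).2⟩

/-- (F1) Two commuting Hermitian matrices are simultaneously unitarily diagonalisable
(`Mathlib/Analysis/InnerProductSpace/JointEigenspace.lean`, or: diagonalise `Q`; `G` is block
diagonal; or induction on `m`). -/
theorem joint_diag {m : ℕ} {Q G : Mat m} (hQ : Q.IsHermitian) (hG : G.IsHermitian)
    (h : Q * G = G * Q) :
    ∃ (U : Matrix.unitaryGroup (Fin m) ℂ) (q g : Fin m → ℝ),
      Q = (U : Mat m) * Matrix.diagonal (fun i => ((q i : ℝ) : ℂ)) * star (U : Mat m) ∧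
      G = (U : Mat m) * Matrix.diagonal (fun i => ((g i : ℝ) : ℂ)) * star (U : Mat m) := by
  classical
  have hA : (Matrix.toEuclideanLin Q).IsSymmetric := Matrix.isSymmetric_toEuclideanLin_iff.2 hQ
  have hB : (Matrix.toEuclideanLin G).IsSymmetric := Matrix.isSymmetric_toEuclideanLin_iff.2 hG
  have hAB : Commute (Matrix.toEuclideanLin Q) (Matrix.toEuclideanLin G) := by
    refine LinearMap.ext fun v => ?_
    apply WithLp.ofLp_injective
    change Q.mulVec (G.mulVec v.ofLp) = G.mulVec (Q.mulVec v.ofLp)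
    rw [Matrix.mulVec_mulVec, Matrix.mulVec_mulVec, h]
  obtain ⟨b, q, g, hq, hg⟩ := joint_eigenbasis hA hB hAB
  let U : Matrix.unitaryGroup (Fin m) ℂ :=
    ⟨(EuclideanSpace.basisFun (Fin m) ℂ).toBasis.toMatrix b.toBasis,
      (EuclideanSpace.basisFun (Fin m) ℂ).toMatrix_orthonormalBasis_mem_unitary b⟩
  have hU : ∀ i j, (U : Mat m) i j = (b j).ofLp i := fun i j => rfl
  have key : ∀ (X : Mat m) (x : Fin m → ℝ),
      (∀ i, Matrix.toEuclideanLin X (b i) = ((x i : ℝ) : ℂ) • b i) →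
      X = (U : Mat m) * Matrix.diagonal (fun i => ((x i : ℝ) : ℂ)) * star (U : Mat m) := by
    intro X x hx
    have h1 : X * (U : Mat m) = (U : Mat m) * Matrix.diagonal (fun i => ((x i : ℝ) : ℂ)) := by
      ext i j
      rw [Matrix.mul_diagonal]
      have h2 := congrArg (fun v => v.ofLp i) (hx j)
      have h3 : (Matrix.toEuclideanLin X (b j)).ofLp i = ∑ k, X i k * (b j).ofLp k := rfl
      simp only [h3] at h2
      rw [Matrix.mul_apply]
      simp only [hU]
      rw [h2]
      simp [mul_comm]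
    rw [← h1, Matrix.mul_assoc, Matrix.mem_unitaryGroup_iff.mp U.2, Matrix.mul_one]
  exact ⟨U, q, g, key Q q hq, key G g hg⟩

end SLT
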