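import Crest.Agent.SLT.Defs

/-!
# Row 332, SPEC: double spectral sums, Hilbert–Schmidt norm, Klein- and Young-type inequalities
-/

set_option autoImplicit false

open MeasureTheory
open scoped ComplexOrder Matrix

namespace SLT

/-! ### Basic facts on `rtr` and `hsq` -/

section basic

variable {n m l : ℕ}

theorem rtr_add (A B : Mat n) : rtr (A + B) = rtr A + rtr B := by
  simp [rtr, Matrix.trace_add]

theorem rtr_sub (A B : Mat n) : rtr (A - B) = rtr A - rtr B := by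
  simp [rtr, Matrix.trace_sub]

theorem rtr_neg (A : Mat n) : rtr (-A) = -rtr A := by
  simp [rtr, Matrix.trace_neg]

@[simp] theorem rtr_zero : rtr (0 : Mat n) = 0 := by simp [rtr]

@[simp] theorem rtr_one : rtr (1 : Mat n) = n := by simp [rtr]

theorem rtr_smul (c : ℝ) (A : Mat n) : rtr ((c : ℂ) • A) = c * rtr A := by
  simp [rtr, Matrix.trace_smul]

theorem rtr_rsmul (c : ℝ) (A : Mat n) : rtr (c • A) = c * rtr A := by
  simp [rtr, Matrix.trace_smul]

theorem rtr_sum {ι : Type*} (s : Finset ι) (A : ι → Mat n) :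
    rtr (∑ k ∈ s, A k) = ∑ k ∈ s, rtr (A k) := by
  simp [rtr, Matrix.trace_sum]

theorem rtr_mul_comm (A : RMat n m) (B : RMat m n) : rtr (A * B) = rtr (B * A) := by
  simp [rtr, Matrix.trace_mul_comm A B]

theorem rtr_mul_cycle (A : RMat n m) (B : RMat m l) (C : RMat l n) :
    rtr (A * B * C) = rtr (C * A * B) := by
  simp [rtr, Matrix.trace_mul_cycle A B C]

theorem rtr_conjTranspose (A : Mat n) : rtr Aᴴ = rtr A := by
  simp [rtr, Matrix.trace_conjTranspose]

theorem hsq_nonneg (A : RMat n m) : 0 ≤ hsq A := by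
  unfold hsq; positivity

@[simp] theorem hsq_zero : hsq (0 : RMat n m) = 0 := by simp [hsq]

theorem hsq_eq_zero {A : RMat n m} : hsq A = 0 ↔ A = 0 := by
  constructor
  · intro h
    unfold hsq at h
    rw [Finset.sum_eq_zero_iff_of_nonneg (fun i _ => by positivity)] at h
    ext i j
    have h1 := h i (Finset.mem_univ _)
    rw [Finset.sum_eq_zero_iff_of_nonneg (fun i _ => by positivity)] at h1
    have h2 := h1 j (Finset.mem_univ _)
    simpa using h2
  · rintro rfl; simp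

theorem hsq_neg (A : RMat n m) : hsq (-A) = hsq A := by simp [hsq]

theorem hsq_sub_comm (A B : RMat n m) : hsq (A - B) = hsq (B - A) := by
  rw [← hsq_neg (A - B), neg_sub]

theorem hsq_smul (c : ℂ) (A : RMat n m) : hsq (c • A) = ‖c‖ ^ 2 * hsq A := by
  simp [hsq, Finset.mul_sum, mul_pow]

theorem hsq_conjTranspose (A : RMat n m) : hsq Aᴴ = hsq A := by
  simp only [hsq, Matrix.conjTranspose_apply, norm_star]
  exact Finset.sum_comm

theorem hsq_eq_rtr (A : RMat n m) : hsq A = rtr (Aᴴ * A) := by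
  simp only [hsq, rtr, Matrix.trace, Matrix.diag_apply, Matrix.mul_apply,
    Matrix.conjTranspose_apply, Complex.re_sum]
  rw [Finset.sum_comm]
  refine Finset.sum_congr rfl fun j _ => Finset.sum_congr rfl fun i _ => ?_
  rw [Complex.star_def, Complex.conj_mul', ← Complex.ofReal_pow, Complex.ofReal_re]

theorem hsq_eq_rtr' (A : RMat n m) : hsq A = rtr (A * Aᴴ) := by
  rw [hsq_eq_rtr, rtr_mul_comm]

theorem hsq_add_le (A B : RMat n m) : hsq (A + B) ≤ 2 * (hsq A + hsq B) := by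
  unfold hsq
  rw [← Finset.sum_add_distrib, Finset.mul_sum]
  refine Finset.sum_le_sum fun i _ => ?_
  rw [← Finset.sum_add_distrib, Finset.mul_sum]
  refine Finset.sum_le_sum fun j _ => ?_
  have h := norm_add_le (A i j) (B i j)
  simp only [Matrix.add_apply]
  nlinarith [norm_nonneg (A i j), norm_nonneg (B i j), norm_nonneg (A i j + B i j),
    sq_nonneg (‖A i j‖ - ‖B i j‖)]

theorem hsq_sub_le (A B : RMat n m) : hsq (A - B) ≤ 2 * (hsq A + hsq B) := by
  have := hsq_add_le A (-B)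
  rwa [← sub_eq_add_neg, hsq_neg] at this

/-- Cauchy–Schwarz for the Hilbert–Schmidt inner product. -/
theorem rtr_mul_sq_le (A B : RMat n m) : rtr (Aᴴ * B) ^ 2 ≤ hsq A * hsq B := by
  have h1 : |rtr (Aᴴ * B)| ≤ ∑ p : Fin n × Fin m, ‖A p.1 p.2‖ * ‖B p.1 p.2‖ := by
    have : rtr (Aᴴ * B) = (∑ p : Fin n × Fin m, star (A p.1 p.2) * B p.1 p.2).re := by
      simp only [rtr, Matrix.trace, Matrix.diag_apply, Matrix.mul_apply,
        Matrix.conjTranspose_apply]
      rw [Fintype.sum_prod_type, Finset.sum_comm]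
    rw [this]
    refine (Complex.abs_re_le_norm _).trans ((norm_sum_le _ _).trans ?_)
    refine Finset.sum_le_sum fun p _ => ?_
    rw [norm_mul, norm_star]
  have h2 := Finset.sum_mul_sq_le_sq_mul_sq Finset.univ
    (fun p : Fin n × Fin m => ‖A p.1 p.2‖) (fun p => ‖B p.1 p.2‖)
  have h3 : hsq A = ∑ p : Fin n × Fin m, ‖A p.1 p.2‖ ^ 2 := by
    rw [Fintype.sum_prod_type]; rfl
  have h4 : hsq B = ∑ p : Fin n × Fin m, ‖B p.1 p.2‖ ^ 2 := by
    rw [Fintype.sum_prod_type]; rfl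
  rw [h3, h4]
  calc rtr (Aᴴ * B) ^ 2 = |rtr (Aᴴ * B)| ^ 2 := (sq_abs _).symm
    _ ≤ (∑ p : Fin n × Fin m, ‖A p.1 p.2‖ * ‖B p.1 p.2‖) ^ 2 := by
        gcongr
    _ ≤ _ := h2

theorem rtr_mul_abs_le (A B : RMat n m) :
    |rtr (Aᴴ * B)| ≤ Real.sqrt (hsq A) * Real.sqrt (hsq B) := by
  rw [← Real.sqrt_mul (hsq_nonneg A), ← Real.sqrt_sq_eq_abs]
  exact Real.sqrt_le_sqrt (rtr_mul_sq_le A B)

theorem rtr_nonneg {A : Mat n} (hA : A.PosSemidef) : 0 ≤ rtr A :=
  (Complex.nonneg_iff.mp hA.trace_nonneg).1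

theorem rtr_mono {A B : Mat n} (h : (B - A).PosSemidef) : rtr A ≤ rtr B := by
  have := rtr_nonneg h
  rw [rtr_sub] at this
  linarith

/-- `hsq (C X) ≤ c² hsq X` if `Cᴴ C ≤ c²`. -/
theorem hsq_mul_left_le {c : ℝ} {C : RMat l n} (hC : (((c ^ 2 : ℝ) : ℂ) • (1 : Mat n) - Cᴴ * C).PosSemidef)
    (X : RMat n m) : hsq (C * X) ≤ c ^ 2 * hsq X := by
  have h := rtr_nonneg (hC.conjTranspose_mul_mul_same X)
  have e : Xᴴ * (((c ^ 2 : ℝ) : ℂ) • (1 : Mat n) - Cᴴ * C) * X
      = ((c ^ 2 : ℝ) : ℂ) • (Xᴴ * X) - (C * X)ᴴ * (C * X) := by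
    rw [Matrix.conjTranspose_mul, Matrix.mul_sub, Matrix.sub_mul]
    simp [Matrix.mul_assoc]
  rw [e, rtr_sub, rtr_smul, ← hsq_eq_rtr, ← hsq_eq_rtr] at h
  linarith

/-- `hsq (X C) ≤ c² hsq X` if `C Cᴴ ≤ c²`. -/
theorem hsq_mul_right_le {c : ℝ} {C : RMat m l} (hC : (((c ^ 2 : ℝ) : ℂ) • (1 : Mat m) - C * Cᴴ).PosSemidef)
    (X : RMat n m) : hsq (X * C) ≤ c ^ 2 * hsq X := by
  rw [← hsq_conjTranspose, Matrix.conjTranspose_mul, ← hsq_conjTranspose X]
  apply hsq_mul_left_le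
  rwa [Matrix.conjTranspose_conjTranspose]

theorem hsq_unitary_mul {U : Mat n} (hU : Uᴴ * U = 1) (X : RMat n m) : hsq (U * X) = hsq X := by
  rw [hsq_eq_rtr, hsq_eq_rtr, Matrix.conjTranspose_mul, Matrix.mul_assoc, ← Matrix.mul_assoc Uᴴ,
    hU, Matrix.one_mul]

theorem hsq_mul_unitary {V : Mat m} (hV : V * Vᴴ = 1) (X : RMat n m) : hsq (X * V) = hsq X := by
  rw [← hsq_conjTranspose, Matrix.conjTranspose_mul, hsq_unitary_mul, hsq_conjTranspose]
  rwa [Matrix.conjTranspose_conjTranspose]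

end basic

/-! ### Spectral decomposition -/

section spectral

variable {n m : ℕ}

/-- The unitary of eigenvectors as a plain matrix. -/
noncomputable def eU {A : Mat n} (hA : A.IsHermitian) : Mat n := (hA.eigenvectorUnitary : Mat n)

theorem eU_star_mul {A : Mat n} (hA : A.IsHermitian) : (eU hA)ᴴ * eU hA = 1 :=
  Unitary.coe_star_mul_self hA.eigenvectorUnitary

theorem eU_mul_star {A : Mat n} (hA : A.IsHermitian) : eU hA * (eU hA)ᴴ = 1 :=
  Unitary.coe_mul_star_self hA.eigenvectorUnitary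

theorem cfc_eq_conj {A : Mat n} (hA : A.IsHermitian) (f : ℝ → ℝ) :
    cfc f A = eU hA * Matrix.diagonal (fun i => ((f (hA.eigenvalues i) : ℝ) : ℂ)) * (eU hA)ᴴ := by
  rw [hA.cfc_eq f, Matrix.IsHermitian.cfc, Unitary.conjStarAlgAut_apply]
  rfl

theorem cfc_fun_id {A : Mat n} (hA : A.IsHermitian) : cfc (fun t : ℝ => t) A = A :=
  cfc_id' ℝ A hA.isSelfAdjoint

theorem eq_conj {A : Mat n} (hA : A.IsHermitian) :
    A = eU hA * Matrix.diagonal (fun i => ((hA.eigenvalues i : ℝ) : ℂ)) * (eU hA)ᴴ := by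
  have h := cfc_eq_conj hA (fun t => t)
  rw [cfc_fun_id hA] at h
  exact h

theorem cfc_isHermitian {A : Mat n} (f : ℝ → ℝ) : (cfc f A).IsHermitian :=
  IsSelfAdjoint.cfc

theorem rtr_cfc {A : Mat n} (hA : A.IsHermitian) (f : ℝ → ℝ) :
    rtr (cfc f A) = ∑ i, f (hA.eigenvalues i) := by
  rw [cfc_eq_conj hA, rtr_mul_cycle, eU_star_mul, Matrix.one_mul]
  simp [rtr, Matrix.trace]

/-- The entries of `X` in the eigenbases of `A` (rows) and `B` (columns). -/
noncomputable def ent {A : Mat n} {B : Mat m} (hA : A.IsHermitian) (hB : B.IsHermitian)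
    (X : RMat n m) : RMat n m := (eU hA)ᴴ * X * eU hB

theorem hsq_ent {A : Mat n} {B : Mat m} (hA : A.IsHermitian) (hB : B.IsHermitian)
    (X : RMat n m) : hsq (ent hA hB X) = hsq X := by
  unfold ent
  rw [hsq_mul_unitary (eU_mul_star hB), hsq_unitary_mul]
  rw [Matrix.conjTranspose_conjTranspose]
  exact eU_mul_star hA

theorem eq_ent {A : Mat n} {B : Mat m} (hA : A.IsHermitian) (hB : B.IsHermitian)
    (X : RMat n m) : X = eU hA * ent hA hB X * (eU hB)ᴴ := by
  unfold ent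
  have : eU hA * ((eU hA)ᴴ * X * eU hB) * (eU hB)ᴴ
      = (eU hA * (eU hA)ᴴ) * X * (eU hB * (eU hB)ᴴ) := by
    simp only [Matrix.mul_assoc]
  rw [this, eU_mul_star, eU_mul_star, Matrix.one_mul, Matrix.mul_one]

/-- (a) the double spectral sum for `f(A) X - X g(B)`. -/
theorem hsq_cfc_mul_sub {A : Mat n} {B : Mat m} (hA : A.IsHermitian) (hB : B.IsHermitian)
    (f g : ℝ → ℝ) (X : RMat n m) :
    hsq (cfc f A * X - X * cfc g B)
      = ∑ i, ∑ j, (f (hA.eigenvalues i) - g (hB.eigenvalues j)) ^ 2 * ‖ent hA hB X i j‖ ^ 2 := by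
  set Y := ent hA hB X with hY
  have e : cfc f A * X - X * cfc g B
      = eU hA * (Matrix.diagonal (fun i => ((f (hA.eigenvalues i) : ℝ) : ℂ)) * Y
          - Y * Matrix.diagonal (fun i => ((g (hB.eigenvalues i) : ℝ) : ℂ))) * (eU hB)ᴴ := by
    rw [cfc_eq_conj hA, cfc_eq_conj hB]
    conv_lhs => rw [eq_ent hA hB X, ← hY]
    have h1 := eU_star_mul hA
    have h2 := eU_star_mul hB
    have a1 : eU hA * Matrix.diagonal (fun i => ((f (hA.eigenvalues i) : ℝ) : ℂ)) * (eU hA)ᴴ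
        * (eU hA * Y * (eU hB)ᴴ)
        = eU hA * Matrix.diagonal (fun i => ((f (hA.eigenvalues i) : ℝ) : ℂ))
          * ((eU hA)ᴴ * eU hA) * Y * (eU hB)ᴴ := by
      simp only [Matrix.mul_assoc]
    have a2 : eU hA * Y * (eU hB)ᴴ * (eU hB
        * Matrix.diagonal (fun i => ((g (hB.eigenvalues i) : ℝ) : ℂ)) * (eU hB)ᴴ)
        = eU hA * Y * ((eU hB)ᴴ * eU hB)
          * Matrix.diagonal (fun i => ((g (hB.eigenvalues i) : ℝ) : ℂ)) * (eU hB)ᴴ := by
      simp only [Matrix.mul_assoc]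
    rw [a1, a2, h1, h2, Matrix.mul_one, Matrix.mul_one]
    simp only [Matrix.mul_sub, Matrix.sub_mul, Matrix.mul_assoc]
  rw [e, hsq_mul_unitary, hsq_unitary_mul (eU_star_mul hA)]
  · unfold hsq
    refine Finset.sum_congr rfl fun i _ => Finset.sum_congr rfl fun j _ => ?_
    rw [Matrix.sub_apply, Matrix.diagonal_mul, Matrix.mul_diagonal]
    have : ((f (hA.eigenvalues i) : ℝ) : ℂ) * Y i j - Y i j * ((g (hB.eigenvalues j) : ℝ) : ℂ)
        = ((f (hA.eigenvalues i) - g (hB.eigenvalues j) : ℝ) : ℂ) * Y i j := by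
      push_cast; ring
    rw [this, norm_mul, mul_pow, Complex.norm_real, Real.norm_eq_abs, sq_abs]
  · rw [Matrix.conjTranspose_conjTranspose]
    exact eU_star_mul hB

theorem hsq_mul_sub {A : Mat n} {B : Mat m} (hA : A.IsHermitian) (hB : B.IsHermitian)
    (X : RMat n m) :
    hsq (A * X - X * B)
      = ∑ i, ∑ j, (hA.eigenvalues i - hB.eigenvalues j) ^ 2 * ‖ent hA hB X i j‖ ^ 2 := by
  have := hsq_cfc_mul_sub hA hB (fun t => t) (fun t => t) X
  rw [cfc_fun_id hA, cfc_fun_id hB] at this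
  exact this

/-- (a) `‖f(A) X - X f(B)‖_HS ≤ L ‖A X - X B‖_HS` if `f` is `L`-Lipschitz between the spectra. -/
theorem hsq_lip {A : Mat n} {B : Mat m} (hA : A.IsHermitian) (hB : B.IsHermitian)
    {f : ℝ → ℝ} {L : ℝ}
    (hf : ∀ s ∈ spectrum ℝ A, ∀ t ∈ spectrum ℝ B, |f s - f t| ≤ L * |s - t|) (X : RMat n m) :
    hsq (cfc f A * X - X * cfc f B) ≤ L ^ 2 * hsq (A * X - X * B) := by
  rw [hsq_cfc_mul_sub hA hB, hsq_mul_sub hA hB, Finset.mul_sum]
  refine Finset.sum_le_sum fun i _ => ?_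
  rw [Finset.mul_sum]
  refine Finset.sum_le_sum fun j _ => ?_
  have h := hf _ (hA.eigenvalues_mem_spectrum_real i) _ (hB.eigenvalues_mem_spectrum_real j)
  have h2 : (f (hA.eigenvalues i) - f (hB.eigenvalues j)) ^ 2
      ≤ L ^ 2 * (hA.eigenvalues i - hB.eigenvalues j) ^ 2 := by
    rw [← sq_abs (f _ - f _), ← sq_abs (hA.eigenvalues i - hB.eigenvalues j), ← mul_pow]
    exact pow_le_pow_left₀ (abs_nonneg _) h 2
  calc (f (hA.eigenvalues i) - f (hB.eigenvalues j)) ^ 2 * ‖ent hA hB X i j‖ ^ 2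
      ≤ (L ^ 2 * (hA.eigenvalues i - hB.eigenvalues j) ^ 2) * ‖ent hA hB X i j‖ ^ 2 := by
        gcongr
    _ = _ := by ring

/-- Intertwining: `A X = X B` implies `f(A) X = X f(B)`. -/
theorem cfc_intertwine {A : Mat n} {B : Mat m} (hA : A.IsHermitian) (hB : B.IsHermitian)
    {X : RMat n m} (h : A * X = X * B) (f : ℝ → ℝ) : cfc f A * X = X * cfc f B := by
  have h0 : hsq (A * X - X * B) = 0 := by rw [h, sub_self, hsq_zero]
  rw [hsq_mul_sub hA hB] at h0
  have h1 : hsq (cfc f A * X - X * cfc f B) = 0 := by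
    rw [hsq_cfc_mul_sub hA hB]
    refine Finset.sum_eq_zero fun i _ => Finset.sum_eq_zero fun j _ => ?_
    rw [Finset.sum_eq_zero_iff_of_nonneg (fun i _ => by positivity)] at h0
    have h2 := h0 i (Finset.mem_univ _)
    rw [Finset.sum_eq_zero_iff_of_nonneg (fun i _ => by positivity)] at h2
    have h3 := h2 j (Finset.mem_univ _)
    rcases mul_eq_zero.mp h3 with h4 | h4
    · have h5 : hA.eigenvalues i = hB.eigenvalues j := by
        have := pow_eq_zero_iff (two_ne_zero) |>.mp h4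
        linarith
      rw [h5, sub_self]; ring
    · rw [h4, mul_zero]
  exact sub_eq_zero.mp (hsq_eq_zero.mp h1)

/-- The doubly stochastic weights `|⟨i|j⟩|²`. -/
noncomputable def wt {A B : Mat n} (hA : A.IsHermitian) (hB : B.IsHermitian) (i j : Fin n) : ℝ :=
  ‖ent hA hB (1 : Mat n) i j‖ ^ 2

theorem wt_nonneg {A B : Mat n} (hA : A.IsHermitian) (hB : B.IsHermitian) (i j : Fin n) :
    0 ≤ wt hA hB i j := by unfold wt; positivity

/-- (b) the trace of a product of two functions. -/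
theorem rtr_cfc_mul_cfc {A B : Mat n} (hA : A.IsHermitian) (hB : B.IsHermitian)
    (f g : ℝ → ℝ) :
    rtr (cfc f A * cfc g B)
      = ∑ i, ∑ j, f (hA.eigenvalues i) * g (hB.eigenvalues j) * wt hA hB i j := by
  have e : ent hA hB (1 : Mat n) = (eU hA)ᴴ * eU hB := by simp [ent]
  set Y := ent hA hB (1 : Mat n) with hY
  have h : rtr (cfc f A * cfc g B) = rtr (Matrix.diagonal (fun i => ((f (hA.eigenvalues i) : ℝ) : ℂ))
      * Y * Matrix.diagonal (fun i => ((g (hB.eigenvalues i) : ℝ) : ℂ)) * Yᴴ) := by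
    rw [cfc_eq_conj hA, cfc_eq_conj hB, e, Matrix.conjTranspose_mul,
      Matrix.conjTranspose_conjTranspose]
    have : eU hA * Matrix.diagonal (fun i => ((f (hA.eigenvalues i) : ℝ) : ℂ)) * (eU hA)ᴴ *
        (eU hB * Matrix.diagonal (fun i => ((g (hB.eigenvalues i) : ℝ) : ℂ)) * (eU hB)ᴴ)
        = eU hA * (Matrix.diagonal (fun i => ((f (hA.eigenvalues i) : ℝ) : ℂ)) * ((eU hA)ᴴ *
        eU hB) * Matrix.diagonal (fun i => ((g (hB.eigenvalues i) : ℝ) : ℂ)) * (eU hB)ᴴ) := by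
      simp only [Matrix.mul_assoc]
    rw [this, rtr_mul_comm]
    simp only [Matrix.mul_assoc]
  rw [h]
  simp only [rtr, Matrix.trace, Matrix.diag_apply, Complex.re_sum]
  refine Finset.sum_congr rfl fun i _ => ?_
  rw [Matrix.mul_apply, Complex.re_sum]
  refine Finset.sum_congr rfl fun j _ => ?_
  rw [Matrix.mul_diagonal, Matrix.diagonal_mul, Matrix.conjTranspose_apply]
  unfold wt
  rw [← hY]
  have : ((f (hA.eigenvalues i) : ℝ) : ℂ) * Y i j * ((g (hB.eigenvalues j) : ℝ) : ℂ) * star (Y i j)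
      = ((f (hA.eigenvalues i) * g (hB.eigenvalues j) * ‖Y i j‖ ^ 2 : ℝ) : ℂ) := by
    have := Complex.mul_conj' (Y i j)
    rw [Complex.star_def]
    push_cast
    rw [← this]; ring
  rw [this, Complex.ofReal_re]

theorem wt_sum_left {A B : Mat n} (hA : A.IsHermitian) (hB : B.IsHermitian) (i : Fin n) :
    ∑ j, wt hA hB i j = 1 := by
  have e : ent hA hB (1 : Mat n) = (eU hA)ᴴ * eU hB := by simp [ent]
  have h : (ent hA hB (1 : Mat n) * (ent hA hB (1 : Mat n))ᴴ) i i = 1 := by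
    rw [e, Matrix.conjTranspose_mul, Matrix.conjTranspose_conjTranspose, Matrix.mul_assoc,
      ← Matrix.mul_assoc (eU hB), eU_mul_star, Matrix.one_mul, eU_star_mul, Matrix.one_apply_eq]
  rw [Matrix.mul_apply] at h
  have h2 : ((∑ j, wt hA hB i j : ℝ) : ℂ) = 1 := by
    rw [← h]
    push_cast
    refine Finset.sum_congr rfl fun j _ => ?_
    rw [Matrix.conjTranspose_apply, Complex.star_def, Complex.mul_conj']
    simp [wt]
  exact_mod_cast h2

theorem wt_sum_right {A B : Mat n} (hA : A.IsHermitian) (hB : B.IsHermitian) (j : Fin n) :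
    ∑ i, wt hA hB i j = 1 := by
  have e : ent hA hB (1 : Mat n) = (eU hA)ᴴ * eU hB := by simp [ent]
  have h : ((ent hA hB (1 : Mat n))ᴴ * ent hA hB (1 : Mat n)) j j = 1 := by
    rw [e, Matrix.conjTranspose_mul, Matrix.conjTranspose_conjTranspose, Matrix.mul_assoc,
      ← Matrix.mul_assoc (eU hA), eU_mul_star, Matrix.one_mul, eU_star_mul, Matrix.one_apply_eq]
  rw [Matrix.mul_apply] at h
  have h2 : ((∑ i, wt hA hB i j : ℝ) : ℂ) = 1 := by
    rw [← h]
    push_cast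
    refine Finset.sum_congr rfl fun i _ => ?_
    rw [Matrix.conjTranspose_apply, Complex.star_def, Complex.conj_mul']
    simp [wt]
  exact_mod_cast h2

/-- (b) the general Klein principle. -/
theorem klein_sum {ι : Type*} (S : Finset ι) {A B : Mat n} (hA : A.IsHermitian)
    (hB : B.IsHermitian) (f g : ι → ℝ → ℝ)
    (h : ∀ s ∈ spectrum ℝ A, ∀ t ∈ spectrum ℝ B, 0 ≤ ∑ k ∈ S, f k s * g k t) :
    0 ≤ ∑ k ∈ S, rtr (cfc (f k) A * cfc (g k) B) := by
  have e : ∑ k ∈ S, rtr (cfc (f k) A * cfc (g k) B)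
      = ∑ i, ∑ j, (∑ k ∈ S, f k (hA.eigenvalues i) * g k (hB.eigenvalues j)) * wt hA hB i j := by
    simp only [rtr_cfc_mul_cfc hA hB, Finset.sum_mul]
    rw [Finset.sum_comm]
    refine Finset.sum_congr rfl fun i _ => ?_
    rw [Finset.sum_comm]
  rw [e]
  refine Finset.sum_nonneg fun i _ => Finset.sum_nonneg fun j _ => ?_
  exact mul_nonneg (h _ (hA.eigenvalues_mem_spectrum_real i) _
    (hB.eigenvalues_mem_spectrum_real j)) (wt_nonneg _ _ _ _)

theorem hsq_cfc_sub_cfc {A B : Mat n} (hA : A.IsHermitian) (hB : B.IsHermitian)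
    (f g : ℝ → ℝ) :
    hsq (cfc f A - cfc g B)
      = ∑ i, ∑ j, (f (hA.eigenvalues i) - g (hB.eigenvalues j)) ^ 2 * wt hA hB i j := by
  have := hsq_cfc_mul_sub hA hB f g (1 : Mat n)
  rw [Matrix.mul_one, Matrix.one_mul] at this
  exact this

end spectral

/-! ### Functional calculus without continuity hypotheses, spectra and semidefiniteness -/

section psd

variable {n m : ℕ}

theorem cfc_add_cfc {A : Mat n} (hA : A.IsHermitian) (f g : ℝ → ℝ) :
    cfc f A + cfc g A = cfc (fun t => f t + g t) A := by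
  rw [cfc_eq_conj hA, cfc_eq_conj hA, cfc_eq_conj hA, ← Matrix.add_mul, ← Matrix.mul_add,
    Matrix.diagonal_add]
  simp only [Complex.ofReal_add]

theorem cfc_sub_cfc {A : Mat n} (hA : A.IsHermitian) (f g : ℝ → ℝ) :
    cfc f A - cfc g A = cfc (fun t => f t - g t) A := by
  rw [cfc_eq_conj hA, cfc_eq_conj hA, cfc_eq_conj hA, ← Matrix.sub_mul, ← Matrix.mul_sub,
    Matrix.diagonal_sub]
  simp only [Complex.ofReal_sub]

theorem cfc_mul_cfc {A : Mat n} (hA : A.IsHermitian) (f g : ℝ → ℝ) :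
    cfc f A * cfc g A = cfc (fun t => f t * g t) A := by
  rw [cfc_eq_conj hA, cfc_eq_conj hA, cfc_eq_conj hA]
  have : eU hA * Matrix.diagonal (fun i => ((f (hA.eigenvalues i) : ℝ) : ℂ)) * (eU hA)ᴴ *
      (eU hA * Matrix.diagonal (fun i => ((g (hA.eigenvalues i) : ℝ) : ℂ)) * (eU hA)ᴴ)
      = eU hA * Matrix.diagonal (fun i => ((f (hA.eigenvalues i) : ℝ) : ℂ)) * ((eU hA)ᴴ *
      eU hA) * Matrix.diagonal (fun i => ((g (hA.eigenvalues i) : ℝ) : ℂ)) * (eU hA)ᴴ := by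
    simp only [Matrix.mul_assoc]
  rw [this, eU_star_mul, Matrix.mul_one, Matrix.mul_assoc (eU hA), Matrix.diagonal_mul_diagonal]
  simp only [Complex.ofReal_mul]

theorem cfc_const_eq {A : Mat n} (hA : A.IsHermitian) (c : ℝ) :
    cfc (fun _ : ℝ => c) A = (c : ℂ) • (1 : Mat n) := by
  rw [cfc_eq_conj hA]
  have : (Matrix.diagonal fun _ : Fin n => (c : ℂ)) = (c : ℂ) • (1 : Mat n) := by
    ext i j
    by_cases h : i = j <;> simp [h]
  rw [this, Matrix.mul_smul, Matrix.mul_one, Matrix.smul_mul, eU_mul_star]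

theorem smul_cfc {A : Mat n} (hA : A.IsHermitian) (c : ℝ) (f : ℝ → ℝ) :
    (c : ℂ) • cfc f A = cfc (fun t => c * f t) A := by
  rw [← cfc_mul_cfc hA (fun _ => c) f, cfc_const_eq hA, Matrix.smul_mul, Matrix.one_mul]

/-- Functional calculus only depends on the values on the spectrum (no continuity needed). -/
theorem cfc_congr_spec {A : Mat n} (hA : A.IsHermitian) {f g : ℝ → ℝ}
    (h : ∀ s ∈ spectrum ℝ A, f s = g s) : cfc f A = cfc g A := by
  rw [cfc_eq_conj hA, cfc_eq_conj hA]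
  congr 3
  funext i
  rw [h _ (hA.eigenvalues_mem_spectrum_real i)]

theorem spec_eq {A : Mat n} (hA : A.IsHermitian) {s : ℝ} (hs : s ∈ spectrum ℝ A) :
    ∃ i, hA.eigenvalues i = s := by
  rw [hA.spectrum_real_eq_range_eigenvalues] at hs
  exact hs

theorem spec_nonneg {A : Mat n} (hA : A.PosSemidef) {s : ℝ} (hs : s ∈ spectrum ℝ A) : 0 ≤ s := by
  obtain ⟨i, rfl⟩ := spec_eq hA.1 hs
  exact hA.eigenvalues_nonneg i

theorem spec_pos {A : Mat n} (hA : A.PosDef) {s : ℝ} (hs : s ∈ spectrum ℝ A) : 0 < s := by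
  obtain ⟨i, rfl⟩ := spec_eq hA.1 hs
  exact hA.eigenvalues_pos i

theorem cfc_posSemidef {A : Mat n} (hA : A.IsHermitian) {f : ℝ → ℝ}
    (h : ∀ s ∈ spectrum ℝ A, 0 ≤ f s) : (cfc f A).PosSemidef := by
  rw [cfc_eq_conj hA]
  apply Matrix.PosSemidef.mul_mul_conjTranspose_same
  rw [Matrix.posSemidef_diagonal_iff]
  intro i
  exact Complex.zero_le_real.mpr (h _ (hA.eigenvalues_mem_spectrum_real i))

theorem cfc_posDef {A : Mat n} (hA : A.IsHermitian) {f : ℝ → ℝ}
    (h : ∀ s ∈ spectrum ℝ A, 0 < f s) : (cfc f A).PosDef := by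
  rw [cfc_eq_conj hA]
  have hD : (Matrix.diagonal fun i => ((f (hA.eigenvalues i) : ℝ) : ℂ)).PosDef := by
    rw [Matrix.posDef_diagonal_iff]
    intro i
    exact Complex.zero_lt_real.mpr (h _ (hA.eigenvalues_mem_spectrum_real i))
  have hinj : Function.Injective ((eU hA)ᴴ.mulVec) := by
    intro x y hxy
    have := congrArg (eU hA).mulVec hxy
    simpa [Matrix.mulVec_mulVec, eU_mul_star] using this
  have := hD.conjTranspose_mul_mul_same hinj
  rwa [Matrix.conjTranspose_conjTranspose] at this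

theorem mpow_psd {A : Mat n} (hA : A.PosSemidef) (s : ℝ) : (mpow A s).PosSemidef :=
  cfc_posSemidef hA.1 fun _ ht => Real.rpow_nonneg (spec_nonneg hA ht) s

theorem mexp_posDef {A : Mat n} (hA : A.IsHermitian) : (mexp A).PosDef :=
  cfc_posDef hA fun _ _ => Real.exp_pos _

theorem smul_one_sub_cfc {A : Mat n} (hA : A.IsHermitian) (c : ℝ) (f : ℝ → ℝ) :
    (c : ℂ) • (1 : Mat n) - cfc f A = cfc (fun t => c - f t) A := by
  rw [← cfc_const_eq hA, cfc_sub_cfc hA]

theorem cfc_le {A : Mat n} (hA : A.IsHermitian) {f : ℝ → ℝ} {c : ℝ}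
    (h : ∀ s ∈ spectrum ℝ A, f s ≤ c) : ((c : ℂ) • (1 : Mat n) - cfc f A).PosSemidef := by
  rw [smul_one_sub_cfc hA]
  exact cfc_posSemidef hA fun s hs => sub_nonneg.mpr (h s hs)

theorem cfc_ge {A : Mat n} (hA : A.IsHermitian) {f : ℝ → ℝ} {c : ℝ}
    (h : ∀ s ∈ spectrum ℝ A, c ≤ f s) : (cfc f A - (c : ℂ) • (1 : Mat n)).PosSemidef := by
  rw [← cfc_const_eq hA, cfc_sub_cfc hA]
  exact cfc_posSemidef hA fun s hs => sub_nonneg.mpr (h s hs)

/-- Upper bound for the spectrum of `f(A)` read off from semidefiniteness. -/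
theorem le_of_cfc_posSemidef {A : Mat n} (hA : A.IsHermitian) {f : ℝ → ℝ}
    (h : (cfc f A).PosSemidef) : ∀ s ∈ spectrum ℝ A, 0 ≤ f s := by
  intro s hs
  obtain ⟨i, rfl⟩ := spec_eq hA hs
  have h2 := h.conjTranspose_mul_mul_same (eU hA)
  rw [cfc_eq_conj hA] at h2
  have e : (eU hA)ᴴ * (eU hA * Matrix.diagonal (fun i => ((f (hA.eigenvalues i) : ℝ) : ℂ))
      * (eU hA)ᴴ) * eU hA = Matrix.diagonal (fun i => ((f (hA.eigenvalues i) : ℝ) : ℂ)) := by
    have : (eU hA)ᴴ * (eU hA * Matrix.diagonal (fun i => ((f (hA.eigenvalues i) : ℝ) : ℂ))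
      * (eU hA)ᴴ) * eU hA = ((eU hA)ᴴ * eU hA) * Matrix.diagonal
        (fun i => ((f (hA.eigenvalues i) : ℝ) : ℂ)) * ((eU hA)ᴴ * eU hA) := by
      simp only [Matrix.mul_assoc]
    rw [this, eU_star_mul, Matrix.one_mul, Matrix.mul_one]
  rw [e, Matrix.posSemidef_diagonal_iff] at h2
  exact Complex.zero_le_real.mp (h2 i)

theorem spec_le {A : Mat n} (hA : A.IsHermitian) {c : ℝ}
    (h : ((c : ℂ) • (1 : Mat n) - A).PosSemidef) {s : ℝ} (hs : s ∈ spectrum ℝ A) : s ≤ c := by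
  have e : (c : ℂ) • (1 : Mat n) - A = cfc (fun t => c - t) A := by
    conv_lhs => rw [← cfc_fun_id hA]
    exact smul_one_sub_cfc hA c _
  rw [e] at h
  linarith [le_of_cfc_posSemidef hA h s hs]

theorem le_spec {A : Mat n} (hA : A.IsHermitian) {c : ℝ}
    (h : (A - (c : ℂ) • (1 : Mat n)).PosSemidef) {s : ℝ} (hs : s ∈ spectrum ℝ A) : c ≤ s := by
  have e : A - (c : ℂ) • (1 : Mat n) = cfc (fun t => t - c) A := by
    rw [← cfc_sub_cfc hA, cfc_fun_id hA, cfc_const_eq hA]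
  rw [e] at h
  linarith [le_of_cfc_posSemidef hA h s hs]

/-- `-c ≤ F ≤ c` implies `Fᴴ F ≤ c²`. -/
theorem sq_le_of_herm {F : Mat n} {c : ℝ} (hF : F.IsHermitian)
    (h1 : ((c : ℂ) • (1 : Mat n) - F).PosSemidef) (h2 : ((c : ℂ) • (1 : Mat n) + F).PosSemidef) :
    (((c ^ 2 : ℝ) : ℂ) • (1 : Mat n) - F * F).PosSemidef := by
  have e : F * F = cfc (fun t : ℝ => t * t) F := by
    rw [← cfc_mul_cfc hF, cfc_fun_id hF]
  rw [e]
  apply cfc_le hF
  intro s hs
  have a := spec_le hF h1 hs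
  have h2' : (F - ((-c : ℝ) : ℂ) • (1 : Mat n)).PosSemidef := by
    have : F - ((-c : ℝ) : ℂ) • (1 : Mat n) = (c : ℂ) • (1 : Mat n) + F := by
      push_cast; rw [neg_smul, sub_neg_eq_add, add_comm]
    rwa [this]
  have b := le_spec hF h2' hs
  nlinarith

theorem hsq_herm_mul_le {F : Mat n} {c : ℝ} (hF : F.IsHermitian)
    (h1 : ((c : ℂ) • (1 : Mat n) - F).PosSemidef) (h2 : ((c : ℂ) • (1 : Mat n) + F).PosSemidef)
    (X : RMat n m) : hsq (F * X) ≤ c ^ 2 * hsq X := by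
  apply hsq_mul_left_le
  rw [hF.eq]
  exact sq_le_of_herm hF h1 h2

theorem hsq_mul_herm_le {F : Mat m} {c : ℝ} (hF : F.IsHermitian)
    (h1 : ((c : ℂ) • (1 : Mat m) - F).PosSemidef) (h2 : ((c : ℂ) • (1 : Mat m) + F).PosSemidef)
    (X : RMat n m) : hsq (X * F) ≤ c ^ 2 * hsq X := by
  apply hsq_mul_right_le
  rw [hF.eq]
  exact sq_le_of_herm hF h1 h2

/-- Conjugating inequalities: `-k ≤ F ≤ k`, `k ≤ c` give `-c ≤ F ≤ c`. -/
theorem le_smul_trans {F k : Mat n} {c : ℝ} (h : (k - F).PosSemidef)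
    (hk : ((c : ℂ) • (1 : Mat n) - k).PosSemidef) : ((c : ℂ) • (1 : Mat n) - F).PosSemidef := by
  have := hk.add h
  rwa [sub_add_sub_cancel] at this

theorem eigenvalues_le_rtr {A : Mat n} (hA : A.PosSemidef) (i : Fin n) :
    hA.1.eigenvalues i ≤ rtr A := by
  have h := rtr_cfc hA.1 (fun t => t)
  rw [cfc_fun_id hA.1] at h
  rw [h]
  exact Finset.single_le_sum (f := fun i => hA.1.eigenvalues i)
    (fun j _ => hA.eigenvalues_nonneg j) (Finset.mem_univ i)

theorem spec_le_rtr {A : Mat n} (hA : A.PosSemidef) {s : ℝ} (hs : s ∈ spectrum ℝ A) :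
    s ≤ rtr A := by
  obtain ⟨i, rfl⟩ := spec_eq hA.1 hs
  exact eigenvalues_le_rtr hA i

theorem rtr_eq_sum_eigenvalues {A : Mat n} (hA : A.IsHermitian) :
    rtr A = ∑ i, hA.eigenvalues i := by
  have h := rtr_cfc hA (fun t => t)
  rwa [cfc_fun_id hA] at h

theorem hsq_eq_sum_eigenvalues {A : Mat n} (hA : A.IsHermitian) :
    hsq A = ∑ i, hA.eigenvalues i ^ 2 := by
  rw [hsq_eq_rtr, hA.eq]
  have e : A * A = cfc (fun t : ℝ => t * t) A := by
    rw [← cfc_mul_cfc hA, cfc_fun_id hA]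
  rw [e, rtr_cfc hA]
  refine Finset.sum_congr rfl fun i _ => ?_
  ring

theorem hsq_le_rtr_sq {A : Mat n} (hA : A.PosSemidef) : hsq A ≤ rtr A ^ 2 := by
  rw [hsq_eq_sum_eigenvalues hA.1, sq, rtr_eq_sum_eigenvalues hA.1, Finset.sum_mul]
  refine Finset.sum_le_sum fun i _ => ?_
  rw [sq]
  refine mul_le_mul_of_nonneg_left ?_ (hA.eigenvalues_nonneg i)
  rw [← rtr_eq_sum_eigenvalues hA.1]
  exact eigenvalues_le_rtr hA i

theorem rtr_sq_le {A : Mat n} (hA : A.IsHermitian) : rtr A ^ 2 ≤ n * hsq A := by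
  rw [hsq_eq_sum_eigenvalues hA, rtr_eq_sum_eigenvalues hA]
  have := sq_sum_le_card_mul_sum_sq (s := Finset.univ) (f := fun i => hA.eigenvalues i)
  simpa using this

/-- A positive semidefinite matrix is at most its trace. -/
theorem le_rtr_smul {A : Mat n} (hA : A.PosSemidef) :
    (((rtr A : ℝ) : ℂ) • (1 : Mat n) - A).PosSemidef := by
  have h := cfc_le hA.1 (f := fun t => t) (c := rtr A) fun s hs => spec_le_rtr hA hs
  rwa [cfc_fun_id hA.1] at h

end psd

/-! ### The Young deficit -/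

section young

/-- Concavity of `t^q`: tangent line inequality. -/
theorem rpow_tangent {q s t : ℝ} (hq0 : 0 < q) (hq1 : q < 1) (hs : 0 ≤ s) (ht : 0 < t) :
    s ^ q ≤ t ^ q + q * t ^ (q - 1) * (s - t) := by
  have h := Real.geom_mean_le_arith_mean2_weighted hq0.le (sub_nonneg.mpr hq1.le) hs ht.le
    (by ring : q + (1 - q) = 1)
  have ht1 : 0 < t ^ (q - 1) := Real.rpow_pos_of_pos ht _
  have e1 : t ^ (1 - q) * t ^ (q - 1) = 1 := by
    rw [← Real.rpow_add ht]; norm_num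
  have e2 : t * t ^ (q - 1) = t ^ q := by
    nth_rewrite 1 [← Real.rpow_one t]
    rw [← Real.rpow_add ht]; congr 1; ring
  have h2 := mul_le_mul_of_nonneg_right h ht1.le
  calc s ^ q = s ^ q * (t ^ (1 - q) * t ^ (q - 1)) := by rw [e1, mul_one]
    _ = s ^ q * t ^ (1 - q) * t ^ (q - 1) := by ring
    _ ≤ (q * s + (1 - q) * t) * t ^ (q - 1) := h2
    _ = t * t ^ (q - 1) + q * t ^ (q - 1) * (s - t) := by ring
    _ = _ := by rw [e2]

theorem young_scalar_aux {q w v M : ℝ} (hq0 : 0 < q) (hq1 : q < 1) (hw : 0 ≤ w) (hv : 0 ≤ v)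
    (_hM : 0 < M) (hwM : w ≤ M) (hvM : v ≤ M) :
    q / 2 * M ^ (q - 1) * (w - v) ^ 2
      ≤ w ^ (1 + q) / (1 + q) + q * v ^ (1 + q) / (1 + q) - w * v ^ q := by
  set K := q * M ^ (q - 1) with hK
  -- slope inequality
  have slope : ∀ s t : ℝ, 0 ≤ s → s ≤ t → t ≤ M → K * (t - s) ≤ t ^ q - s ^ q := by
    intro s t hs hst htM
    rcases eq_or_lt_of_le (hs.trans hst) with h0 | h0
    · have : s = 0 := le_antisymm (by rw [h0]; exact hst) hs
      subst this; rw [← h0]; simp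
    · have h := rpow_tangent hq0 hq1 hs h0
      have h1 : M ^ (q - 1) ≤ t ^ (q - 1) :=
        Real.rpow_le_rpow_of_nonpos h0 htM (by linarith)
      have h2 : K * (t - s) ≤ q * t ^ (q - 1) * (t - s) := by
        rw [hK]
        have : 0 ≤ t - s := by linarith
        gcongr
      nlinarith
  let f : ℝ → ℝ := fun t => t ^ (1 + q) / (1 + q) + q * v ^ (1 + q) / (1 + q) - t * v ^ q
    - K / 2 * (t - v) ^ 2
  have hf' : ∀ t : ℝ, HasDerivAt f (t ^ q - v ^ q - K * (t - v)) t := by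
    intro t
    have h1 : HasDerivAt (fun t : ℝ => t ^ (1 + q)) ((1 + q) * t ^ (1 + q - 1)) t :=
      Real.hasDerivAt_rpow_const (Or.inr (by linarith))
    have h2 := (h1.div_const (1 + q)).add_const (q * v ^ (1 + q) / (1 + q))
    have h3 := (h2.sub ((hasDerivAt_id t).mul_const (v ^ q)))
    have h4 : HasDerivAt (fun t : ℝ => K / 2 * (t - v) ^ 2) (K / 2 * (2 * (t - v))) t := by
      have := (((hasDerivAt_id t).sub_const v).pow 2).const_mul (K / 2)
      simpa using this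
    have h5 := h3.sub h4
    refine h5.congr_deriv ?_
    have : (1 + q) ≠ 0 := by linarith
    rw [show 1 + q - 1 = q by ring]
    field_simp
  have hfc : Continuous f := continuous_iff_continuousAt.mpr fun t => (hf' t).continuousAt
  have hfv : f v = 0 := by
    simp only [f]
    have : v ^ (1 + q) = v * v ^ q := by
      rcases eq_or_lt_of_le hv with h | h
      · rw [← h, Real.zero_rpow (by linarith), zero_mul]
      · rw [Real.rpow_add h, Real.rpow_one]
    rw [this]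
    have h1q : (1 + q) ≠ 0 := by linarith
    field_simp
    ring
  have key : 0 ≤ f w := by
    rcases le_total v w with hvw | hwv
    · have hmono : MonotoneOn f (Set.Icc v M) := by
        apply monotoneOn_of_deriv_nonneg (convex_Icc v M) hfc.continuousOn
        · exact fun t _ => (hf' t).differentiableAt.differentiableWithinAt
        · intro t ht
          rw [interior_Icc] at ht
          rw [(hf' t).deriv]
          have := slope v t hv ht.1.le ht.2.le
          linarith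
      have := hmono ⟨le_refl v, hvM⟩ ⟨hvw, hwM⟩ hvw
      linarith
    · have hanti : AntitoneOn f (Set.Icc 0 v) := by
        apply antitoneOn_of_deriv_nonpos (convex_Icc 0 v) hfc.continuousOn
        · exact fun t _ => (hf' t).differentiableAt.differentiableWithinAt
        · intro t ht
          rw [interior_Icc] at ht
          rw [(hf' t).deriv]
          have := slope t v ht.1.le ht.2.le hvM
          linarith
      have := hanti ⟨hw, hwv⟩ ⟨hv, le_refl v⟩ hwv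
      linarith
  have : f w = w ^ (1 + q) / (1 + q) + q * v ^ (1 + q) / (1 + q) - w * v ^ q
    - K / 2 * (w - v) ^ 2 := rfl
  rw [this, hK] at key
  linarith

/-- Scalar Young inequality with a quadratic remainder. -/
theorem young_scalar {q w v : ℝ} (hq0 : 0 < q) (hq1 : q < 1) (hw : 0 ≤ w) (hv : 0 ≤ v) :
    q / 2 * (w - v) ^ 2
      ≤ (1 + w + v) * (w ^ (1 + q) / (1 + q) + q * v ^ (1 + q) / (1 + q) - w * v ^ q) := by
  rcases eq_or_lt_of_le (le_max_of_le_left hw : 0 ≤ max w v) with h0 | h0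
  · have hw0 : w = 0 := le_antisymm (by rw [h0]; exact le_max_left _ _) hw
    have hv0 : v = 0 := le_antisymm (by rw [h0]; exact le_max_right _ _) hv
    subst hw0; subst hv0
    rw [Real.zero_rpow (by linarith)]
    simp
  · set M := max w v with hM
    have h := young_scalar_aux hq0 hq1 hw hv h0 (le_max_left _ _) (le_max_right _ _)
    have hMq : 1 ≤ (1 + w + v) * M ^ (q - 1) := by
      have h1 : M ^ (1 - q) ≤ 1 + w + v := by
        have hMle : M ≤ w + v := by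
          rw [hM]; exact max_le (by linarith) (by linarith)
        rcases le_total M 1 with h1 | h1
        · calc M ^ (1 - q) ≤ 1 := Real.rpow_le_one h0.le h1 (by linarith)
            _ ≤ _ := by linarith
        · calc M ^ (1 - q) ≤ M ^ (1 : ℝ) := Real.rpow_le_rpow_of_exponent_le h1 (by linarith)
            _ = M := Real.rpow_one M
            _ ≤ _ := by linarith
      have h2 : M ^ (1 - q) * M ^ (q - 1) = 1 := by
        rw [← Real.rpow_add h0]; norm_num
      calc (1 : ℝ) = M ^ (1 - q) * M ^ (q - 1) := h2.symm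
        _ ≤ _ := by
          have := (Real.rpow_pos_of_pos h0 (q - 1)).le
          gcongr
    have hD : 0 ≤ q / 2 * (w - v) ^ 2 := by positivity
    calc q / 2 * (w - v) ^ 2 = 1 * (q / 2 * (w - v) ^ 2) := (one_mul _).symm
      _ ≤ ((1 + w + v) * M ^ (q - 1)) * (q / 2 * (w - v) ^ 2) :=
          mul_le_mul_of_nonneg_right hMq hD
      _ = (1 + w + v) * (q / 2 * M ^ (q - 1) * (w - v) ^ 2) := by ring
      _ ≤ _ := by
          have : 0 ≤ 1 + w + v := by linarith
          exact mul_le_mul_of_nonneg_left h this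

theorem young_scalar_nonneg {q w v : ℝ} (hq0 : 0 < q) (hq1 : q < 1) (hw : 0 ≤ w) (hv : 0 ≤ v) :
    0 ≤ w ^ (1 + q) / (1 + q) + q * v ^ (1 + q) / (1 + q) - w * v ^ q := by
  have h := young_scalar hq0 hq1 hw hv
  have h1 : 0 ≤ q / 2 * (w - v) ^ 2 := by positivity
  by_contra hneg
  rw [not_le] at hneg
  have : (1 + w + v) * (w ^ (1 + q) / (1 + q) + q * v ^ (1 + q) / (1 + q) - w * v ^ q) < 0 :=
    mul_neg_of_pos_of_neg (by linarith) hneg
  linarith

/-- Young's inequality with half of the second term absorbed. -/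
theorem young_scalar_half {q w g : ℝ} (hq0 : 0 < q) (hq1 : q < 1) (hw : 0 ≤ w) (hg : 0 ≤ g) :
    w * g ≤ 2 * w ^ (1 + q) / (1 + q) + q / (2 * (1 + q)) * g ^ ((1 + q) / q) := by
  have hpq : (1 + q).HolderConjugate ((1 + q) / q) := by
    rw [Real.holderConjugate_iff]
    refine ⟨by linarith, ?_⟩
    field_simp
  set c : ℝ := 2 ^ (q / (1 + q)) with hc
  have hc0 : 0 < c := Real.rpow_pos_of_pos (by norm_num) _
  have h := Real.young_inequality_of_nonneg (mul_nonneg hw hc0.le) (div_nonneg hg hc0.le) hpq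
  have e1 : w * c * (g / c) = w * g := by field_simp
  have e2 : (w * c) ^ (1 + q) = w ^ (1 + q) * 2 ^ q := by
    rw [Real.mul_rpow hw hc0.le, hc, ← Real.rpow_mul (by norm_num)]
    congr 2
    field_simp
  have e3 : (g / c) ^ ((1 + q) / q) = g ^ ((1 + q) / q) / 2 := by
    rw [Real.div_rpow hg hc0.le, hc, ← Real.rpow_mul (by norm_num)]
    have : q / (1 + q) * ((1 + q) / q) = 1 := by
      have : (1 + q) ≠ 0 := by linarith
      field_simp
    rw [this, Real.rpow_one]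
  rw [e1, e2, e3] at h
  have h2 : (2 : ℝ) ^ q ≤ 2 := by
    calc (2 : ℝ) ^ q ≤ 2 ^ (1 : ℝ) := Real.rpow_le_rpow_of_exponent_le (by norm_num) hq1.le
      _ = 2 := Real.rpow_one 2
  have h3 : w ^ (1 + q) * 2 ^ q / (1 + q) ≤ 2 * w ^ (1 + q) / (1 + q) := by
    have : 0 ≤ w ^ (1 + q) := Real.rpow_nonneg hw _
    have h1q : 0 < 1 + q := by linarith
    have h5 : w ^ (1 + q) * 2 ^ q ≤ w ^ (1 + q) * 2 := mul_le_mul_of_nonneg_left h2 this
    have h6 : w ^ (1 + q) * 2 ^ q / (1 + q) ≤ w ^ (1 + q) * 2 / (1 + q) :=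
      div_le_div_of_nonneg_right h5 h1q.le
    calc w ^ (1 + q) * 2 ^ q / (1 + q) ≤ w ^ (1 + q) * 2 / (1 + q) := h6
      _ = _ := by ring
  have h4 : g ^ ((1 + q) / q) / 2 / ((1 + q) / q) = q / (2 * (1 + q)) * g ^ ((1 + q) / q) := by
    have : (1 + q) ≠ 0 := by linarith
    field_simp
  linarith

variable {n : ℕ}

/-- The Young deficit as a double spectral sum. -/
theorem dY_eq {q : ℝ} {W Q : Mat n} (hW : W.IsHermitian) (hQ : Q.IsHermitian) :
    dY q W Q = ∑ i, ∑ j, (hW.eigenvalues i ^ (1 + q) / (1 + q)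
      + q * hQ.eigenvalues j ^ ((1 + q) / q) / (1 + q)
      - hW.eigenvalues i * hQ.eigenvalues j) * wt hW hQ i j := by
  have h1 : rtr (mpow W (1 + q)) = ∑ i, ∑ j, hW.eigenvalues i ^ (1 + q) * wt hW hQ i j := by
    unfold mpow
    rw [rtr_cfc hW]
    refine Finset.sum_congr rfl fun i _ => ?_
    rw [← Finset.mul_sum, wt_sum_left, mul_one]
  have h2 : rtr (mpow Q ((1 + q) / q))
      = ∑ i, ∑ j, hQ.eigenvalues j ^ ((1 + q) / q) * wt hW hQ i j := by
    unfold mpow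
    rw [rtr_cfc hQ, Finset.sum_comm]
    refine Finset.sum_congr rfl fun j _ => ?_
    rw [← Finset.mul_sum, wt_sum_right, mul_one]
  have h3 : rtr (W * Q) = ∑ i, ∑ j, hW.eigenvalues i * hQ.eigenvalues j * wt hW hQ i j := by
    have := rtr_cfc_mul_cfc hW hQ (fun t => t) (fun t => t)
    rwa [cfc_fun_id hW, cfc_fun_id hQ] at this
  unfold dY
  rw [h1, h2, h3, Finset.sum_div, Finset.mul_sum, Finset.sum_div, ← Finset.sum_add_distrib,
    ← Finset.sum_sub_distrib]
  refine Finset.sum_congr rfl fun i _ => ?_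
  rw [Finset.sum_div, Finset.mul_sum, Finset.sum_div, ← Finset.sum_add_distrib,
    ← Finset.sum_sub_distrib]
  refine Finset.sum_congr rfl fun j _ => ?_
  ring

theorem rpow_pair {q b : ℝ} (hq0 : 0 < q) (hb : 0 ≤ b) :
    (b ^ (1 / q)) ^ (1 + q) = b ^ ((1 + q) / q) ∧ (b ^ (1 / q)) ^ q = b := by
  constructor
  · rw [← Real.rpow_mul hb]; congr 1; field_simp
  · rw [← Real.rpow_mul hb, one_div, inv_mul_cancel₀ hq0.ne', Real.rpow_one]

theorem dY_nonneg {q : ℝ} (hq0 : 0 < q) (hq1 : q < 1) {W Q : Mat n} (hW : W.PosSemidef)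
    (hQ : Q.PosSemidef) : 0 ≤ dY q W Q := by
  rw [dY_eq hW.1 hQ.1]
  refine Finset.sum_nonneg fun i _ => Finset.sum_nonneg fun j _ => ?_
  refine mul_nonneg ?_ (wt_nonneg _ _ _ _)
  have hb := hQ.eigenvalues_nonneg j
  have h := young_scalar_nonneg hq0 hq1 (hW.eigenvalues_nonneg i)
    (Real.rpow_nonneg hb (1 / q))
  rwa [(rpow_pair hq0 hb).1, (rpow_pair hq0 hb).2] at h

/-- (c) the Young deficit controls `W - Q^(1/q)` in Hilbert–Schmidt norm. -/
theorem dY_ge {q : ℝ} (hq0 : 0 < q) (hq1 : q < 1) {W Q : Mat n} (hW : W.PosSemidef)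
    (hQ : Q.PosSemidef) :
    q / 2 * hsq (W - mpow Q (1 / q)) ≤ (1 + rtr W + rtr (mpow Q (1 / q))) * dY q W Q := by
  have h1 : hsq (W - mpow Q (1 / q)) = ∑ i, ∑ j,
      (hW.1.eigenvalues i - hQ.1.eigenvalues j ^ (1 / q)) ^ 2 * wt hW.1 hQ.1 i j := by
    have := hsq_cfc_sub_cfc hW.1 hQ.1 (fun t => t) (fun t => t ^ (1 / q))
    rwa [cfc_fun_id hW.1] at this
  rw [h1, dY_eq hW.1 hQ.1, Finset.mul_sum, Finset.mul_sum]
  refine Finset.sum_le_sum fun i _ => ?_
  rw [Finset.mul_sum, Finset.mul_sum]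
  refine Finset.sum_le_sum fun j _ => ?_
  have ha := hW.eigenvalues_nonneg i
  have hb := hQ.eigenvalues_nonneg j
  have hv := Real.rpow_nonneg hb (1 / q)
  have hwt := wt_nonneg hW.1 hQ.1 i j
  have hy := young_scalar hq0 hq1 ha hv
  have hy0 := young_scalar_nonneg hq0 hq1 ha hv
  rw [(rpow_pair hq0 hb).1, (rpow_pair hq0 hb).2] at hy hy0
  have hi := eigenvalues_le_rtr hW i
  have hj : hQ.1.eigenvalues j ^ (1 / q) ≤ rtr (mpow Q (1 / q)) := by
    unfold mpow
    rw [rtr_cfc hQ.1]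
    exact Finset.single_le_sum (f := fun j => hQ.1.eigenvalues j ^ (1 / q))
      (fun k _ => Real.rpow_nonneg (hQ.eigenvalues_nonneg k) _) (Finset.mem_univ j)
  set D := hW.1.eigenvalues i ^ (1 + q) / (1 + q) + q * hQ.1.eigenvalues j ^ ((1 + q) / q)
    / (1 + q) - hW.1.eigenvalues i * hQ.1.eigenvalues j with hD
  calc q / 2 * ((hW.1.eigenvalues i - hQ.1.eigenvalues j ^ (1 / q)) ^ 2 * wt hW.1 hQ.1 i j)
      = q / 2 * (hW.1.eigenvalues i - hQ.1.eigenvalues j ^ (1 / q)) ^ 2 * wt hW.1 hQ.1 i j := by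
        ring
    _ ≤ ((1 + hW.1.eigenvalues i + hQ.1.eigenvalues j ^ (1 / q)) * D) * wt hW.1 hQ.1 i j :=
        mul_le_mul_of_nonneg_right hy hwt
    _ ≤ ((1 + rtr W + rtr (mpow Q (1 / q))) * D) * wt hW.1 hQ.1 i j := by
        refine mul_le_mul_of_nonneg_right ?_ hwt
        refine mul_le_mul_of_nonneg_right ?_ hy0
        linarith
    _ = _ := by ring

/-- (c') the Young deficit controls `tr Q^(r+1)`. -/
theorem rtr_mpow_le_dY {q : ℝ} (hq0 : 0 < q) (hq1 : q < 1) {W Q : Mat n} (hW : W.PosSemidef)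
    (hQ : Q.PosSemidef) :
    q / (2 * (1 + q)) * rtr (mpow Q ((1 + q) / q))
      ≤ dY q W Q + 1 / (1 + q) * rtr (mpow W (1 + q)) := by
  have h1 : rtr (mpow W (1 + q)) = ∑ i, ∑ j, hW.1.eigenvalues i ^ (1 + q) * wt hW.1 hQ.1 i j := by
    unfold mpow
    rw [rtr_cfc hW.1]
    refine Finset.sum_congr rfl fun i _ => ?_
    rw [← Finset.mul_sum, wt_sum_left, mul_one]
  have h2 : rtr (mpow Q ((1 + q) / q))
      = ∑ i, ∑ j, hQ.1.eigenvalues j ^ ((1 + q) / q) * wt hW.1 hQ.1 i j := by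
    unfold mpow
    rw [rtr_cfc hQ.1, Finset.sum_comm]
    refine Finset.sum_congr rfl fun j _ => ?_
    rw [← Finset.mul_sum, wt_sum_right, mul_one]
  rw [h1, h2, dY_eq hW.1 hQ.1, Finset.mul_sum, Finset.mul_sum, ← Finset.sum_add_distrib]
  refine Finset.sum_le_sum fun i _ => ?_
  rw [Finset.mul_sum, Finset.mul_sum, ← Finset.sum_add_distrib]
  refine Finset.sum_le_sum fun j _ => ?_
  have hwt := wt_nonneg hW.1 hQ.1 i j
  have hy := young_scalar_half hq0 hq1 (hW.eigenvalues_nonneg i) (hQ.eigenvalues_nonneg j)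
  have h1q : 0 < 1 + q := by linarith
  have key : q / (2 * (1 + q)) * hQ.1.eigenvalues j ^ ((1 + q) / q)
      ≤ (hW.1.eigenvalues i ^ (1 + q) / (1 + q) + q * hQ.1.eigenvalues j ^ ((1 + q) / q)
      / (1 + q) - hW.1.eigenvalues i * hQ.1.eigenvalues j)
      + 1 / (1 + q) * hW.1.eigenvalues i ^ (1 + q) := by
    have e : q * hQ.1.eigenvalues j ^ ((1 + q) / q) / (1 + q)
        = 2 * (q / (2 * (1 + q)) * hQ.1.eigenvalues j ^ ((1 + q) / q)) := by
      field_simp
    have e2 : 2 * hW.1.eigenvalues i ^ (1 + q) / (1 + q)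
        = hW.1.eigenvalues i ^ (1 + q) / (1 + q) + 1 / (1 + q) * hW.1.eigenvalues i ^ (1 + q) := by
      field_simp; ring
    rw [e]
    linarith
  calc q / (2 * (1 + q)) * (hQ.1.eigenvalues j ^ ((1 + q) / q) * wt hW.1 hQ.1 i j)
      = (q / (2 * (1 + q)) * hQ.1.eigenvalues j ^ ((1 + q) / q)) * wt hW.1 hQ.1 i j := by ring
    _ ≤ _ := mul_le_mul_of_nonneg_right key hwt
    _ = _ := by ring

end young

end SLT
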