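import Crest.Agent.SLT.RigDefs
import Crest.Agent.SLT.Spec
import Crest.Agent.SLT.StabHS

/-!
# Row 332, S0516: double spectral sums (what the Rig files need from the toolbox)
-/

set_option autoImplicit false

open MeasureTheory Filter Set
open scoped ComplexOrder Matrix Topology

namespace SLT

/-- Commutator estimate: in eigenbases of `A` and `B`,
`⟨i| f(A) X - X f(B) |j⟩ = (f(a_i) - f(b_j)) ⟨i|X|j⟩`. -/
theorem hsq_cfc_comm_le {n m : ℕ} {A : Mat n} {B : Mat m} (hA : A.IsHermitian)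
    (hB : B.IsHermitian) {f : ℝ → ℝ} {L : ℝ}
    (hf : ∀ i j, |f (hA.eigenvalues i) - f (hB.eigenvalues j)| ≤
      L * |hA.eigenvalues i - hB.eigenvalues j|) (X : RMat n m) :
    hsq (cfc f A * X - X * cfc f B) ≤ L ^ 2 * hsq (A * X - X * B) :=
  hsq_lip_eig hA hB X f f L hf

/-- Quantitative matrix Young inequality on bounded sets: with `f(w) = w^p/p`, `p = 1+q < 2`,
`w₀ = t^(1/q)`: `w^p/p + q t^((1+q)/q)/(1+q) - w t = f(w) - f(w₀) - f'(w₀)(w-w₀) ≥ c (w-w₀)²`. -/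
theorem dY_lower {m : ℕ} {q : ℝ} (hq : 0 < q) (hq1 : q < 1) (M : ℝ) :
    ∃ c : ℝ, 0 < c ∧ ∀ W Q : Mat m, W.PosSemidef → Q.PosSemidef → rtr W ≤ M → rtr Q ≤ M →
      c * hsq (W - mpow Q (1 / q)) ≤ dY q W Q := by
  have hq' : (0 : ℝ) ≤ 1 / q := by positivity
  have hden : (0 : ℝ) < 1 + |M| + m * |M| ^ (1 / q) := by positivity
  refine ⟨(q / 2) / (1 + |M| + m * |M| ^ (1 / q)), by positivity, ?_⟩
  intro W Q hW hQ hWM hQM
  have h1 := dY_ge hq hq1 hW hQ
  have h0 := dY_nonneg hq hq1 hW hQ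
  have h2 : rtr (mpow Q (1 / q)) ≤ m * |M| ^ (1 / q) := by
    unfold mpow
    rw [rtr_cfc hQ.1]
    calc ∑ i, hQ.1.eigenvalues i ^ (1 / q) ≤ ∑ _i : Fin m, |M| ^ (1 / q) := by
          refine Finset.sum_le_sum fun i _ => ?_
          exact Real.rpow_le_rpow (hQ.eigenvalues_nonneg i)
            (((eigenvalues_le_rtr hQ i).trans hQM).trans (le_abs_self M)) hq'
      _ = m * |M| ^ (1 / q) := by simp
  have h3 : (1 + rtr W + rtr (mpow Q (1 / q))) ≤ 1 + |M| + m * |M| ^ (1 / q) := by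
    have := hWM.trans (le_abs_self M)
    linarith
  have h4 : q / 2 * hsq (W - mpow Q (1 / q)) ≤ (1 + |M| + m * |M| ^ (1 / q)) * dY q W Q :=
    h1.trans (mul_le_mul_of_nonneg_right h3 h0)
  rw [div_mul_eq_mul_div, div_le_iff₀ hden]
  linarith

end SLT
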