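import Crest.Agent.SLT.RigAlg
import Crest.Agent.SLT.RigSpec

/-!
# Row 332, S0516: uniqueness for the final ODE (chunk F2)
-/

set_option autoImplicit false

open MeasureTheory Filter Set
open scoped ComplexOrder Matrix Topology

namespace SLT

private lemma rpow_lip {r : ℝ} (hr : 1 < r) {M : ℝ} (hM : 0 ≤ M) {a b : ℝ} (ha : a ∈ Icc 0 M)
    (hb : b ∈ Icc 0 M) : |a ^ r - b ^ r| ≤ (r * M ^ (r - 1)) * |a - b| := by
  have h := Convex.norm_image_sub_le_of_norm_hasDerivWithin_le (𝕜 := ℝ)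
    (f := fun x : ℝ => x ^ r) (f' := fun x : ℝ => r * x ^ (r - 1)) (s := Icc 0 M)
    (x := b) (y := a) (C := r * M ^ (r - 1))
    (fun x _ => (Real.hasDerivAt_rpow_const (Or.inr hr.le)).hasDerivWithinAt)
    (fun x hx => by
      rw [Real.norm_eq_abs, abs_of_nonneg (mul_nonneg (by linarith) (Real.rpow_nonneg hx.1 _))]
      exact mul_le_mul_of_nonneg_left (Real.rpow_le_rpow hx.1 hx.2 (by linarith)) (by linarith))
    (convex_Icc 0 M) hb ha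
  simpa [Real.norm_eq_abs] using h

private lemma eig_mem {m : ℕ} {A : Mat m} (hA : A.PosSemidef) {M : ℝ} (hM : rtr A ≤ M) (i : Fin m) :
    hA.1.eigenvalues i ∈ Icc 0 M := by
  refine ⟨hA.eigenvalues_nonneg i, le_trans ?_ hM⟩
  have h1 : rtr A = ∑ j, hA.1.eigenvalues j := by
    unfold rtr
    rw [hA.1.trace_eq_sum_eigenvalues]
    simp
  rw [h1]
  exact Finset.single_le_sum (f := fun j => hA.1.eigenvalues j)
    (fun j _ => hA.eigenvalues_nonneg j) (Finset.mem_univ i)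

/-- (F2a) The power `r ≥ 1` is Lipschitz on bounded sets of positive semidefinite matrices in the
Frobenius norm (double spectral sum: `⟨i|A^r - B^r|j⟩ = (a_i^r - b_j^r)⟨i|j⟩`, Spec.lean (a)). -/
theorem hsq_mpow_sub_le {m : ℕ} {r : ℝ} (hr : 1 < r) (M : ℝ) :
    ∃ C : ℝ, 0 ≤ C ∧ ∀ A B : Mat m, A.PosSemidef → B.PosSemidef → rtr A ≤ M → rtr B ≤ M →
      hsq (mpow A r - mpow B r) ≤ C * hsq (A - B) := by
  refine ⟨(r * |M| ^ (r - 1)) ^ 2, sq_nonneg _, ?_⟩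
  intro A B hA hB hAM hBM
  have hM' : M ≤ |M| := le_abs_self M
  have h := hsq_cfc_comm_le hA.1 hB.1 (f := fun t : ℝ => t ^ r) (L := r * |M| ^ (r - 1))
    (fun i j => rpow_lip hr (abs_nonneg M) (eig_mem hA (hAM.trans hM') i)
      (eig_mem hB (hBM.trans hM') j)) (1 : Mat m)
  simpa [mpow] using h

open scoped Matrix.Norms.Frobenius in
private lemma norm_mpow_sub_le {m : ℕ} {r : ℝ} (hr : 1 < r) (M : ℝ) :
    ∃ C : ℝ, 0 ≤ C ∧ ∀ A B : Mat m, A.PosSemidef → B.PosSemidef → rtr A ≤ M → rtr B ≤ M →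
      ‖mpow A r - mpow B r‖ ≤ C * ‖A - B‖ := by
  obtain ⟨C, hC, h⟩ := hsq_mpow_sub_le (m := m) hr M
  refine ⟨Real.sqrt C, Real.sqrt_nonneg _, ?_⟩
  intro A B hA hB hAM hBM
  have h1 := h A B hA hB hAM hBM
  rw [← norm_sq_eq_hsq, ← norm_sq_eq_hsq] at h1
  have h2 := Real.sqrt_le_sqrt h1
  rw [Real.sqrt_mul hC, Real.sqrt_sq (norm_nonneg _), Real.sqrt_sq (norm_nonneg _)] at h2
  exact h2

open scoped Matrix.Norms.Frobenius in
/-- (F2) Uniqueness for the system `Q' = QG + GQ`, `G' = -κ Q^r` (Gronwall on compact intervals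
for `hsq (Q₁-Q₂) + hsq (G₁-G₂)`, using `hsq_mpow_sub_le`), or `ODE_solution_unique`-type lemma. -/
private theorem ode_unique_aux {m : ℕ} {r κ : ℝ} (hr : 1 < r) {Q₁ Q₂ G₁ G₂ : ℝ → Mat m}
    (hp₁ : ∀ x, (Q₁ x).PosSemidef) (hp₂ : ∀ x, (Q₂ x).PosSemidef)
    (hQ₁ : ∀ x, HasDerivAt Q₁ (Q₁ x * G₁ x + G₁ x * Q₁ x) x)
    (hQ₂ : ∀ x, HasDerivAt Q₂ (Q₂ x * G₂ x + G₂ x * Q₂ x) x)
    (hG₁ : ∀ x, HasDerivAt G₁ (-((κ : ℂ) • mpow (Q₁ x) r)) x)
    (hG₂ : ∀ x, HasDerivAt G₂ (-((κ : ℂ) • mpow (Q₂ x) r)) x)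
    (h0 : Q₁ 0 = Q₂ 0) (h0' : G₁ 0 = G₂ 0) : ∀ x, Q₁ x = Q₂ x ∧ G₁ x = G₂ x := by
  intro x
  set T : ℝ := |x| + 1 with hT
  have hTpos : 0 < T := by positivity
  have hf : ∀ y, HasDerivAt (fun y => (Q₁ y, G₁ y))
      (Q₁ y * G₁ y + G₁ y * Q₁ y, -((κ : ℂ) • mpow (Q₁ y) r)) y := fun y => (hQ₁ y).prodMk (hG₁ y)
  have hg : ∀ y, HasDerivAt (fun y => (Q₂ y, G₂ y))
      (Q₂ y * G₂ y + G₂ y * Q₂ y, -((κ : ℂ) • mpow (Q₂ y) r)) y := fun y => (hQ₂ y).prodMk (hG₂ y)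
  have hcf : Continuous (fun y => (Q₁ y, G₁ y)) :=
    continuous_iff_continuousAt.2 fun y => (hf y).continuousAt
  have hcg : Continuous (fun y => (Q₂ y, G₂ y)) :=
    continuous_iff_continuousAt.2 fun y => (hg y).continuousAt
  have hcr : Continuous (fun X : Mat m × Mat m => rtr X.1) := by
    unfold rtr
    exact Complex.continuous_re.comp ((continuous_fst).matrix_trace)
  obtain ⟨R₁, hR₁⟩ := (isCompact_Icc (a := -T) (b := T)).exists_bound_of_continuousOn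
    hcf.continuousOn
  obtain ⟨R₂, hR₂⟩ := (isCompact_Icc (a := -T) (b := T)).exists_bound_of_continuousOn
    hcg.continuousOn
  obtain ⟨M₁, hM₁⟩ := (isCompact_Icc (a := -T) (b := T)).exists_bound_of_continuousOn
    (hcr.comp hcf).continuousOn
  obtain ⟨M₂, hM₂⟩ := (isCompact_Icc (a := -T) (b := T)).exists_bound_of_continuousOn
    (hcr.comp hcg).continuousOn
  set R := max R₁ R₂ with hR
  set M := max M₁ M₂ with hM
  obtain ⟨C, hC, hCl⟩ := norm_mpow_sub_le (m := m) hr M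
  set s : Set (Mat m × Mat m) := {X | X.1.PosSemidef ∧ rtr X.1 ≤ M ∧ ‖X‖ ≤ R} with hs
  set v : ℝ → Mat m × Mat m → Mat m × Mat m :=
    fun _ X => (X.1 * X.2 + X.2 * X.1, -((κ : ℂ) • mpow X.1 r)) with hv
  have hlip : ∀ t ∈ Ioo (-T) T, LipschitzOnWith (Real.toNNReal (4 * |R| + |κ| * C)) (v t) s := by
    intro t _
    apply LipschitzOnWith.of_dist_le_mul
    intro X hX Y hY
    have hXR : ‖X‖ ≤ |R| := hX.2.2.trans (le_abs_self R)
    have hYR : ‖Y‖ ≤ |R| := hY.2.2.trans (le_abs_self R)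
    have hnn : 0 ≤ 4 * |R| + |κ| * C := by positivity
    rw [Real.coe_toNNReal _ hnn, dist_eq_norm, dist_eq_norm]
    have e1 : ‖X.1 - Y.1‖ ≤ ‖X - Y‖ := norm_fst_le (X - Y)
    have e2 : ‖X.2 - Y.2‖ ≤ ‖X - Y‖ := norm_snd_le (X - Y)
    have f1 : ‖X.1‖ ≤ |R| := (norm_fst_le X).trans hXR
    have f2 : ‖X.2‖ ≤ |R| := (norm_snd_le X).trans hXR
    have f3 : ‖Y.1‖ ≤ |R| := (norm_fst_le Y).trans hYR
    have f4 : ‖Y.2‖ ≤ |R| := (norm_snd_le Y).trans hYR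
    have hD : 0 ≤ ‖X - Y‖ := norm_nonneg _
    have hRR : 0 ≤ |R| := abs_nonneg R
    rw [Prod.norm_def]
    apply max_le
    · have g1 : (v t X - v t Y).1 =
          (X.1 * (X.2 - Y.2) + (X.1 - Y.1) * Y.2) + (X.2 * (X.1 - Y.1) + (X.2 - Y.2) * Y.1) := by
        simp only [hv, Prod.fst_sub]
        noncomm_ring
      rw [g1]
      have n1 : ‖X.1 * (X.2 - Y.2)‖ ≤ |R| * ‖X - Y‖ :=
        (norm_mul_le _ _).trans (mul_le_mul f1 e2 (norm_nonneg _) hRR)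
      have n2 : ‖(X.1 - Y.1) * Y.2‖ ≤ ‖X - Y‖ * |R| :=
        (norm_mul_le _ _).trans (mul_le_mul e1 f4 (norm_nonneg _) hD)
      have n3 : ‖X.2 * (X.1 - Y.1)‖ ≤ |R| * ‖X - Y‖ :=
        (norm_mul_le _ _).trans (mul_le_mul f2 e1 (norm_nonneg _) hRR)
      have n4 : ‖(X.2 - Y.2) * Y.1‖ ≤ ‖X - Y‖ * |R| :=
        (norm_mul_le _ _).trans (mul_le_mul e2 f3 (norm_nonneg _) hD)
      have n5 := norm_add_le (X.1 * (X.2 - Y.2) + (X.1 - Y.1) * Y.2)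
        (X.2 * (X.1 - Y.1) + (X.2 - Y.2) * Y.1)
      have n6 := norm_add_le (X.1 * (X.2 - Y.2)) ((X.1 - Y.1) * Y.2)
      have n7 := norm_add_le (X.2 * (X.1 - Y.1)) ((X.2 - Y.2) * Y.1)
      have n8 : 0 ≤ |κ| * C * ‖X - Y‖ := by positivity
      nlinarith
    · have g1 : (v t X - v t Y).2 = -((κ : ℂ) • (mpow X.1 r - mpow Y.1 r)) := by
        simp only [hv, Prod.snd_sub, smul_sub]
        abel
      rw [g1, norm_neg, norm_smul, Complex.norm_real, Real.norm_eq_abs]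
      have n1 := hCl X.1 Y.1 hX.1 hY.1 hX.2.1 hY.2.1
      have n2 : ‖mpow X.1 r - mpow Y.1 r‖ ≤ C * ‖X - Y‖ :=
        n1.trans (mul_le_mul_of_nonneg_left e1 hC)
      have n3 := mul_le_mul_of_nonneg_left n2 (abs_nonneg κ)
      have n4 : 0 ≤ |R| * ‖X - Y‖ := by positivity
      nlinarith
  have key := ODE_solution_unique_of_mem_Icc (v := v) (s := fun _ => s) (t₀ := 0)
    (f := fun y => (Q₁ y, G₁ y)) (g := fun y => (Q₂ y, G₂ y)) hlip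
    ⟨by linarith, hTpos⟩ hcf.continuousOn (fun t _ => hf t)
    (fun t ht => ⟨hp₁ t, ?_, ?_⟩) hcg.continuousOn (fun t _ => hg t)
    (fun t ht => ⟨hp₂ t, ?_, ?_⟩) (by simp [h0, h0'])
  · have hx : x ∈ Icc (-T) T := by
      constructor
      · have := neg_abs_le x
        linarith
      · have := le_abs_self x
        linarith
    have := key hx
    simp only [Prod.mk.injEq] at this
    exact this
  · have := hM₁ t (Ioo_subset_Icc_self ht)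
    exact ((le_abs_self _).trans this).trans (le_max_left _ _)
  · exact (hR₁ t (Ioo_subset_Icc_self ht)).trans (le_max_left _ _)
  · have := hM₂ t (Ioo_subset_Icc_self ht)
    exact ((le_abs_self _).trans this).trans (le_max_right _ _)
  · exact (hR₂ t (Ioo_subset_Icc_self ht)).trans (le_max_right _ _)

/-- (F2) Uniqueness for the system `Q' = QG + GQ`, `G' = -κ Q^r` (Gronwall on compact intervals
for `hsq (Q₁-Q₂) + hsq (G₁-G₂)`, using `hsq_mpow_sub_le`), or `ODE_solution_unique`-type lemma. -/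
theorem ode_unique {m : ℕ} {r κ : ℝ} (hr : 1 < r) {Q₁ Q₂ G₁ G₂ : ℝ → Mat m}
    (hp₁ : ∀ x, (Q₁ x).PosSemidef) (hp₂ : ∀ x, (Q₂ x).PosSemidef)
    (hQ₁ : ∀ x, HasDerivAt Q₁ (Q₁ x * G₁ x + G₁ x * Q₁ x) x)
    (hQ₂ : ∀ x, HasDerivAt Q₂ (Q₂ x * G₂ x + G₂ x * Q₂ x) x)
    (hG₁ : ∀ x, HasDerivAt G₁ (-((κ : ℂ) • mpow (Q₁ x) r)) x)
    (hG₂ : ∀ x, HasDerivAt G₂ (-((κ : ℂ) • mpow (Q₂ x) r)) x)
    (h0 : Q₁ 0 = Q₂ 0) (h0' : G₁ 0 = G₂ 0) : ∀ x, Q₁ x = Q₂ x ∧ G₁ x = G₂ x :=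
  ode_unique_aux hr hp₁ hp₂ hQ₁ hQ₂ hG₁ hG₂ h0 h0'

end SLT
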