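import Crest.Agent.SLT.RigDefs

/-!
# Row 332, S0516: scalar solutions (chunk F3)
-/

set_option autoImplicit false

open MeasureTheory Filter Set
open scoped ComplexOrder Matrix Topology

namespace SLT

open Crest.MathPhysics.LiebThirring

/-- (F3) The scalar solutions: `q = (soliton)^(1/r)`, `g = -a tanh(r a (x-c))`,
`a = √(g₀² + q₀^r/(r+1))`, `c = artanh(g₀/a)/(r a)`; if `q₀ = 0` take `a = 0`. -/
theorem scalar_solution {r : ℝ} (hr : 1 < r) {q₀ g₀ : ℝ} (hq₀ : 0 ≤ q₀) (h : q₀ = 0 → g₀ = 0) :
    ∃ a c : ℝ, 0 ≤ a ∧ ∃ q g : ℝ → ℝ, q 0 = q₀ ∧ g 0 = g₀ ∧ (∀ x, 0 ≤ q x) ∧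
      (∀ x, HasDerivAt q (q x * g x + g x * q x) x) ∧
      (∀ x, HasDerivAt g (-(r / (r + 1) * q x ^ r)) x) ∧
      (∀ x, q x ^ r = soliton r a c x) := by
  rcases hq₀.eq_or_lt with h0 | hpos
  · have hg₀ := h h0.symm
    refine ⟨0, 0, le_rfl, fun _ => 0, fun _ => 0, h0, hg₀.symm, fun _ => le_rfl, fun x => ?_,
      fun x => ?_, fun x => ?_⟩
    · simpa using hasDerivAt_const x (0 : ℝ)
    · have : (-(r / (r + 1) * (0 : ℝ) ^ r)) = 0 := by
        rw [Real.zero_rpow (by linarith)]; ring
      rw [this]
      exact hasDerivAt_const x (0 : ℝ)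
    · rw [Real.zero_rpow (by linarith)]
      simp [soliton]
  · have hr0 : 0 < r := by linarith
    set A : ℝ := g₀ ^ 2 + q₀ ^ r / (r + 1) with hA
    have hqr : 0 < q₀ ^ r := Real.rpow_pos_of_pos hpos r
    have hd : 0 < q₀ ^ r / (r + 1) := by positivity
    have hApos : 0 < A := by positivity
    set a : ℝ := Real.sqrt A with ha
    have hapos : 0 < a := Real.sqrt_pos.2 hApos
    have ha2 : a ^ 2 = A := Real.sq_sqrt hApos.le
    set D : ℝ := Real.sqrt (q₀ ^ r / (r + 1)) with hD
    have hDpos : 0 < D := Real.sqrt_pos.2 hd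
    have hD2 : D ^ 2 = q₀ ^ r / (r + 1) := Real.sq_sqrt hd.le
    set u : ℝ := Real.arsinh (g₀ / D) with hu
    have hsinh : Real.sinh u = g₀ / D := Real.sinh_arsinh _
    have hcosh : Real.cosh u = a / D := by
      have h1 : Real.cosh u ^ 2 = (a / D) ^ 2 := by
        rw [Real.cosh_sq, hsinh, div_pow, div_pow, ha2, hA, hD2]
        field_simp
      exact (pow_left_inj₀ (Real.cosh_pos u).le (by positivity) two_ne_zero).1 h1
    set c : ℝ := u / (r * a) with hc
    have hθ : r * a * (0 - c) = -u := by rw [hc]; field_simp; ring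
    have hsol : ∀ x, 0 < soliton r a c x := fun x => by
      unfold soliton
      have := Real.cosh_pos (r * a * (x - c))
      positivity
    have hsol0 : soliton r a c 0 = q₀ ^ r := by
      unfold soliton
      rw [hθ, Real.cosh_neg, hcosh, div_pow, hD2]
      field_simp
    have hlin : ∀ x, HasDerivAt (fun x => r * a * (x - c)) (r * a) x := fun x => by
      simpa using ((hasDerivAt_id x).sub_const c).const_mul (r * a)
    refine ⟨a, c, hapos.le, fun x => soliton r a c x ^ (1 / r),
      fun x => -a * (Real.sinh (r * a * (x - c)) / Real.cosh (r * a * (x - c))),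
      ?_, ?_, fun x => Real.rpow_nonneg (hsol x).le _, fun x => ?_, fun x => ?_, fun x => ?_⟩
    · simp only []
      rw [hsol0, ← Real.rpow_mul hpos.le, mul_one_div_cancel hr0.ne', Real.rpow_one]
    · simp only []
      rw [hθ, Real.cosh_neg, Real.sinh_neg, hcosh, hsinh]
      field_simp
    · have hcp := Real.cosh_pos (r * a * (x - c))
      have hs : HasDerivAt (fun x => soliton r a c x)
          (2 * r * (-a * (Real.sinh (r * a * (x - c)) / Real.cosh (r * a * (x - c)))) *
            soliton r a c x) x := by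
        unfold soliton
        have h1 : HasDerivAt (fun x => Real.cosh (r * a * (x - c)) ^ 2)
            (2 * Real.cosh (r * a * (x - c)) ^ 1 * (Real.sinh (r * a * (x - c)) * (r * a))) x := by
          exact ((hlin x).cosh).pow 2
        have h2 : HasDerivAt (fun x => (r + 1) * a ^ 2 / Real.cosh (r * a * (x - c)) ^ 2) _ x :=
          (hasDerivAt_const x ((r + 1) * a ^ 2)).div h1 (by positivity)
        refine h2.congr_deriv ?_
        field_simp
        ring
      have h2 : HasDerivAt (fun x => soliton r a c x ^ (1 / r)) _ x :=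
        hs.rpow_const (p := 1 / r) (Or.inl (hsol x).ne')
      refine h2.congr_deriv ?_
      have h3 : soliton r a c x ^ (1 / r) = soliton r a c x * soliton r a c x ^ (1 / r - 1) := by
        have := Real.rpow_add (hsol x) 1 (1 / r - 1)
        rw [Real.rpow_one] at this
        rw [← this]; congr 1; ring
      simp only []
      rw [h3]
      field_simp
      ring
    · have hcp := Real.cosh_pos (r * a * (x - c))
      have h1 : HasDerivAt (fun x => -a * (Real.sinh (r * a * (x - c)) /
          Real.cosh (r * a * (x - c)))) _ x :=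
        (((hlin x).sinh).div ((hlin x).cosh) hcp.ne').const_mul (-a)
      refine h1.congr_deriv ?_
      simp only []
      rw [← Real.rpow_mul (hsol x).le, one_div_mul_cancel hr0.ne', Real.rpow_one]
      unfold soliton
      have h2 := Real.cosh_sq (r * a * (x - c))
      generalize r * a * (x - c) = θ at h2 hcp ⊢
      have h3 : Real.sinh θ ^ 2 = Real.cosh θ ^ 2 - 1 := by linarith
      field_simp
      rw [h3]
      ring
    · simp only []
      rw [← Real.rpow_mul (hsol x).le, one_div_mul_cancel hr0.ne', Real.rpow_one]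

end SLT
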