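import Crest.Agent.SLT.RigAlg

/-!
# Row 332, S0516: the logarithmic derivative G (chunk F4)
-/

set_option autoImplicit false

open MeasureTheory Filter Set
open scoped ComplexOrder Matrix Topology

namespace SLT

open scoped Matrix.Norms.Frobenius in
/-- Derivative of the matrix inverse. -/
theorem hasDerivAt_matInv {m : ℕ} {A : ℝ → Mat m} {A' : Mat m} {x : ℝ} (hu : IsUnit (A x))
    (h : HasDerivAt A A' x) : HasDerivAt (fun y => (A y)⁻¹) (-((A x)⁻¹ * A' * (A x)⁻¹)) x := by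
  obtain ⟨u, hu⟩ := hu
  have h1 := hasFDerivAt_ringInverse (𝕜 := ℝ) (R := Mat m) u
  rw [hu] at h1
  have h2 := h1.comp_hasDerivAt x h
  have h3 : (fun y => (A y)⁻¹) = (Ring.inverse ∘ A) := by
    funext y; simp [Matrix.nonsing_inv_eq_ringInverse]
  have h4 : ((u⁻¹ : (Mat m)ˣ) : Mat m) = (A x)⁻¹ := by
    rw [← hu, Matrix.coe_units_inv]
  rw [h3, ← h4]
  exact h2

open scoped Matrix.Norms.Frobenius in
/-- Product rule for matrices. -/
theorem hasDerivAt_matMul {m : ℕ} {A B : ℝ → Mat m} {A' B' : Mat m} {x : ℝ}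
    (hA : HasDerivAt A A' x) (hB : HasDerivAt B B' x) :
    HasDerivAt (fun y => A y * B y) (A' * B x + A x * B') x := hA.mul hB

open scoped Matrix.Norms.Frobenius in
/-- Adding a constant matrix. -/
theorem hasDerivAt_matAddConst {m : ℕ} {A : ℝ → Mat m} {A' C : Mat m} {x : ℝ}
    (hA : HasDerivAt A A' x) : HasDerivAt (fun y => A y + C) A' x := hA.add_const C

/-- (F4) `G = (Q+P)⁻¹ T` satisfies `G* = G`, `QG + GQ = 2T`, `G' = -r/(r+1) Q^r`.
Proof: `(Q+P)⁻¹` commutes with `T` and `Q`; `Q (Q+P)⁻¹ T = T` since `P T = 0`;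
`G' = -(Q+P)⁻¹ Q' (Q+P)⁻¹ T + (Q+P)⁻¹ T' = -r/(r+1) (Q+P)⁻¹ Q^(r+1) = -r/(r+1) Q^r` because
`Q^(r+1) = Q Q^r = (Q+P) Q^r` (`P Q^r = 0`: `Q^r = Q Q^(r-1)`). Derivative of the inverse:
`HasDerivAt` of `Ring.inverse`/`hasFDerivAt_ringInverse` (Frobenius normed ring). -/
theorem limitODE_G {m : ℕ} {r : ℝ} {W : ℝ → Mat m} (hr : 1 < r) (D : LimitODE m r W) :
    ∃ G : ℝ → Mat m, (∀ x, (G x).IsHermitian) ∧ (∀ x, D.Q x * G x = G x * D.Q x) ∧
      (∀ x, G x * D.P = 0) ∧
      (∀ x, HasDerivAt D.Q (D.Q x * G x + G x * D.Q x) x) ∧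
      (∀ x, HasDerivAt G (-(((r / (r + 1) : ℝ) : ℂ) • mpow (D.Q x) r)) x) := by
  have hPQ : ∀ x, D.P * D.Q x = 0 := by
    intro x
    have h := congrArg Matrix.conjTranspose (D.QP x)
    rwa [Matrix.conjTranspose_mul, D.P_herm.eq, (D.Q_psd x).isHermitian.eq,
      Matrix.conjTranspose_zero] at h
  have hPT : ∀ x, D.P * D.T x = 0 := by
    intro x
    have h := congrArg Matrix.conjTranspose (D.TP x)
    rwa [Matrix.conjTranspose_mul, D.P_herm.eq, (D.T_herm x).eq,
      Matrix.conjTranspose_zero] at h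
  have hU : ∀ x, IsUnit (D.Q x + D.P) := fun x => (D.inv x).isUnit
  have hdet : ∀ x, IsUnit (D.Q x + D.P).det := fun x => (Matrix.isUnit_iff_isUnit_det _).1 (hU x)
  set I : ℝ → Mat m := fun x => (D.Q x + D.P)⁻¹ with hI
  have hMI : ∀ x, (D.Q x + D.P) * I x = 1 := fun x => Matrix.mul_nonsing_inv _ (hdet x)
  have hIM : ∀ x, I x * (D.Q x + D.P) = 1 := fun x => Matrix.nonsing_inv_mul _ (hdet x)
  -- commutation principle
  have hcomm : ∀ x (X : Mat m), (D.Q x + D.P) * X = X * (D.Q x + D.P) → I x * X = X * I x := by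
    intro x X h
    calc I x * X = I x * (X * ((D.Q x + D.P) * I x)) := by rw [hMI, mul_one]
      _ = I x * ((X * (D.Q x + D.P)) * I x) := by rw [mul_assoc]
      _ = I x * (((D.Q x + D.P) * X) * I x) := by rw [h]
      _ = (I x * (D.Q x + D.P)) * (X * I x) := by simp only [mul_assoc]
      _ = X * I x := by rw [hIM, one_mul]
  have hIT : ∀ x, I x * D.T x = D.T x * I x := by
    intro x; apply hcomm
    rw [add_mul, mul_add, hPT, D.TP, D.comm]
  have hIQ : ∀ x, I x * D.Q x = D.Q x * I x := by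
    intro x; apply hcomm
    rw [add_mul, mul_add, hPQ, D.QP]
  have hIP : ∀ x, D.P * I x = D.P := by
    intro x
    have h : D.P * (D.Q x + D.P) = D.P := by rw [mul_add, hPQ, D.P_idem, zero_add]
    calc D.P * I x = (D.P * (D.Q x + D.P)) * I x := by rw [h]
      _ = D.P * ((D.Q x + D.P) * I x) := by rw [mul_assoc]
      _ = D.P := by rw [hMI, mul_one]
  have hQG : ∀ x, D.Q x * (I x * D.T x) = D.T x := by
    intro x
    have h : (D.Q x + D.P) * (I x * D.T x) = D.T x := by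
      rw [← mul_assoc, hMI, one_mul]
    rw [add_mul, ← mul_assoc D.P, hIP, hPT, add_zero] at h
    exact h
  have hGQ : ∀ x, (I x * D.T x) * D.Q x = D.T x := by
    intro x
    rw [mul_assoc, ← D.comm, ← mul_assoc, hIQ, mul_assoc, hQG]
  refine ⟨fun x => I x * D.T x, ?_, ?_, ?_, ?_, ?_⟩
  · intro x
    have h1 : (I x)ᴴ = I x := by
      have h := (D.inv x).isHermitian.inv
      exact h
    change (I x * D.T x)ᴴ = I x * D.T x
    rw [Matrix.conjTranspose_mul, h1, (D.T_herm x).eq, hIT]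
  · intro x
    change D.Q x * (I x * D.T x) = (I x * D.T x) * D.Q x
    rw [hQG, hGQ]
  · intro x
    change (I x * D.T x) * D.P = 0
    rw [mul_assoc, D.TP, mul_zero]
  · intro x
    change HasDerivAt D.Q (D.Q x * (I x * D.T x) + (I x * D.T x) * D.Q x) x
    rw [hQG, hGQ, ← two_smul ℂ]
    exact D.hQ x
  · intro x
    have hM : HasDerivAt (fun y => D.Q y + D.P) ((2 : ℂ) • D.T x) x := hasDerivAt_matAddConst (D.hQ x)
    have hI' : HasDerivAt I (-(I x * ((2 : ℂ) • D.T x) * I x)) x := hasDerivAt_matInv (hU x) hM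
    have hG := hasDerivAt_matMul hI' (D.hT x)
    have hpow1 : mpow (D.Q x) (r + 1) = mpow (D.Q x) r * D.Q x :=
      mpow_add_one (by linarith) (D.Q_psd x)
    have hpow2 : mpow (D.Q x) r = D.Q x * mpow (D.Q x) (r - 1) := by
      have h := mpow_add_one (s := r - 1) (by linarith) (D.Q_psd x)
      rw [sub_add_cancel] at h
      rw [h, mpow_comm]
    have hkey : I x * mpow (D.Q x) (r + 1) = mpow (D.Q x) r := by
      have h : mpow (D.Q x) (r + 1) = (D.Q x + D.P) * mpow (D.Q x) r := by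
        rw [hpow1, mpow_comm, add_mul]
        have h0 : D.P * mpow (D.Q x) r = 0 := by
          rw [hpow2, ← mul_assoc, hPQ, zero_mul]
        rw [h0, add_zero]
      rw [h, ← mul_assoc, hIM, one_mul]
    convert hG using 1
    have e1 : (D.Q x + D.P)⁻¹ = I x := rfl
    have e2 : I x * ((2 : ℂ) • D.T x) * I x * D.T x = (2 : ℂ) • (I x * (I x * D.T x * D.T x)) := by
      rw [mul_smul_comm, smul_mul_assoc, smul_mul_assoc]
      congr 1
      calc I x * D.T x * I x * D.T x = I x * (D.T x * I x) * D.T x := by simp only [mul_assoc]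
        _ = I x * (I x * D.T x) * D.T x := by rw [hIT x]
        _ = I x * (I x * D.T x * D.T x) := by simp only [mul_assoc]
    have e3 : I x * (((r / (r + 1) : ℝ) : ℂ) • mpow (D.Q x) (r + 1)) =
        ((r / (r + 1) : ℝ) : ℂ) • mpow (D.Q x) r := by
      rw [mul_smul_comm, hkey]
    rw [e1, mul_sub, e3, neg_mul, e2, mul_smul_comm]
    abel

end SLT
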