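import Crest.Agent.SLT.RigAlg
import Crest.Agent.SLT.RigF1
import Crest.Agent.SLT.RigF2
import Crest.Agent.SLT.RigF3
import Crest.Agent.SLT.RigF4

/-!
# Row 332, S0516: FIN: the limit system forces solitons (chunk F5)
-/

set_option autoImplicit false

open MeasureTheory Filter Set
open scoped ComplexOrder Matrix Topology

namespace SLT

open Crest.MathPhysics.LiebThirring

private theorem f5_hasDerivAt_mat {n m : ℕ} {A : ℝ → RMat n m} {A' : RMat n m} {x : ℝ} :
    HasDerivAt A A' x ↔ ∀ i j, HasDerivAt (fun y => A y i j) (A' i j) x := by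
  constructor
  · intro h i j
    have h1 := (hasDerivAt_pi (φ := fun y => (A y : Fin n → Fin m → ℂ))).1 h i
    exact hasDerivAt_pi.1 h1 j
  · intro h
    exact (hasDerivAt_pi (φ := fun y => (A y : Fin n → Fin m → ℂ))).2
      (fun i => hasDerivAt_pi.2 (h i))

private theorem f5_deriv_conj {m : ℕ} (A B : Mat m) (f : Fin m → ℝ → ℝ) (f' : Fin m → ℝ) (x : ℝ)
    (h : ∀ i, HasDerivAt (f i) (f' i) x) :
    HasDerivAt (fun y => A * Matrix.diagonal (fun i => ((f i y : ℝ) : ℂ)) * B)
      (A * Matrix.diagonal (fun i => ((f' i : ℝ) : ℂ)) * B) x := by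
  rw [f5_hasDerivAt_mat]
  intro i j
  have e : ∀ d : Fin m → ℂ, (A * Matrix.diagonal d * B) i j = ∑ l, A i l * d l * B l j := by
    intro d
    rw [Matrix.mul_apply]
    refine Finset.sum_congr rfl fun l _ => ?_
    rw [Matrix.mul_diagonal]
  simp only [e]
  refine HasDerivAt.fun_sum fun l _ => ?_
  exact (((h l).ofReal_comp).const_mul (A i l)).mul_const (B l j)

private theorem f5_cfc_spec {n : ℕ} {A : Mat n} (hA : A.IsHermitian) (f : ℝ → ℝ) :
    cfc f A = (hA.eigenvectorUnitary : Mat n) *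
      Matrix.diagonal (fun i => ((f (hA.eigenvalues i) : ℝ) : ℂ)) *
        star (hA.eigenvectorUnitary : Mat n) := by
  rw [hA.cfc_eq f, Matrix.IsHermitian.cfc, Unitary.conjStarAlgAut_apply]
  rfl

private theorem f5_herm {m : ℕ} (U : Matrix.unitaryGroup (Fin m) ℂ) (q : Fin m → ℝ) :
    ((U : Mat m) * Matrix.diagonal (fun i => ((q i : ℝ) : ℂ)) * star (U : Mat m)).IsHermitian := by
  have h := Matrix.isHermitian_mul_mul_conjTranspose (U : Mat m)
    (Matrix.isHermitian_diagonal_of_self_adjoint (fun i => ((q i : ℝ) : ℂ)) (by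
      show star (fun i => ((q i : ℝ) : ℂ)) = _
      funext i
      simp))
  simpa [Matrix.star_eq_conjTranspose] using h

/-- powers of a unitarily diagonalised matrix. -/
theorem mpow_unitary_diag {m : ℕ} {r : ℝ} (U : Matrix.unitaryGroup (Fin m) ℂ) (q : Fin m → ℝ)
    (_hq : ∀ i, 0 ≤ q i) :
    mpow ((U : Mat m) * Matrix.diagonal (fun i => ((q i : ℝ) : ℂ)) * star (U : Mat m)) r =
      (U : Mat m) * Matrix.diagonal (fun i => ((q i ^ r : ℝ) : ℂ)) * star (U : Mat m) := by
  have hA := f5_herm U q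
  set A : Mat m := (U : Mat m) * Matrix.diagonal (fun i => ((q i : ℝ) : ℂ)) * star (U : Mat m)
    with hAdef
  unfold mpow
  have h0 : A = (hA.eigenvectorUnitary : Mat m) *
      Matrix.diagonal (fun i => ((hA.eigenvalues i : ℝ) : ℂ)) *
        star (hA.eigenvectorUnitary : Mat m) := by
    have h1 : cfc (fun t : ℝ => t) A = A := cfc_id' ℝ A (by exact hA)
    rw [f5_cfc_spec hA (fun t => t)] at h1
    exact h1.symm
  rw [f5_cfc_spec hA]
  set V : Mat m := (hA.eigenvectorUnitary : Mat m) with hV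
  have hU1 : star (U : Mat m) * (U : Mat m) = 1 := Matrix.UnitaryGroup.star_mul_self U
  have hU2 : (U : Mat m) * star (U : Mat m) = 1 := Unitary.mul_star_self_of_mem U.2
  have hV1 : star V * V = 1 := Matrix.UnitaryGroup.star_mul_self hA.eigenvectorUnitary
  have hV2 : V * star V = 1 := Unitary.mul_star_self_of_mem hA.eigenvectorUnitary.2
  set M : Mat m := star (U : Mat m) * V with hM
  have key : Matrix.diagonal (fun i => ((q i : ℝ) : ℂ)) * M =
      M * Matrix.diagonal (fun i => ((hA.eigenvalues i : ℝ) : ℂ)) := by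
    have h2 : star (U : Mat m) * A * V = star (U : Mat m) * A * V := rfl
    nth_rewrite 1 [hAdef] at h2
    nth_rewrite 1 [h0] at h2
    calc Matrix.diagonal (fun i => ((q i : ℝ) : ℂ)) * M
        = (star (U : Mat m) * (U : Mat m)) * Matrix.diagonal (fun i => ((q i : ℝ) : ℂ)) *
            (star (U : Mat m)) * V := by
          rw [hU1, one_mul, hM, Matrix.mul_assoc]
      _ = star (U : Mat m) * ((U : Mat m) * Matrix.diagonal (fun i => ((q i : ℝ) : ℂ)) *
            star (U : Mat m)) * V := by simp only [Matrix.mul_assoc]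
      _ = star (U : Mat m) * (V * Matrix.diagonal (fun i => ((hA.eigenvalues i : ℝ) : ℂ)) *
            star V) * V := h2
      _ = M * Matrix.diagonal (fun i => ((hA.eigenvalues i : ℝ) : ℂ)) * (star V * V) := by
          simp only [hM, Matrix.mul_assoc]
      _ = _ := by rw [hV1, Matrix.mul_one]
  have key2 : Matrix.diagonal (fun i => ((q i ^ r : ℝ) : ℂ)) * M =
      M * Matrix.diagonal (fun i => ((hA.eigenvalues i ^ r : ℝ) : ℂ)) := by
    ext i j
    rw [Matrix.diagonal_mul, Matrix.mul_diagonal]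
    have h3 := congrFun (congrFun key i) j
    rw [Matrix.diagonal_mul, Matrix.mul_diagonal] at h3
    by_cases hz : M i j = 0
    · simp [hz]
    · have h4 : ((q i : ℝ) : ℂ) = ((hA.eigenvalues j : ℝ) : ℂ) := by
        have : (((q i : ℝ) : ℂ) - ((hA.eigenvalues j : ℝ) : ℂ)) * M i j = 0 := by
          rw [sub_mul, h3]; ring
        rcases mul_eq_zero.1 this with h | h
        · exact sub_eq_zero.1 h
        · exact absurd h hz
      have h5 : q i = hA.eigenvalues j := by exact_mod_cast h4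
      rw [h5]; ring
  calc V * Matrix.diagonal (fun i => ((hA.eigenvalues i ^ r : ℝ) : ℂ)) * star V
      = (U : Mat m) * star (U : Mat m) * V *
          Matrix.diagonal (fun i => ((hA.eigenvalues i ^ r : ℝ) : ℂ)) * star V := by
        rw [hU2, one_mul]
    _ = (U : Mat m) * (M * Matrix.diagonal (fun i => ((hA.eigenvalues i ^ r : ℝ) : ℂ))) *
          star V := by simp only [hM, Matrix.mul_assoc]
    _ = (U : Mat m) * (Matrix.diagonal (fun i => ((q i ^ r : ℝ) : ℂ)) * M) * star V := by
        rw [key2]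
    _ = (U : Mat m) * Matrix.diagonal (fun i => ((q i ^ r : ℝ) : ℂ)) * star (U : Mat m) *
          (V * star V) := by simp only [hM, Matrix.mul_assoc]
    _ = _ := by rw [hV2, Matrix.mul_one]

private theorem f5_psd {m : ℕ} (U : Matrix.unitaryGroup (Fin m) ℂ) (q : Fin m → ℝ)
    (hq : ∀ i, 0 ≤ q i) :
    ((U : Mat m) * Matrix.diagonal (fun i => ((q i : ℝ) : ℂ)) * star (U : Mat m)).PosSemidef := by
  have h := (Matrix.posSemidef_diagonal_iff.2 (fun i => by
    have : (0 : ℂ) ≤ ((q i : ℝ) : ℂ) := by exact_mod_cast hq i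
    exact this) : (Matrix.diagonal (fun i => ((q i : ℝ) : ℂ)) : Mat m).PosSemidef)
  exact h.mul_mul_conjTranspose_same (U : Mat m)

private theorem f5_conj_mul {m : ℕ} (U : Matrix.unitaryGroup (Fin m) ℂ) (q g : Fin m → ℝ) :
    ((U : Mat m) * Matrix.diagonal (fun i => ((q i : ℝ) : ℂ)) * star (U : Mat m)) *
      ((U : Mat m) * Matrix.diagonal (fun i => ((g i : ℝ) : ℂ)) * star (U : Mat m)) =
    (U : Mat m) * Matrix.diagonal (fun i => ((q i * g i : ℝ) : ℂ)) * star (U : Mat m) := by
  have hU1 : star (U : Mat m) * (U : Mat m) = 1 := Matrix.UnitaryGroup.star_mul_self U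
  calc _ = (U : Mat m) * (Matrix.diagonal (fun i => ((q i : ℝ) : ℂ)) *
      (star (U : Mat m) * (U : Mat m)) * Matrix.diagonal (fun i => ((g i : ℝ) : ℂ))) *
        star (U : Mat m) := by simp only [Matrix.mul_assoc]
    _ = _ := by
      rw [hU1, Matrix.mul_one, Matrix.diagonal_mul_diagonal]
      congr 3
      funext i
      push_cast
      rfl

/-- (F5) FIN: the closed limit system forces a direct sum of solitons in a constant basis.
Proof: `limitODE_G`, `joint_diag` at `x = 0`, `scalar_solution` for each diagonal entry (if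
`q_i = 0` then `e_i ∈ ker Q(0)`, i.e. `(Q 0 + P) U e_i = P U e_i ≠ 0`..., so `U e_i = P U e_i` and
`g_i = 0`), `ode_unique`, `mpow_unitary_diag`. -/
theorem soliton_of_limitODE {m : ℕ} {r : ℝ} {W : ℝ → Mat m} (hr : 1 < r) (D : LimitODE m r W) :
    ∃ (U : Matrix.unitaryGroup (Fin m) ℂ) (a c : Fin m → ℝ), (∀ i, 0 ≤ a i) ∧
      ∀ᵐ x : ℝ, W x = (U : Mat m) *
        Matrix.diagonal (fun i => ((soliton r (a i) (c i) x : ℝ) : ℂ)) * star (U : Mat m) := by
  obtain ⟨G, hGh, hcomm, hGP, hQ', hG'⟩ := limitODE_G hr D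
  obtain ⟨U, q0, g0, hq0, hg0⟩ := joint_diag (D.Q_psd 0).isHermitian (hGh 0) (hcomm 0)
  have hU1 : star (U : Mat m) * (U : Mat m) = 1 := Matrix.UnitaryGroup.star_mul_self U
  have hU2 : (U : Mat m) * star (U : Mat m) = 1 := Unitary.mul_star_self_of_mem U.2
  have hdq : star (U : Mat m) * D.Q 0 * (U : Mat m) =
      Matrix.diagonal (fun i => ((q0 i : ℝ) : ℂ)) := by
    calc star (U : Mat m) * D.Q 0 * (U : Mat m)
        = (star (U : Mat m) * (U : Mat m)) * Matrix.diagonal (fun i => ((q0 i : ℝ) : ℂ)) *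
            (star (U : Mat m) * (U : Mat m)) := by rw [hq0]; simp only [Matrix.mul_assoc]
      _ = _ := by rw [hU1, Matrix.one_mul, Matrix.mul_one]
  have hdg : star (U : Mat m) * G 0 * (U : Mat m) =
      Matrix.diagonal (fun i => ((g0 i : ℝ) : ℂ)) := by
    calc star (U : Mat m) * G 0 * (U : Mat m)
        = (star (U : Mat m) * (U : Mat m)) * Matrix.diagonal (fun i => ((g0 i : ℝ) : ℂ)) *
            (star (U : Mat m) * (U : Mat m)) := by rw [hg0]; simp only [Matrix.mul_assoc]
      _ = _ := by rw [hU1, Matrix.one_mul, Matrix.mul_one]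
  have hq0n : ∀ i, 0 ≤ q0 i := by
    have h1 : (star (U : Mat m) * D.Q 0 * (U : Mat m)).PosSemidef :=
      (D.Q_psd 0).conjTranspose_mul_mul_same (U : Mat m)
    rw [hdq] at h1
    intro i
    have h2 := Matrix.posSemidef_diagonal_iff.1 h1 i
    exact_mod_cast h2
  have hzero : ∀ i, q0 i = 0 → g0 i = 0 := by
    intro i hi
    have hdet : IsUnit (D.Q 0 + D.P).det := (Matrix.isUnit_iff_isUnit_det _).1 (D.inv 0).isUnit
    have h1 : (1 : Mat m) - D.P = (D.Q 0 + D.P)⁻¹ * D.Q 0 := by
      have h2 : (D.Q 0 + D.P) * (1 - D.P) = D.Q 0 := by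
        rw [add_mul, mul_sub, mul_sub, Matrix.mul_one, Matrix.mul_one, D.QP 0, D.P_idem]
        abel
      calc (1 : Mat m) - D.P = (D.Q 0 + D.P)⁻¹ * (D.Q 0 + D.P) * (1 - D.P) := by
            rw [Matrix.nonsing_inv_mul _ hdet, Matrix.one_mul]
        _ = (D.Q 0 + D.P)⁻¹ * ((D.Q 0 + D.P) * (1 - D.P)) := by rw [Matrix.mul_assoc]
        _ = _ := by rw [h2]
    have h3 : G 0 = G 0 * ((D.Q 0 + D.P)⁻¹ * D.Q 0) := by
      rw [← h1, mul_sub, Matrix.mul_one, hGP 0, sub_zero]
    have h4 : Matrix.diagonal (fun i => ((g0 i : ℝ) : ℂ)) =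
        Matrix.diagonal (fun i => ((g0 i : ℝ) : ℂ)) *
          (star (U : Mat m) * (D.Q 0 + D.P)⁻¹ * (U : Mat m)) *
          Matrix.diagonal (fun i => ((q0 i : ℝ) : ℂ)) := by
      calc Matrix.diagonal (fun i => ((g0 i : ℝ) : ℂ)) = star (U : Mat m) * G 0 * (U : Mat m) :=
            hdg.symm
        _ = star (U : Mat m) * (G 0 * ((D.Q 0 + D.P)⁻¹ * D.Q 0)) * (U : Mat m) := by rw [← h3]
        _ = star (U : Mat m) * (G 0 * ((U : Mat m) * star (U : Mat m)) *
              ((D.Q 0 + D.P)⁻¹ * ((U : Mat m) * star (U : Mat m)) * D.Q 0)) * (U : Mat m) := by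
            rw [hU2, Matrix.mul_one, Matrix.mul_one, Matrix.mul_assoc]
        _ = (star (U : Mat m) * G 0 * (U : Mat m)) *
              (star (U : Mat m) * (D.Q 0 + D.P)⁻¹ * (U : Mat m)) *
              (star (U : Mat m) * D.Q 0 * (U : Mat m)) := by simp only [Matrix.mul_assoc]
        _ = _ := by rw [hdq, hdg]
    have h5 := congrFun (congrFun h4 i) i
    rw [Matrix.mul_diagonal, Matrix.diagonal_apply_eq, hi] at h5
    simpa using h5
  choose a c ha q g hqz hgz hqn hq' hg' hsol using
    fun i => scalar_solution hr (hq0n i) (hzero i)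
  have huniq := ode_unique (r := r) (κ := r / (r + 1)) hr (Q₁ := D.Q) (G₁ := G)
    (Q₂ := fun x => (U : Mat m) * Matrix.diagonal (fun i => ((q i x : ℝ) : ℂ)) * star (U : Mat m))
    (G₂ := fun x => (U : Mat m) * Matrix.diagonal (fun i => ((g i x : ℝ) : ℂ)) * star (U : Mat m))
    D.Q_psd (fun x => f5_psd U _ (fun i => hqn i x)) hQ'
    (fun x => by
      have h := f5_deriv_conj (U : Mat m) (star (U : Mat m)) q
        (fun i => q i x * g i x + g i x * q i x) x (fun i => hq' i x)
      convert h using 1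
      rw [f5_conj_mul, f5_conj_mul, ← Matrix.add_mul, ← Matrix.mul_add, Matrix.diagonal_add]
      congr 3
      funext i
      push_cast
      rfl)
    (fun x => by
      have h := hG' x
      exact h)
    (fun x => by
      have h := f5_deriv_conj (U : Mat m) (star (U : Mat m)) g
        (fun i => -(r / (r + 1) * q i x ^ r)) x (fun i => hg' i x)
      convert h using 1
      rw [mpow_unitary_diag U (fun i => q i x) (fun i => hqn i x)]
      rw [← Matrix.smul_mul, ← Matrix.mul_smul, ← Matrix.neg_mul, ← Matrix.mul_neg]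
      congr 2
      ext i j
      rw [Matrix.neg_apply, Matrix.smul_apply]
      by_cases hij : i = j
      · subst hij
        simp only [Matrix.diagonal_apply_eq, smul_eq_mul]
        push_cast
        ring
      · simp [Matrix.diagonal_apply_ne _ hij])
    (by simp only [hqz]; exact hq0) (by simp only [hgz]; exact hg0)
  refine ⟨U, a, c, ha, ?_⟩
  filter_upwards [D.W_eq] with x hx
  rw [hx, (huniq x).1]
  show mpow ((U : Mat m) * Matrix.diagonal (fun i => ((q i x : ℝ) : ℂ)) * star (U : Mat m)) r = _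
  rw [mpow_unitary_diag U (fun i => q i x) (fun i => hqn i x)]
  congr 3
  funext i
  rw [hsol i x]

end SLT
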