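import Crest.Agent.SLT.RigAlg
import Crest.Agent.SLT.RigSpec

/-!
# Row 332, S0516: the Young deficit in the limit (chunk LB)
-/

set_option autoImplicit false

open MeasureTheory Filter Set
open scoped ComplexOrder Matrix Topology

namespace SLT

theorem lb_rtr_cfc {n : ℕ} {A : Mat n} (hA : A.IsHermitian) (f : ℝ → ℝ) :
    rtr (cfc f A) = ∑ i, f (hA.eigenvalues i) := by
  rw [hA.cfc_eq f, Matrix.IsHermitian.cfc, Unitary.conjStarAlgAut_apply]
  unfold rtr
  rw [Matrix.mul_assoc, Matrix.trace_mul_comm, Matrix.mul_assoc]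
  have : (star (hA.eigenvectorUnitary : Mat n)) * (hA.eigenvectorUnitary : Mat n) = 1 :=
    Unitary.coe_star_mul_self hA.eigenvectorUnitary
  rw [this, Matrix.mul_one, Matrix.trace, Complex.re_sum]
  refine Finset.sum_congr rfl fun i _ => ?_
  simp

theorem lb_rtr_mpow_nonneg {n : ℕ} {A : Mat n} (hA : A.PosSemidef) (s : ℝ) :
    0 ≤ rtr (mpow A s) := by
  rw [mpow, lb_rtr_cfc hA.isHermitian]
  exact Finset.sum_nonneg fun i _ => Real.rpow_nonneg (hA.eigenvalues_nonneg i) s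

theorem lb_mpow_smul {n : ℕ} {A : Mat n} (hA : A.PosSemidef) (s c : ℝ) (hc : 0 ≤ c) :
    mpow (c • A) s = c ^ s • mpow A s := by
  have hfin : (spectrum ℝ A).Finite := A.finite_real_spectrum
  have hAs : IsSelfAdjoint A := hA.isHermitian
  rw [mpow, mpow]
  rw [← cfc_comp_const_mul c (fun t : ℝ => t ^ s) A ((hfin.image _).continuousOn _) hAs]
  rw [← cfc_const_mul (c ^ s) (fun t : ℝ => t ^ s) A (hfin.continuousOn _)]
  refine cfc_congr fun t ht => ?_
  have ht0 : 0 ≤ t := by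
    obtain ⟨i, rfl⟩ := hA.isHermitian.spectrum_real_eq_range_eigenvalues ▸ ht
    exact hA.eigenvalues_nonneg i
  exact Real.mul_rpow hc ht0

theorem lb_rtr_smul {n : ℕ} (c : ℝ) (A : Mat n) : rtr (c • A) = c * rtr A := by
  simp [rtr, Matrix.trace_smul]

/-- (Lb1') the integrated form used for the a priori bound on `k` (no `1 +`). -/
theorem rtr_mpow_le_of_dY {m : ℕ} {q : ℝ} (hq : 0 < q) (hq1 : q < 1) :
    ∃ C : ℝ, 0 ≤ C ∧ ∀ W Q : Mat m, W.PosSemidef → Q.PosSemidef →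
      rtr (mpow Q ((1 + q) / q)) ≤ C * (rtr (mpow W (1 + q)) + dY q W Q) := by
  refine ⟨2 * (1 + q) / q * 2 ^ q, by positivity, fun W Q hW hQ => ?_⟩
  have h2 : (((2 : ℝ) • W) : Mat m).PosSemidef := hW.smul (by norm_num)
  have h := dY_nonneg hq hq1 h2 hQ
  have h0 := dY_nonneg hq hq1 hW hQ
  rw [dY, lb_mpow_smul hW _ _ (by norm_num), lb_rtr_smul, Matrix.smul_mul, lb_rtr_smul] at h
  have hd : dY q W Q = rtr (mpow W (1 + q)) / (1 + q) +
    q * rtr (mpow Q ((1 + q) / q)) / (1 + q) - rtr (W * Q) := rfl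
  set a := rtr (mpow W (1 + q)) with ha
  set b := rtr (mpow Q ((1 + q) / q)) with hb
  set w := rtr (W * Q) with hw
  have ha0 : 0 ≤ a := lb_rtr_mpow_nonneg hW _
  have hp : (2 : ℝ) ^ (1 + q) = 2 * 2 ^ q := by
    rw [Real.rpow_add (by norm_num), Real.rpow_one]
  rw [hp] at h
  have h1q : (1 : ℝ) ≤ 2 ^ q := Real.one_le_rpow (by norm_num) hq.le
  set t := (2 : ℝ) ^ q with ht
  -- `q b / (2 (1+q)) ≤ d + (t - 1) a / (1+q)`
  have key : q * b / (2 * (1 + q)) ≤ dY q W Q + (t - 1) * a / (1 + q) := by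
    rw [hd]
    have e1 : q * b / (2 * (1 + q)) = q * b / (1 + q) / 2 := by
      rw [div_div, mul_comm (1 + q) 2]
    have e2 : (t - 1) * a / (1 + q) = 2 * t * a / (1 + q) / 2 - a / (1 + q) := by
      field_simp
    rw [e1, e2]
    linarith
  have hb' : b = 2 * (1 + q) / q * (q * b / (2 * (1 + q))) := by
    field_simp
  rw [hb', mul_assoc]
  refine mul_le_mul_of_nonneg_left (key.trans ?_) (by positivity)
  have e3 : (t - 1) * a / (1 + q) ≤ t * a := by
    rw [div_le_iff₀ (by positivity)]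
    nlinarith [mul_nonneg ha0 hq.le, mul_nonneg (mul_nonneg ha0 hq.le) (by linarith : (0:ℝ) ≤ t)]
  have e4 : dY q W Q ≤ t * dY q W Q := by nlinarith
  linarith [mul_add t a (dY q W Q)]

/-- (Lb1) coercivity of the Young deficit: `tr Q ≤ C (1 + tr W^p + dY)`. Proof:
`tr W Q ≤ (2^p/p) tr W^p ... `; more precisely apply `0 ≤ dY q (2 W) Q`, i.e.
`2 tr WQ ≤ 2^p tr W^p/p + tr Q^(r+1)/(r+1)`, so `tr Q^(r+1)/(2(r+1)) ≤ dY + 2^(p-1) tr W^p/p`, and
`t ≤ 1 + t^(r+1)`. Uses `dY_nonneg` (Spec.lean). -/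
theorem rtr_le_of_dY {m : ℕ} {q : ℝ} (hq : 0 < q) (hq1 : q < 1) :
    ∃ C : ℝ, 0 ≤ C ∧ ∀ W Q : Mat m, W.PosSemidef → Q.PosSemidef →
      rtr Q ≤ C * (1 + rtr (mpow W (1 + q)) + dY q W Q) := by
  obtain ⟨C, hC, h⟩ := rtr_mpow_le_of_dY (m := m) hq hq1
  refine ⟨m + C, by positivity, fun W Q hW hQ => ?_⟩
  have h1 := h W Q hW hQ
  have h0 := dY_nonneg hq hq1 hW hQ
  have ha0 : 0 ≤ rtr (mpow W (1 + q)) := lb_rtr_mpow_nonneg hW _
  have h2 : rtr Q ≤ m + rtr (mpow Q ((1 + q) / q)) := by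
    have e1 : rtr Q = ∑ i, hQ.isHermitian.eigenvalues i := by
      have := lb_rtr_cfc hQ.isHermitian (fun t => t)
      rw [← this]
      congr 1
      exact (cfc_id' ℝ Q hQ.isHermitian).symm
    rw [e1, mpow, lb_rtr_cfc hQ.isHermitian]
    have e2 : (m : ℝ) = ∑ _i : Fin m, (1 : ℝ) := by simp
    rw [e2, ← Finset.sum_add_distrib]
    refine Finset.sum_le_sum fun i _ => ?_
    set t := hQ.isHermitian.eigenvalues i
    have ht : 0 ≤ t := hQ.eigenvalues_nonneg i
    rcases le_total t 1 with h' | h'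
    · have := Real.rpow_nonneg ht ((1 + q) / q)
      linarith
    · have h'' : t ^ (1 : ℝ) ≤ t ^ ((1 + q) / q) := by
        apply Real.rpow_le_rpow_of_exponent_le h'
        rw [le_div_iff₀ hq]; linarith
      rw [Real.rpow_one] at h''
      linarith
  have hm : (0 : ℝ) ≤ m := Nat.cast_nonneg m
  nlinarith [mul_nonneg hm ha0, mul_nonneg hm h0]

theorem lb_tendsto_of_hsq {m : ℕ} {W : Mat m} {X : ℕ → Mat m}
    (h : Tendsto (fun j => hsq (W - X j)) atTop (𝓝 0)) : Tendsto X atTop (𝓝 W) := by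
  have : ∀ i k, Tendsto (fun j => X j i k) atTop (𝓝 (W i k)) := by
    intro i k
    rw [tendsto_iff_norm_sub_tendsto_zero]
    have h2 : Tendsto (fun j => Real.sqrt (hsq (W - X j))) atTop (𝓝 0) := by
      have h3 := (Real.continuous_sqrt.tendsto 0).comp h
      rw [Real.sqrt_zero] at h3
      exact h3
    refine squeeze_zero (fun j => norm_nonneg _) (fun j => ?_) h2
    apply Real.le_sqrt_of_sq_le
    have e : ‖X j i k - W i k‖ = ‖(W - X j) i k‖ := by
      rw [Matrix.sub_apply, norm_sub_rev]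
    rw [e, hsq]
    refine (Finset.single_le_sum (f := fun k => ‖(W - X j) i k‖ ^ 2)
      (fun k _ => by positivity) (Finset.mem_univ k)).trans ?_
    exact Finset.single_le_sum (f := fun i => ∑ k, ‖(W - X j) i k‖ ^ 2)
      (fun i _ => Finset.sum_nonneg fun k _ => by positivity) (Finset.mem_univ i)
  exact tendsto_pi_nhds.2 fun i => tendsto_pi_nhds.2 fun k => this i k

/-- (Lb2) Young deficit to zero ⇒ `Q_j^(1/q) → W`. Proof: `Q_j` is bounded by (Lb1) and
`dY ≥ c_M ‖W - Q^(1/q)‖²` for bounded `W, Q` (Spec.lean). -/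
theorem tendsto_of_dY {m : ℕ} {q : ℝ} (hq : 0 < q) (hq1 : q < 1) {W : Mat m} (hW : W.PosSemidef)
    {Q : ℕ → Mat m} (hQ : ∀ j, (Q j).PosSemidef)
    (h : Tendsto (fun j => dY q W (Q j)) atTop (𝓝 0)) :
    Tendsto (fun j => mpow (Q j) (1 / q)) atTop (𝓝 W) ∧
      Tendsto Q atTop (𝓝 (mpow W q)) := by
  obtain ⟨C, hC, hb⟩ := rtr_le_of_dY (m := m) hq hq1
  set M := max (rtr W) (C * (1 + rtr (mpow W (1 + q)) + 1)) with hM
  obtain ⟨c, hc, hlow⟩ := dY_lower (m := m) hq hq1 M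
  have hev : ∀ᶠ j in atTop, dY q W (Q j) ≤ 1 := by
    filter_upwards [h.eventually (gt_mem_nhds (zero_lt_one (α := ℝ)))] with j hj using hj.le
  have hev2 : ∀ᶠ j in atTop, hsq (W - mpow (Q j) (1 / q)) ≤ dY q W (Q j) / c := by
    filter_upwards [hev] with j hj
    rw [le_div_iff₀ hc, mul_comm]
    refine hlow W (Q j) hW (hQ j) (le_max_left _ _) ((hb W (Q j) hW (hQ j)).trans ?_)
    refine le_trans ?_ (le_max_right _ _)
    exact mul_le_mul_of_nonneg_left (by linarith) hC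
  have h0 : Tendsto (fun j => hsq (W - mpow (Q j) (1 / q))) atTop (𝓝 0) := by
    have h1 : Tendsto (fun j => dY q W (Q j) / c) atTop (𝓝 0) := by
      simpa using h.div_const c
    refine tendsto_of_tendsto_of_tendsto_of_le_of_le' tendsto_const_nhds h1 ?_ hev2
    filter_upwards with j
    unfold hsq; positivity
  have h1 := lb_tendsto_of_hsq h0
  refine ⟨h1, ?_⟩
  have h2 := mpow_tendsto (s := q) hq (fun j => mpow_psd_rig (1 / q) (hQ j)) h1
  have h3 : (fun j => mpow (mpow (Q j) (1 / q)) q) = Q := by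
    funext j
    rw [mpow_mpow (hQ j), one_div, inv_mul_cancel₀ hq.ne', mpow_one (hQ j)]
  rw [h3] at h2
  exact h2

end SLT
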