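import Crest.Agent.SLT.RigDefs

/-!
# Row 332, S0516: real analysis II (chunk LE)
-/

set_option autoImplicit false

open MeasureTheory Filter Set
open scoped ComplexOrder Matrix Topology

namespace SLT

/-- (Le1) Convergence a.e. + asymptotic equicontinuity ⇒ convergence everywhere. -/
theorem tendsto_of_ae {E : Type*} [NormedAddCommGroup E] [CompleteSpace E]
    {f : ℕ → ℝ → E} {ε : ℕ → ℝ} (hε : Tendsto ε atTop (𝓝 0)) {L C : ℝ}
    (hC : 0 ≤ C) (hf : ∀ j x y, |x| ≤ L → |y| ≤ L → ‖f j y - f j x‖ ≤ C * |y - x| + ε j)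
    (hae : ∀ᵐ x, ∃ l, Tendsto (fun j => f j x) atTop (𝓝 l)) {x : ℝ} (hx : |x| < L) :
    ∃ l, Tendsto (fun j => f j x) atTop (𝓝 l) := by
  apply cauchySeq_tendsto_of_complete
  rw [Metric.cauchySeq_iff]
  intro η hη
  obtain ⟨δ, hδ, hδC⟩ : ∃ δ : ℝ, 0 < δ ∧ C * δ ≤ η / 8 := by
    refine ⟨η / (8 * (C + 1)), by positivity, ?_⟩
    rw [← mul_div_assoc, div_le_div_iff₀ (by positivity) (by norm_num)]
    nlinarith
  -- a point `y` near `x` at which the sequence converges
  obtain ⟨y, ⟨hy1, hy2⟩, hy⟩ : ∃ y, (|y| ≤ L ∧ |y - x| ≤ δ) ∧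
      ∃ l, Tendsto (fun j => f j y) atTop (𝓝 l) := by
    have hopen : IsOpen ({y : ℝ | |y| < L} ∩ {y : ℝ | |y - x| < δ}) :=
      (isOpen_lt (by fun_prop) continuous_const).inter (isOpen_lt (by fun_prop) continuous_const)
    have hne : ({y : ℝ | |y| < L} ∩ {y : ℝ | |y - x| < δ}).Nonempty :=
      ⟨x, hx, by simpa using hδ⟩
    have hdense : Dense {y : ℝ | ∃ l, Tendsto (fun j => f j y) atTop (𝓝 l)} :=
      MeasureTheory.Measure.dense_of_ae hae
    obtain ⟨y, hyU, hyD⟩ := hdense.inter_open_nonempty _ hopen hne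
    exact ⟨y, ⟨hyU.1.le, hyU.2.le⟩, hyD⟩
  obtain ⟨l, hl⟩ := hy
  have hcauchy := (Metric.cauchySeq_iff.1 hl.cauchySeq) (η / 4) (by positivity)
  obtain ⟨N₁, hN₁⟩ := hcauchy
  obtain ⟨N₂, hN₂⟩ := (Metric.tendsto_atTop.1 hε) (η / 8) (by positivity)
  refine ⟨max N₁ N₂, fun m hm n hn => ?_⟩
  have hm1 := hN₂ m (le_trans (le_max_right _ _) hm)
  have hn1 := hN₂ n (le_trans (le_max_right _ _) hn)
  have hmn := hN₁ m (le_trans (le_max_left _ _) hm) n (le_trans (le_max_left _ _) hn)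
  rw [Real.dist_eq, sub_zero] at hm1 hn1
  have e1 := hf m x y hx.le hy1
  have e2 := hf n x y hx.le hy1
  have hCy : C * |y - x| ≤ η / 8 := (mul_le_mul_of_nonneg_left hy2 hC).trans hδC
  calc dist (f m x) (f n x) ≤ dist (f m x) (f m y) + dist (f m y) (f n y) + dist (f n y) (f n x) :=
        dist_triangle4 _ _ _ _
    _ ≤ (η / 8 + ε m) + dist (f m y) (f n y) + (η / 8 + ε n) := by
        have h1 : dist (f m x) (f m y) ≤ η / 8 + ε m := by
          rw [dist_comm, dist_eq_norm]; linarith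
        have h2 : dist (f n y) (f n x) ≤ η / 8 + ε n := by
          rw [dist_eq_norm]; linarith
        linarith
    _ < η := by
        have := (abs_lt.1 hm1).2
        have := (abs_lt.1 hn1).2
        linarith

/-- (Le2) Averaging: if `Q_j(y) - Q_j(x) = ∫_x^y T_j + O(ε_j)`, `T_j` is asymptotically
equi-Lipschitz and `Q_j` converges pointwise, then `T_j` converges pointwise.
Proof: `T_j(x) = (Q_j(x+h) - Q_j(x))/h + O(ε_j/h) + O(C h + ε_j)`, so `(T_j(x))_j` is Cauchy. -/
theorem tendsto_of_average {E : Type*} [NormedAddCommGroup E] [NormedSpace ℝ E] [CompleteSpace E]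
    {Q T : ℕ → ℝ → E} {ε : ℕ → ℝ} (hε : Tendsto ε atTop (𝓝 0)) {L C : ℝ} (hC : 0 ≤ C)
    (hTc : ∀ j, Continuous (T j))
    (hQ : ∀ j x y, |x| ≤ L → |y| ≤ L → ‖Q j y - Q j x - ∫ t in x..y, T j t‖ ≤ ε j)
    (hT : ∀ j x y, |x| ≤ L → |y| ≤ L → ‖T j y - T j x‖ ≤ C * |y - x| + ε j)
    (hlim : ∀ x, |x| ≤ L → ∃ l, Tendsto (fun j => Q j x) atTop (𝓝 l)) {x : ℝ} (hx : |x| < L) :
    ∃ l, Tendsto (fun j => T j x) atTop (𝓝 l) := by
  apply cauchySeq_tendsto_of_complete
  rw [Metric.cauchySeq_iff]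
  intro η hη
  obtain ⟨h, hh, hhC, hxh⟩ : ∃ h : ℝ, 0 < h ∧ C * h ≤ η / 8 ∧ |x + h| ≤ L := by
    refine ⟨min (η / (8 * (C + 1))) (L - |x|), lt_min (by positivity) (by linarith), ?_, ?_⟩
    · have h1 : C * min (η / (8 * (C + 1))) (L - |x|) ≤ C * (η / (8 * (C + 1))) :=
        mul_le_mul_of_nonneg_left (min_le_left _ _) hC
      refine h1.trans ?_
      rw [← mul_div_assoc, div_le_div_iff₀ (by positivity) (by norm_num)]
      nlinarith
    · have h0 : 0 ≤ min (η / (8 * (C + 1))) (L - |x|) :=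
        le_min (by positivity) (by linarith)
      calc |x + min (η / (8 * (C + 1))) (L - |x|)| ≤ |x| + |min (η / (8 * (C + 1))) (L - |x|)| :=
            abs_add_le _ _
        _ ≤ |x| + (L - |x|) := by
            rw [abs_of_nonneg h0]
            linarith [min_le_right (η / (8 * (C + 1))) (L - |x|)]
        _ = L := by ring
  -- `h • T j x` is close to the integral
  have key : ∀ j, ‖h • T j x - (Q j (x + h) - Q j x)‖ ≤ h * (η / 8 + ε j) + ε j := by
    intro j
    have h1 := hQ j x (x + h) hx.le hxh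
    have h2 : ‖h • T j x - ∫ t in x..(x + h), T j t‖ ≤ (η / 8 + ε j) * |(x + h) - x| := by
      have e1 : h • T j x - (∫ t in x..(x + h), T j t) = ∫ t in x..(x + h), (T j x - T j t) := by
        rw [intervalIntegral.integral_sub (by simp) ((hTc j).intervalIntegrable _ _)]
        simp
      rw [e1]
      refine intervalIntegral.norm_integral_le_of_norm_le_const fun t ht => ?_
      rw [Set.uIoc_of_le (by linarith)] at ht
      have ht1 : |t| ≤ L := by
        rw [abs_le] at hxh ⊢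
        have := abs_lt.1 hx
        exact ⟨by linarith [ht.1, this.1], by linarith [ht.2, hxh.2]⟩
      have h3 := hT j x t hx.le ht1
      rw [norm_sub_rev]
      have h4 : |t - x| ≤ h := by
        rw [abs_of_nonneg (by linarith [ht.1])]; linarith [ht.2]
      have := mul_le_mul_of_nonneg_left h4 hC
      linarith
    have h3 : (x + h) - x = h := by ring
    rw [h3, abs_of_pos hh] at h2
    have e2 : h • T j x - (Q j (x + h) - Q j x) = (h • T j x - ∫ t in x..(x + h), T j t) -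
        (Q j (x + h) - Q j x - ∫ t in x..(x + h), T j t) := by abel
    rw [e2]
    refine (norm_sub_le _ _).trans ?_
    nlinarith [h1, h2]
  obtain ⟨l₁, hl₁⟩ := hlim (x + h) hxh
  obtain ⟨l₂, hl₂⟩ := hlim x hx.le
  have hcauchy := (Metric.cauchySeq_iff.1 (hl₁.sub hl₂).cauchySeq) (h * (η / 8)) (by positivity)
  obtain ⟨N₁, hN₁⟩ := hcauchy
  obtain ⟨N₂, hN₂⟩ := (Metric.tendsto_atTop.1 hε) (min (η / 16) (h * (η / 16)))
    (lt_min (by positivity) (by positivity))
  refine ⟨max N₁ N₂, fun m hm n hn => ?_⟩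
  have hm1 := hN₂ m (le_trans (le_max_right _ _) hm)
  have hn1 := hN₂ n (le_trans (le_max_right _ _) hn)
  have hmn := hN₁ m (le_trans (le_max_left _ _) hm) n (le_trans (le_max_left _ _) hn)
  rw [Real.dist_eq, sub_zero] at hm1 hn1
  have hm2 := lt_of_le_of_lt (le_abs_self _) (lt_of_lt_of_le hm1 (min_le_left _ _))
  have hn2 := lt_of_le_of_lt (le_abs_self _) (lt_of_lt_of_le hn1 (min_le_left _ _))
  have hm3 := lt_of_le_of_lt (le_abs_self _) (lt_of_lt_of_le hm1 (min_le_right _ _))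
  have hn3 := lt_of_le_of_lt (le_abs_self _) (lt_of_lt_of_le hn1 (min_le_right _ _))
  have e : h • (T m x - T n x) = (h • T m x - (Q m (x + h) - Q m x)) -
      (h • T n x - (Q n (x + h) - Q n x)) +
      ((Q m (x + h) - Q m x) - (Q n (x + h) - Q n x)) := by
    rw [smul_sub]; abel
  have hnorm : ‖h • (T m x - T n x)‖ < h * η := by
    rw [e]
    refine lt_of_le_of_lt (norm_add_le _ _) ?_
    have a1 := norm_sub_le (h • T m x - (Q m (x + h) - Q m x))
      (h • T n x - (Q n (x + h) - Q n x))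
    have a2 := key m
    have a3 := key n
    rw [dist_eq_norm] at hmn
    have a4 : h * (η / 8 + ε m) ≤ h * (η / 8 + η / 16) :=
      mul_le_mul_of_nonneg_left (by linarith) hh.le
    have a5 : h * (η / 8 + ε n) ≤ h * (η / 8 + η / 16) :=
      mul_le_mul_of_nonneg_left (by linarith) hh.le
    have a6 : 0 < h * η := by positivity
    calc _ ≤ (h * (η / 8 + η / 16) + h * (η / 16)) + (h * (η / 8 + η / 16) + h * (η / 16)) +
          h * (η / 8) := by linarith
      _ < h * η := by nlinarith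
  rw [norm_smul, Real.norm_eq_abs, abs_of_pos hh] at hnorm
  rw [dist_eq_norm]
  exact lt_of_mul_lt_mul_left hnorm hh.le

/-- (Lf) Passing to the limit in the integral equation (dominated convergence). -/
theorem integral_limit {E : Type*} [NormedAddCommGroup E] [NormedSpace ℝ E] [CompleteSpace E]
    {f g : ℕ → ℝ → E} {f₀ g₀ : ℝ → E} {ε : ℕ → ℝ} (hε : Tendsto ε atTop (𝓝 0)) {L M : ℝ}
    (hgc : ∀ j, Continuous (g j))
    (hfg : ∀ j x y, |x| ≤ L → |y| ≤ L → ‖f j y - f j x - ∫ t in x..y, g j t‖ ≤ ε j)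
    (hM : ∀ j x, |x| ≤ L → ‖g j x‖ ≤ M)
    (hf : ∀ x, |x| ≤ L → Tendsto (fun j => f j x) atTop (𝓝 (f₀ x)))
    (hg : ∀ᵐ x, |x| ≤ L → Tendsto (fun j => g j x) atTop (𝓝 (g₀ x)))
    {x y : ℝ} (hx : |x| ≤ L) (hy : |y| ≤ L) :
    f₀ y - f₀ x = ∫ t in x..y, g₀ t := by
  have hmem : ∀ t ∈ Set.uIoc x y, |t| ≤ L := by
    intro t ht
    have ht' := Set.uIoc_subset_uIcc ht
    rw [abs_le] at hx hy ⊢
    rcases Set.mem_uIcc.1 ht' with h | h
    · exact ⟨hx.1.trans h.1, h.2.trans hy.2⟩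
    · exact ⟨hy.1.trans h.1, h.2.trans hx.2⟩
  have h1 : Tendsto (fun j => ∫ t in x..y, g j t) atTop (𝓝 (∫ t in x..y, g₀ t)) := by
    refine intervalIntegral.tendsto_integral_filter_of_dominated_convergence (fun _ => M)
      (Eventually.of_forall fun j => (hgc j).aestronglyMeasurable) ?_ (by simp) ?_
    · exact Eventually.of_forall fun j => Eventually.of_forall fun t ht => hM j t (hmem t ht)
    · filter_upwards [hg] with t ht hty
      exact ht (hmem t hty)
  have h2 : Tendsto (fun j => f j y - f j x) atTop (𝓝 (f₀ y - f₀ x)) := (hf y hy).sub (hf x hx)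
  have h3 : Tendsto (fun j => f j y - f j x - ∫ t in x..y, g j t) atTop (𝓝 0) := by
    refine squeeze_zero_norm (fun j => hfg j x y hx hy) hε
  have h4 := h2.sub h3
  have h5 : (fun j => f j y - f j x - (f j y - f j x - ∫ t in x..y, g j t)) =
      fun j => ∫ t in x..y, g j t := by
    funext j; abel
  rw [h5, sub_zero] at h4
  exact tendsto_nhds_unique h4 h1

end SLT
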