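import Crest.Agent.SLT.RigAlg

/-!
# Row 332, S0516: the constant kernel (chunk LG)
-/

set_option autoImplicit false

open MeasureTheory Filter Set
open scoped ComplexOrder Matrix Topology

namespace SLT

theorem lg_hasDerivAt_quad {m : ℕ} {Q : ℝ → Mat m} {D : Mat m} {x : ℝ} (h : HasDerivAt Q D x)
    (v : Fin m → ℂ) :
    HasDerivAt (fun y => (star v ⬝ᵥ (Q y *ᵥ v)).re) (star v ⬝ᵥ (D *ᵥ v)).re x := by
  have h0 : ∀ i j, HasDerivAt (fun y => Q y i j) (D i j) x := by
    intro i j
    have h1 := (hasDerivAt_pi (φ := fun y => (Q y : Fin m → Fin m → ℂ))).1 h i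
    exact hasDerivAt_pi.1 h1 j
  have h1 : HasDerivAt (fun y => star v ⬝ᵥ (Q y *ᵥ v)) (star v ⬝ᵥ (D *ᵥ v)) x := by
    simp only [dotProduct, Matrix.mulVec]
    refine HasDerivAt.fun_sum fun i _ => ?_
    refine HasDerivAt.const_mul _ ?_
    exact HasDerivAt.fun_sum fun j _ => (h0 i j).mul_const (v j)
  exact Complex.reCLM.hasFDerivAt.comp_hasDerivAt x h1

theorem lg_proj {m : ℕ} {A : Mat m} (hA : A.IsHermitian) :
    ∃ P R : Mat m, P.IsHermitian ∧ P * P = P ∧ A * P = 0 ∧ 1 - P = R * A := by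
  classical
  set U : Mat m := (hA.eigenvectorUnitary : Mat m) with hU
  have hUU : star U * U = 1 := by
    rw [hU]; exact Unitary.coe_star_mul_self _
  have hUU' : U * star U = 1 := by
    rw [hU]; exact Unitary.coe_mul_star_self _
  set l : Fin m → ℂ := fun i => (hA.eigenvalues i : ℂ) with hl
  set d : Fin m → ℂ := fun i => if l i = 0 then 1 else 0 with hd
  set e : Fin m → ℂ := fun i => if l i = 0 then 0 else (l i)⁻¹ with he
  have hspec : A = U * Matrix.diagonal l * star U := by
    have := hA.spectral_theorem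
    rw [Unitary.conjStarAlgAut_apply] at this
    exact this
  have key : ∀ a b : Fin m → ℂ, (U * Matrix.diagonal a * star U) * (U * Matrix.diagonal b * star U)
      = U * Matrix.diagonal (fun i => a i * b i) * star U := by
    intro a b
    calc (U * Matrix.diagonal a * star U) * (U * Matrix.diagonal b * star U)
        = U * Matrix.diagonal a * (star U * U) * Matrix.diagonal b * star U := by
          simp only [Matrix.mul_assoc]
      _ = U * (Matrix.diagonal a * Matrix.diagonal b) * star U := by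
          rw [hUU, Matrix.mul_one]; simp only [Matrix.mul_assoc]
      _ = _ := by rw [Matrix.diagonal_mul_diagonal]
  refine ⟨U * Matrix.diagonal d * star U, U * Matrix.diagonal e * star U, ?_, ?_, ?_, ?_⟩
  · have h1 : (Matrix.diagonal d)ᴴ = Matrix.diagonal d := by
      rw [Matrix.diagonal_conjTranspose]
      congr 1
      funext i
      simp only [hd, Pi.star_apply]
      split_ifs <;> simp
    rw [Matrix.IsHermitian, Matrix.star_eq_conjTranspose, Matrix.conjTranspose_mul,
      Matrix.conjTranspose_mul, Matrix.conjTranspose_conjTranspose, h1, Matrix.mul_assoc]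
  · rw [key]
    congr 3
    funext i
    simp only [hd]
    split_ifs <;> simp
  · conv_lhs => rw [hspec]
    rw [key]
    have : (fun i => l i * d i) = 0 := by
      funext i
      simp only [hd, Pi.zero_apply]
      split_ifs with h
      · rw [h]; simp
      · simp
    rw [this]
    simp
  · conv_rhs => rw [hspec]
    rw [key]
    have h1 : (1 : Mat m) = U * Matrix.diagonal (fun _ => (1 : ℂ)) * star U := by
      rw [Matrix.diagonal_one, Matrix.mul_one, hUU']
    conv_lhs => rw [h1]
    rw [← Matrix.sub_mul, ← Matrix.mul_sub, Matrix.diagonal_sub]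
    congr 3
    funext i
    simp only [hd, he]
    split_ifs with h
    · simp
    · rw [inv_mul_cancel₀ h]; simp

theorem lg_ker {m : ℕ} {K : ℝ} {Q T : ℝ → Mat m}
    (hQ : ∀ x, (Q x).PosSemidef) (hd : ∀ x, HasDerivAt Q ((2 : ℂ) • T x) x)
    (h1 : ∀ x, ((K : ℂ) • Q x - T x).PosSemidef) (h2 : ∀ x, ((K : ℂ) • Q x + T x).PosSemidef)
    (v : Fin m → ℂ) (x₀ x : ℝ) (h0 : Q x₀ *ᵥ v = 0) : Q x *ᵥ v = 0 := by
  set h : ℝ → ℝ := fun y => (star v ⬝ᵥ (Q y *ᵥ v)).re with hh
  set t : ℝ → ℝ := fun y => (star v ⬝ᵥ (T y *ᵥ v)).re with ht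
  have hder : ∀ y, HasDerivAt h (2 * t y) y := by
    intro y
    have := lg_hasDerivAt_quad (hd y) v
    rw [Matrix.smul_mulVec, dotProduct_smul] at this
    simpa [ht] using this
  have hnn : ∀ y, 0 ≤ h y := fun y => (hQ y).re_dotProduct_nonneg v
  have ha : ∀ y, t y ≤ K * h y := by
    intro y
    have := (h1 y).re_dotProduct_nonneg v
    rw [Matrix.sub_mulVec, Matrix.smul_mulVec, dotProduct_sub, dotProduct_smul] at this
    simp at this
    simpa [ht, hh] using this
  have hb : ∀ y, - t y ≤ K * h y := by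
    intro y
    have := (h2 y).re_dotProduct_nonneg v
    rw [Matrix.add_mulVec, Matrix.smul_mulVec, dotProduct_add, dotProduct_smul] at this
    simp at this
    simp only [ht, hh]
    linarith
  have hexp : ∀ c y : ℝ, HasDerivAt (fun y => Real.exp (c * y)) (Real.exp (c * y) * c) y := by
    intro c y
    have := (((hasDerivAt_id y).const_mul c).exp)
    simpa using this
  have hg1 : ∀ y, HasDerivAt (fun y => Real.exp (-(2 * K) * y) * h y)
      (Real.exp (-(2 * K) * y) * (-(2 * K)) * h y + Real.exp (-(2 * K) * y) * (2 * t y)) y :=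
    fun y => (hexp _ y).mul (hder y)
  have hg2 : ∀ y, HasDerivAt (fun y => Real.exp ((2 * K) * y) * h y)
      (Real.exp ((2 * K) * y) * (2 * K) * h y + Real.exp ((2 * K) * y) * (2 * t y)) y :=
    fun y => (hexp _ y).mul (hder y)
  have hanti : Antitone (fun y => Real.exp (-(2 * K) * y) * h y) := by
    refine antitone_of_deriv_nonpos (fun y => (hg1 y).differentiableAt) fun y => ?_
    rw [(hg1 y).deriv]
    have e := Real.exp_pos (-(2 * K) * y)
    have := ha y
    nlinarith [mul_le_mul_of_nonneg_left (ha y) e.le]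
  have hmono : Monotone (fun y => Real.exp ((2 * K) * y) * h y) := by
    refine monotone_of_deriv_nonneg (fun y => (hg2 y).differentiableAt) fun y => ?_
    rw [(hg2 y).deriv]
    have e := Real.exp_pos ((2 * K) * y)
    nlinarith [mul_le_mul_of_nonneg_left (hb y) e.le]
  have hx0 : h x₀ = 0 := by simp [hh, h0]
  have hx : h x ≤ 0 := by
    rcases le_total x₀ x with hle | hle
    · have := hanti hle
      simp only [hx0, mul_zero] at this
      have e := Real.exp_pos (-(2 * K) * x)
      by_contra hc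
      push Not at hc
      have := mul_pos e hc
      linarith
    · have := hmono hle
      simp only [hx0, mul_zero] at this
      have e := Real.exp_pos ((2 * K) * x)
      by_contra hc
      push Not at hc
      have := mul_pos e hc
      linarith
  have hx' : h x = 0 := le_antisymm hx (hnn x)
  refine ((hQ x).dotProduct_mulVec_zero_iff v).1 ?_
  have him := (hQ x).dotProduct_mulVec_nonneg v
  rw [Complex.nonneg_iff] at him
  exact Complex.ext hx' him.2.symm

/-- (Lg) The kernel of `Q(x)` is constant when `Q' = 2T`, `-KQ ≤ T ≤ KQ`. Proof: for `v` fixed,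
`h(x) = v* Q(x) v ≥ 0` satisfies `|h'| ≤ 2K h`, so `h(x₀) = 0` implies `h = 0`
(`e^{2Kx} h` is nondecreasing and `e^{-2Kx} h` is nonincreasing). Let `P` be the orthogonal
projection onto `ker Q(0)`, e.g. `P = cfc (fun t => if t = 0 then 1 else 0) (Q 0)`. -/
theorem exists_kernel_projection {m : ℕ} {K : ℝ} {Q T : ℝ → Mat m}
    (hQ : ∀ x, (Q x).PosSemidef) (hd : ∀ x, HasDerivAt Q ((2 : ℂ) • T x) x)
    (h1 : ∀ x, ((K : ℂ) • Q x - T x).PosSemidef) (h2 : ∀ x, ((K : ℂ) • Q x + T x).PosSemidef) :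
    ∃ P : Mat m, P.IsHermitian ∧ P * P = P ∧ (∀ x, Q x * P = 0) ∧ (∀ x, (Q x + P).PosDef) ∧
      (∀ x, T x * P = 0) := by
  obtain ⟨P, R, hPh, hPP, hQP, hPR⟩ := lg_proj (hQ 0).isHermitian
  have hP0 : P.PosSemidef := by
    have := Matrix.posSemidef_conjTranspose_mul_self P
    rw [hPh.eq, hPP] at this
    exact this
  have hcol : ∀ x v, Q x *ᵥ (P *ᵥ v) = 0 := by
    intro x v
    refine lg_ker hQ hd h1 h2 _ 0 x ?_
    rw [Matrix.mulVec_mulVec, hQP, Matrix.zero_mulVec]
  have hmat : ∀ M : Mat m, (∀ v, M *ᵥ v = 0) → M = 0 := by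
    intro M hM
    ext i j
    have := congrFun (hM (Pi.single j 1)) i
    rw [Matrix.mulVec_single_one] at this
    simpa using this
  refine ⟨P, hPh, hPP, ?_, ?_, ?_⟩
  · intro x
    refine hmat _ fun v => ?_
    rw [← Matrix.mulVec_mulVec]
    exact hcol x v
  · intro x
    refine Matrix.PosDef.of_dotProduct_mulVec_pos ((hQ x).isHermitian.add hPh) fun v hv => ?_
    have a1 := (hQ x).dotProduct_mulVec_nonneg v
    have a2 := hP0.dotProduct_mulVec_nonneg v
    rw [Matrix.add_mulVec, dotProduct_add]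
    refine lt_of_le_of_ne (add_nonneg a1 a2) fun hc => hv ?_
    have b1 : star v ⬝ᵥ (Q x *ᵥ v) = 0 ∧ star v ⬝ᵥ (P *ᵥ v) = 0 :=
      (add_eq_zero_iff_of_nonneg a1 a2).1 hc.symm
    have c1 : Q 0 *ᵥ v = 0 :=
      lg_ker hQ hd h1 h2 v x 0 (((hQ x).dotProduct_mulVec_zero_iff v).1 b1.1)
    have c2 : P *ᵥ v = 0 := (hP0.dotProduct_mulVec_zero_iff v).1 b1.2
    have c3 : (1 - P) *ᵥ v = 0 := by
      rw [hPR, ← Matrix.mulVec_mulVec, c1, Matrix.mulVec_zero]
    rw [Matrix.sub_mulVec, Matrix.one_mulVec, c2, sub_zero] at c3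
    exact c3
  · intro x
    refine hmat _ fun v => ?_
    rw [← Matrix.mulVec_mulVec]
    set w := P *ᵥ v with hw
    have hqw : Q x *ᵥ w = 0 := hcol x v
    have a1 := (h1 x).dotProduct_mulVec_nonneg w
    have a2 := (h2 x).dotProduct_mulVec_nonneg w
    rw [Matrix.sub_mulVec, Matrix.smul_mulVec, hqw, smul_zero, zero_sub, dotProduct_neg] at a1
    rw [Matrix.add_mulVec, Matrix.smul_mulVec, hqw, smul_zero, zero_add] at a2
    have a3 : star w ⬝ᵥ (T x *ᵥ w) = 0 := le_antisymm (neg_nonneg.1 a1) a2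
    have a4 : ((K : ℂ) • Q x + T x) *ᵥ w = 0 := by
      refine ((h2 x).dotProduct_mulVec_zero_iff w).1 ?_
      rw [Matrix.add_mulVec, Matrix.smul_mulVec, hqw, smul_zero, zero_add]
      exact a3
    rw [Matrix.add_mulVec, Matrix.smul_mulVec, hqw, smul_zero, zero_add] at a4
    exact a4

end SLT
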