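import Crest.Agent.SLT.RigAlg

/-!
# Row 332, S0516: identification of the limit of S (chunk LH)
-/

set_option autoImplicit false

open MeasureTheory Filter Set
open scoped ComplexOrder Matrix Topology

namespace SLT

/-- `Q^r` commutes with `T` ⇒ `Q` commutes with `T` (`Q = (Q^r)^(1/r)` is a function of `Q^r`;
`cfc` of a Hermitian matrix is a polynomial in it, or `cfc_commute`-type lemma). -/
theorem comm_of_mpow_comm {m : ℕ} {r : ℝ} (hr : 0 < r) {Q T : Mat m} (hQ : Q.PosSemidef)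
    (h : mpow Q r * T = T * mpow Q r) : Q * T = T * Q := by
  have h1 : mpow (mpow Q r) (1 / r) = Q := by
    rw [mpow_mpow hQ, mul_one_div_cancel hr.ne', mpow_one hQ]
  have hsa : star (mpow Q r) = mpow Q r := (mpow_psd_rig r hQ).isHermitian
  have h2 : Commute (mpow Q r) T := h
  have h3 : Commute (mpow (mpow Q r) (1 / r)) T := by
    unfold mpow at h2 hsa ⊢
    exact h2.cfc (by rw [hsa]; exact h2) _
  rw [h1] at h3
  exact h3

/-- Limits of positive semidefinite matrices are positive semidefinite. -/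
theorem posSemidef_of_tendsto {m : ℕ} {A : ℕ → Mat m} {A₀ : Mat m} (hA : ∀ j, (A j).PosSemidef)
    (h : Tendsto A atTop (𝓝 A₀)) : A₀.PosSemidef := by
  rw [Matrix.posSemidef_iff_dotProduct_mulVec]
  constructor
  · have h1 : Tendsto (fun j => (A j)ᴴ) atTop (𝓝 A₀ᴴ) :=
      (continuous_id.matrix_conjTranspose.tendsto A₀).comp h
    have h2 : (fun j => (A j)ᴴ) = A := funext fun j => (hA j).isHermitian
    rw [h2] at h1
    exact tendsto_nhds_unique h1 h
  · intro x
    have h1 : Tendsto (fun j => star x ⬝ᵥ (A j).mulVec x) atTop (𝓝 (star x ⬝ᵥ A₀.mulVec x)) := by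
      have hc : Continuous fun B : Mat m => star x ⬝ᵥ B.mulVec x := by fun_prop
      exact (hc.tendsto A₀).comp h
    exact ge_of_tendsto' h1 fun j => (hA j).dotProduct_mulVec_nonneg x

/-- (Lh) Identification of the limit of `S`. `Q ≥ 0`, `P` the projection onto `ker Q`, `T`
Hermitian commuting with `Q`, `TP = 0`, `0 ≤ S ≤ K² Q`, `Q^r S = T Q^(r-1) T`. Then
`S = (Q+P)⁻¹ T²`. Proof: `0 ≤ S ≤ K²Q` gives `S P = 0 = P S`. `Q^(r-1)` commutes with `T`, so
`Q^(r-1) (Q S - T²) = 0`; `Q^(r-1)` is injective on the range of `1 - P`. So `Q S = T²`,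
`(Q+P) S = T²`. -/
theorem S_eq {m : ℕ} {r K : ℝ} (hr : 1 < r) {Q T S P : Mat m} (hQ : Q.PosSemidef)
    (hT : T.IsHermitian) (hP : P.IsHermitian) (hPP : P * P = P) (hQP : Q * P = 0)
    (hTP : T * P = 0) (hinv : (Q + P).PosDef) (hQT : Q * T = T * Q) (hS : S.PosSemidef)
    (hS' : (((K ^ 2 : ℝ) : ℂ) • Q - S).PosSemidef)
    (h : mpow Q r * S = T * mpow Q (r - 1) * T) :
    S = (Q + P)⁻¹ * T * T := by
  have hPQ : P * Q = 0 := by
    have := congrArg Matrix.conjTranspose hQP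
    rwa [Matrix.conjTranspose_mul, hP.eq, hQ.isHermitian.eq, Matrix.conjTranspose_zero] at this
  have hPT : P * T = 0 := by
    have := congrArg Matrix.conjTranspose hTP
    rwa [Matrix.conjTranspose_mul, hP.eq, hT.eq, Matrix.conjTranspose_zero] at this
  -- `S P = 0`
  have hSP : S * P = 0 := by
    have key : ∀ x : Fin m → ℂ, (S * P).mulVec x = 0 := by
      intro x
      rw [← Matrix.mulVec_mulVec]
      have hq0 : Q.mulVec (P.mulVec x) = 0 := by
        rw [Matrix.mulVec_mulVec, hQP, Matrix.zero_mulVec]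
      have h1 := hS'.dotProduct_mulVec_nonneg (P.mulVec x)
      rw [Matrix.sub_mulVec, Matrix.smul_mulVec, hq0, smul_zero, zero_sub, dotProduct_neg] at h1
      have h2 := hS.dotProduct_mulVec_nonneg (P.mulVec x)
      have h3 : star (P.mulVec x) ⬝ᵥ S.mulVec (P.mulVec x) = 0 :=
        le_antisymm (by simpa using h1) h2
      exact (hS.dotProduct_mulVec_zero_iff _).mp h3
    ext i j
    have := congrFun (key (Pi.single j 1)) i
    simpa using this
  have hPS : P * S = 0 := by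
    have := congrArg Matrix.conjTranspose hSP
    rwa [Matrix.conjTranspose_mul, hP.eq, hS.isHermitian.eq, Matrix.conjTranspose_zero] at this
  have hr1 : 0 < r - 1 := by linarith
  have hmul : mpow Q r = mpow Q (r - 1) * Q := by
    have := mpow_add_one hr1 hQ
    rwa [sub_add_cancel] at this
  have hcomm : mpow Q (r - 1) * T = T * mpow Q (r - 1) := by
    have hc : Commute Q T := hQT
    have hsa : star Q = Q := hQ.isHermitian
    unfold mpow
    exact hc.cfc (by rw [hsa]; exact hc) _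
  have hX0 : mpow Q (r - 1) * (Q * S - T * T) = 0 := by
    rw [mul_sub, ← mul_assoc, ← hmul, h, ← mul_assoc, hcomm, sub_self]
  -- `Q` is a left multiple of `Q^(r-1)`
  have hsaQ : IsSelfAdjoint Q := hQ.isHermitian
  have hfact : cfc (fun t : ℝ => t / t ^ (r - 1)) Q * mpow Q (r - 1) = Q := by
    unfold mpow
    have hfin : (spectrum ℝ Q).Finite := Matrix.finite_real_spectrum
    have hcont : ∀ f : ℝ → ℝ, ContinuousOn f (spectrum ℝ Q) := fun f => hfin.continuousOn f
    rw [← cfc_mul _ _ Q (hcont _) (hcont _)]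
    have heq : cfc (fun t : ℝ => t / t ^ (r - 1) * t ^ (r - 1)) Q = cfc (fun t : ℝ => t) Q := by
      apply cfc_congr
      intro t ht
      have ht0 : 0 ≤ t := by
        rw [hQ.isHermitian.spectrum_real_eq_range_eigenvalues] at ht
        obtain ⟨i, rfl⟩ := ht
        exact hQ.eigenvalues_nonneg i
      rcases ht0.eq_or_lt with h0 | h0
      · subst h0
        simp
      · have : t ^ (r - 1) ≠ 0 := (Real.rpow_pos_of_pos h0 _).ne'
        field_simp
    rw [heq, cfc_id' ℝ Q]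
  have hQX : Q * (Q * S - T * T) = 0 := by
    rw [← hfact, mul_assoc, hfact, hX0, mul_zero]
  have hPX : P * (Q * S - T * T) = 0 := by
    rw [mul_sub, ← mul_assoc, ← mul_assoc, hPQ, hPT, zero_mul, zero_mul, sub_self]
  have hdet : IsUnit (Q + P).det := by
    have := hinv.isUnit
    exact (Matrix.isUnit_iff_isUnit_det _).mp this
  have hX : Q * S - T * T = 0 := by
    have : (Q + P) * (Q * S - T * T) = 0 := by rw [add_mul, hQX, hPX, add_zero]
    calc Q * S - T * T = (Q + P)⁻¹ * ((Q + P) * (Q * S - T * T)) := by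
          rw [Matrix.nonsing_inv_mul_cancel_left _ _ hdet]
      _ = 0 := by rw [this, mul_zero]
  have hQS : (Q + P) * S = T * T := by
    rw [add_mul, hPS, add_zero, sub_eq_zero.mp hX]
  calc S = (Q + P)⁻¹ * ((Q + P) * S) := by
        rw [Matrix.nonsing_inv_mul_cancel_left _ _ hdet]
    _ = (Q + P)⁻¹ * T * T := by rw [hQS, mul_assoc]

/-- (Li) Convergence of `S_j` at a point, by compactness (`S_j` is bounded) and (Lh). -/
theorem S_tendsto {m : ℕ} {r K : ℝ} (hr : 1 < r) {Q T S : ℕ → Mat m} {Q₀ T₀ P : Mat m}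
    (hQ : ∀ j, (Q j).PosSemidef) (hT₀ : T₀.IsHermitian) (hP : P.IsHermitian) (hPP : P * P = P)
    (hQP : Q₀ * P = 0) (hTP : T₀ * P = 0) (hinv : (Q₀ + P).PosDef) (hQT : Q₀ * T₀ = T₀ * Q₀)
    (hS : ∀ j, (S j).PosSemidef) (hS' : ∀ j, (((K ^ 2 : ℝ) : ℂ) • Q j - S j).PosSemidef)
    (hQl : Tendsto Q atTop (𝓝 Q₀)) (hTl : Tendsto T atTop (𝓝 T₀))
    (hq : Tendsto (fun j => hsq (mpow (Q j) r * S j - T j * mpow (Q j) (r - 1) * T j))
      atTop (𝓝 0)) :
    Tendsto S atTop (𝓝 ((Q₀ + P)⁻¹ * T₀ * T₀)) := by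
  have hQ₀ : Q₀.PosSemidef := posSemidef_of_tendsto hQ hQl
  -- boundedness of `rtr (Q j)`
  have hcr : Continuous (rtr : Mat m → ℝ) := by
    unfold rtr
    fun_prop
  have hch : Continuous (hsq : Mat m → ℝ) := by
    unfold hsq
    fun_prop
  obtain ⟨M, hM⟩ : ∃ M : ℝ, ∀ j, rtr (Q j) ≤ M := by
    have h1 : Tendsto (fun j => rtr (Q j)) atTop (𝓝 (rtr Q₀)) := (hcr.tendsto Q₀).comp hQl
    obtain ⟨M, hM⟩ := h1.bddAbove_range
    exact ⟨M, fun j => hM ⟨j, rfl⟩⟩
  have hSrtr : ∀ j, 0 ≤ rtr (S j) ∧ rtr (S j) ≤ K ^ 2 * M := by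
    intro j
    have h1 : 0 ≤ (S j).trace := (hS j).trace_nonneg
    have h2 : 0 ≤ (((K ^ 2 : ℝ) : ℂ) • Q j - S j).trace := (hS' j).trace_nonneg
    rw [Matrix.trace_sub, Matrix.trace_smul] at h2
    have h1' := (Complex.le_def.mp h1).1
    have h2' := (Complex.le_def.mp h2).1
    refine ⟨by simpa [rtr] using h1', ?_⟩
    have h3 : rtr (S j) ≤ K ^ 2 * rtr (Q j) := by
      unfold rtr
      have : (0 : ℝ) ≤ (((K ^ 2 : ℝ) : ℂ) • (Q j).trace - (S j).trace).re := by simpa using h2'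
      rw [Complex.sub_re, smul_eq_mul, Complex.re_ofReal_mul] at this
      linarith
    exact h3.trans (mul_le_mul_of_nonneg_left (hM j) (sq_nonneg K))
  have hSent : ∀ j a b, ‖S j a b‖ ≤ K ^ 2 * M := by
    intro j a b
    have h1 : ‖S j a b‖ ^ 2 ≤ hsq (S j) := by
      unfold hsq
      calc ‖S j a b‖ ^ 2 ≤ ∑ b', ‖S j a b'‖ ^ 2 :=
            Finset.single_le_sum (f := fun b' => ‖S j a b'‖ ^ 2)
              (fun _ _ => by positivity) (Finset.mem_univ b)
        _ ≤ _ := Finset.single_le_sum (f := fun a' => ∑ b', ‖S j a' b'‖ ^ 2)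
              (fun _ _ => Finset.sum_nonneg fun _ _ => by positivity) (Finset.mem_univ a)
    have h2 := hsq_le_rtr_sq (hS j)
    have h3 : ‖S j a b‖ ^ 2 ≤ rtr (S j) ^ 2 := h1.trans h2
    have h4 : ‖S j a b‖ ≤ rtr (S j) := by
      exact (pow_le_pow_iff_left₀ (norm_nonneg _) (hSrtr j).1 two_ne_zero).mp h3
    exact h4.trans (hSrtr j).2
  -- compact set
  have hcomp : IsCompact {A : Mat m | ∀ a b, A a b ∈ Metric.closedBall (0 : ℂ) (K ^ 2 * M)} := by
    have : IsCompact (Set.pi Set.univ fun _ : Fin m => Set.pi Set.univ fun _ : Fin m =>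
        Metric.closedBall (0 : ℂ) (K ^ 2 * M)) :=
      isCompact_univ_pi fun _ => isCompact_univ_pi fun _ => isCompact_closedBall _ _
    have heq : {A : Mat m | ∀ a b, A a b ∈ Metric.closedBall (0 : ℂ) (K ^ 2 * M)} =
        Set.pi Set.univ fun _ : Fin m => Set.pi Set.univ fun _ : Fin m =>
          Metric.closedBall (0 : ℂ) (K ^ 2 * M) := by
      ext A
      exact ⟨fun h a _ b _ => h a b, fun h a b => h a trivial b trivial⟩
    rw [heq]
    exact this
  have : FirstCountableTopology (Mat m) :=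
    inferInstanceAs (FirstCountableTopology (Fin m → Fin m → ℂ))
  refine tendsto_of_subseq_tendsto fun ns hns => ?_
  obtain ⟨S₀, -, φ, hφ, hφl⟩ := hcomp.tendsto_subseq (x := fun n => S (ns n))
    (fun n a b => by simpa [Metric.mem_closedBall, dist_zero_right] using hSent (ns n) a b)
  refine ⟨φ, ?_⟩
  have hsub : Tendsto (fun n => ns (φ n)) atTop atTop := hns.comp hφ.tendsto_atTop
  have hSl : Tendsto (fun n => S (ns (φ n))) atTop (𝓝 S₀) := hφl
  have hQs : Tendsto (fun n => Q (ns (φ n))) atTop (𝓝 Q₀) := hQl.comp hsub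
  have hTs : Tendsto (fun n => T (ns (φ n))) atTop (𝓝 T₀) := hTl.comp hsub
  have hqs := hq.comp hsub
  have hS₀ : S₀.PosSemidef := posSemidef_of_tendsto (fun n => hS (ns (φ n))) hSl
  have hS₀' : (((K ^ 2 : ℝ) : ℂ) • Q₀ - S₀).PosSemidef :=
    posSemidef_of_tendsto (fun n => hS' (ns (φ n))) ((hQs.const_smul _).sub hSl)
  have hm1 : Tendsto (fun n => mpow (Q (ns (φ n))) r) atTop (𝓝 (mpow Q₀ r)) :=
    mpow_tendsto (by linarith) (fun n => hQ (ns (φ n))) hQs
  have hm2 : Tendsto (fun n => mpow (Q (ns (φ n))) (r - 1)) atTop (𝓝 (mpow Q₀ (r - 1))) :=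
    mpow_tendsto (by linarith) (fun n => hQ (ns (φ n))) hQs
  have hlim : Tendsto (fun n => mpow (Q (ns (φ n))) r * S (ns (φ n)) -
      T (ns (φ n)) * mpow (Q (ns (φ n))) (r - 1) * T (ns (φ n))) atTop
      (𝓝 (mpow Q₀ r * S₀ - T₀ * mpow Q₀ (r - 1) * T₀)) :=
    (hm1.mul hSl).sub ((hTs.mul hm2).mul hTs)
  have hz : hsq (mpow Q₀ r * S₀ - T₀ * mpow Q₀ (r - 1) * T₀) = 0 :=
    tendsto_nhds_unique ((hch.tendsto _).comp hlim) hqs
  have hzero : mpow Q₀ r * S₀ - T₀ * mpow Q₀ (r - 1) * T₀ = 0 := by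
    unfold hsq at hz
    rw [Finset.sum_eq_zero_iff_of_nonneg
      (fun _ _ => Finset.sum_nonneg fun _ _ => by positivity)] at hz
    ext a b
    have h1 := hz a (Finset.mem_univ a)
    rw [Finset.sum_eq_zero_iff_of_nonneg (fun _ _ => by positivity)] at h1
    have h2 := h1 b (Finset.mem_univ b)
    simpa using h2
  have hfin := S_eq hr hQ₀ hT₀ hP hPP hQP hTP hinv hQT hS₀ hS₀' (sub_eq_zero.mp hzero)
  rw [← hfin]
  exact hSl

end SLT
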