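import Crest.Agent.SLT.RigLa
import Crest.Agent.SLT.RigLe
import Crest.Agent.SLT.RigLb
import Crest.Agent.SLT.RigLg
import Crest.Agent.SLT.RigLh
import Crest.Agent.SLT.StabHS

/-!
# Row 332, S0516: the limit argument (LIM)
-/

set_option autoImplicit false

open MeasureTheory Filter Set
open scoped ComplexOrder Matrix Topology

namespace SLT

section aux

open scoped Matrix.Norms.Frobenius

theorem rlim_norm_le {N m : ℕ} {X : RMat N m} {c : ℝ} (hc : 0 ≤ c) (h : hsq X ≤ c ^ 2) :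
    ‖X‖ ≤ c := by
  rw [← norm_sq_eq_hsq] at h
  exact (sq_le_sq₀ (norm_nonneg _) hc).1 h

theorem rlim_norm_le_rtr {n : ℕ} {A : Mat n} (hA : A.PosSemidef) : ‖A‖ ≤ rtr A := by
  have h0 : 0 ≤ rtr A := by
    have := hA.trace_nonneg
    exact (Complex.le_def.1 this).1
  exact rlim_norm_le h0 (hsq_le_rtr_sq hA)

theorem rlim_rtr_smul {n : ℕ} (c : ℝ) (A : Mat n) : rtr ((c : ℂ) • A) = c * rtr A := by
  simp [rtr, Matrix.trace_smul]

theorem rlim_rtr_nonneg {n : ℕ} {A : Mat n} (hA : A.PosSemidef) : 0 ≤ rtr A :=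
  (Complex.le_def.1 hA.trace_nonneg).1

theorem rlim_rtr_add {n : ℕ} (A B : Mat n) : rtr (A + B) = rtr A + rtr B := by
  simp [rtr, Matrix.trace_add]

theorem rlim_rtr_sub {n : ℕ} (A B : Mat n) : rtr (A - B) = rtr A - rtr B := by
  simp [rtr, Matrix.trace_sub]

theorem rlim_norm_T_le {n : ℕ} {K : ℝ} (hK : 0 ≤ K) {Q T : Mat n} (hQ : Q.PosSemidef)
    (h1 : ((K : ℂ) • Q - T).PosSemidef) (h2 : ((K : ℂ) • Q + T).PosSemidef) :
    ‖T‖ ≤ 3 * K * rtr Q := by
  have e1 : ‖(K : ℂ) • Q + T‖ ≤ rtr ((K : ℂ) • Q + T) := rlim_norm_le_rtr h2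
  have e2 : 0 ≤ rtr ((K : ℂ) • Q - T) := rlim_rtr_nonneg h1
  rw [rlim_rtr_sub, rlim_rtr_smul] at e2
  rw [rlim_rtr_add, rlim_rtr_smul] at e1
  have e3 : ‖(K : ℂ) • Q‖ ≤ K * rtr Q := by
    rw [norm_smul]
    have : ‖(K : ℂ)‖ = K := by simp [abs_of_nonneg hK]
    rw [this]
    exact mul_le_mul_of_nonneg_left (rlim_norm_le_rtr hQ) hK
  have e4 : ‖T‖ ≤ ‖(K : ℂ) • Q + T‖ + ‖(K : ℂ) • Q‖ := by
    have : T = ((K : ℂ) • Q + T) - (K : ℂ) • Q := by abel
    calc ‖T‖ = ‖((K : ℂ) • Q + T) - (K : ℂ) • Q‖ := by rw [← this]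
      _ ≤ _ := norm_sub_le _ _
  linarith

theorem rlim_norm_S_le {n : ℕ} {K : ℝ} {Q S : Mat n} (hS : S.PosSemidef)
    (h : (((K ^ 2 : ℝ) : ℂ) • Q - S).PosSemidef) : ‖S‖ ≤ K ^ 2 * rtr Q := by
  have e1 := rlim_norm_le_rtr hS
  have e2 : 0 ≤ rtr (((K ^ 2 : ℝ) : ℂ) • Q - S) := rlim_rtr_nonneg h
  rw [rlim_rtr_sub, rlim_rtr_smul] at e2
  linarith

/-- powers are bounded on bounded sets of positive semidefinite matrices -/
theorem rlim_mpow_bdd {n : ℕ} {s : ℝ} (hs : 0 < s) (M : ℝ) :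
    ∃ C : ℝ, 0 ≤ C ∧ ∀ Q : Mat n, Q.PosSemidef → rtr Q ≤ M → ‖mpow Q s‖ ≤ C := by
  have : ProperSpace (Mat n) := FiniteDimensional.proper ℂ (Mat n)
  have : FirstCountableTopology (Mat n) :=
    inferInstanceAs (FirstCountableTopology (Fin n → Fin n → ℂ))
  let S : Set (Mat n) := {Q | Q.PosSemidef ∧ rtr Q ≤ M}
  have hrtr : Continuous fun Q : Mat n => rtr Q := by
    unfold rtr
    exact Complex.continuous_re.comp (Continuous.matrix_trace continuous_id)
  have hclosed : IsClosed S := by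
    have h1 : IsClosed {Q : Mat n | Q.PosSemidef} := by
      rw [← isSeqClosed_iff_isClosed]
      intro A A₀ hA hlim
      exact posSemidef_of_tendsto hA hlim
    exact h1.inter (isClosed_le hrtr continuous_const)
  have hbdd : Bornology.IsBounded S := by
    refine (Metric.isBounded_closedBall (x := (0 : Mat n)) (r := M)).subset ?_
    rintro Q ⟨h1, h2⟩
    simp only [Metric.mem_closedBall, dist_zero_right]
    exact (rlim_norm_le_rtr h1).trans h2
  have hcomp : IsCompact S := Metric.isCompact_of_isClosed_isBounded hclosed hbdd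
  have hcont : ContinuousOn (fun Q : Mat n => mpow Q s) S := by
    rw [continuousOn_iff_continuous_domRestrict, continuous_iff_continuousAt]
    intro x
    exact mpow_tendsto hs (A := fun i : S => (i : Mat n)) (fun i => i.2.1)
      continuous_subtype_val.continuousAt
  obtain ⟨C, hC⟩ := hcomp.exists_bound_of_continuousOn hcont
  exact ⟨max C 0, le_max_right _ _, fun Q h1 h2 => (hC Q ⟨h1, h2⟩).trans (le_max_left _ _)⟩

theorem rlim_hasDerivAt_rtr {m : ℕ} {Q : ℝ → Mat m} {Q' : Mat m} {x : ℝ}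
    (h : HasDerivAt Q Q' x) : HasDerivAt (fun x => rtr (Q x)) (rtr Q') x := by
  have h1 : ∀ i, HasDerivAt (fun x => Q x i i) (Q' i i) x := fun i =>
    (hasDerivAt_pi.1 (hasDerivAt_pi.1 h i) i)
  have h2 : HasDerivAt (fun x => ∑ i, Q x i i) (∑ i, Q' i i) x := by
    simpa using HasDerivAt.fun_sum (u := Finset.univ) (fun i _ => h1 i)
  have h3 : ∀ A : Mat m, rtr A = Complex.reCLM (∑ i, A i i) := by
    intro A; simp [rtr, Matrix.trace, Complex.reCLM_apply]
  simp only [h3]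
  exact Complex.reCLM.hasFDerivAt.comp_hasDerivAt x h2

/-- All estimates on `[-L, L]`. -/
theorem rlim_stage {m : ℕ} {r K : ℝ} {B : ℝ → ℝ} {W : ℝ → Mat m} (hr : 1 < r) (hK : 0 ≤ K)
    (D : (j : ℕ) → MomData m r K B W ((1 / 4 : ℝ) ^ j))
    (hloc : ∀ L : ℝ, ∃ M : ℝ, ∀ j x, |x| ≤ L → rtr ((D j).Q x) ≤ M) {L : ℝ} (hL : 0 ≤ L) :
    ∃ (C M : ℝ) (ε : ℕ → ℝ), 0 ≤ C ∧ Tendsto ε atTop (𝓝 0) ∧
      (∀ j x, |x| ≤ L → rtr ((D j).Q x) ≤ M) ∧
      (∀ j x, |x| ≤ L → ‖(2 : ℂ) • (D j).T x‖ ≤ C) ∧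
      (∀ j x, |x| ≤ L → ‖(2 : ℂ) • (D j).S x -
          ((r / (r + 1) : ℝ) : ℂ) • mpow ((D j).Q x) (r + 1)‖ ≤ C) ∧
      (∀ j x y, |x| ≤ L → |y| ≤ L →
        ‖(D j).Q y - (D j).Q x - ∫ t in x..y, (2 : ℂ) • (D j).T t‖ ≤ ε j) ∧
      (∀ j x y, |x| ≤ L → |y| ≤ L →
        ‖(D j).T y - (D j).T x - ∫ t in x..y, ((2 : ℂ) • (D j).S t -
          ((r / (r + 1) : ℝ) : ℂ) • mpow ((D j).Q t) (r + 1))‖ ≤ ε j) ∧
      (∀ j x y, |x| ≤ L → |y| ≤ L → ‖(D j).Q y - (D j).Q x‖ ≤ C * |y - x| + ε j) ∧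
      (∀ j x y, |x| ≤ L → |y| ≤ L → ‖(D j).T y - (D j).T x‖ ≤ C * |y - x| + ε j) := by
  have hr1 : 0 < r + 1 := by linarith
  obtain ⟨M, hM⟩ := hloc L
  obtain ⟨Cp, hCp0, hCp⟩ := rlim_mpow_bdd (n := m) (s := r + 1) (by linarith) M
  have hM0 : 0 ≤ M := (rlim_rtr_nonneg ((D 0).Q_psd 0)).trans (hM 0 0 (by simpa using hL))
  set C : ℝ := 2 * (3 * K * M) + (2 * (K ^ 2 * M) + |r / (r + 1)| * Cp) with hCdef
  have hC0 : 0 ≤ C := by positivity
  set b : ℝ := |B M| with hb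
  have hb0 : 0 ≤ b := abs_nonneg _
  set ε : ℕ → ℝ := fun j => Real.sqrt (2 * L * b) * (1 / 2 : ℝ) ^ j with hε
  have hεt : Tendsto ε atTop (𝓝 0) := by
    have : Tendsto (fun j : ℕ => (1 / 2 : ℝ) ^ j) atTop (𝓝 0) :=
      tendsto_pow_atTop_nhds_zero_of_lt_one (by norm_num) (by norm_num)
    simpa [hε] using this.const_mul (Real.sqrt (2 * L * b))
  have hTc : ∀ j, Continuous (D j).T := fun j =>
    continuous_iff_continuousAt.2 fun x => ((D j).hT x).continuousAt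
  have hQc : ∀ j, Continuous (D j).Q := fun j =>
    continuous_iff_continuousAt.2 fun x => ((D j).hQ x).continuousAt
  have hT2 : ∀ j x, |x| ≤ L → ‖(2 : ℂ) • (D j).T x‖ ≤ C := by
    intro j x hx
    have h1 : ‖(D j).T x‖ ≤ 3 * K * rtr ((D j).Q x) :=
      rlim_norm_T_le hK ((D j).Q_psd x) ((D j).T_le x) ((D j).T_ge x)
    have h2 : 3 * K * rtr ((D j).Q x) ≤ 3 * K * M :=
      mul_le_mul_of_nonneg_left (hM j x hx) (by positivity)
    rw [norm_smul]
    have h3 : ‖(2 : ℂ)‖ = 2 := by simp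
    rw [h3]
    have h4 : 0 ≤ 2 * (K ^ 2 * M) + |r / (r + 1)| * Cp := by positivity
    linarith
  have hS2 : ∀ j x, |x| ≤ L → ‖(2 : ℂ) • (D j).S x -
          ((r / (r + 1) : ℝ) : ℂ) • mpow ((D j).Q x) (r + 1)‖ ≤ C := by
    intro j x hx
    have h1 : ‖(D j).S x‖ ≤ K ^ 2 * rtr ((D j).Q x) :=
      rlim_norm_S_le ((D j).S_psd x) ((D j).S_le x)
    have h2 : K ^ 2 * rtr ((D j).Q x) ≤ K ^ 2 * M :=
      mul_le_mul_of_nonneg_left (hM j x hx) (by positivity)
    have h3 := hCp ((D j).Q x) ((D j).Q_psd x) (hM j x hx)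
    refine (norm_sub_le _ _).trans ?_
    rw [norm_smul, norm_smul]
    have h4 : ‖(2 : ℂ)‖ = 2 := by simp
    have h5 : ‖((r / (r + 1) : ℝ) : ℂ)‖ = |r / (r + 1)| := by
      rw [Complex.norm_real, Real.norm_eq_abs]
    rw [h4, h5]
    have h6 : |r / (r + 1)| * ‖mpow ((D j).Q x) (r + 1)‖ ≤ |r / (r + 1)| * Cp :=
      mul_le_mul_of_nonneg_left h3 (abs_nonneg _)
    have h7 : 0 ≤ 2 * (3 * K * M) := by positivity
    linarith
  have hgc : ∀ j, Continuous fun t => ((2 : ℂ) • (D j).S t -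
          ((r / (r + 1) : ℝ) : ℂ) • mpow ((D j).Q t) (r + 1)) := by
    intro j
    have h1 : Continuous fun t => (2 : ℂ) • (D j).S t :=
      (continuous_const_smul (2 : ℂ)).comp (D j).S_cont
    have h2 : Continuous fun t => mpow ((D j).Q t) (r + 1) :=
      mpow_continuous hr1 (D j).Q_psd (hQc j)
    have h3 : Continuous fun t => ((r / (r + 1) : ℝ) : ℂ) • mpow ((D j).Q t) (r + 1) :=
      (continuous_const_smul (((r / (r + 1) : ℝ) : ℂ))).comp h2
    exact h1.sub h3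
  have hIQ : ∀ j x y, |x| ≤ L → |y| ≤ L →
        ‖(D j).Q y - (D j).Q x - ∫ t in x..y, (2 : ℂ) • (D j).T t‖ ≤ ε j := by
    intro j x y hx hy
    have h2c : Continuous fun t => (2 : ℂ) • (D j).T t :=
      (continuous_const_smul (2 : ℂ)).comp (hTc j)
    refine integral_approx (f := (D j).Q) (f' := (D j).dQ) (g := fun t => (2 : ℂ) • (D j).T t)
      (e := (D j).e) hb0 hL (D j).hQ (D j).dQ_cont h2c (D j).e_nonneg
      (D j).e_int (D j).e_le ?_ hx hy
    intro z hz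
    rw [norm_sq_eq_hsq]
    exact ((D j).errQ M z (hM j z hz)).trans
      (mul_le_mul_of_nonneg_right (le_abs_self _) ((D j).e_nonneg z))
  have hIT : ∀ j x y, |x| ≤ L → |y| ≤ L →
        ‖(D j).T y - (D j).T x - ∫ t in x..y, ((2 : ℂ) • (D j).S t -
          ((r / (r + 1) : ℝ) : ℂ) • mpow ((D j).Q t) (r + 1))‖ ≤ ε j := by
    intro j x y hx hy
    refine integral_approx (f := (D j).T) (f' := (D j).dT) (g := fun t => ((2 : ℂ) • (D j).S t -
          ((r / (r + 1) : ℝ) : ℂ) • mpow ((D j).Q t) (r + 1)))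
      (e := (D j).e) hb0 hL (D j).hT (D j).dT_cont (hgc j) (D j).e_nonneg
      (D j).e_int (D j).e_le ?_ hx hy
    intro z hz
    rw [norm_sq_eq_hsq]
    exact ((D j).errT M z (hM j z hz)).trans
      (mul_le_mul_of_nonneg_right (le_abs_self _) ((D j).e_nonneg z))
  have hmem : ∀ {x y t : ℝ}, |x| ≤ L → |y| ≤ L → t ∈ Set.uIoc x y → |t| ≤ L := by
    intro x y t hx hy ht
    rw [abs_le] at *
    rcases Set.mem_uIoc.1 ht with h | h
    · exact ⟨by linarith [h.1], by linarith [h.2]⟩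
    · exact ⟨by linarith [h.1], by linarith [h.2]⟩
  refine ⟨C, M, ε, hC0, hεt, hM, hT2, hS2, hIQ, hIT, ?_, ?_⟩
  · intro j x y hx hy
    have h1 := hIQ j x y hx hy
    have h2 : ‖∫ t in x..y, (2 : ℂ) • (D j).T t‖ ≤ C * |y - x| :=
      intervalIntegral.norm_integral_le_of_norm_le_const fun t ht => hT2 j t (hmem hx hy ht)
    have h3 : (D j).Q y - (D j).Q x = ((D j).Q y - (D j).Q x - ∫ t in x..y, (2 : ℂ) • (D j).T t) +
        ∫ t in x..y, (2 : ℂ) • (D j).T t := by abel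
    rw [h3]
    refine (norm_add_le _ _).trans ?_
    linarith
  · intro j x y hx hy
    have h1 := hIT j x y hx hy
    have h2 : ‖∫ t in x..y, ((2 : ℂ) • (D j).S t -
          ((r / (r + 1) : ℝ) : ℂ) • mpow ((D j).Q t) (r + 1))‖ ≤ C * |y - x| :=
      intervalIntegral.norm_integral_le_of_norm_le_const fun t ht => hS2 j t (hmem hx hy ht)
    have h3 : (D j).T y - (D j).T x = ((D j).T y - (D j).T x - ∫ t in x..y, ((2 : ℂ) • (D j).S t -
          ((r / (r + 1) : ℝ) : ℂ) • mpow ((D j).Q t) (r + 1))) +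
        ∫ t in x..y, ((2 : ℂ) • (D j).S t -
          ((r / (r + 1) : ℝ) : ℂ) • mpow ((D j).Q t) (r + 1)) := by abel
    rw [h3]
    refine (norm_add_le _ _).trans ?_
    linarith

theorem rlim_continuous_rtr {n : ℕ} : Continuous fun Q : Mat n => rtr Q := by
  unfold rtr
  exact Complex.continuous_re.comp (Continuous.matrix_trace continuous_id)

theorem rlim_continuous_hsq {n m : ℕ} : Continuous fun Q : RMat n m => hsq Q := by
  unfold hsq
  refine continuous_finsetSum _ fun i _ => continuous_finsetSum _ fun j _ => ?_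
  exact ((continuous_apply j).comp (continuous_apply i)).norm.pow 2

theorem rlim_inv_continuous {m : ℕ} {A : ℝ → Mat m} (hA : ∀ x, (A x).PosDef)
    (h : Continuous A) : Continuous fun x => (A x)⁻¹ := by
  have h1 : ∀ x, (A x).det ≠ 0 := fun x => ((hA x).det_pos).ne'
  have h2 : (fun x => (A x)⁻¹) = fun x => ((A x).det)⁻¹ • (A x).adjugate := by
    funext x
    rw [Matrix.inv_def, Ring.inverse_eq_inv']
  rw [h2]
  exact (Continuous.inv₀ (Continuous.matrix_det h) h1).smul (Continuous.matrix_adjugate h)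

/-- FTC packaging: an integral equation with continuous integrand gives the derivative. -/
theorem rlim_hasDerivAt_of_integral {E : Type*} [NormedAddCommGroup E] [NormedSpace ℝ E]
    [CompleteSpace E] {f g : ℝ → E} (hg : Continuous g)
    (h : ∀ x y, f y - f x = ∫ t in x..y, g t) (x : ℝ) : HasDerivAt f (g x) x := by
  have h1 : f = fun y => f 0 + ∫ t in (0 : ℝ)..y, g t := by
    funext y
    rw [← h 0 y]; abel
  rw [h1]
  have h2 : HasDerivAt (fun y => ∫ t in (0 : ℝ)..y, g t) (g x) x :=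
    intervalIntegral.integral_hasDerivAt_right (hg.intervalIntegrable _ _)
      hg.aestronglyMeasurable.stronglyMeasurableAtFilter hg.continuousAt
  exact h2.const_add (f 0)

/-- a function with `‖f y - f x‖ ≤ C_L |y - x|` on every `[-L, L]` is continuous -/
theorem rlim_continuous_of_lip {E : Type*} [NormedAddCommGroup E] {f : ℝ → E}
    (h : ∀ L : ℝ, 0 ≤ L → ∃ C : ℝ, ∀ x y, |x| ≤ L → |y| ≤ L → ‖f y - f x‖ ≤ C * |y - x|) :
    Continuous f := by
  rw [continuous_iff_continuousAt]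
  intro x
  obtain ⟨C, hC⟩ := h (|x| + 1) (by positivity)
  rw [ContinuousAt, tendsto_iff_norm_sub_tendsto_zero]
  have h1 : Tendsto (fun y => C * |y - x|) (𝓝 x) (𝓝 0) := by
    have : Tendsto (fun y => C * |y - x|) (𝓝 x) (𝓝 (C * |x - x|)) :=
      (Continuous.tendsto (by fun_prop) x)
    simpa using this
  refine squeeze_zero' (Eventually.of_forall fun y => norm_nonneg _) ?_ h1
  have h2 : ∀ᶠ y in 𝓝 x, |y| < |x| + 1 :=
    (continuous_abs.tendsto x).eventually (gt_mem_nhds (by linarith))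
  filter_upwards [h2] with y hy
  exact hC x y (by linarith) hy.le

/-- LIM: a sequence of moment data with deficits `≤ 4^{-j}` has a limit satisfying the closed
system `LimitODE`.

Proof. (1) `e_j → 0` a.e. (`ae_tendsto_zero`), so `dY → 0` a.e. (it is `≥ 0`), so
`Q_j^r → W` and `Q_j → W^(1/r)` a.e. (`tendsto_of_dY`). (2) `local_bound` for
`g_j = tr Q_j`: `tr Q_j ≤ M_L` on `[-L,L]`. (3) `T_j, S_j, Q_j^(r+1)` are then bounded on
`[-L,L]`; `integral_approx` for `Q_j` and `T_j`; `tendsto_of_ae` for `Q_j`, `tendsto_of_average`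
for `T_j` (with `2 T_j`): both converge at every point. (4) `integral_limit`: `Q(y) - Q(x) =
∫ 2T`, `T` is locally Lipschitz hence continuous, `Q' = 2T`. (5) `comm` gives `[Q^r,T] = 0` at
a.e. point, hence everywhere by continuity, hence `[Q,T] = 0` (`comm_of_mpow_comm`).
(6) `exists_kernel_projection`. (7) `S_tendsto` a.e.; `integral_limit` for `T`:
`T(y) - T(x) = ∫ (2 (Q+P)⁻¹T² - r/(r+1) Q^(r+1))`, continuous integrand (inverse is continuous on
invertible matrices), so `T' = ...` at every point. -/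
theorem limit_of_mom {m : ℕ} {r K : ℝ} {B : ℝ → ℝ} {W : ℝ → Mat m} (hr : 1 < r) (hK : 0 ≤ K)
    (hWp : ∀ x, (W x).PosSemidef)
    (D : (j : ℕ) → MomData m r K B W ((1 / 4 : ℝ) ^ j)) : Nonempty (LimitODE m r W) := by
  have hr0 : (0 : ℝ) < r := by linarith
  have hr1 : (0 : ℝ) < r + 1 := by linarith
  have hrm : (0 : ℝ) < r - 1 := by linarith
  have hq0 : (0 : ℝ) < 1 / r := by positivity
  have hq1 : 1 / r < 1 := by rw [div_lt_one hr0]; exact hr
  have hqr : 1 / (1 / r) = r := one_div_one_div r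
  have he : ∀ᵐ x, Tendsto (fun j => (D j).e x) atTop (𝓝 0) :=
    ae_tendsto_zero (fun j x => (D j).e_nonneg x) (fun j => (D j).e_int) (fun j => (D j).e_le)
  have hY : ∀ᵐ x, Tendsto (fun j => dY (1 / r) (W x) ((D j).Q x)) atTop (𝓝 0) := by
    filter_upwards [he] with x hx
    refine squeeze_zero (fun j => dY_nonneg hq0 hq1 (hWp x) ((D j).Q_psd x))
      (fun j => (D j).young x) ?_
    simpa using hx.const_mul (B 0)
  have hW' : ∀ᵐ x, Tendsto (fun j => mpow ((D j).Q x) r) atTop (𝓝 (W x)) ∧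
      Tendsto (fun j => (D j).Q x) atTop (𝓝 (mpow (W x) (1 / r))) := by
    filter_upwards [hY] with x hx
    have := tendsto_of_dY hq0 hq1 (hWp x) (fun j => (D j).Q_psd x) hx
    rwa [hqr] at this
  obtain ⟨x₀, hx₀⟩ := hW'.exists
  have hbd : ∃ C, ∀ j, rtr ((D j).Q x₀) ≤ C := by
    have h1 : Tendsto (fun j => rtr ((D j).Q x₀)) atTop (𝓝 (rtr (mpow (W x₀) (1 / r)))) :=
      (rlim_continuous_rtr.tendsto _).comp hx₀.2
    obtain ⟨C, hC⟩ := h1.bddAbove_range
    exact ⟨C, fun j => hC ⟨j, rfl⟩⟩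
  obtain ⟨C₁, hC₁⟩ := hbd
  have hloc : ∀ L : ℝ, ∃ M : ℝ, ∀ j x, |x| ≤ L → rtr ((D j).Q x) ≤ M := by
    intro L
    refine local_bound (g := fun j x => rtr ((D j).Q x)) (g' := fun j x => rtr ((D j).dQ x))
      (e := fun j => (D j).e) (A := 2 * K + 1) (B := |B 0|) (C := C₁) (x₀ := x₀) (by positivity)
      (abs_nonneg _) (fun j x => rlim_hasDerivAt_rtr ((D j).hQ x))
      (fun j => rlim_continuous_rtr.comp (D j).dQ_cont) (fun j x => (D j).e_nonneg x)
      (fun j => (D j).e_int) ?_ ?_ (fun j x => rlim_rtr_nonneg ((D j).Q_psd x)) hC₁ L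
    · intro j
      exact ((D j).e_le).trans (pow_le_one₀ (by norm_num) (by norm_num))
    · intro j x
      refine ((D j).trQ x).trans ?_
      have := mul_le_mul_of_nonneg_right (le_abs_self (B 0)) ((D j).e_nonneg x)
      linarith
  have hTc : ∀ j, Continuous (D j).T := fun j =>
    continuous_iff_continuousAt.2 fun x => ((D j).hT x).continuousAt
  have hQc : ∀ j, Continuous (D j).Q := fun j =>
    continuous_iff_continuousAt.2 fun x => ((D j).hQ x).continuousAt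
  have h2Tc : ∀ j, Continuous fun t => (2 : ℂ) • (D j).T t := fun j =>
    (continuous_const_smul (2 : ℂ)).comp (hTc j)
  have hgc : ∀ j, Continuous fun t => ((2 : ℂ) • (D j).S t -
          ((r / (r + 1) : ℝ) : ℂ) • mpow ((D j).Q t) (r + 1)) := by
    intro j
    have h1 : Continuous fun t => (2 : ℂ) • (D j).S t :=
      (continuous_const_smul (2 : ℂ)).comp (D j).S_cont
    have h2 : Continuous fun t => mpow ((D j).Q t) (r + 1) :=
      mpow_continuous hr1 (D j).Q_psd (hQc j)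
    have h3 : Continuous fun t => ((r / (r + 1) : ℝ) : ℂ) • mpow ((D j).Q t) (r + 1) :=
      (continuous_const_smul (((r / (r + 1) : ℝ) : ℂ))).comp h2
    exact h1.sub h3
  have n2 : ‖(2 : ℂ)‖ = 2 := by simp
  -- pointwise limits
  have hQlim : ∀ x, ∃ l, Tendsto (fun j => (D j).Q x) atTop (𝓝 l) := by
    intro x
    obtain ⟨C, M, ε, hC, hε, -, -, -, -, -, hQL, -⟩ :=
      rlim_stage hr hK D hloc (L := |x| + 1) (by positivity)
    exact tendsto_of_ae hε hC hQL (hW'.mono fun y hy => ⟨_, hy.2⟩) (lt_add_one _)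
  have hTlim : ∀ x, ∃ l, Tendsto (fun j => (D j).T x) atTop (𝓝 l) := by
    intro x
    obtain ⟨C, M, ε, hC, hε, -, -, -, hIQ, -, -, hTL⟩ :=
      rlim_stage hr hK D hloc (L := |x| + 1) (by positivity)
    have hε0 : ∀ j, 0 ≤ ε j := fun j =>
      (norm_nonneg _).trans (hIQ j 0 0 (by simp; positivity) (by simp; positivity))
    have hε2 : Tendsto (fun j => 2 * ε j) atTop (𝓝 0) := by simpa using hε.const_mul 2
    obtain ⟨l, hl⟩ := tendsto_of_average (Q := fun j => (D j).Q)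
      (T := fun j t => (2 : ℂ) • (D j).T t) (ε := fun j => 2 * ε j) hε2 (L := |x| + 1)
      (C := 2 * C) (by positivity) h2Tc
      (fun j y z hy hz => (hIQ j y z hy hz).trans (by linarith [hε0 j]))
      (fun j y z hy hz => by
        rw [← smul_sub, norm_smul, n2]
        have := hTL j y z hy hz
        nlinarith)
      (fun y _ => hQlim y) (lt_add_one _)
    refine ⟨(1 / 2 : ℂ) • l, ?_⟩
    have h3 := hl.const_smul (1 / 2 : ℂ)
    refine h3.congr fun j => ?_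
    rw [smul_smul]; norm_num
  choose Q₀ hQ₀ using hQlim
  choose T₀ hT₀ using hTlim
  have hQpsd : ∀ x, (Q₀ x).PosSemidef := fun x =>
    posSemidef_of_tendsto (fun j => (D j).Q_psd x) (hQ₀ x)
  have hTle : ∀ x, ((K : ℂ) • Q₀ x - T₀ x).PosSemidef := fun x =>
    posSemidef_of_tendsto (fun j => (D j).T_le x) (((hQ₀ x).const_smul (K : ℂ)).sub (hT₀ x))
  have hTge : ∀ x, ((K : ℂ) • Q₀ x + T₀ x).PosSemidef := fun x =>
    posSemidef_of_tendsto (fun j => (D j).T_ge x) (((hQ₀ x).const_smul (K : ℂ)).add (hT₀ x))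
  have hTherm : ∀ x, (T₀ x).IsHermitian := by
    intro x
    have h1 := (hTge x).isHermitian
    have h2 : ((K : ℂ) • Q₀ x).IsHermitian := by
      have := (hQpsd x).isHermitian
      unfold Matrix.IsHermitian at *
      rw [Matrix.conjTranspose_smul, this]
      simp
    have h3 : T₀ x = ((K : ℂ) • Q₀ x + T₀ x) - (K : ℂ) • Q₀ x := by abel
    rw [h3]
    exact h1.sub h2
  -- continuity
  have hQLip : ∀ L : ℝ, 0 ≤ L → ∃ C : ℝ, ∀ x y, |x| ≤ L → |y| ≤ L →
      ‖Q₀ y - Q₀ x‖ ≤ C * |y - x| := by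
    intro L hL
    obtain ⟨C, M, ε, hC, hε, -, -, -, -, -, hQL, -⟩ := rlim_stage hr hK D hloc hL
    refine ⟨C, fun x y hx hy => ?_⟩
    have h1 : Tendsto (fun j => ‖(D j).Q y - (D j).Q x‖) atTop (𝓝 ‖Q₀ y - Q₀ x‖) :=
      ((hQ₀ y).sub (hQ₀ x)).norm
    have h2 : Tendsto (fun j => C * |y - x| + ε j) atTop (𝓝 (C * |y - x| + 0)) :=
      tendsto_const_nhds.add hε
    rw [add_zero] at h2
    exact le_of_tendsto_of_tendsto h1 h2 (Eventually.of_forall fun j => hQL j x y hx hy)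
  have hTLip : ∀ L : ℝ, 0 ≤ L → ∃ C : ℝ, ∀ x y, |x| ≤ L → |y| ≤ L →
      ‖T₀ y - T₀ x‖ ≤ C * |y - x| := by
    intro L hL
    obtain ⟨C, M, ε, hC, hε, -, -, -, -, -, -, hTL⟩ := rlim_stage hr hK D hloc hL
    refine ⟨C, fun x y hx hy => ?_⟩
    have h1 : Tendsto (fun j => ‖(D j).T y - (D j).T x‖) atTop (𝓝 ‖T₀ y - T₀ x‖) :=
      ((hT₀ y).sub (hT₀ x)).norm
    have h2 : Tendsto (fun j => C * |y - x| + ε j) atTop (𝓝 (C * |y - x| + 0)) :=
      tendsto_const_nhds.add hε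
    rw [add_zero] at h2
    exact le_of_tendsto_of_tendsto h1 h2 (Eventually.of_forall fun j => hTL j x y hx hy)
  have hQ₀c : Continuous Q₀ := rlim_continuous_of_lip hQLip
  have hT₀c : Continuous T₀ := rlim_continuous_of_lip hTLip
  have h2T₀c : Continuous fun t => (2 : ℂ) • T₀ t := (continuous_const_smul (2 : ℂ)).comp hT₀c
  -- Q' = 2T
  have hQint : ∀ x y, Q₀ y - Q₀ x = ∫ t in x..y, (2 : ℂ) • T₀ t := by
    intro x y
    obtain ⟨C, M, ε, hC, hε, -, hTb, -, hIQ, -, -, -⟩ :=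
      rlim_stage hr hK D hloc (L := max |x| |y|) (le_max_of_le_left (abs_nonneg _))
    exact integral_limit (f := fun j => (D j).Q) (g := fun j t => (2 : ℂ) • (D j).T t)
      (g₀ := fun t => (2 : ℂ) • T₀ t) hε h2Tc hIQ hTb
      (fun z _ => hQ₀ z) (Eventually.of_forall fun z _ => (hT₀ z).const_smul (2 : ℂ))
      (le_max_left _ _) (le_max_right _ _)
  have hdQ : ∀ x, HasDerivAt Q₀ ((2 : ℂ) • T₀ x) x := fun x =>
    rlim_hasDerivAt_of_integral (f := Q₀) (g := fun t => (2 : ℂ) • T₀ t) h2T₀c hQint x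
  -- commutation
  have hcommr : ∀ x, mpow (Q₀ x) r * T₀ x = T₀ x * mpow (Q₀ x) r := by
    have hmc : Continuous fun x => mpow (Q₀ x) r := mpow_continuous hr0 hQpsd hQ₀c
    have h1 : Continuous fun x => hsq (mpow (Q₀ x) r * T₀ x - T₀ x * mpow (Q₀ x) r) :=
      rlim_continuous_hsq.comp ((hmc.matrix_mul hT₀c).sub (hT₀c.matrix_mul hmc))
    have h2 : (fun x => hsq (mpow (Q₀ x) r * T₀ x - T₀ x * mpow (Q₀ x) r)) =ᵐ[volume]
        fun _ => (0 : ℝ) := by
      filter_upwards [he] with x hx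
      obtain ⟨M, hM⟩ := hloc |x|
      have h3 : Tendsto (fun j => mpow ((D j).Q x) r) atTop (𝓝 (mpow (Q₀ x) r)) :=
        mpow_tendsto hr0 (fun j => (D j).Q_psd x) (hQ₀ x)
      have h4 : Tendsto (fun j => hsq (mpow ((D j).Q x) r * (D j).T x -
          (D j).T x * mpow ((D j).Q x) r)) atTop
          (𝓝 (hsq (mpow (Q₀ x) r * T₀ x - T₀ x * mpow (Q₀ x) r))) :=
        (rlim_continuous_hsq.tendsto _).comp ((h3.mul (hT₀ x)).sub ((hT₀ x).mul h3))
      have h5 : Tendsto (fun j => B M * (D j).e x) atTop (𝓝 0) := by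
        simpa using hx.const_mul (B M)
      have h6 : hsq (mpow (Q₀ x) r * T₀ x - T₀ x * mpow (Q₀ x) r) ≤ 0 :=
        le_of_tendsto_of_tendsto h4 h5
          (Eventually.of_forall fun j => (D j).comm M x (hM j x le_rfl))
      exact le_antisymm h6 (hsq_nonneg _)
    have h7 := (h1.ae_eq_iff_eq volume continuous_const).1 h2
    intro x
    have h8 : hsq (mpow (Q₀ x) r * T₀ x - T₀ x * mpow (Q₀ x) r) = 0 := congrFun h7 x
    have h9 : ‖mpow (Q₀ x) r * T₀ x - T₀ x * mpow (Q₀ x) r‖ ≤ 0 :=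
      rlim_norm_le le_rfl (by rw [h8]; simp)
    exact sub_eq_zero.1 (norm_le_zero_iff.1 h9)
  have hcomm : ∀ x, Q₀ x * T₀ x = T₀ x * Q₀ x := fun x =>
    comm_of_mpow_comm hr0 (hQpsd x) (hcommr x)
  -- kernel projection
  obtain ⟨P, hPh, hPP, hQP, hinv, hTP⟩ := exists_kernel_projection hQpsd hdQ hTle hTge
  -- limit of S
  have hSlim : ∀ᵐ x, Tendsto (fun j => (D j).S x) atTop (𝓝 ((Q₀ x + P)⁻¹ * T₀ x * T₀ x)) := by
    filter_upwards [he] with x hx
    obtain ⟨M, hM⟩ := hloc |x|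
    refine S_tendsto hr (fun j => (D j).Q_psd x) (hTherm x) hPh hPP (hQP x) (hTP x) (hinv x)
      (hcomm x) (fun j => (D j).S_psd x) (fun j => (D j).S_le x) (hQ₀ x) (hT₀ x) ?_
    have h5 : Tendsto (fun j => B M * (D j).e x) atTop (𝓝 0) := by
      simpa using hx.const_mul (B M)
    exact squeeze_zero (fun j => hsq_nonneg _)
      (fun j => (D j).quad M x (hM j x le_rfl)) h5
  have hgc₀ : Continuous fun t => (2 : ℂ) • ((Q₀ t + P)⁻¹ * T₀ t * T₀ t) -
      ((r / (r + 1) : ℝ) : ℂ) • mpow (Q₀ t) (r + 1) := by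
    have h1 : Continuous fun t => (Q₀ t + P)⁻¹ :=
      rlim_inv_continuous hinv (hQ₀c.add continuous_const)
    have h2 : Continuous fun t => (Q₀ t + P)⁻¹ * T₀ t * T₀ t :=
      (h1.matrix_mul hT₀c).matrix_mul hT₀c
    have h3 : Continuous fun t => mpow (Q₀ t) (r + 1) := mpow_continuous hr1 hQpsd hQ₀c
    exact ((continuous_const_smul (2 : ℂ)).comp h2).sub
      ((continuous_const_smul (((r / (r + 1) : ℝ) : ℂ))).comp h3)
  have hTint : ∀ x y, T₀ y - T₀ x = ∫ t in x..y, ((2 : ℂ) • ((Q₀ t + P)⁻¹ * T₀ t * T₀ t) -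
      ((r / (r + 1) : ℝ) : ℂ) • mpow (Q₀ t) (r + 1)) := by
    intro x y
    obtain ⟨C, M, ε, hC, hε, -, -, hSb, -, hIT, -, -⟩ :=
      rlim_stage hr hK D hloc (L := max |x| |y|) (le_max_of_le_left (abs_nonneg _))
    refine integral_limit (f := fun j => (D j).T) (g := fun j t => ((2 : ℂ) • (D j).S t -
          ((r / (r + 1) : ℝ) : ℂ) • mpow ((D j).Q t) (r + 1)))
      (g₀ := fun t => (2 : ℂ) • ((Q₀ t + P)⁻¹ * T₀ t * T₀ t) -
      ((r / (r + 1) : ℝ) : ℂ) • mpow (Q₀ t) (r + 1)) hε hgc hIT hSb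
      (fun z _ => hT₀ z) ?_ (le_max_left _ _) (le_max_right _ _)
    filter_upwards [hSlim] with z hz _
    exact (hz.const_smul (2 : ℂ)).sub
      ((mpow_tendsto hr1 (fun j => (D j).Q_psd z) (hQ₀ z)).const_smul _)
  have hdT : ∀ x, HasDerivAt T₀ ((2 : ℂ) • ((Q₀ x + P)⁻¹ * T₀ x * T₀ x) -
      ((r / (r + 1) : ℝ) : ℂ) • mpow (Q₀ x) (r + 1)) x := fun x =>
    rlim_hasDerivAt_of_integral (f := T₀)
      (g := fun t => (2 : ℂ) • ((Q₀ t + P)⁻¹ * T₀ t * T₀ t) -
        ((r / (r + 1) : ℝ) : ℂ) • mpow (Q₀ t) (r + 1)) hgc₀ hTint x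
  refine ⟨{ Q := Q₀, T := T₀, P := P, P_herm := hPh, P_idem := hPP, Q_psd := hQpsd,
            T_herm := hTherm, QP := hQP, TP := hTP, inv := hinv, comm := hcomm, hQ := hdQ,
            hT := hdT, W_eq := ?_ }⟩
  filter_upwards [hW'] with x hx
  exact tendsto_nhds_unique hx.1 (mpow_tendsto hr0 (fun j => (D j).Q_psd x) (hQ₀ x))

end aux

end SLT
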