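import Crest.Agent.SLT.RigMom
import Crest.Agent.SLT.RigLim
import Crest.Agent.SLT.RigF5
import Crest.Agent.SLT.RigChain

/-!
# Row 332, S0516: `chain_stable` (interface to the proof of S0515) and the 'only if' direction
-/

set_option autoImplicit false

open MeasureTheory Filter Set
open scoped ComplexOrder Matrix Topology

namespace SLT

open Crest.MathPhysics.LiebThirring

/-- The 'only if' direction of S0516. -/
theorem only_if {γ : ℝ} (hγ : 1 / 2 < γ) (hγ' : γ < 3 / 2) {m : ℕ} (hm : 1 ≤ m)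
    (W : ℝ → Mat m) (hW : ∀ i j, Measurable fun x => W x i j)
    (hWp : ∀ x, (W x).PosSemidef) (hWi : Integrable fun x => tracePow (W x) (γ + 1 / 2))
    (H : ∀ ε : ℝ, 0 < ε → ∃ (n : ℕ) (φ : Fin n → ℝ → Vec m), IsTrialFamily φ ∧
        sharpConst γ * (∫ x, tracePow (W x) (γ + 1 / 2)) - ε < negMoment (energyMatrix W φ) γ) :
    ∃ (U : Matrix.unitaryGroup (Fin m) ℂ) (a c : Fin m → ℝ), (∀ i, 0 ≤ a i) ∧
      ∀ᵐ x : ℝ, W x = (U : Mat m) *
        Matrix.diagonal (fun i => ((soliton (γ - 1 / 2)⁻¹ (a i) (c i) x : ℝ) : ℂ)) *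
          star (U : Mat m) := by
  obtain ⟨K, C₀, Cf, hK, hC₀, hch⟩ := chain_stable hγ hγ' hm W hW hWp hWi
  have hq : (0 : ℝ) < γ - 1 / 2 := by linarith
  have hq1 : γ - 1 / 2 < 1 := by linarith
  obtain ⟨B, hB⟩ := mom_of_chain (W := W) (Cf := Cf) hq hq1 hK hC₀
  have hD : ∀ j : ℕ, Nonempty (MomData m (1 / (γ - 1 / 2)) K B W ((1 / 4 : ℝ) ^ j)) := by
    intro j
    have hδ : (0 : ℝ) < (1 / 4 : ℝ) ^ j := by positivity
    have hδ1 : ((1 / 4 : ℝ) ^ j) ≤ 1 := pow_le_one₀ (by norm_num) (by norm_num)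
    obtain ⟨n, φ, hφ, hlt⟩ := H ((1 / 4 : ℝ) ^ j / 2) (by positivity)
    obtain ⟨D⟩ := hch _ hδ hδ1 n φ hφ hlt
    exact hB _ D
  have hr : 1 < 1 / (γ - 1 / 2) := by
    rw [lt_div_iff₀ hq]; linarith
  obtain ⟨D⟩ := limit_of_mom hr hK hWp (fun j => (hD j).some)
  have := soliton_of_limitODE hr D
  simpa [one_div] using this

end SLT
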