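import Mathlib
import Crest.Prelude.Def_LiebThirring
import Crest.Agent.SLT.Defs
import Crest.Agent.SLT.Const
/-!
Row 332, S0516, "if" direction: truncated soliton ground states as trial functions.
Main statement: `SLT.sol_if`. Also useful: `SLT.cfc_conj_diagonal`, `SLT.cfc_conj`, `SLT.cfc_diagonal_ofReal`,
`SLT.tracePow_conj_diagonal`, `SLT.negMoment_diagonal`.
-/
set_option autoImplicit false
open MeasureTheory Set
open scoped ComplexOrder Matrix ContDiff
open Crest.MathPhysics.LiebThirring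

namespace SLT

lemma spectrum_diagonal_subset {n : ℕ} (d : Fin n → ℝ) :
    spectrum ℝ (Matrix.diagonal (fun i => ((d i : ℝ) : ℂ))) ⊆ Set.range d := by
  intro r hr
  by_contra hcon
  apply hr
  rw [spectrum.mem_resolventSet_iff]
  rw [show algebraMap ℝ (Mat n) r = Matrix.diagonal (fun _ => ((r : ℝ) : ℂ)) from by
    rw [Matrix.algebraMap_eq_diagonal]; rfl]
  rw [Matrix.diagonal_sub, Matrix.isUnit_diagonal, Pi.isUnit_iff]
  intro i
  rw [isUnit_iff_ne_zero, sub_ne_zero]
  intro h
  exact hcon ⟨i, (Complex.ofReal_injective h).symm⟩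

lemma isSelfAdjoint_diagonal_ofReal {n : ℕ} (d : Fin n → ℝ) :
    IsSelfAdjoint (Matrix.diagonal (fun i => ((d i : ℝ) : ℂ))) := by
  rw [isSelfAdjoint_iff, Matrix.star_eq_conjTranspose, Matrix.diagonal_conjTranspose]
  congr 1
  funext i
  simp

lemma cfc_diagonal_ofReal {n : ℕ} (f : ℝ → ℝ) (d : Fin n → ℝ) :
    cfc f (Matrix.diagonal (fun i => ((d i : ℝ) : ℂ))) =
      Matrix.diagonal (fun i => ((f (d i) : ℝ) : ℂ)) := by
  classical
  set P : Polynomial ℝ := Lagrange.interpolate (Finset.univ.image d) id f with hP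
  have hPe : ∀ i, P.eval (d i) = f (d i) := by
    intro i
    have := Lagrange.eval_interpolate_at_node (s := Finset.univ.image d) (v := id) f
      (Set.injOn_id _) (i := d i) (by simp)
    simpa [hP] using this
  have h1 : cfc f (Matrix.diagonal (fun i => ((d i : ℝ) : ℂ))) =
      cfc P.eval (Matrix.diagonal (fun i => ((d i : ℝ) : ℂ))) := by
    apply cfc_congr
    intro x hx
    obtain ⟨i, rfl⟩ := spectrum_diagonal_subset d hx
    exact (hPe i).symm
  rw [h1, cfc_polynomial P _ (isSelfAdjoint_diagonal_ofReal d)]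
  have h2 : Matrix.diagonal (fun i => ((d i : ℝ) : ℂ)) =
      (Matrix.diagonalAlgHom ℝ : (Fin n → ℂ) →ₐ[ℝ] Mat n) (fun i => ((d i : ℝ) : ℂ)) := rfl
  rw [h2, Polynomial.aeval_algHom_apply]
  rw [Matrix.diagonalAlgHom_apply]
  congr 1
  funext i
  have h3 := Polynomial.aeval_algHom_apply (Pi.evalAlgHom ℝ (fun _ : Fin n => ℂ) i)
    (fun i => ((d i : ℝ) : ℂ)) P
  simp only [Pi.evalAlgHom_apply] at h3
  rw [← h3, ← hPe i]
  exact Polynomial.aeval_algebraMap_apply_eq_algebraMap_eval (A := ℂ) (d i) P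

lemma isSelfAdjoint_conj {n : ℕ} (U : Matrix.unitaryGroup (Fin n) ℂ) {A : Mat n}
    (hA : IsSelfAdjoint A) :
    IsSelfAdjoint ((U : Mat n) * A * star (U : Mat n)) := by
  rw [isSelfAdjoint_iff]
  simp only [star_mul, star_star, hA.star_eq, mul_assoc]

lemma cfc_conj {n : ℕ} (f : ℝ → ℝ) (U : Matrix.unitaryGroup (Fin n) ℂ) {A : Mat n}
    (hA : IsSelfAdjoint A) :
    cfc f ((U : Mat n) * A * star (U : Mat n)) = (U : Mat n) * cfc f A * star (U : Mat n) := by
  have h := StarAlgHomClass.map_cfc (S := ℂ) (R := ℝ) (p := IsSelfAdjoint) (q := IsSelfAdjoint)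
    (Unitary.conjStarAlgAut ℂ (Mat n) U) f A
    (by
      have : (spectrum ℝ A).Finite := Matrix.finite_real_spectrum
      exact this.continuousOn _)
    (by
      have : (fun x : Mat n => (U : Mat n) * x * star (U : Mat n)) =
        (Unitary.conjStarAlgAut ℂ (Mat n) U) := by funext x; rfl
      rw [← this]
      fun_prop) hA (isSelfAdjoint_conj U hA)
  exact h.symm

lemma cfc_conj_diagonal {n : ℕ} (f : ℝ → ℝ) (U : Matrix.unitaryGroup (Fin n) ℂ) (d : Fin n → ℝ) :
    cfc f ((U : Mat n) * Matrix.diagonal (fun i => ((d i : ℝ) : ℂ)) * star (U : Mat n)) =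
      (U : Mat n) * Matrix.diagonal (fun i => ((f (d i) : ℝ) : ℂ)) * star (U : Mat n) := by
  rw [cfc_conj f U (isSelfAdjoint_diagonal_ofReal d), cfc_diagonal_ofReal]

lemma tracePow_conj_diagonal {n : ℕ} (U : Matrix.unitaryGroup (Fin n) ℂ) (d : Fin n → ℝ) (p : ℝ) :
    tracePow ((U : Mat n) * Matrix.diagonal (fun i => ((d i : ℝ) : ℂ)) * star (U : Mat n)) p =
      ∑ i, d i ^ p := by
  unfold tracePow
  rw [cfc_conj_diagonal, Matrix.trace_mul_cycle, (Matrix.mem_unitaryGroup_iff').1 U.2, one_mul,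
    Matrix.trace_diagonal]
  simp

lemma negMoment_diagonal {n : ℕ} (d : Fin n → ℝ) (γ : ℝ) :
    negMoment (Matrix.diagonal (fun i => ((d i : ℝ) : ℂ))) γ = ∑ i, (max (-(d i)) 0) ^ γ := by
  unfold negMoment
  rw [cfc_diagonal_ofReal, Matrix.trace_diagonal]
  simp

/-! ### The scalar trial function -/

/-- `s(x) = cosh(r a (x-c))^(-1/r)`, the ground state of the soliton. -/
noncomputable def gs (r a c x : ℝ) : ℝ := Real.cosh (r * a * (x - c)) ^ (-(1 / r))

lemma gs_pos (r a c x : ℝ) : 0 < gs r a c x := Real.rpow_pos_of_pos (Real.cosh_pos _) _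

lemma gs_le_one {r : ℝ} (hr : 0 < r) (a c x : ℝ) : gs r a c x ≤ 1 := by
  unfold gs
  apply Real.rpow_le_one_of_one_le_of_nonpos (Real.one_le_cosh _)
  have : 0 < 1 / r := by positivity
  linarith

lemma contDiff_gs (r a c : ℝ) : ContDiff ℝ ∞ (gs r a c) := by
  unfold gs
  apply ContDiff.rpow_const_of_ne
  · apply Real.contDiff_cosh.comp
    fun_prop
  · intro x; exact (Real.cosh_pos _).ne'

/-- logarithmic derivative `f = -a tanh (r a (x-c))`. -/
noncomputable def lf (r a c x : ℝ) : ℝ :=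
  -a * (Real.sinh (r * a * (x - c)) / Real.cosh (r * a * (x - c)))

lemma hasDerivAt_gs {r : ℝ} (hr : 0 < r) (a c x : ℝ) :
    HasDerivAt (gs r a c) (lf r a c x * gs r a c x) x := by
  have h1 : HasDerivAt (fun x : ℝ => r * a * (x - c)) (r * a) x := by
    simpa using ((hasDerivAt_id x).sub_const c).const_mul (r * a)
  have h2 := (h1.cosh).rpow_const (p := -(1 / r)) (Or.inl (Real.cosh_pos _).ne')
  refine HasDerivAt.congr_deriv (f := gs r a c) h2 ?_
  unfold lf gs
  have hc : 0 < Real.cosh (r * a * (x - c)) := Real.cosh_pos _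
  rw [Real.rpow_sub_one hc.ne']
  field_simp

lemma hasDerivAt_lf (r a c x : ℝ) :
    HasDerivAt (lf r a c) (a ^ 2 - soliton r a c x - lf r a c x ^ 2) x := by
  have h1 : HasDerivAt (fun x : ℝ => r * a * (x - c)) (r * a) x := by
    simpa using ((hasDerivAt_id x).sub_const c).const_mul (r * a)
  have hc : 0 < Real.cosh (r * a * (x - c)) := Real.cosh_pos _
  have h2 := ((h1.sinh).div (h1.cosh) hc.ne').const_mul (-a)
  refine HasDerivAt.congr_deriv (f := lf r a c) h2 ?_
  unfold lf soliton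
  have h3 := Real.cosh_sq (r * a * (x - c))
  have hs : Real.sinh (r * a * (x - c)) ^ 2 = Real.cosh (r * a * (x - c)) ^ 2 - 1 := by linarith
  have e1 : Real.cosh (r * a * (x - c)) * (r * a) * Real.cosh (r * a * (x - c)) -
      Real.sinh (r * a * (x - c)) * (Real.sinh (r * a * (x - c)) * (r * a)) = r * a := by
    have : Real.cosh (r * a * (x - c)) * (r * a) * Real.cosh (r * a * (x - c)) -
      Real.sinh (r * a * (x - c)) * (Real.sinh (r * a * (x - c)) * (r * a)) =
      (r * a) * (Real.cosh (r * a * (x - c)) ^ 2 - Real.sinh (r * a * (x - c)) ^ 2) := by ring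
    rw [this, hs]; ring
  rw [e1, mul_pow, div_pow, hs]
  field_simp
  ring

lemma continuous_soliton (r a c : ℝ) : Continuous (soliton r a c) := by
  unfold soliton
  apply Continuous.div
  · fun_prop
  · fun_prop
  · intro x
    have := Real.cosh_pos (r * a * (x - c))
    positivity

lemma exists_scalar_trial {r : ℝ} (hr : 0 < r) (a c : ℝ) {δ : ℝ} (hδ : 0 < δ) :
    ∃ ψ : ℝ → ℝ, ContDiff ℝ ∞ ψ ∧ HasCompactSupport ψ ∧ ∫ x, ψ x ^ 2 = 1 ∧
      ∫ x, (deriv ψ x ^ 2 - soliton r a c x * ψ x ^ 2) ≤ -a ^ 2 + δ := by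
  -- the cut-off
  let B : ContDiffBump (0 : ℝ) := ⟨1, 2, one_pos, one_lt_two⟩
  have hBc : Continuous (deriv B) := (B.contDiff (n := 1)).continuous_deriv le_rfl
  have hBs : HasCompactSupport (deriv B) := B.hasCompactSupport.deriv
  set κ : ℝ := ∫ x in (-1 : ℝ)..1, gs r a c x ^ 2 with hκ
  have hκ0 : 0 < κ := by
    apply intervalIntegral.intervalIntegral_pos_of_pos_on
    · exact ((contDiff_gs r a c).continuous.pow 2).intervalIntegrable _ _
    · intro x _; exact pow_pos (gs_pos _ _ _ _) 2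
    · norm_num
  set D : ℝ := ∫ x, deriv B x ^ 2 with hD
  have hD0 : 0 ≤ D := integral_nonneg fun x => sq_nonneg _
  set L : ℝ := max 1 (D / (κ * δ)) with hL
  have hL1 : 1 ≤ L := le_max_left _ _
  have hL0 : 0 < L := by linarith
  have hLD : D / (κ * δ) ≤ L := le_max_right _ _
  set χ : ℝ → ℝ := fun x => B (L⁻¹ * x) with hχ
  have hχd : ∀ x, HasDerivAt χ (L⁻¹ * deriv B (L⁻¹ * x)) x := by
    intro x
    have h1 : HasDerivAt (fun x : ℝ => L⁻¹ * x) L⁻¹ x := by
      simpa using (hasDerivAt_id x).const_mul L⁻¹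
    have h2 : HasDerivAt B (deriv B (L⁻¹ * x)) (L⁻¹ * x) :=
      ((B.contDiff (n := 1)).differentiable one_ne_zero).differentiableAt.hasDerivAt
    have := h2.comp x h1
    rw [mul_comm] at this
    exact this
  have hχs : ContDiff ℝ ∞ χ := B.contDiff.comp (by fun_prop)
  have hχc : HasCompactSupport χ := by
    have := B.hasCompactSupport.comp_homeomorph (Homeomorph.mulLeft₀ L⁻¹ (by positivity))
    exact this
  have hχ1 : ∀ x ∈ Icc (-1 : ℝ) 1, χ x = 1 := by
    intro x hx
    apply B.one_of_mem_closedBall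
    rw [Metric.mem_closedBall, dist_zero_right, Real.norm_eq_abs, abs_mul, abs_inv,
      abs_of_pos hL0]
    have : |x| ≤ 1 := abs_le.2 hx
    show L⁻¹ * |x| ≤ 1
    calc L⁻¹ * |x| ≤ 1 * 1 := by
          apply mul_le_mul _ this (abs_nonneg _) zero_le_one
          exact inv_le_one_of_one_le₀ hL1
      _ = 1 := one_mul 1
  -- the unnormalised trial function
  set u : ℝ → ℝ := fun x => χ x * gs r a c x with hu
  have huS : ContDiff ℝ ∞ u := hχs.mul (contDiff_gs r a c)
  have huC : HasCompactSupport u := hχc.mul_right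
  have hud : ∀ x, HasDerivAt u (L⁻¹ * deriv B (L⁻¹ * x) * gs r a c x +
      χ x * (lf r a c x * gs r a c x)) x := fun x => (hχd x).mul (hasDerivAt_gs hr a c x)
  have hu2i : Integrable (fun x => u x ^ 2) := by
    apply Continuous.integrable_of_hasCompactSupport
    · exact huS.continuous.pow 2
    · have : (fun x => u x ^ 2) = fun x => u x * u x := by funext x; ring
      rw [this]; exact huC.mul_right
  set N : ℝ := ∫ x, u x ^ 2 with hN
  have hNκ : κ ≤ N := by
    rw [hκ, intervalIntegral.integral_of_le (by norm_num), hN]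
    calc ∫ x in Ioc (-1 : ℝ) 1, gs r a c x ^ 2 = ∫ x in Ioc (-1 : ℝ) 1, u x ^ 2 := by
          apply setIntegral_congr_fun measurableSet_Ioc
          intro x hx
          simp only [hu]
          rw [hχ1 x ⟨hx.1.le, hx.2⟩, one_mul]
      _ ≤ ∫ x, u x ^ 2 :=
          setIntegral_le_integral hu2i (Filter.Eventually.of_forall fun x => sq_nonneg _)
  have hN0 : 0 < N := lt_of_lt_of_le hκ0 hNκ
  have hlfc : Continuous (lf r a c) :=
    continuous_iff_continuousAt.2 fun x => (hasDerivAt_lf r a c x).continuousAt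
  have hgsc : Continuous (gs r a c) := (contDiff_gs r a c).continuous
  have hsolc : Continuous (soliton r a c) := continuous_soliton r a c
  have hχcont : Continuous χ := hχs.continuous
  have hB' : Continuous fun x => deriv B (L⁻¹ * x) := hBc.comp (by fun_prop)
  have hucont : Continuous u := huS.continuous
  have hderivu : deriv u = fun x => L⁻¹ * deriv B (L⁻¹ * x) * gs r a c x +
      χ x * (lf r a c x * gs r a c x) := by funext x; exact (hud x).deriv
  have hud' : Continuous (deriv u) := by rw [hderivu]; fun_prop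
  have huC' : HasCompactSupport (deriv u) := huC.deriv
  -- the energy identity
  set v : ℝ → ℝ := fun x => L⁻¹ * deriv B (L⁻¹ * x) * gs r a c x with hv
  have hvc : Continuous v := by fun_prop
  have hBLs : HasCompactSupport fun x => deriv B (L⁻¹ * x) :=
    hBs.comp_homeomorph (Homeomorph.mulLeft₀ L⁻¹ (by positivity))
  have hvs : HasCompactSupport v := by
    have : v = fun x => deriv B (L⁻¹ * x) * (L⁻¹ * gs r a c x) := by
      funext x; simp only [hv]; ring
    rw [this]; exact hBLs.mul_right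
  have hv2i : Integrable (fun x => v x ^ 2) := by
    have : (fun x => v x ^ 2) = fun x => v x * v x := by funext x; ring
    rw [this]
    exact Continuous.integrable_of_hasCompactSupport (hvc.mul hvc) hvs.mul_right
  have hid : ∀ x, deriv u x ^ 2 - soliton r a c x * u x ^ 2 =
      -a ^ 2 * u x ^ 2 + v x ^ 2 +
        ((a ^ 2 - soliton r a c x - lf r a c x ^ 2) * u x ^ 2 +
          lf r a c x * (2 * u x * deriv u x)) := by
    intro x
    have h1 : deriv u x = v x + lf r a c x * u x := by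
      rw [hderivu]; simp only [hv, hu]; ring
    rw [h1]; ring
  have hG : ∀ x, HasDerivAt (fun x => lf r a c x * u x ^ 2)
      ((a ^ 2 - soliton r a c x - lf r a c x ^ 2) * u x ^ 2 +
          lf r a c x * (2 * u x * deriv u x)) x := by
    intro x
    have h1 : HasDerivAt u (deriv u x) x :=
      (huS.differentiable (by simp)).differentiableAt.hasDerivAt
    have h2 := (hasDerivAt_lf r a c x).mul (h1.pow 2)
    refine h2.congr_deriv ?_
    simp
  have hGc : HasCompactSupport (fun x => lf r a c x * u x ^ 2) := by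
    have : (fun x => lf r a c x * u x ^ 2) = fun x => u x * (lf r a c x * u x) := by
      funext x; ring
    rw [this]; exact huC.mul_right
  have hGi : Integrable (fun x => lf r a c x * u x ^ 2) :=
    Continuous.integrable_of_hasCompactSupport (by fun_prop) hGc
  have hG'c : Continuous fun x => ((a ^ 2 - soliton r a c x - lf r a c x ^ 2) * u x ^ 2 +
          lf r a c x * (2 * u x * deriv u x)) := by fun_prop
  have hG's : HasCompactSupport fun x => ((a ^ 2 - soliton r a c x - lf r a c x ^ 2) * u x ^ 2 +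
          lf r a c x * (2 * u x * deriv u x)) := by
    have : (fun x => ((a ^ 2 - soliton r a c x - lf r a c x ^ 2) * u x ^ 2 +
          lf r a c x * (2 * u x * deriv u x))) = fun x => u x *
          ((a ^ 2 - soliton r a c x - lf r a c x ^ 2) * u x +
          lf r a c x * (2 * deriv u x)) := by
      funext x; ring
    rw [this]; exact huC.mul_right
  have hG'i : Integrable fun x => ((a ^ 2 - soliton r a c x - lf r a c x ^ 2) * u x ^ 2 +
          lf r a c x * (2 * u x * deriv u x)) := hG'c.integrable_of_hasCompactSupport hG's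
  have hG0 := integral_eq_zero_of_hasDerivAt_of_integrable hG hG'i hGi
  have hEn : ∫ x, (deriv u x ^ 2 - soliton r a c x * u x ^ 2) = -a ^ 2 * N + ∫ x, v x ^ 2 := by
    simp only [hid]
    have hi1 : Integrable (fun x => -a ^ 2 * u x ^ 2 + v x ^ 2) :=
      (hu2i.const_mul (-a ^ 2)).add hv2i
    rw [integral_add hi1 hG'i, hG0, add_zero,
      integral_add (hu2i.const_mul _) hv2i, integral_const_mul]
  have hvD : ∫ x, v x ^ 2 ≤ L⁻¹ * D := by
    have h1 : ∫ x, v x ^ 2 ≤ ∫ x, L⁻¹ ^ 2 * (deriv B (L⁻¹ * x)) ^ 2 := by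
      apply integral_mono hv2i
      · apply Integrable.const_mul
        have : (fun x => deriv B (L⁻¹ * x) ^ 2) =
            fun x => deriv B (L⁻¹ * x) * deriv B (L⁻¹ * x) := by funext x; ring
        rw [this]
        exact Continuous.integrable_of_hasCompactSupport (hB'.mul hB') hBLs.mul_right
      · intro x
        simp only [hv]
        have h2 := gs_le_one hr a c x
        have h3 := gs_pos r a c x
        have h4 : gs r a c x ^ 2 ≤ 1 := by nlinarith
        calc (L⁻¹ * deriv B (L⁻¹ * x) * gs r a c x) ^ 2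
            = (L⁻¹ ^ 2 * deriv B (L⁻¹ * x) ^ 2) * gs r a c x ^ 2 := by ring
          _ ≤ (L⁻¹ ^ 2 * deriv B (L⁻¹ * x) ^ 2) * 1 := by
              apply mul_le_mul_of_nonneg_left h4; positivity
          _ = _ := mul_one _
    have h2 := Measure.integral_comp_mul_left (fun x => deriv B x ^ 2) L⁻¹
    rw [inv_inv, abs_of_pos hL0, smul_eq_mul] at h2
    rw [integral_const_mul, h2] at h1
    calc _ ≤ _ := h1
      _ = L⁻¹ * D := by rw [← hD]; field_simp
  -- normalise
  have hsN : 0 < Real.sqrt N := Real.sqrt_pos.2 hN0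
  refine ⟨fun x => (Real.sqrt N)⁻¹ * u x, contDiff_const.mul huS, huC.mul_left, ?_, ?_⟩
  · simp only [mul_pow]
    rw [integral_const_mul, ← hN, inv_pow, Real.sq_sqrt hN0.le, inv_mul_cancel₀ hN0.ne']
  · have h1 : ∀ x, deriv (fun x => (Real.sqrt N)⁻¹ * u x) x ^ 2 -
        soliton r a c x * ((Real.sqrt N)⁻¹ * u x) ^ 2 =
        N⁻¹ * (deriv u x ^ 2 - soliton r a c x * u x ^ 2) := by
      intro x
      have h2 : deriv (fun x => (Real.sqrt N)⁻¹ * u x) x = (Real.sqrt N)⁻¹ * deriv u x := by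
        rw [deriv_const_mul _ (huS.differentiable (by simp)).differentiableAt]
      rw [h2, mul_pow, mul_pow, inv_pow, Real.sq_sqrt hN0.le]
      ring
    simp only [h1]
    rw [integral_const_mul, hEn]
    have h3 : L⁻¹ * D ≤ δ * N := by
      have : D ≤ L * (κ * δ) := by
        rwa [div_le_iff₀ (by positivity)] at hLD
      calc L⁻¹ * D ≤ L⁻¹ * (L * (κ * δ)) := by
            apply mul_le_mul_of_nonneg_left this; positivity
        _ = κ * δ := by field_simp
        _ ≤ N * δ := by apply mul_le_mul_of_nonneg_right hNκ hδ.le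
        _ = δ * N := mul_comm _ _
    rw [inv_mul_le_iff₀ hN0]
    nlinarith

/-! ### The matrix trial family -/

/-- the `k`-th column of `U`. -/
noncomputable def ucol {m : ℕ} (U : Matrix.unitaryGroup (Fin m) ℂ) (k : Fin m) : Vec m :=
  WithLp.toLp 2 (fun j => (U : Mat m) j k)

lemma inner_ucol {m : ℕ} (U : Matrix.unitaryGroup (Fin m) ℂ) (k l : Fin m) :
    inner ℂ (ucol U k) (ucol U l) = if k = l then (1 : ℂ) else 0 := by
  have h := congrFun (congrFun ((Matrix.mem_unitaryGroup_iff').1 U.2) k) l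
  rw [Matrix.mul_apply, Matrix.one_apply] at h
  rw [← h, PiLp.inner_apply]
  apply Finset.sum_congr rfl
  intro j _
  simp only [ucol, RCLike.inner_apply, Matrix.star_apply]
  rw [mul_comm]
  rfl

lemma conj_diagonal_ucol {m : ℕ} (U : Matrix.unitaryGroup (Fin m) ℂ) (d : Fin m → ℂ) (k : Fin m) :
    Matrix.toEuclideanLin ((U : Mat m) * Matrix.diagonal d * star (U : Mat m)) (ucol U k) =
      d k • ucol U k := by
  have h1 : (star (U : Mat m)).mulVec (fun j => (U : Mat m) j k) = Pi.single k 1 := by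
    have h := (Matrix.mem_unitaryGroup_iff').1 U.2
    funext i
    have h2 := congrFun (congrFun h i) k
    rw [Matrix.mul_apply] at h2
    rw [Matrix.mulVec, dotProduct, h2, Matrix.one_apply, Pi.single_apply]
  have h2 : ((U : Mat m) * Matrix.diagonal d * star (U : Mat m)).mulVec (fun j => (U : Mat m) j k) =
      d k • (fun j => (U : Mat m) j k) := by
    rw [← Matrix.mulVec_mulVec, h1, ← Matrix.mulVec_mulVec, Matrix.diagonal_mulVec_single]
    funext j
    simp [Matrix.mulVec_single, mul_comm]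
  ext j
  have h3 := congrFun h2 j
  simpa [ucol, Matrix.toEuclideanLin, Matrix.toLpLin_apply, mul_assoc] using h3

/-- the trial family `φ_k = ψ_k U e_k`. -/
noncomputable def tfam {m : ℕ} (U : Matrix.unitaryGroup (Fin m) ℂ) (ψ : Fin m → ℝ → ℝ)
    (k : Fin m) (x : ℝ) : Vec m := ((ψ k x : ℝ) : ℂ) • ucol U k

lemma hasDerivAt_tfam {m : ℕ} (U : Matrix.unitaryGroup (Fin m) ℂ) {ψ : Fin m → ℝ → ℝ}
    (k : Fin m) (hψ : Differentiable ℝ (ψ k)) (x : ℝ) :
    HasDerivAt (tfam U ψ k) (((deriv (ψ k) x : ℝ) : ℂ) • ucol U k) x :=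
  ((hψ x).hasDerivAt.ofReal_comp).smul_const _

lemma inner_tfam {m : ℕ} (U : Matrix.unitaryGroup (Fin m) ℂ) (s t : ℝ) (k l : Fin m) :
    inner ℂ ((s : ℂ) • ucol U k) ((t : ℂ) • ucol U l) =
      if k = l then ((s * t : ℝ) : ℂ) else 0 := by
  rw [inner_smul_left, inner_smul_right, inner_ucol]
  split_ifs with h
  · simp
  · simp

lemma isTrialFamily_tfam {m : ℕ} (U : Matrix.unitaryGroup (Fin m) ℂ) {ψ : Fin m → ℝ → ℝ}
    (h1 : ∀ k, ContDiff ℝ ∞ (ψ k)) (h2 : ∀ k, HasCompactSupport (ψ k))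
    (h3 : ∀ k, ∫ x, ψ k x ^ 2 = 1) : IsTrialFamily (tfam U ψ) := by
  refine ⟨fun k => ?_, fun k => ?_, fun k l => ?_⟩
  · exact (Complex.ofRealCLM.contDiff.comp (h1 k)).smul contDiff_const
  · apply (h2 k).mono
    intro x hx
    rw [Function.mem_support] at hx ⊢
    intro h
    apply hx
    simp [tfam, h]
  · simp only [tfam, inner_tfam]
    split_ifs with h
    · subst h
      rw [integral_complex_ofReal]
      have := h3 k
      simp only [pow_two] at this
      rw [this]; norm_num
    · simp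

lemma energyMatrix_tfam {m : ℕ} (U : Matrix.unitaryGroup (Fin m) ℂ) {ψ : Fin m → ℝ → ℝ}
    (h1 : ∀ k, ContDiff ℝ ∞ (ψ k)) (w : Fin m → ℝ → ℝ) (W : ℝ → Mat m)
    (hW : ∀ᵐ x : ℝ, W x = (U : Mat m) * Matrix.diagonal (fun i => ((w i x : ℝ) : ℂ)) *
      star (U : Mat m)) :
    energyMatrix W (tfam U ψ) =
      Matrix.diagonal (fun k => ((∫ x, (deriv (ψ k) x ^ 2 - w k x * ψ k x ^ 2) : ℝ) : ℂ)) := by
  ext k l
  unfold energyMatrix
  rw [Matrix.of_apply, Matrix.diagonal_apply]
  have h4 : ∀ᵐ x : ℝ, (inner ℂ (deriv (tfam U ψ k) x) (deriv (tfam U ψ l) x) -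
      inner ℂ (tfam U ψ k x) (Matrix.toEuclideanLin (W x) (tfam U ψ l x))) =
      if k = l then ((deriv (ψ k) x ^ 2 - w k x * ψ k x ^ 2 : ℝ) : ℂ) else 0 := by
    filter_upwards [hW] with x hx
    rw [(hasDerivAt_tfam U k ((h1 k).differentiable (by simp)) x).deriv,
      (hasDerivAt_tfam U l ((h1 l).differentiable (by simp)) x).deriv, inner_tfam, hx]
    have h5 : Matrix.toEuclideanLin ((U : Mat m) * Matrix.diagonal (fun i => ((w i x : ℝ) : ℂ)) *
        star (U : Mat m)) (tfam U ψ l x) = ((ψ l x * w l x : ℝ) : ℂ) • ucol U l := by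
      unfold tfam
      rw [map_smul, conj_diagonal_ucol, smul_smul]
      push_cast; rfl
    rw [h5]
    unfold tfam
    rw [inner_tfam]
    split_ifs with h
    · subst h
      push_cast; ring
    · simp
  rw [integral_congr_ae h4]
  split_ifs with h
  · rw [integral_complex_ofReal]
  · simp

/-- **The 'if' direction of S0516.** -/
theorem sol_if (γ : ℝ) (hγ : 1 / 2 < γ) (m : ℕ)
    (W : ℝ → Matrix (Fin m) (Fin m) ℂ)
    (h : ∃ (U : Matrix.unitaryGroup (Fin m) ℂ) (a c : Fin m → ℝ), (∀ i, 0 ≤ a i) ∧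
        ∀ᵐ x : ℝ, W x = (U : Matrix (Fin m) (Fin m) ℂ) *
          Matrix.diagonal (fun i => ((soliton (γ - 1 / 2)⁻¹ (a i) (c i) x : ℝ) : ℂ)) *
            star (U : Matrix (Fin m) (Fin m) ℂ)) (ε : ℝ) (hε : 0 < ε) :
    ∃ (n : ℕ) (φ : Fin n → ℝ → Vec m), IsTrialFamily φ ∧
        sharpConst γ * (∫ x, tracePow (W x) (γ + 1 / 2)) - ε < negMoment (energyMatrix W φ) γ := by
  obtain ⟨U, a, c, ha, hW⟩ := h
  have hr : 0 < (γ - 1 / 2)⁻¹ := inv_pos.2 (by linarith)
  set r := (γ - 1 / 2)⁻¹ with hrdef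
  -- the right-hand side
  have hsolnn : ∀ i x, 0 ≤ soliton r (a i) (c i) x := by
    intro i x
    unfold soliton
    have := Real.cosh_pos (r * a i * (x - c i))
    positivity
  have hint : ∀ i, Integrable fun x => soliton r (a i) (c i) x ^ (γ + 1 / 2) := by
    intro i
    rcases (ha i).eq_or_lt with h0 | h0
    · have : (fun x => soliton r (a i) (c i) x ^ (γ + 1 / 2)) = fun _ => 0 := by
        funext x
        rw [← h0]
        simp only [soliton]
        rw [show (r + 1) * (0 : ℝ) ^ 2 / Real.cosh (r * 0 * (x - c i)) ^ 2 = 0 by simp]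
        exact Real.zero_rpow (by linarith)
      rw [this]
      exact integrable_zero _ _ _
    · by_contra hcon
      have h1 := sharpConst_mul_integral_soliton hγ (ha i) (c i)
      rw [integral_undef hcon, mul_zero] at h1
      have h2 : 0 < a i ^ (2 * γ) := Real.rpow_pos_of_pos h0 _
      linarith
  have hRHS : sharpConst γ * (∫ x, tracePow (W x) (γ + 1 / 2)) = ∑ i, a i ^ (2 * γ) := by
    have h1 : ∫ x, tracePow (W x) (γ + 1 / 2) =
        ∫ x, ∑ i, soliton r (a i) (c i) x ^ (γ + 1 / 2) := by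
      apply integral_congr_ae
      filter_upwards [hW] with x hx
      rw [hx, tracePow_conj_diagonal]
    rw [h1, integral_finsetSum _ (fun i _ => hint i), Finset.mul_sum]
    apply Finset.sum_congr rfl
    intro i _
    exact sharpConst_mul_integral_soliton hγ (ha i) (c i)
  rw [hRHS]
  -- choose δ_i
  have hδ : ∀ i, ∃ δ : ℝ, 0 < δ ∧ a i ^ (2 * γ) - ε / (m + 1) <
      (max (a i ^ 2 - δ) 0) ^ γ := by
    intro i
    have hcont : ContinuousAt (fun δ : ℝ => (max (a i ^ 2 - δ) 0) ^ γ) 0 := by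
      apply ContinuousAt.rpow_const
      · fun_prop
      · right; linarith
    have h0 : (fun δ : ℝ => (max (a i ^ 2 - δ) 0) ^ γ) 0 = a i ^ (2 * γ) := by
      simp only [sub_zero]
      rw [max_eq_left (sq_nonneg _), ← Real.rpow_natCast, ← Real.rpow_mul (ha i)]
      norm_num
    have h2 : ∀ᶠ δ in nhds (0 : ℝ), a i ^ (2 * γ) - ε / (m + 1) <
        (max (a i ^ 2 - δ) 0) ^ γ := by
      apply hcont.eventually_const_lt
      rw [h0]
      have : 0 < ε / (m + 1) := by positivity
      linarith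
    rw [Metric.eventually_nhds_iff] at h2
    obtain ⟨η, hη, h3⟩ := h2
    refine ⟨η / 2, by linarith, h3 ?_⟩
    rw [Real.dist_eq, sub_zero, abs_of_pos (by linarith)]
    linarith
  choose δ hδ0 hδ1 using hδ
  choose ψ hψ1 hψ2 hψ3 hψ4 using fun i => exists_scalar_trial hr (a i) (c i) (hδ0 i)
  refine ⟨m, tfam U ψ, isTrialFamily_tfam U hψ1 hψ2 hψ3, ?_⟩
  rw [energyMatrix_tfam U hψ1 (fun i x => soliton r (a i) (c i) x) W hW, negMoment_diagonal]
  have hle : ∀ i, (max (a i ^ 2 - δ i) 0) ^ γ ≤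
      (max (-(∫ x, (deriv (ψ i) x ^ 2 - soliton r (a i) (c i) x * ψ i x ^ 2))) 0) ^ γ := by
    intro i
    apply Real.rpow_le_rpow (le_max_right _ _) _ (by linarith)
    apply max_le_max _ le_rfl
    linarith [hψ4 i]
  calc ∑ i, a i ^ (2 * γ) - ε < ∑ i, (a i ^ (2 * γ) - ε / (m + 1)) := by
        rw [Finset.sum_sub_distrib, Finset.sum_const, Finset.card_univ, Fintype.card_fin,
          nsmul_eq_mul]
        have : (m : ℝ) * (ε / (m + 1)) < ε := by
          rw [mul_div_assoc', div_lt_iff₀ (by positivity)]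
          nlinarith
        linarith
    _ ≤ ∑ i, (max (a i ^ 2 - δ i) 0) ^ γ :=
        Finset.sum_le_sum fun i _ => (hδ1 i).le
    _ ≤ _ := Finset.sum_le_sum fun i _ => hle i

end SLT
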