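import Crest.Agent.SLT.Defs

/-!
# Row 332, (PI): the pointwise objects entering the deficit identity

`A = K_τ - F`, `B = K_τ + F`, `R = k² - F²`, `r = 1/q`, `Y = V + (1+r) τ`,
`X = log A + log B + log (1+r)`.
-/

set_option autoImplicit false

open MeasureTheory
open scoped ComplexOrder Matrix

namespace SLT

/-- Gibbs deficit `tr (Y log Y) - tr (Y X) - tr Y + tr e^X`. -/
noncomputable def gibbs {n : ℕ} (Y X : Mat n) : ℝ :=
  rtr (Y * mlog Y) - rtr (Y * X) - rtr Y + rtr (mexp X)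

/-- Golden–Thompson deficit `tr (R + τ) - tr exp (log A + log B)`. -/
noncomputable def gtd {n : ℕ} (k F : Mat n) (τ : ℝ) : ℝ :=
  rtr (k * k - F * F) + τ * n - rtr (mexp (mlog (ktau k τ - F) + mlog (ktau k τ + F)))

/-- `tr (Z Dlog_A[X]) = ∫_0^∞ tr (Z (A+s)⁻¹ X (A+s)⁻¹) ds`. -/
noncomputable def dlogt {n : ℕ} (Z A X : Mat n) : ℝ :=
  ∫ s in Set.Ioi (0 : ℝ), rtr (Z * (A + (s : ℂ) • 1)⁻¹ * X * (A + (s : ℂ) • 1)⁻¹)

/-- The commutator deficit `N - tr ((R+τ) Ω_τ)`,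
`Ω_τ = Dlog_A[(2K_τ)⁻¹] + Dlog_B[(2K_τ)⁻¹] = d/dτ (log A + log B)`. -/
noncomputable def cde {n : ℕ} (k F : Mat n) (τ : ℝ) : ℝ :=
  n - dlogt (k * k - F * F + (τ : ℂ) • 1) (ktau k τ - F) ((2 : ℂ) • ktau k τ)⁻¹
    - dlogt (k * k - F * F + (τ : ℂ) • 1) (ktau k τ + F) ((2 : ℂ) • ktau k τ)⁻¹

/-- `Y_τ = V + (1 + 1/q) τ`. -/
noncomputable def Ytau {n : ℕ} (q : ℝ) (V : Mat n) (τ : ℝ) : Mat n :=
  V + (((1 + 1 / q) * τ : ℝ) : ℂ) • (1 : Mat n)

/-- `X_τ + log (1 + 1/q) = log (K_τ - F) + log (K_τ + F) + log (1 + 1/q)`. -/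
noncomputable def Xtau {n : ℕ} (q : ℝ) (k F : Mat n) (τ : ℝ) : Mat n :=
  mlog (ktau k τ - F) + mlog (ktau k τ + F) + ((Real.log (1 + 1 / q) : ℝ) : ℂ) • (1 : Mat n)

/-- `k` positive semidefinite and `-k ≤ F ≤ k`. -/
structure KF {n : ℕ} (k F : Mat n) : Prop where
  hk : k.PosSemidef
  le : (k - F).PosSemidef
  ge : (k + F).PosSemidef

theorem KF.neg {n : ℕ} {k F : Mat n} (h : KF k F) : KF k (-F) :=
  ⟨h.hk, by simpa using h.ge, by simpa [sub_eq_add_neg] using h.le⟩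

theorem KF.herm {n : ℕ} {k F : Mat n} (h : KF k F) : F.IsHermitian := by
  have h1 := h.hk.isHermitian
  have h2 := h.le.isHermitian
  have : F = k - (k - F) := by abel
  rw [this]
  exact h1.sub h2

/-- The entropy-like function `G(a) = a log a - a` (`G' = log`). -/
noncomputable def Gent (a : ℝ) : ℝ := a * Real.log a - a

end SLT
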