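import Crest.Agent.SLT.PIDefs
import Crest.Agent.SLT.StabHS

/-! Row 332, (PI), chunk PI-2a: continuity of the matrix logarithm. -/

set_option autoImplicit false

open MeasureTheory Set Filter Topology
open scoped ComplexOrder Matrix

namespace SLT

open scoped Matrix.Norms.L2Operator in
private theorem mlog_continuousOn_aux (n : ℕ) :
    ContinuousOn (mlog : Mat n → Mat n) {A | A.PosDef} := by
  have h : ContinuousOn (CFC.log : Mat n → Mat n) {a : Mat n | IsSelfAdjoint a ∧ IsUnit a} :=
    CFC.continuousOn_log
  have hs : {A : Mat n | A.PosDef} ⊆ {a : Mat n | IsSelfAdjoint a ∧ IsUnit a} :=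
    fun A (hA : A.PosDef) => ⟨hA.isHermitian, hA.isUnit⟩
  exact h.mono hs

/-- PI-2a. `mlog` is continuous on positive definite matrices
(`ContinuousOn.cfc`-type lemmas with the norm `Matrix.Norms.L2Operator`, or the resolvent formula). -/
theorem mlog_continuousOn (n : ℕ) : ContinuousOn (mlog : Mat n → Mat n) {A | A.PosDef} :=
  mlog_continuousOn_aux n

end SLT
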