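import Crest.Agent.SLT.PIDefs
import Crest.Agent.SLT.StabHS

/-! Row 332, (PI), chunk PI-2bc: integral representation of the matrix logarithm. -/

set_option autoImplicit false

open MeasureTheory Set Filter Topology
open scoped ComplexOrder Matrix

namespace SLT

/-- PI-2b. `log a = ∫_0^∞ (1/(1+s) - 1/(a+s)) ds` for `a > 0`. -/
theorem log_integral {a : ℝ} (ha : 0 < a) :
    IntegrableOn (fun s : ℝ => 1 / (1 + s) - 1 / (a + s)) (Ioi 0) ∧
      ∫ s in Ioi (0 : ℝ), (1 / (1 + s) - 1 / (a + s)) = Real.log a := by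
  have hderiv : ∀ x ∈ Ici (0 : ℝ), HasDerivAt (fun s : ℝ => Real.log (1 + s) - Real.log (a + s))
      (1 / (1 + x) - 1 / (a + x)) x := by
    intro x hx
    have hx0 : 0 ≤ x := hx
    have h1 : HasDerivAt (fun s : ℝ => Real.log (1 + s)) (1 / (1 + x)) x :=
      ((hasDerivAt_id x).const_add 1).log (by simp only [id]; positivity)
    have h2 : HasDerivAt (fun s : ℝ => Real.log (a + s)) (1 / (a + x)) x :=
      ((hasDerivAt_id x).const_add a).log (by simp only [id]; positivity)
    exact h1.sub h2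
  have htend : Tendsto (fun s : ℝ => Real.log (1 + s) - Real.log (a + s)) atTop (𝓝 0) := by
    have h1 : Tendsto (fun s : ℝ => (1 + s) / (a + s)) atTop (𝓝 1) := by
      have h2 : Tendsto (fun s : ℝ => 1 + (1 - a) / (a + s)) atTop (𝓝 (1 + 0)) := by
        refine tendsto_const_nhds.add ?_
        exact Tendsto.div_atTop tendsto_const_nhds (tendsto_atTop_add_const_left _ _ tendsto_id)
      rw [add_zero] at h2
      refine h2.congr' ?_
      filter_upwards [eventually_gt_atTop 0] with s hs
      have : a + s ≠ 0 := by positivity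
      field_simp
      ring
    have h3 : Tendsto (fun s : ℝ => Real.log ((1 + s) / (a + s))) atTop (𝓝 (Real.log 1)) :=
      (Real.continuousAt_log one_ne_zero).tendsto.comp h1
    rw [Real.log_one] at h3
    refine h3.congr' ?_
    filter_upwards [eventually_gt_atTop 0] with s hs
    rw [Real.log_div (by positivity) (by positivity)]
  have hint : IntegrableOn (fun s : ℝ => 1 / (1 + s) - 1 / (a + s)) (Ioi 0) := by
    rcases le_total 1 a with h | h
    · refine integrableOn_Ioi_deriv_of_nonneg' hderiv (fun x hx => ?_) htend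
      have hx0 : 0 < x := hx
      rw [sub_nonneg]
      exact one_div_le_one_div_of_le (by positivity) (by linarith)
    · refine integrableOn_Ioi_deriv_of_nonpos' hderiv (fun x hx => ?_) htend
      have hx0 : 0 < x := hx
      rw [sub_nonpos]
      exact one_div_le_one_div_of_le (by positivity) (by linarith)
  refine ⟨hint, ?_⟩
  rw [integral_Ioi_of_hasDerivAt_of_tendsto' hderiv hint htend]
  simp

private theorem rtr_mul_cfc {n : ℕ} (Z : Mat n) {A : Mat n} (hA : A.IsHermitian) (f : ℝ → ℝ) :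
    rtr (Z * cfc f A) = ∑ i, f (hA.eigenvalues i) *
      (((hA.eigenvectorUnitary : Mat n)ᴴ * Z * (hA.eigenvectorUnitary : Mat n)) i i).re := by
  rw [cfc_spec hA]
  set U : Mat n := (hA.eigenvectorUnitary : Mat n)
  set D := Matrix.diagonal (fun i => ((f (hA.eigenvalues i) : ℝ) : ℂ))
  have h1 : (Z * (U * D * Uᴴ)).trace = (Uᴴ * Z * U * D).trace := by
    rw [← Matrix.mul_assoc, Matrix.trace_mul_comm]
    simp only [Matrix.mul_assoc]
  unfold rtr
  rw [h1, Matrix.trace, Complex.re_sum]
  refine Finset.sum_congr rfl fun i _ => ?_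
  rw [Matrix.diag_apply, Matrix.mul_diagonal, Complex.re_mul_ofReal, mul_comm]

private theorem add_smul_inv {n : ℕ} {A : Mat n} (hA : A.PosDef) {s : ℝ} (hs : 0 < s) :
    (A + (s : ℂ) • (1 : Mat n))⁻¹ = cfc (fun t : ℝ => (t + s)⁻¹) A := by
  have hH := hA.isHermitian
  refine Matrix.inv_eq_right_inv ?_
  set U : Mat n := (hH.eigenvectorUnitary : Mat n) with hUdef
  have hU : Uᴴ * U = 1 := by
    have := Unitary.coe_star_mul_self hH.eigenvectorUnitary
    simpa [Matrix.star_eq_conjTranspose] using this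
  have hU' : U * Uᴴ = 1 := by
    have := Unitary.coe_mul_star_self hH.eigenvectorUnitary
    simpa [Matrix.star_eq_conjTranspose] using this
  have e1 : A + (s : ℂ) • (1 : Mat n) =
      U * Matrix.diagonal (fun i => ((hH.eigenvalues i + s : ℝ) : ℂ)) * Uᴴ := by
    have e2 := cfc_spec hH (fun t => t)
    rw [cfc_id_fun hH, ← hUdef] at e2
    have e3 : Matrix.diagonal (fun i => ((hH.eigenvalues i + s : ℝ) : ℂ)) =
        Matrix.diagonal (fun i => ((hH.eigenvalues i : ℝ) : ℂ)) + (s : ℂ) • (1 : Mat n) := by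
      rw [← Matrix.diagonal_one, ← Matrix.diagonal_smul, Matrix.diagonal_add]
      congr 1
      funext i
      simp
    rw [e3, Matrix.mul_add, Matrix.add_mul, ← e2, Matrix.mul_smul, Matrix.smul_mul, Matrix.mul_one,
      hU']
  rw [e1, cfc_spec hH, ← hUdef]
  have e4 (D E : Mat n) : U * D * Uᴴ * (U * E * Uᴴ) = U * (D * E) * Uᴴ := by
    calc U * D * Uᴴ * (U * E * Uᴴ) = U * (D * (Uᴴ * U) * E) * Uᴴ := by
          simp only [Matrix.mul_assoc]
      _ = _ := by rw [hU, Matrix.mul_one]
  rw [e4, Matrix.diagonal_mul_diagonal]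
  have e5 : (fun i => ((hH.eigenvalues i + s : ℝ) : ℂ) * (((hH.eigenvalues i + s)⁻¹ : ℝ) : ℂ)) =
      fun _ => (1 : ℂ) := by
    funext i
    have hi : hH.eigenvalues i + s ≠ 0 := by
      have := hA.eigenvalues_pos i
      positivity
    rw [← Complex.ofReal_mul, mul_inv_cancel₀ hi, Complex.ofReal_one]
  rw [e5, Matrix.diagonal_one, Matrix.mul_one, hU']

/-- PI-2c. Matrix version, paired with an arbitrary matrix `Z`. -/
theorem mlog_integral {n : ℕ} (Z : Mat n) {A : Mat n} (hA : A.PosDef) :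
    IntegrableOn (fun s : ℝ => rtr Z / (1 + s) - rtr (Z * (A + (s : ℂ) • 1)⁻¹)) (Ioi 0) ∧
      ∫ s in Ioi (0 : ℝ), (rtr Z / (1 + s) - rtr (Z * (A + (s : ℂ) • 1)⁻¹)) =
        rtr (Z * mlog A) := by
  have hH := hA.isHermitian
  let w : Fin n → ℝ := fun i =>
    (((hH.eigenvectorUnitary : Mat n)ᴴ * Z * (hH.eigenvectorUnitary : Mat n)) i i).re
  have hZ : rtr Z = ∑ i, w i := by
    have := rtr_mul_cfc Z hH (fun _ => 1)
    rw [cfc_one_fun hH, Matrix.mul_one] at this
    rw [this]
    exact Finset.sum_congr rfl fun i _ => one_mul _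
  have heq : ∀ s ∈ Ioi (0 : ℝ), rtr Z / (1 + s) - rtr (Z * (A + (s : ℂ) • 1)⁻¹) =
      ∑ i, (1 / (1 + s) - 1 / (hH.eigenvalues i + s)) * w i := by
    intro s hs
    rw [add_smul_inv hA hs, rtr_mul_cfc Z hH, hZ, Finset.sum_div, ← Finset.sum_sub_distrib]
    refine Finset.sum_congr rfl fun i _ => ?_
    simp only [w]
    ring
  have hint : ∀ i ∈ (Finset.univ : Finset (Fin n)), IntegrableOn
      (fun s : ℝ => (1 / (1 + s) - 1 / (hH.eigenvalues i + s)) * w i) (Ioi 0) := fun i _ =>
    (log_integral (hA.eigenvalues_pos i)).1.mul_const _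
  constructor
  · refine IntegrableOn.congr_fun ?_ (fun s hs => (heq s hs).symm) measurableSet_Ioi
    exact integrable_finsetSum _ hint
  · rw [setIntegral_congr_fun measurableSet_Ioi heq, integral_finsetSum _ hint, mlog,
      rtr_mul_cfc Z hH]
    refine Finset.sum_congr rfl fun i _ => ?_
    rw [integral_mul_const, (log_integral (hA.eigenvalues_pos i)).2]

end SLT
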