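import Crest.Agent.SLT.PIDefs
import Crest.Agent.SLT.StabHS
import Crest.Agent.SLT.PILogB

/-! Row 332, (PI), chunk PI-2d: derivative of the matrix logarithm. -/

set_option autoImplicit false

open MeasureTheory Set Filter Topology
open scoped ComplexOrder Matrix

namespace SLT

private theorem continuousAt_inv_C {n : ℕ} {α : Type*} [TopologicalSpace α] {B : α → Mat n}
    {x₀ : α} (hB : ContinuousAt B x₀) (hdet : (B x₀).det ≠ 0) :
    ContinuousAt (fun x => (B x)⁻¹) x₀ := by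
  have e : (fun x => (B x)⁻¹) = fun x => ((B x).det)⁻¹ • (B x).adjugate := by
    funext x
    rw [Matrix.inv_def, Ring.inverse_eq_inv']
  rw [e]
  have h1 : ContinuousAt (fun x => (B x).det) x₀ :=
    (continuous_id.matrix_det (A := fun M : Mat n => M)).continuousAt.comp hB
  have h2 : ContinuousAt (fun x => (B x).adjugate) x₀ :=
    (continuous_id.matrix_adjugate (A := fun M : Mat n => M)).continuousAt.comp hB
  exact (h1.inv₀ hdet).smul h2

private theorem continuous_rtr_C {n : ℕ} : Continuous (rtr : Mat n → ℝ) :=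
  Complex.continuous_re.comp (continuous_id.matrix_trace (A := fun M : Mat n => M))

private theorem continuous_hsq_C {n m : ℕ} : Continuous (hsq : RMat n m → ℝ) := by
  unfold hsq
  fun_prop

private theorem shift_eq_C {n : ℕ} {A : Mat n} (hA : A.IsHermitian) (s : ℝ) :
    A + (s : ℂ) • (1 : Mat n) = cfc (fun t : ℝ => t + s) A := by
  have := cfc_add_cfc hA (fun t => t) (fun _ => s)
  rw [cfc_fun_id hA, cfc_const_eq hA] at this
  exact this

private theorem shift_inv_C {n : ℕ} {A : Mat n} (hA : A.IsHermitian) {s : ℝ}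
    (h : ∀ t ∈ spectrum ℝ A, t + s ≠ 0) :
    (A + (s : ℂ) • (1 : Mat n))⁻¹ = cfc (fun t : ℝ => (t + s)⁻¹) A := by
  refine Matrix.inv_eq_right_inv ?_
  rw [shift_eq_C hA, cfc_mul_cfc hA,
    cfc_congr_spec hA (g := fun _ => 1) (fun t ht => mul_inv_cancel₀ (h t ht)), cfc_const_eq hA]
  simp

private theorem hsq_cfc_mul_C {n m : ℕ} {A : Mat n} (hA : A.IsHermitian) {f : ℝ → ℝ} {p : ℝ}
    (h : ∀ i, |f (hA.eigenvalues i)| ≤ p) (X : RMat n m) :
    hsq (cfc f A * X) ≤ p ^ 2 * hsq X := by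
  have hB : (0 : Mat m).IsHermitian := Matrix.isHermitian_zero
  have e := hsq_spec hA hB X f (fun _ => 0)
  rw [show cfc (fun _ : ℝ => (0 : ℝ)) (0 : Mat m) = 0 from
    cfc_const_zero ℝ _, Matrix.mul_zero, sub_zero] at e
  rw [e, hsq_spec_wt hA hB X, Finset.mul_sum]
  refine Finset.sum_le_sum fun i _ => ?_
  rw [Finset.mul_sum]
  refine Finset.sum_le_sum fun j _ => ?_
  refine mul_le_mul_of_nonneg_right ?_ (swt_nonneg _ _ _ _ _)
  rw [sub_zero, ← sq_abs]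
  exact pow_le_pow_left₀ (abs_nonneg _) (h i) 2

private theorem hsq_mul_cfc_C {n m : ℕ} {A : Mat m} (hA : A.IsHermitian) {f : ℝ → ℝ} {p : ℝ}
    (h : ∀ i, |f (hA.eigenvalues i)| ≤ p) (X : RMat n m) :
    hsq (X * cfc f A) ≤ p ^ 2 * hsq X := by
  have := hsq_cfc_mul_C hA h Xᴴ
  rw [hsq_conjTranspose] at this
  have e : cfc f A * Xᴴ = (X * cfc f A)ᴴ := by
    rw [Matrix.conjTranspose_mul, (cfc_herm f).eq]
  rwa [e, hsq_conjTranspose] at this

private theorem eig_lower_C {n : ℕ} {A : Mat n} (hA : A.PosDef) {M : ℝ} (hM0 : 0 < M)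
    (hM : hsq A⁻¹ ≤ M ^ 2) (i : Fin n) : M⁻¹ ≤ hA.isHermitian.eigenvalues i := by
  have hH := hA.isHermitian
  have h0 := shift_inv_C hH (s := 0) (fun t ht => by
    have := spec_pos hA ht
    linarith)
  have h1 : A⁻¹ = cfc (fun t : ℝ => t⁻¹) A := by simpa using h0
  have h2 : hsq A⁻¹ = ∑ i, (hH.eigenvalues i)⁻¹ * (hH.eigenvalues i)⁻¹ := by
    rw [hsq_eq_rtr, h1, (cfc_herm _).eq, cfc_mul_cfc hH, rtr_cfc hH]
  have h3 : (hH.eigenvalues i)⁻¹ * (hH.eigenvalues i)⁻¹ ≤ M ^ 2 := by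
    refine le_trans ?_ hM
    rw [h2]
    exact Finset.single_le_sum (f := fun i => (hH.eigenvalues i)⁻¹ * (hH.eigenvalues i)⁻¹)
      (fun j _ => mul_self_nonneg _) (Finset.mem_univ i)
  have hpos : 0 < hH.eigenvalues i := hA.eigenvalues_pos i
  have h4 : (hH.eigenvalues i)⁻¹ ≤ M := by
    rw [← sq] at h3
    exact le_of_sq_le_sq h3 hM0.le
  exact inv_le_of_inv_le₀ hpos h4

private theorem shift_pd_C {n : ℕ} {A : Mat n} (hA : A.PosDef) {s : ℝ} (hs : 0 ≤ s) :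
    (A + (s : ℂ) • (1 : Mat n)).PosDef :=
  hA.add_posSemidef (Matrix.PosSemidef.one.smul (by exact_mod_cast hs : (0 : ℂ) ≤ (s : ℂ)))

/-- PI-2d. Derivative of `tr (Z log A(x))`. Proof: with PI-2c and the resolvent identity,
`tr (Z log A(x)) - tr (Z log A(x₀)) = ∫ tr (Z (A(x)+s)⁻¹ (A(x) - A(x₀)) (A(x₀)+s)⁻¹) ds`; divide by
`x - x₀` and use dominated convergence (`‖(A(x)+s)⁻¹‖ ≤ 1/(c+s)` near `x₀`). -/
theorem mlog_hasDerivAt {n : ℕ} (Z : Mat n) (A : ℝ → Mat n) (A' : Mat n) (x₀ : ℝ)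
    (hA : ∀ᶠ x in 𝓝 x₀, (A x).PosDef) (hd : HasDerivAt A A' x₀) :
    HasDerivAt (fun x => rtr (Z * mlog (A x))) (dlogt Z (A x₀) A') x₀ := by
  have hA0 : (A x₀).PosDef := hA.self_of_nhds
  have hcont : ContinuousAt A x₀ := by
    refine tendsto_pi_nhds.2 fun i => tendsto_pi_nhds.2 fun j => ?_
    have h1 := (hasDerivAt_pi (φ := fun y => (A y : Fin n → Fin n → ℂ))).1 hd i
    exact (hasDerivAt_pi.1 h1 j).continuousAt
  -- lower bound for the eigenvalues near `x₀`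
  obtain ⟨c, hc, hlow⟩ : ∃ c : ℝ, 0 < c ∧ ∀ᶠ x in 𝓝 x₀, ∀ hx : (A x).PosDef,
      ∀ i, c ≤ hx.isHermitian.eigenvalues i := by
    have h1 : ContinuousAt (fun x => hsq (A x)⁻¹) x₀ :=
      continuous_hsq_C.continuousAt.comp
        (continuousAt_inv_C hcont (hA0.det_pos.ne'))
    set M : ℝ := hsq (A x₀)⁻¹ + 1 with hM
    have hM1 : 1 ≤ M := by
      have := hsq_nonneg (A x₀)⁻¹
      linarith
    have h2 : ∀ᶠ x in 𝓝 x₀, hsq (A x)⁻¹ < M := by
      refine h1.eventually (gt_mem_nhds ?_)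
      linarith
    refine ⟨M⁻¹, by positivity, ?_⟩
    filter_upwards [h2] with x hx hpd i
    refine eig_lower_C hpd (by linarith) ?_ i
    nlinarith
  -- resolvents
  have hlow0 : ∀ i, c ≤ hA0.isHermitian.eigenvalues i := hlow.self_of_nhds hA0
  set D : ℝ → Mat n := fun x => (((x - x₀)⁻¹ : ℝ) : ℂ) • (A x - A x₀) with hD
  have hDlim : Tendsto D (𝓝[≠] x₀) (𝓝 A') := by
    refine tendsto_pi_nhds.2 fun i => tendsto_pi_nhds.2 fun j => ?_
    have h1 := (hasDerivAt_pi (φ := fun y => (A y : Fin n → Fin n → ℂ))).1 hd i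
    have h2 := (hasDerivAt_pi.1 h1 j).tendsto_slope
    refine h2.congr fun x => ?_
    simp [hD, slope, Complex.real_smul]
  have hres : ∀ x, (A x).PosDef → ∀ s : ℝ, 0 < s →
      rtr (Z * (A x₀ + (s : ℂ) • 1)⁻¹) - rtr (Z * (A x + (s : ℂ) • 1)⁻¹) =
      rtr (Z * ((A x + (s : ℂ) • 1)⁻¹ * (A x - A x₀) * (A x₀ + (s : ℂ) • 1)⁻¹)) := by
    intro x hx s hs
    have hu : ∀ y, (A y).PosDef → IsUnit (A y + (s : ℂ) • (1 : Mat n)).det := by
      intro y hy
      exact (shift_pd_C hy hs.le).det_pos.ne'.isUnit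
    rw [← rtr_sub, ← Matrix.mul_sub]
    congr 2
    have e : A x - A x₀ = (A x + (s : ℂ) • (1 : Mat n)) - (A x₀ + (s : ℂ) • (1 : Mat n)) := by
      abel
    rw [e, Matrix.mul_sub, Matrix.sub_mul, Matrix.nonsing_inv_mul _ (hu x hx), Matrix.one_mul,
      Matrix.mul_assoc, Matrix.mul_nonsing_inv _ (hu x₀ hA0), Matrix.mul_one]
  set F : ℝ → ℝ → ℝ := fun x s => (x - x₀)⁻¹ *
    (rtr (Z * (A x₀ + (s : ℂ) • 1)⁻¹) - rtr (Z * (A x + (s : ℂ) • 1)⁻¹)) with hF
  have hFD : ∀ x, (A x).PosDef → ∀ s : ℝ, 0 < s → F x s =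
      rtr (Z * ((A x + (s : ℂ) • 1)⁻¹ * D x * (A x₀ + (s : ℂ) • 1)⁻¹)) := by
    intro x hx s hs
    simp only [hF, hD]
    rw [hres x hx s hs, Matrix.mul_smul, Matrix.smul_mul, Matrix.mul_smul, rtr_smul]
  rw [hasDerivAt_iff_tendsto_slope]
  have hA' : ∀ᶠ x in 𝓝[≠] x₀, (A x).PosDef := hA.filter_mono nhdsWithin_le_nhds
  have hint : ∀ x, (A x).PosDef → IntegrableOn (F x) (Ioi 0) ∧
      ∫ s in Ioi (0 : ℝ), F x s = (x - x₀)⁻¹ * (rtr (Z * mlog (A x)) - rtr (Z * mlog (A x₀))) := by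
    intro x hx
    obtain ⟨a1, a2⟩ := mlog_integral Z hx
    obtain ⟨b1, b2⟩ := mlog_integral Z hA0
    have e : F x = fun s : ℝ => (x - x₀)⁻¹ *
        ((rtr Z / (1 + s) - rtr (Z * (A x + (s : ℂ) • 1)⁻¹)) -
          (rtr Z / (1 + s) - rtr (Z * (A x₀ + (s : ℂ) • 1)⁻¹))) := by
      funext s
      simp only [hF]
      ring
    constructor
    · rw [e]
      exact (a1.sub b1).const_mul _
    · rw [e, integral_const_mul, integral_sub a1 b1, a2, b2]
  have hslope : ∀ᶠ x in 𝓝[≠] x₀, ∫ s in Ioi (0 : ℝ), F x s =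
      slope (fun x => rtr (Z * mlog (A x))) x₀ x := by
    filter_upwards [hA'] with x hx
    rw [(hint x hx).2, slope, vsub_eq_sub, smul_eq_mul]
  refine Tendsto.congr' hslope ?_
  unfold dlogt
  have hDb : ∀ᶠ x in 𝓝[≠] x₀, hsq (D x) ≤ hsq A' + 1 := by
    have h1 : Tendsto (fun x => hsq (D x)) (𝓝[≠] x₀) (𝓝 (hsq A')) :=
      (continuous_hsq_C.tendsto A').comp hDlim
    exact (h1.eventually (gt_mem_nhds (by linarith : hsq A' < hsq A' + 1))).mono
      fun x hx => hx.le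
  refine tendsto_integral_filter_of_dominated_convergence
    (fun s => ((s + c) ^ (-2 : ℝ)) * (Real.sqrt (hsq Z) * Real.sqrt (hsq A' + 1))) ?_ ?_ ?_ ?_
  · filter_upwards [hA'] with x hx
    exact (hint x hx).1.aestronglyMeasurable
  · filter_upwards [hA', hDb, hlow.filter_mono nhdsWithin_le_nhds] with x hx hxD hxl
    rw [ae_restrict_iff' measurableSet_Ioi]
    refine Eventually.of_forall fun s hs => ?_
    rw [mem_Ioi] at hs
    rw [hFD x hx s hs, Real.norm_eq_abs]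
    have r1 := shift_inv_C hx.isHermitian (s := s) (fun t ht => by
      have := spec_pos hx ht
      positivity)
    have r2 := shift_inv_C hA0.isHermitian (s := s) (fun t ht => by
      have := spec_pos hA0 ht
      positivity)
    set Rx := (A x + (s : ℂ) • (1 : Mat n))⁻¹ with hRx
    set R0 := (A x₀ + (s : ℂ) • (1 : Mat n))⁻¹ with hR0
    have hp : 0 < s + c := by linarith
    have key1 : hsq (R0 * (Z * Rx)) ≤ ((s + c)⁻¹) ^ 2 * hsq (Z * Rx) := by
      rw [r2]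
      refine hsq_cfc_mul_C hA0.isHermitian (fun i => ?_) _
      have h1 := hlow0 i
      rw [abs_of_nonneg (inv_nonneg.2 (by linarith))]
      exact inv_anti₀ hp (by linarith)
    have key2 : hsq (Z * Rx) ≤ ((s + c)⁻¹) ^ 2 * hsq Z := by
      rw [r1]
      refine hsq_mul_cfc_C hx.isHermitian (fun i => ?_) _
      have h1 := hxl hx i
      rw [abs_of_nonneg (inv_nonneg.2 (by linarith))]
      exact inv_anti₀ hp (by linarith)
    have key3 : Real.sqrt (hsq (R0 * (Z * Rx))) ≤ ((s + c)⁻¹) ^ 2 * Real.sqrt (hsq Z) := by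
      have h1 : hsq (R0 * (Z * Rx)) ≤ (((s + c)⁻¹) ^ 2) ^ 2 * hsq Z := by
        calc _ ≤ ((s + c)⁻¹) ^ 2 * hsq (Z * Rx) := key1
          _ ≤ ((s + c)⁻¹) ^ 2 * (((s + c)⁻¹) ^ 2 * hsq Z) := by gcongr
          _ = _ := by ring
      calc Real.sqrt (hsq (R0 * (Z * Rx))) ≤ Real.sqrt ((((s + c)⁻¹) ^ 2) ^ 2 * hsq Z) :=
            Real.sqrt_le_sqrt h1
        _ = _ := by
            rw [Real.sqrt_mul (by positivity), Real.sqrt_sq (by positivity)]
    have key4 : rtr (Z * (Rx * D x * R0)) = rtr (((R0 * (Z * Rx))ᴴ)ᴴ * D x) := by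
      rw [Matrix.conjTranspose_conjTranspose]
      have : Z * (Rx * D x * R0) = (Z * Rx) * D x * R0 := by simp only [Matrix.mul_assoc]
      rw [this, rtr_mul_cycle]
    rw [key4]
    refine (rtr_mul_abs_le _ _).trans ?_
    rw [hsq_conjTranspose, Real.rpow_neg hp.le, Real.rpow_two, ← inv_pow,
      ← mul_assoc ((s + c)⁻¹ ^ 2)]
    exact mul_le_mul key3 (Real.sqrt_le_sqrt hxD) (Real.sqrt_nonneg _) (by positivity)
  · have h1 := integrableOn_add_rpow_Ioi_of_lt (a := -2) (c := 0) (m := c) (by norm_num)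
      (by linarith)
    exact h1.mul_const _
  · rw [ae_restrict_iff' measurableSet_Ioi]
    refine Eventually.of_forall fun s hs => ?_
    rw [mem_Ioi] at hs
    have h1 : Tendsto (fun x => rtr (Z * ((A x + (s : ℂ) • 1)⁻¹ * D x *
        (A x₀ + (s : ℂ) • 1)⁻¹))) (𝓝[≠] x₀)
        (𝓝 (rtr (Z * (A x₀ + (s : ℂ) • 1)⁻¹ * A' * (A x₀ + (s : ℂ) • 1)⁻¹))) := by
      have h2 : Tendsto (fun x => (A x + (s : ℂ) • (1 : Mat n))⁻¹) (𝓝[≠] x₀)
          (𝓝 ((A x₀ + (s : ℂ) • (1 : Mat n))⁻¹)) := by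
        have : ContinuousAt (fun x => (A x + (s : ℂ) • (1 : Mat n))⁻¹) x₀ :=
          continuousAt_inv_C (hcont.add continuousAt_const) (shift_pd_C hA0 hs.le).det_pos.ne'
        exact this.tendsto.mono_left nhdsWithin_le_nhds
      have h3 : Tendsto (fun x => Z * ((A x + (s : ℂ) • 1)⁻¹ * D x * (A x₀ + (s : ℂ) • 1)⁻¹))
          (𝓝[≠] x₀) (𝓝 (Z * ((A x₀ + (s : ℂ) • 1)⁻¹ * A' * (A x₀ + (s : ℂ) • 1)⁻¹))) :=
        tendsto_const_nhds.mul ((h2.mul hDlim).mul tendsto_const_nhds)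
      have h4 := (continuous_rtr_C.tendsto _).comp h3
      simpa only [Matrix.mul_assoc, Function.comp_def] using h4
    refine h1.congr' ?_
    filter_upwards [hA'] with x hx
    exact (hFD x hx s hs).symm

end SLT
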