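import Crest.Agent.SLT.StabCde

/-!
# Row 332, STAB: the matrices `A = K_τ - F`, `B = K_τ + F`; `cde_nonneg`, `cde_ge`
-/

set_option autoImplicit false

open MeasureTheory Set
open scoped ComplexOrder Matrix

namespace SLT.Stab

variable {n : ℕ} {k F : Mat n} {τ κ : ℝ}

theorem ktau_herm (k : Mat n) (τ : ℝ) : (ktau k τ).IsHermitian := cfc_herm _

theorem ktau_sq (hk : k.PosSemidef) (hτ : 0 < τ) :
    ktau k τ * ktau k τ = k * k + (τ : ℂ) • (1 : Mat n) := by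
  unfold ktau
  rw [cfc_mul_cfc hk.1, ← cfc_const_eq hk.1]
  have e : k * k = cfc (fun t : ℝ => t * t) k := by
    rw [← cfc_mul_cfc hk.1, cfc_fun_id hk.1]
  rw [e, cfc_add_cfc hk.1]
  refine cfc_congr_spec hk.1 fun s _ => ?_
  rw [Real.mul_self_sqrt (by positivity)]
  ring

theorem sqrt_sub_ge {t : ℝ} (ht : 0 ≤ t) (htκ : t ≤ κ) (hτ : 0 < τ) :
    τ / (2 * Real.sqrt (κ ^ 2 + τ)) ≤ Real.sqrt (t ^ 2 + τ) - t := by
  have hκ : 0 ≤ κ := ht.trans htκ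
  have h1 : 0 < Real.sqrt (κ ^ 2 + τ) := Real.sqrt_pos.mpr (by positivity)
  have h2 : Real.sqrt (t ^ 2 + τ) ≤ Real.sqrt (κ ^ 2 + τ) :=
    Real.sqrt_le_sqrt (by nlinarith)
  have h3 : t < Real.sqrt (t ^ 2 + τ) := Real.lt_sqrt_of_sq_lt (by linarith)
  have h4 : (Real.sqrt (t ^ 2 + τ) - t) * (Real.sqrt (t ^ 2 + τ) + t) = τ := by
    have := Real.mul_self_sqrt (show 0 ≤ t ^ 2 + τ by positivity)
    nlinarith
  rw [div_le_iff₀ (by positivity)]
  calc τ = (Real.sqrt (t ^ 2 + τ) - t) * (Real.sqrt (t ^ 2 + τ) + t) := h4.symm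
    _ ≤ (Real.sqrt (t ^ 2 + τ) - t) * (2 * Real.sqrt (κ ^ 2 + τ)) := by
        refine mul_le_mul_of_nonneg_left ?_ (by linarith)
        linarith

/-- `K_τ - k ≥ τ / (2 √(κ² + τ))`. -/
theorem ktau_sub_ge (hk : k.PosSemidef) (hκ : ((κ : ℂ) • (1 : Mat n) - k).PosSemidef)
    (hτ : 0 < τ) :
    (ktau k τ - k - ((τ / (2 * Real.sqrt (κ ^ 2 + τ)) : ℝ) : ℂ) • (1 : Mat n)).PosSemidef := by
  have e : ktau k τ - k = cfc (fun t : ℝ => Real.sqrt (t ^ 2 + τ) - t) k := by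
    rw [← cfc_sub_cfc hk.1, cfc_fun_id hk.1]
    rfl
  rw [e]
  exact cfc_ge hk.1 fun s hs => sqrt_sub_ge (spec_nonneg hk hs) (spec_le hk.1 hκ hs) hτ

theorem ktau_le (hk : k.PosSemidef) (hκ : ((κ : ℂ) • (1 : Mat n) - k).PosSemidef)
    (τ : ℝ) :
    (((Real.sqrt (κ ^ 2 + τ) : ℝ) : ℂ) • (1 : Mat n) - ktau k τ).PosSemidef := by
  refine cfc_le hk.1 fun s hs => Real.sqrt_le_sqrt ?_
  have h1 := spec_nonneg hk hs
  have h2 := spec_le hk.1 hκ hs
  nlinarith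

theorem ktau_ge (hk : k.PosSemidef) (hτ : 0 < τ) :
    (ktau k τ - ((Real.sqrt τ : ℝ) : ℂ) • (1 : Mat n)).PosSemidef := by
  refine cfc_ge hk.1 fun s hs => Real.sqrt_le_sqrt ?_
  have h1 := spec_nonneg hk hs
  nlinarith

/-- lower bound for `A = K_τ - F` -/
theorem A_ge (hk : k.PosSemidef) (hκ : ((κ : ℂ) • (1 : Mat n) - k).PosSemidef)
    (h1 : (k - F).PosSemidef) (hτ : 0 < τ) :
    (ktau k τ - F - ((τ / (2 * Real.sqrt (κ ^ 2 + τ)) : ℝ) : ℂ) • (1 : Mat n)).PosSemidef := by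
  have := (ktau_sub_ge hk hκ hτ).add h1
  convert this using 1
  abel

/-- upper bound for `A = K_τ - F` -/
theorem A_le (hk : k.PosSemidef) (hκ : ((κ : ℂ) • (1 : Mat n) - k).PosSemidef)
    (h2 : (k + F).PosSemidef) (hτ : 0 < τ) (hκ0 : 0 ≤ κ) :
    (((2 * Real.sqrt (κ ^ 2 + τ) : ℝ) : ℂ) • (1 : Mat n) - (ktau k τ - F)).PosSemidef := by
  have h3 := (ktau_le hk hκ τ).add (hκ.add h2)
  have h4 : (((Real.sqrt (κ ^ 2 + τ) - κ : ℝ) : ℂ) • (1 : Mat n)).PosSemidef := by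
    refine Matrix.PosSemidef.one.smul ?_
    refine Complex.zero_le_real.mpr (sub_nonneg.mpr (Real.le_sqrt_of_sq_le ?_))
    nlinarith
  have h5 := h3.add h4
  convert h5 using 1
  push_cast
  rw [two_mul, add_smul, sub_smul]
  abel

theorem F_herm (hk : k.PosSemidef) (h1 : (k - F).PosSemidef) : F.IsHermitian := by
  have := hk.1.sub h1.1
  rwa [sub_sub_cancel] at this

end SLT.Stab

namespace SLT

open Stab

variable {n : ℕ}

theorem cde_eq_aux {k F : Mat n} {τ : ℝ} (hk : k.PosSemidef) (h1 : (k - F).PosSemidef)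
    (h2 : (k + F).PosSemidef) (hτ : 0 < τ)
    (hA : (ktau k τ - F).IsHermitian) (hB : (ktau k τ + F).IsHermitian)
    (hS : ((2 : ℂ) • ktau k τ).IsHermitian)
    (a0 : ∀ i, 0 < hA.eigenvalues i) (b0 : ∀ i, 0 < hB.eigenvalues i)
    (s0 : ∀ i, 0 < hS.eigenvalues i) :
    cde k F τ = (∫ s in Ioi (0 : ℝ), s * dfs (ktau k τ - F) ((2 : ℂ) • ktau k τ) s) +
      ∫ s in Ioi (0 : ℝ), s * dfs (ktau k τ + F) ((2 : ℂ) • ktau k τ) s := by
  set K := ktau k τ with hK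
  have hsq : K * K = k * k + (τ : ℂ) • (1 : Mat n) := ktau_sq hk hτ
  have hZ1 : k * k - F * F + (τ : ℂ) • (1 : Mat n) =
      ((1 / 2 : ℝ) : ℂ) • ((K - F) * ((2 : ℂ) • K) + ((2 : ℂ) • K) * (K - F)) -
        (K - F) * (K - F) := by
    have : k * k - F * F + (τ : ℂ) • (1 : Mat n) = K * K - F * F := by rw [hsq]; abel
    rw [this, Matrix.mul_smul, Matrix.smul_mul, ← smul_add, smul_smul]
    have e : (((1 / 2 : ℝ) : ℂ) * 2) = 1 := by norm_num
    rw [e, one_smul]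
    noncomm_ring
  have hZ2 : k * k - F * F + (τ : ℂ) • (1 : Mat n) =
      ((1 / 2 : ℝ) : ℂ) • ((K + F) * ((2 : ℂ) • K) + ((2 : ℂ) • K) * (K + F)) -
        (K + F) * (K + F) := by
    have : k * k - F * F + (τ : ℂ) • (1 : Mat n) = K * K - F * F := by rw [hsq]; abel
    rw [this, Matrix.mul_smul, Matrix.smul_mul, ← smul_add, smul_smul]
    have e : (((1 / 2 : ℝ) : ℂ) * 2) = 1 := by norm_num
    rw [e, one_smul]
    noncomm_ring
  obtain ⟨-, v1⟩ := one_side hA a0 hS s0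
  obtain ⟨-, v2⟩ := one_side hB b0 hS s0
  rw [← hZ1] at v1
  rw [← hZ2] at v2
  have hunit : ((2 : ℂ) • K) * ((2 : ℂ) • K)⁻¹ = 1 := by
    have hT := inv_eq_cfc hS fun i => (s0 i).ne'
    nth_rewrite 1 [← cfc_id_fun hS]
    rw [hT, cfc_mul_fun hS, ← cfc_one_fun hS]
    exact cfc_congr_eig hS fun i => mul_inv_cancel₀ (s0 i).ne'
  have htr : rtr ((K - F) * ((2 : ℂ) • K)⁻¹) + rtr ((K + F) * ((2 : ℂ) • K)⁻¹) = n := by
    rw [← rtr_add, ← Matrix.add_mul]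
    have : K - F + (K + F) = (2 : ℂ) • K := by rw [two_smul]; abel
    rw [this, hunit]
    simp [rtr]
  unfold cde
  rw [← hK, v1, v2]
  linarith

theorem cde_bounds {k F : Mat n} {τ κ : ℝ} (hk : k.PosSemidef)
    (hκ : ((κ : ℂ) • (1 : Mat n) - k).PosSemidef) (hκ0 : 0 ≤ κ)
    (h1 : (k - F).PosSemidef) (h2 : (k + F).PosSemidef) (hτ : 0 < τ) :
    0 ≤ cde k F τ ∧ 4 * hsq (ktau k τ * F - F * ktau k τ) ≤
      (2 * Real.sqrt (κ ^ 2 + τ) + 2) ^ 4 * (2 * (2 * Real.sqrt (κ ^ 2 + τ)) ^ 2) *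
        cde k F τ := by
  have hF := F_herm hk h1
  set K := ktau k τ with hK
  set ρ := Real.sqrt (κ ^ 2 + τ) with hρ
  have hρ0 : 0 < ρ := Real.sqrt_pos.mpr (by positivity)
  have hKh : K.IsHermitian := ktau_herm k τ
  have hA : (K - F).IsHermitian := hKh.sub hF
  have hB : (K + F).IsHermitian := hKh.add hF
  have hS : ((2 : ℂ) • K).IsHermitian := by
    rw [two_smul]; exact hKh.add hKh
  have hc : 0 < τ / (2 * ρ) := by positivity
  have h2' : (k - -F).PosSemidef := by rwa [sub_neg_eq_add]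
  have h1' : (k + -F).PosSemidef := by rwa [← sub_eq_add_neg]
  have a0 : ∀ i, 0 < hA.eigenvalues i := fun i =>
    lt_of_lt_of_le hc (le_eig hA (A_ge hk hκ h1 hτ) i)
  have b0 : ∀ i, 0 < hB.eigenvalues i := fun i => by
    have := A_ge hk hκ h2' hτ
    rw [sub_neg_eq_add] at this
    exact lt_of_lt_of_le hc (le_eig hB this i)
  have a1 : ∀ i, hA.eigenvalues i ≤ 2 * ρ := fun i => eig_le hA (A_le hk hκ h2 hτ hκ0) i
  have sS : (((2 * ρ : ℝ) : ℂ) • (1 : Mat n) - (2 : ℂ) • K).PosSemidef := by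
    have := (ktau_le hk hκ τ).add (ktau_le hk hκ τ)
    convert this using 1
    push_cast
    rw [mul_smul, two_smul, two_smul]
    abel
  have s1 : ∀ i, hS.eigenvalues i ≤ 2 * ρ := fun i => eig_le hS sS i
  have s0 : ∀ i, 0 < hS.eigenvalues i := fun i => by
    have h := (ktau_ge hk hτ).add (ktau_ge hk hτ)
    have h' : ((2 : ℂ) • K - ((2 * Real.sqrt τ : ℝ) : ℂ) • (1 : Mat n)).PosSemidef := by
      convert h using 1
      push_cast
      rw [mul_smul, two_smul, two_smul]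
      abel
    exact lt_of_lt_of_le (by positivity) (le_eig hS h' i)
  have e := cde_eq_aux hk h1 h2 hτ hA hB hS a0 b0 s0
  rw [← hK] at e
  have i1 : 0 ≤ ∫ s in Ioi (0 : ℝ), s * dfs (K - F) ((2 : ℂ) • K) s :=
    setIntegral_nonneg measurableSet_Ioi fun s hs =>
      mul_nonneg (le_of_lt hs) (dfs_nonneg hS s0 s)
  have i2 : 0 ≤ ∫ s in Ioi (0 : ℝ), s * dfs (K + F) ((2 : ℂ) • K) s :=
    setIntegral_nonneg measurableSet_Ioi fun s hs =>
      mul_nonneg (le_of_lt hs) (dfs_nonneg hS s0 s)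
  refine ⟨by rw [e]; positivity, ?_⟩
  have h3 := one_side_ge hA hS s0 s1 a0 a1 (by positivity) (by positivity)
  have e2 : (K - F) * ((2 : ℂ) • K) - ((2 : ℂ) • K) * (K - F) =
      ((2 : ℝ) : ℂ) • (K * F - F * K) := by
    rw [Matrix.mul_smul, Matrix.smul_mul, ← smul_sub]
    push_cast
    congr 1
    noncomm_ring
  rw [e2, hsq_rsmul] at h3
  calc 4 * hsq (K * F - F * K) = 2 ^ 2 * hsq (K * F - F * K) := by norm_num
    _ ≤ _ := h3
    _ ≤ _ := by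
        refine mul_le_mul_of_nonneg_left ?_ (by positivity)
        rw [e]; linarith

theorem exists_kappa {k : Mat n} (hk : k.PosSemidef) :
    ∃ κ : ℝ, 0 ≤ κ ∧ ((κ : ℂ) • (1 : Mat n) - k).PosSemidef :=
  ⟨rtr k, rtr_nonneg hk, le_rtr_smul hk⟩

theorem cde_nonneg {k F : Mat n} {τ : ℝ} (hk : k.PosSemidef)
    (h1 : (k - F).PosSemidef) (h2 : (k + F).PosSemidef) (hτ : 0 < τ) : 0 ≤ cde k F τ := by
  obtain ⟨κ, hκ0, hκ⟩ := exists_kappa hk
  exact (cde_bounds hk hκ hκ0 h1 h2 hτ).1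

end SLT
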