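import Crest.Agent.SLT.PIMain
import Crest.Agent.SLT.PIGT
import Crest.Agent.SLT.StabGibbs
import Crest.Agent.SLT.StabKtau

/-! Row 332, (PI): `0 ≤ dPI`. -/

set_option autoImplicit false

open MeasureTheory Set Filter Topology
open scoped ComplexOrder Matrix

namespace SLT

theorem cq_pos {q : ℝ} (hq : 0 < q) (hq' : q < 1) : 0 < cq q := by
  unfold cq
  have : 0 < Real.sin (Real.pi * q) :=
    Real.sin_pos_of_pos_of_lt_pi (by positivity) (by nlinarith [Real.pi_pos])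
  positivity

theorem Ytau_posDef {n : ℕ} {q : ℝ} (hq : 0 < q) {V : Mat n} (hV : V.PosSemidef) {τ : ℝ}
    (hτ : 0 < τ) : (Ytau q V τ).PosDef := by
  unfold Ytau
  refine Matrix.PosDef.posSemidef_add hV ?_
  refine Matrix.PosDef.one.smul ?_
  have : 0 < (1 + 1 / q) * τ := by positivity
  exact_mod_cast this

theorem Xtau_herm {n : ℕ} (q : ℝ) (k F : Mat n) (τ : ℝ) : (Xtau q k F τ).IsHermitian := by
  unfold Xtau
  refine ((cfc_predicate (R := ℝ) _ _ : IsSelfAdjoint _).add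
    (cfc_predicate (R := ℝ) _ _ : IsSelfAdjoint _)).add ?_
  change (((Real.log (1 + 1 / q) : ℝ) : ℂ) • (1 : Mat n)).IsHermitian
  rw [Matrix.IsHermitian, Matrix.conjTranspose_smul, Matrix.conjTranspose_one]
  simp

/-- Approximate mean value form of (PI) with its deficits. -/
theorem dPI_ge' {n : ℕ} {q : ℝ} (hq : 0 < q) (hq' : q < 1) {k F V : Mat n} (h : KF k F)
    (hV : V.PosSemidef) {η : ℝ} (hη : 0 < η) :
    ∃ τ ∈ Icc (1 : ℝ) 2, cq q * (τ ^ (q - 1) * gibbs (Ytau q V τ) (Xtau q k F τ) +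
      1 / q * τ ^ q * cde k F τ) ≤ dPI q k F V + η :=
  dPI_ge hq hq' h hV (fun τ hτ => gibbs_nonneg (Ytau_posDef hq hV hτ) (Xtau_herm q k F τ))
    (fun τ hτ => gtd_nonneg h hτ) (fun τ hτ => cde_nonneg h.hk h.le h.ge hτ) hη

theorem dPI_nonneg {n : ℕ} {q : ℝ} (hq : 0 < q) (hq' : q < 1) {k F V : Mat n} (h : KF k F)
    (hV : V.PosSemidef) : 0 ≤ dPI q k F V := by
  refine le_of_forall_pos_le_add fun η hη => ?_
  obtain ⟨τ, hτ, h1⟩ := dPI_ge' hq hq' h hV hη
  have hτ0 : 0 < τ := lt_of_lt_of_le one_pos hτ.1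
  refine le_trans ?_ h1
  have h2 := gibbs_nonneg (Ytau_posDef hq hV hτ0) (Xtau_herm q k F τ)
  have h3 := cde_nonneg h.hk h.le h.ge hτ0
  have := cq_pos hq hq'
  positivity

end SLT
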