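import Mathlib
import Crest.Agent.SLT.PIDefs

/-! Row 332, (PI)/(K), chunk PI-4a: scalar integral. -/

set_option autoImplicit false

open MeasureTheory Set Filter Topology

namespace SLT

namespace PIScA

/-- the Gamma integral as a lower integral -/
lemma lint_gamma {a r : ℝ} (ha : 0 < a) (hr : 0 < r) :
    ∫⁻ t in Ioi (0 : ℝ), ENNReal.ofReal (t ^ (a - 1) * Real.exp (-(r * t)))
      = ENNReal.ofReal ((1 / r) ^ a * Real.Gamma a) := by
  have h := Real.integral_rpow_mul_exp_neg_mul_Ioi ha hr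
  have hpos : 0 < (1 / r) ^ a * Real.Gamma a :=
    mul_pos (Real.rpow_pos_of_pos (by positivity) _) (Real.Gamma_pos_of_pos ha)
  have hint : IntegrableOn (fun t : ℝ => t ^ (a - 1) * Real.exp (-(r * t))) (Ioi 0) := by
    by_contra hc
    rw [integral_undef hc] at h
    exact hpos.ne h
  rw [← h]
  refine (ofReal_integral_eq_lintegral_ofReal hint ?_).symm
  refine (ae_restrict_iff' measurableSet_Ioi).2 (Eventually.of_forall fun t ht => ?_)
  have ht' : (0 : ℝ) < t := ht
  show 0 ≤ t ^ (a - 1) * Real.exp (-(r * t))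
  positivity

/-- the reflection integral -/
lemma lint_refl {q s : ℝ} (hq : 0 < q) (hq' : q < 1) (hs : 0 < s) :
    ∫⁻ t in Ioi (0 : ℝ), ENNReal.ofReal (t ^ (q - 1) * (t + s)⁻¹)
      = ENNReal.ofReal (s ^ (q - 1) * (Real.pi / Real.sin (Real.pi * q))) := by
  have h1 : ∀ t ∈ Ioi (0 : ℝ), ENNReal.ofReal (t ^ (q - 1) * (t + s)⁻¹)
      = ∫⁻ u in Ioi (0 : ℝ), ENNReal.ofReal (t ^ (q - 1) * Real.exp (-((t + s) * u))) := by
    intro t ht
    have ht' : (0 : ℝ) < t := ht
    have h := lint_gamma (a := 1) (r := t + s) one_pos (by positivity)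
    simp only [sub_self, Real.rpow_zero, one_mul, Real.rpow_one, Real.Gamma_one, mul_one] at h
    have h0 : (0 : ℝ) ≤ t ^ (q - 1) := by positivity
    simp_rw [ENNReal.ofReal_mul h0]
    rw [lintegral_const_mul _ (by fun_prop), h, one_div]
  rw [setLIntegral_congr_fun measurableSet_Ioi h1]
  rw [lintegral_lintegral_swap]
  swap
  · apply Measurable.aemeasurable
    simp only [Function.uncurry_def]
    fun_prop
  have h2 : ∀ u ∈ Ioi (0 : ℝ),
      ∫⁻ t in Ioi (0 : ℝ), ENNReal.ofReal (t ^ (q - 1) * Real.exp (-((t + s) * u)))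
        = ENNReal.ofReal (Real.Gamma q) * ENNReal.ofReal (u ^ ((1 - q) - 1) * Real.exp (-(s * u))) := by
    intro u hu
    have hu' : (0 : ℝ) < u := hu
    have h := lint_gamma (a := q) (r := u) hq hu'
    have h3 : ∀ t : ℝ, ENNReal.ofReal (t ^ (q - 1) * Real.exp (-((t + s) * u)))
        = ENNReal.ofReal (Real.exp (-(s * u))) *
          ENNReal.ofReal (t ^ (q - 1) * Real.exp (-(u * t))) := by
      intro t
      rw [← ENNReal.ofReal_mul (Real.exp_pos _).le]
      congr 1
      rw [show -((t + s) * u) = -(s * u) + -(u * t) by ring, Real.exp_add]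
      ring
    simp_rw [h3]
    rw [lintegral_const_mul _ (by fun_prop), h, ← ENNReal.ofReal_mul (Real.exp_pos _).le,
      ← ENNReal.ofReal_mul (Real.Gamma_pos_of_pos hq).le]
    congr 1
    rw [show (1 - q) - 1 = -q by ring, Real.rpow_neg hu'.le, Real.div_rpow zero_le_one hu'.le,
      Real.one_rpow]
    ring
  rw [setLIntegral_congr_fun measurableSet_Ioi h2, lintegral_const_mul _ (by fun_prop),
    lint_gamma (by linarith) hs, ← ENNReal.ofReal_mul (Real.Gamma_pos_of_pos hq).le]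
  congr 1
  rw [← Real.Gamma_mul_Gamma_one_sub, Real.div_rpow zero_le_one hs.le, Real.one_rpow, one_div,
    ← Real.rpow_neg hs.le]
  rw [show -(1 - q) = q - 1 by ring]
  ring

lemma log_eq_integral {ρ τ : ℝ} (hρ : 0 ≤ ρ) (hτ : 0 < τ) :
    ENNReal.ofReal (Real.log (1 + ρ / τ)) = ∫⁻ s in Ioc (0 : ℝ) ρ, ENNReal.ofReal ((τ + s)⁻¹) := by
  have hint : IntegrableOn (fun s : ℝ => (τ + s)⁻¹) (Ioc 0 ρ) := by
    apply (ContinuousOn.integrableOn_Icc _).mono_set Ioc_subset_Icc_self
    intro s hs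
    apply ContinuousAt.continuousWithinAt
    have : τ + s ≠ 0 := by have := hs.1; positivity
    fun_prop (disch := assumption)
  rw [← ofReal_integral_eq_lintegral_ofReal hint]
  · congr 1
    rw [← intervalIntegral.integral_of_le hρ]
    have h := intervalIntegral.integral_comp_add_left (fun x : ℝ => x⁻¹) τ (a := 0) (b := ρ)
    rw [h, integral_inv_of_pos (by positivity) (by positivity)]
    congr 1
    field_simp
    ring
  · refine (ae_restrict_iff' measurableSet_Ioc).2 (Eventually.of_forall fun s hs => ?_)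
    have := hs.1
    show 0 ≤ (τ + s)⁻¹
    positivity

lemma lint_log {q : ℝ} (hq : 0 < q) (hq' : q < 1) {ρ : ℝ} (hρ : 0 ≤ ρ) :
    ∫⁻ τ in Ioi (0 : ℝ), ENNReal.ofReal (τ ^ (q - 1) * Real.log (1 + ρ / τ))
      = ENNReal.ofReal (ρ ^ q / q * (Real.pi / Real.sin (Real.pi * q))) := by
  have h1 : ∀ τ ∈ Ioi (0 : ℝ), ENNReal.ofReal (τ ^ (q - 1) * Real.log (1 + ρ / τ))
      = ∫⁻ s in Ioc (0 : ℝ) ρ, ENNReal.ofReal (τ ^ (q - 1) * (τ + s)⁻¹) := by
    intro τ hτ
    have hτ' : (0 : ℝ) < τ := hτ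
    have h0 : (0 : ℝ) ≤ τ ^ (q - 1) := by positivity
    simp_rw [ENNReal.ofReal_mul h0]
    rw [lintegral_const_mul _ (by fun_prop), log_eq_integral hρ hτ']
  rw [setLIntegral_congr_fun measurableSet_Ioi h1, lintegral_lintegral_swap]
  swap
  · apply Measurable.aemeasurable
    simp only [Function.uncurry_def]
    fun_prop
  rw [setLIntegral_congr_fun measurableSet_Ioc (fun s hs => lint_refl hq hq' hs.1)]
  have hsin : 0 < Real.sin (Real.pi * q) :=
    Real.sin_pos_of_pos_of_lt_pi (by positivity) (by nlinarith [Real.pi_pos])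
  have hint : IntegrableOn (fun s : ℝ => s ^ (q - 1) * (Real.pi / Real.sin (Real.pi * q)))
      (Ioc 0 ρ) := by
    apply Integrable.mul_const
    exact (intervalIntegrable_iff_integrableOn_Ioc_of_le hρ).1
      (intervalIntegral.intervalIntegrable_rpow' (by linarith))
  rw [← ofReal_integral_eq_lintegral_ofReal hint]
  · congr 1
    rw [integral_mul_const, ← intervalIntegral.integral_of_le hρ,
      integral_rpow (Or.inl (by linarith))]
    rw [show q - 1 + 1 = q by ring, Real.zero_rpow hq.ne', sub_zero]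
  · refine (ae_restrict_iff' measurableSet_Ioc).2 (Eventually.of_forall fun s hs => ?_)
    have h1 : (0 : ℝ) < s := hs.1
    have h2 := Real.pi_pos
    show 0 ≤ s ^ (q - 1) * (Real.pi / Real.sin (Real.pi * q))
    positivity

end PIScA

/-- PI-4a. `c_q ∫_0^∞ τ^(q-1) log (1 + ρ/τ) dτ = ρ^q` for `0 < q < 1`, `ρ ≥ 0`.
(Substitute `τ = ρ u`; integrate by parts: `∫ u^(q-1) log(1+1/u) = (1/q) ∫ u^(q-1)/(1+u) = π/(q sin πq)`,
the last integral is the Beta/Gamma reflection formula.) -/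
theorem integral_log_rpow {q : ℝ} (hq : 0 < q) (hq' : q < 1) {ρ : ℝ} (hρ : 0 ≤ ρ) :
    IntegrableOn (fun τ : ℝ => τ ^ (q - 1) * Real.log (1 + ρ / τ)) (Ioi 0) ∧
      cq q * ∫ τ in Ioi (0 : ℝ), τ ^ (q - 1) * Real.log (1 + ρ / τ) = ρ ^ q := by
  have hsin : 0 < Real.sin (Real.pi * q) :=
    Real.sin_pos_of_pos_of_lt_pi (by positivity) (by nlinarith [Real.pi_pos])
  have hnn : 0 ≤ᵐ[volume.restrict (Ioi (0 : ℝ))]
      fun τ : ℝ => τ ^ (q - 1) * Real.log (1 + ρ / τ) := by
    refine (ae_restrict_iff' measurableSet_Ioi).2 (Eventually.of_forall fun τ hτ => ?_)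
    have hτ' : (0 : ℝ) < τ := hτ
    have : 0 ≤ Real.log (1 + ρ / τ) := Real.log_nonneg (by
      have : 0 ≤ ρ / τ := by positivity
      linarith)
    show 0 ≤ τ ^ (q - 1) * Real.log (1 + ρ / τ)
    positivity
  have hm : AEStronglyMeasurable (fun τ : ℝ => τ ^ (q - 1) * Real.log (1 + ρ / τ))
      (volume.restrict (Ioi (0 : ℝ))) := by
    apply Measurable.aestronglyMeasurable
    fun_prop
  have hl := PIScA.lint_log hq hq' hρ
  refine ⟨⟨hm, ?_⟩, ?_⟩
  · rw [hasFiniteIntegral_iff_ofReal hnn, hl]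
    exact ENNReal.ofReal_lt_top
  · rw [integral_eq_lintegral_of_nonneg_ae hnn hm, hl, ENNReal.toReal_ofReal]
    · unfold cq
      have := Real.pi_pos
      have hs2 : Real.sin (q * Real.pi) ≠ 0 := by rw [mul_comm]; exact hsin.ne'
      have hs3 := hsin.ne'
      field_simp
    · have := Real.pi_pos
      positivity

end SLT
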