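import Mathlib
import Crest.Agent.SLT.PIDefs
import Crest.Agent.SLT.PIScA

/-! Row 332, (PI)/(K), chunk PI-4b: scalar integral. -/

set_option autoImplicit false

open MeasureTheory Set Filter Topology

namespace SLT

private theorem entropy_pointwise {v t : ℝ} (hv : 0 ≤ v) (ht : 0 < t) :
    (v + t) * Real.log (v + t) - (v + t) * Real.log t - v =
      ∫ w in (0 : ℝ)..v, Real.log (1 + w / t) := by
  have h1 : ∀ w ∈ uIcc 0 v, HasDerivAt
      (fun w => (w + t) * Real.log (w + t) - (w + t) * Real.log t - w)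
      (Real.log (1 + w / t)) w := by
    intro w hw
    rw [uIcc_of_le hv] at hw
    have h2 : 0 < w + t := by linarith [hw.1]
    have d0 : HasDerivAt (fun w => w + t) 1 w := (hasDerivAt_id w).add_const t
    have d1 : HasDerivAt (fun w => (w + t) * Real.log (w + t)) ((Real.log (w + t) + 1) * 1) w :=
      HasDerivAt.comp (h₂ := fun x : ℝ => x * Real.log x) w (Real.hasDerivAt_mul_log h2.ne') d0
    have d2 : HasDerivAt (fun w => (w + t) * Real.log t) (1 * Real.log t) w := d0.mul_const _
    have d := (d1.sub d2).sub (hasDerivAt_id w)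
    have e : (Real.log (w + t) + 1) * 1 - 1 * Real.log t - 1 = Real.log (1 + w / t) := by
      have e1 : 1 + w / t = (w + t) / t := by field_simp; ring
      rw [e1, Real.log_div h2.ne' ht.ne']
      ring
    rw [e] at d
    exact d
  have hc : ContinuousOn (fun w : ℝ => Real.log (1 + w / t)) (uIcc 0 v) := by
    refine ContinuousOn.log (by fun_prop) ?_
    intro w hw
    rw [uIcc_of_le hv] at hw
    have : 0 ≤ w / t := div_nonneg hw.1 ht.le
    positivity
  rw [intervalIntegral.integral_eq_sub_of_hasDerivAt h1 hc.intervalIntegrable]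
  simp

private theorem cq_pos' {q : ℝ} (hq : 0 < q) (hq' : q < 1) : 0 < cq q := by
  unfold cq
  have h1 : 0 < Real.sin (Real.pi * q) := by
    refine Real.sin_pos_of_pos_of_lt_pi (mul_pos Real.pi_pos hq) ?_
    have := Real.pi_pos
    nlinarith
  have := Real.pi_pos
  positivity

/-- PI-4b. The entropy integral: `c_q ∫_0^∞ τ^(q-1) [(v+sτ) log (v+sτ) - (v+sτ) log (sτ) - v] dτ
= c v^(1+q)`, `s = 1 + 1/q`, `c = cc q`. (Scaling `t = sτ` gives
`s^(-q) ∫ t^(q-1) [(v+t) log (1+v/t) - v] dt`, and this integral is `v^(1+q) / ((1+q) c_q)`: its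
derivative in `v` is `∫ t^(q-1) log (1+v/t) dt = v^q / c_q`, i.e. write
`(v+t) log(1+v/t) - v = ∫_0^v log (1+w/t) dw` and use Fubini (nonnegative integrand) and PI-4a.) -/
theorem integral_entropy {q : ℝ} (hq : 0 < q) (hq' : q < 1) {v : ℝ} (hv : 0 ≤ v) :
    IntegrableOn (fun τ : ℝ => τ ^ (q - 1) * ((v + (1 + 1 / q) * τ) * Real.log (v + (1 + 1 / q) * τ)
      - (v + (1 + 1 / q) * τ) * Real.log ((1 + 1 / q) * τ) - v)) (Ioi 0) ∧
    cq q * (∫ τ in Ioi (0 : ℝ), τ ^ (q - 1) * ((v + (1 + 1 / q) * τ) *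
      Real.log (v + (1 + 1 / q) * τ) - (v + (1 + 1 / q) * τ) * Real.log ((1 + 1 / q) * τ) - v))
      = cc q * v ^ (1 + q) := by
  have hcq := cq_pos' hq hq'
  have hs : 0 < 1 + 1 / q := by positivity
  set s : ℝ := 1 + 1 / q with hsdef
  set f : ℝ × ℝ → ℝ := fun p => p.1 ^ (q - 1) * Real.log (1 + p.2 / s / p.1) with hf
  have hfm : Measurable f := by
    rw [hf]
    fun_prop
  have hx : ∀ x ∈ Ioc 0 v, 0 ≤ x / s := fun x hx => div_nonneg hx.1.le hs.le
  have hfn : ∀ x ∈ Ioc 0 v, ∀ τ ∈ Ioi (0 : ℝ), 0 ≤ f (τ, x) := by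
    intro x hx1 τ hτ
    have h1 : (0 : ℝ) < τ := hτ
    have h2 := hx x hx1
    have h3 : 0 ≤ x / s / τ := by positivity
    have h4 : 0 ≤ Real.log (1 + x / s / τ) := Real.log_nonneg (by linarith)
    rw [hf]
    positivity
  have hval : ∀ x ∈ Ioc 0 v, ∫ τ in Ioi (0 : ℝ), f (τ, x) = (x / s) ^ q / cq q := by
    intro x hx1
    have h := (integral_log_rpow hq hq' (hx x hx1)).2
    rw [eq_div_iff hcq.ne', mul_comm]
    exact h
  have hcont : Continuous fun x : ℝ => (x / s) ^ q / cq q := by
    refine Continuous.div_const ?_ _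
    exact Continuous.rpow_const (by fun_prop) (fun x => Or.inr hq.le)
  have hint : Integrable f ((volume.restrict (Ioi (0 : ℝ))).prod (volume.restrict (Ioc 0 v))) := by
    rw [integrable_prod_iff' hfm.aestronglyMeasurable]
    constructor
    · refine (ae_restrict_iff' measurableSet_Ioc).2 (Filter.Eventually.of_forall fun x hx1 => ?_)
      exact (integral_log_rpow hq hq' (hx x hx1)).1
    · have h1 : IntegrableOn (fun x : ℝ => (x / s) ^ q / cq q) (Ioc 0 v) :=
        (hcont.integrableOn_Icc).mono_set Ioc_subset_Icc_self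
      refine Integrable.congr h1 ?_
      refine (ae_restrict_iff' measurableSet_Ioc).2 (Filter.Eventually.of_forall fun x hx1 => ?_)
      change (x / s) ^ q / cq q = ∫ (τ : ℝ) in Ioi 0, ‖f (τ, x)‖
      rw [← hval x hx1]
      refine setIntegral_congr_fun measurableSet_Ioi fun τ hτ => ?_
      exact (Real.norm_of_nonneg (hfn x hx1 τ hτ)).symm
  have hpt : ∀ τ ∈ Ioi (0 : ℝ), τ ^ (q - 1) * ((v + s * τ) * Real.log (v + s * τ)
      - (v + s * τ) * Real.log (s * τ) - v) =
      ∫ x in Ioc 0 v, f (τ, x) := by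
    intro τ hτ
    have hτ' : (0 : ℝ) < τ := hτ
    rw [entropy_pointwise hv (mul_pos hs hτ'), ← intervalIntegral.integral_const_mul,
      intervalIntegral.integral_of_le hv]
    refine setIntegral_congr_fun measurableSet_Ioc fun x _ => ?_
    simp only [hf, div_div]
  constructor
  · have h1 := hint.integral_prod_left
    refine Integrable.congr h1 ?_
    refine (ae_restrict_iff' measurableSet_Ioi).2 (Filter.Eventually.of_forall fun τ hτ => ?_)
    exact (hpt τ hτ).symm
  · rw [setIntegral_congr_fun measurableSet_Ioi hpt]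
    have h2 := integral_integral_swap (f := fun τ x => f (τ, x)) hint
    rw [h2, setIntegral_congr_fun measurableSet_Ioc hval,
      ← intervalIntegral.integral_of_le hv, intervalIntegral.integral_div]
    have h3 : ∀ x ∈ uIcc 0 v, (x / s) ^ q = x ^ q / s ^ q := by
      intro x hx1
      rw [uIcc_of_le hv] at hx1
      exact Real.div_rpow hx1.1 hs.le q
    rw [intervalIntegral.integral_congr h3, intervalIntegral.integral_div,
      integral_rpow (Or.inl (by linarith)), Real.zero_rpow (by positivity), sub_zero]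
    have h4 : cc q = 1 / (s ^ q * (q + 1)) := by
      unfold cc
      have e1 : s = (1 + q) / q := by rw [hsdef]; field_simp; ring
      have h5 : (0 : ℝ) < 1 + q := by positivity
      rw [e1, Real.div_rpow h5.le hq.le, Real.rpow_add h5, Real.rpow_one]
      have h6 : (0 : ℝ) < q ^ q := Real.rpow_pos_of_pos hq _
      have h7 : (0 : ℝ) < (1 + q) ^ q := Real.rpow_pos_of_pos h5 _
      field_simp
      ring
    rw [h4, add_comm 1 q]
    have h7 : (0 : ℝ) < s ^ q := Real.rpow_pos_of_pos hs _
    field_simp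

end SLT
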