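import Mathlib
import Crest.Agent.SLT.PIDefs
import Crest.Agent.SLT.PIScA

/-! Row 332, (PI)/(K), chunk PI-4c: scalar integral. -/

set_option autoImplicit false

open MeasureTheory Set Filter Topology

namespace SLT

private theorem Gent_hasDerivAt {a : ℝ} (ha : a ≠ 0) : HasDerivAt Gent (Real.log a) a := by
  have h := (Real.hasDerivAt_mul_log ha).sub (hasDerivAt_id a)
  have e : Real.log a + 1 - 1 = Real.log a := by ring
  rw [e] at h
  exact h

private theorem boundary_pointwise {κ τ : ℝ} (hκ : 0 ≤ κ) (hτ : 0 < τ) :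
    2 * (Gent (Real.sqrt (κ ^ 2 + τ) + κ) - Gent (Real.sqrt (κ ^ 2 + τ) - κ) - κ * Real.log τ) =
      ∫ x in (-κ)..κ, Real.log (1 + (κ ^ 2 - x ^ 2) / τ) := by
  set s := Real.sqrt (κ ^ 2 + τ) with hs
  have hs2 : s ^ 2 = κ ^ 2 + τ := Real.sq_sqrt (by positivity)
  have hs0 : 0 ≤ s := Real.sqrt_nonneg _
  have hsk : κ < s := by
    by_contra h
    push Not at h
    have := pow_le_pow_left₀ hs0 h 2
    linarith
  have hx : ∀ x ∈ uIcc (-κ) κ, 0 < s + x ∧ 0 < s - x ∧ 0 ≤ κ ^ 2 - x ^ 2 := by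
    intro x hx
    rw [uIcc_of_le (by linarith)] at hx
    refine ⟨by linarith [hx.1], by linarith [hx.2], ?_⟩
    have := abs_le.2 hx
    have h2 := sq_le_sq' hx.1 hx.2
    linarith
  have h1 : ∀ x ∈ uIcc (-κ) κ, HasDerivAt
      (fun x => Gent (s + x) - Gent (s - x) - x * Real.log τ)
      (Real.log (1 + (κ ^ 2 - x ^ 2) / τ)) x := by
    intro x hxm
    obtain ⟨h2, h3, h4⟩ := hx x hxm
    have d1 : HasDerivAt (fun x => Gent (s + x)) (Real.log (s + x) * 1) x :=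
      (Gent_hasDerivAt h2.ne').comp x ((hasDerivAt_id x).const_add s)
    have d2 : HasDerivAt (fun x => Gent (s - x)) (Real.log (s - x) * (-1)) x :=
      (Gent_hasDerivAt h3.ne').comp x ((hasDerivAt_id x).const_sub s)
    have d3 : HasDerivAt (fun x => x * Real.log τ) (1 * Real.log τ) x :=
      (hasDerivAt_id x).mul_const _
    have d := (d1.sub d2).sub d3
    have e : Real.log (s + x) * 1 - Real.log (s - x) * (-1) - 1 * Real.log τ =
        Real.log (1 + (κ ^ 2 - x ^ 2) / τ) := by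
      have e1 : 1 + (κ ^ 2 - x ^ 2) / τ = (s + x) * (s - x) / τ := by
        have : (s + x) * (s - x) = κ ^ 2 + τ - x ^ 2 := by nlinarith
        rw [this]
        field_simp
        ring
      rw [e1, Real.log_div (mul_pos h2 h3).ne' hτ.ne', Real.log_mul h2.ne' h3.ne']
      ring
    rw [e] at d
    exact d
  have hc : ContinuousOn (fun x : ℝ => Real.log (1 + (κ ^ 2 - x ^ 2) / τ)) (uIcc (-κ) κ) := by
    refine ContinuousOn.log (by fun_prop) ?_
    intro x hxm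
    have h4 := (hx x hxm).2.2
    have : 0 ≤ (κ ^ 2 - x ^ 2) / τ := by positivity
    positivity
  rw [intervalIntegral.integral_eq_sub_of_hasDerivAt h1 hc.intervalIntegrable]
  have e1 : s - -κ = s + κ := by ring
  have e2 : s + -κ = s - κ := by ring
  simp only [e1, e2]
  ring

private theorem cq_pos {q : ℝ} (hq : 0 < q) (hq' : q < 1) : 0 < cq q := by
  unfold cq
  have h1 : 0 < Real.sin (Real.pi * q) := by
    refine Real.sin_pos_of_pos_of_lt_pi (mul_pos Real.pi_pos hq) ?_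
    have := Real.pi_pos
    nlinarith
  have := Real.pi_pos
  positivity

private theorem BB_scale {q κ : ℝ} (hq : 0 < q) (hκ : 0 ≤ κ) :
    ∫ x in (-κ)..κ, (κ ^ 2 - x ^ 2) ^ q = BB q * κ ^ (2 * q + 1) := by
  rcases hκ.eq_or_lt with h0 | h0
  · rw [← h0, Real.zero_rpow (by positivity)]
    simp
  have h1 := intervalIntegral.integral_comp_mul_left (a := -1) (b := 1)
    (fun x : ℝ => (κ ^ 2 - x ^ 2) ^ q) h0.ne'
  rw [mul_neg, mul_one] at h1
  have h2 : ∫ x in (-κ)..κ, (κ ^ 2 - x ^ 2) ^ q =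
      κ * ∫ x in (-1 : ℝ)..1, (κ ^ 2 - (κ * x) ^ 2) ^ q := by
    rw [h1, smul_eq_mul, ← mul_assoc, mul_inv_cancel₀ h0.ne', one_mul]
  rw [h2]
  have h3 : ∀ x ∈ uIcc (-1 : ℝ) 1, (κ ^ 2 - (κ * x) ^ 2) ^ q = κ ^ (2 * q) * (1 - x ^ 2) ^ q := by
    intro x hx
    rw [uIcc_of_le (by norm_num)] at hx
    have h4 : 0 ≤ 1 - x ^ 2 := by nlinarith [hx.1, hx.2]
    have e : κ ^ 2 - (κ * x) ^ 2 = κ ^ 2 * (1 - x ^ 2) := by ring
    rw [e, Real.mul_rpow (by positivity) h4, Real.rpow_mul hκ, Real.rpow_two]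
  rw [intervalIntegral.integral_congr h3, intervalIntegral.integral_const_mul]
  unfold BB
  rw [Real.rpow_add h0, Real.rpow_one]
  ring

/-- PI-4c. The boundary values of the potential: for `κ ≥ 0`,
`c_q ∫_0^∞ τ^(q-1) · 2 [G(s+κ) - G(s-κ) - κ log τ] dτ = BB q κ^(2q+1)`, `s = (κ²+τ)^(1/2)`.
(`G(s+κ) - G(s-κ) - κ log τ = ∫_0^κ log ((s+x)(s-x)/τ) dx = ∫_0^κ log (1 + (κ²-x²)/τ) dx`, Fubini,
PI-4a, and `2 ∫_0^κ (κ²-x²)^q dx = κ^(2q+1) ∫_{-1}^1 (1-t²)^q dt`.) -/
theorem integral_boundary {q : ℝ} (hq : 0 < q) (hq' : q < 1) {κ : ℝ} (hκ : 0 ≤ κ) :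
    IntegrableOn (fun τ : ℝ => τ ^ (q - 1) * (2 * (Gent (Real.sqrt (κ ^ 2 + τ) + κ)
      - Gent (Real.sqrt (κ ^ 2 + τ) - κ) - κ * Real.log τ))) (Ioi 0) ∧
    cq q * (∫ τ in Ioi (0 : ℝ), τ ^ (q - 1) * (2 * (Gent (Real.sqrt (κ ^ 2 + τ) + κ)
      - Gent (Real.sqrt (κ ^ 2 + τ) - κ) - κ * Real.log τ))) = BB q * κ ^ (2 * q + 1) := by
  have hcq := cq_pos hq hq'
  set f : ℝ × ℝ → ℝ := fun p => p.1 ^ (q - 1) * Real.log (1 + (κ ^ 2 - p.2 ^ 2) / p.1) with hf
  have hfm : Measurable f := by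
    rw [hf]
    fun_prop
  have hx : ∀ x ∈ Ioc (-κ) κ, 0 ≤ κ ^ 2 - x ^ 2 := by
    intro x hx
    have h2 := sq_le_sq' hx.1.le hx.2
    linarith
  have hfn : ∀ x ∈ Ioc (-κ) κ, ∀ τ ∈ Ioi (0 : ℝ), 0 ≤ f (τ, x) := by
    intro x hx1 τ hτ
    have h1 : (0 : ℝ) < τ := hτ
    have h2 := hx x hx1
    have h3 : 0 ≤ (κ ^ 2 - x ^ 2) / τ := by positivity
    have h4 : 0 ≤ Real.log (1 + (κ ^ 2 - x ^ 2) / τ) := Real.log_nonneg (by linarith)
    rw [hf]
    positivity
  have hval : ∀ x ∈ Ioc (-κ) κ, ∫ τ in Ioi (0 : ℝ), f (τ, x) = (κ ^ 2 - x ^ 2) ^ q / cq q := by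
    intro x hx1
    have h := (integral_log_rpow hq hq' (hx x hx1)).2
    rw [eq_div_iff hcq.ne', mul_comm]
    exact h
  have hcont : Continuous fun x : ℝ => (κ ^ 2 - x ^ 2) ^ q / cq q := by
    refine Continuous.div_const ?_ _
    exact Continuous.rpow_const (by fun_prop) (fun x => Or.inr hq.le)
  have hint : Integrable f ((volume.restrict (Ioi (0 : ℝ))).prod (volume.restrict (Ioc (-κ) κ))) := by
    rw [integrable_prod_iff' hfm.aestronglyMeasurable]
    constructor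
    · refine (ae_restrict_iff' measurableSet_Ioc).2 (Filter.Eventually.of_forall fun x hx1 => ?_)
      exact (integral_log_rpow hq hq' (hx x hx1)).1
    · have h1 : IntegrableOn (fun x : ℝ => (κ ^ 2 - x ^ 2) ^ q / cq q) (Ioc (-κ) κ) :=
        (hcont.integrableOn_Icc).mono_set Ioc_subset_Icc_self
      refine Integrable.congr h1 ?_
      refine (ae_restrict_iff' measurableSet_Ioc).2 (Filter.Eventually.of_forall fun x hx1 => ?_)
      change (κ ^ 2 - x ^ 2) ^ q / cq q = ∫ (τ : ℝ) in Ioi 0, ‖f (τ, x)‖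
      rw [← hval x hx1]
      refine setIntegral_congr_fun measurableSet_Ioi fun τ hτ => ?_
      exact (Real.norm_of_nonneg (hfn x hx1 τ hτ)).symm
  have hpt : ∀ τ ∈ Ioi (0 : ℝ), τ ^ (q - 1) * (2 * (Gent (Real.sqrt (κ ^ 2 + τ) + κ)
      - Gent (Real.sqrt (κ ^ 2 + τ) - κ) - κ * Real.log τ)) =
      ∫ x in Ioc (-κ) κ, f (τ, x) := by
    intro τ hτ
    rw [boundary_pointwise hκ hτ, ← intervalIntegral.integral_const_mul,
      intervalIntegral.integral_of_le (by linarith)]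
  constructor
  · have h1 := hint.integral_prod_left
    refine Integrable.congr h1 ?_
    refine (ae_restrict_iff' measurableSet_Ioi).2 (Filter.Eventually.of_forall fun τ hτ => ?_)
    exact (hpt τ hτ).symm
  · rw [setIntegral_congr_fun measurableSet_Ioi hpt]
    have h2 := integral_integral_swap (f := fun τ x => f (τ, x)) hint
    rw [h2, setIntegral_congr_fun measurableSet_Ioc hval,
      ← intervalIntegral.integral_of_le (by linarith), intervalIntegral.integral_div,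
      BB_scale hq hκ]
    field_simp

end SLT
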