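import Crest.Agent.SLT.RedMpow

set_option autoImplicit false

open MeasureTheory Set Filter
open scoped ComplexOrder Matrix Topology

namespace SLT

open Crest.MathPhysics.LiebThirring

variable {n : ℕ}

/-- scalar Bernoulli inequality, convex case -/
theorem rk_scalar_convex {a c g : ℝ} (ha : 0 < a) (hc : 0 ≤ c) (hg : 1 ≤ g) :
    a ^ g - c ^ g ≤ g * (a ^ (g - 1) * (a - c)) := by
  have h := one_add_mul_self_le_rpow_one_add (s := c / a - 1)
    (by have := div_nonneg hc ha.le; linarith) hg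
  have e1 : 1 + (c / a - 1) = c / a := by ring
  rw [e1, Real.div_rpow hc ha.le] at h
  have hag : 0 < a ^ g := Real.rpow_pos_of_pos ha g
  have h2 : (1 + g * (c / a - 1)) * a ^ g ≤ c ^ g := by
    calc (1 + g * (c / a - 1)) * a ^ g ≤ c ^ g / a ^ g * a ^ g :=
          mul_le_mul_of_nonneg_right h hag.le
      _ = c ^ g := by field_simp
  have e2 : a ^ g = a ^ (g - 1) * a := by
    rw [Real.rpow_sub_one ha.ne']
    field_simp
  have e3 : (1 + g * (c / a - 1)) * a ^ g = a ^ g + g * (a ^ (g - 1) * (c - a)) := by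
    have : g * (c / a - 1) * a ^ g = g * (a ^ (g - 1) * (c - a)) := by
      rw [e2]
      field_simp
    rw [add_mul, one_mul, this]
  rw [e3] at h2
  nlinarith [h2]

/-- scalar Bernoulli inequality, concave case -/
theorem rk_scalar_concave {a c g : ℝ} (ha : 0 < a) (hc : 0 ≤ c) (hg0 : 0 < g) (hg : g ≤ 1) :
    c ^ g ≤ a ^ g + g * (a ^ (g - 1) * (c - a)) := by
  have h := rpow_one_add_le_one_add_mul_self (s := c / a - 1)
    (by have := div_nonneg hc ha.le; linarith) hg0.le hg
  have e1 : 1 + (c / a - 1) = c / a := by ring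
  rw [e1, Real.div_rpow hc ha.le] at h
  have hag : 0 < a ^ g := Real.rpow_pos_of_pos ha g
  have h2 : c ^ g ≤ (1 + g * (c / a - 1)) * a ^ g := by
    calc c ^ g = c ^ g / a ^ g * a ^ g := by field_simp
      _ ≤ (1 + g * (c / a - 1)) * a ^ g := mul_le_mul_of_nonneg_right h hag.le
  have e2 : a ^ g = a ^ (g - 1) * a := by
    rw [Real.rpow_sub_one ha.ne']
    field_simp
  have e3 : (1 + g * (c / a - 1)) * a ^ g = a ^ g + g * (a ^ (g - 1) * (c - a)) := by
    have : g * (c / a - 1) * a ^ g = g * (a ^ (g - 1) * (c - a)) := by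
      rw [e2]
      field_simp
    rw [add_mul, one_mul, this]
  rw [e3] at h2
  exact h2

theorem rk_sum_one {A B : Mat n} (hA : A.IsHermitian) (hB : B.IsHermitian) (f g : ℝ → ℝ) :
    rtr (cfc f A * cfc g B) =
      ∑ i, ∑ j, f (hA.eigenvalues i) * g (hB.eigenvalues j) * swt hA hB 1 i j := by
  have := spec_sum hA hB (1 : Mat n) f g
  rwa [Matrix.mul_one, Matrix.conjTranspose_one, Matrix.mul_one] at this

theorem rk_sum_left {A B : Mat n} (hA : A.IsHermitian) (hB : B.IsHermitian) (f : ℝ → ℝ) :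
    rtr (cfc f A) =
      ∑ i, ∑ j, f (hA.eigenvalues i) * 1 * swt hA hB 1 i j := by
  rw [← rk_sum_one hA hB f (fun _ => 1), cfc_one_fun hB, Matrix.mul_one]

theorem rk_sum_right {A B : Mat n} (hA : A.IsHermitian) (hB : B.IsHermitian) (g : ℝ → ℝ) :
    rtr (cfc g B) =
      ∑ i, ∑ j, 1 * g (hB.eigenvalues j) * swt hA hB 1 i j := by
  rw [← rk_sum_one hA hB (fun _ => 1) g, cfc_one_fun hA, Matrix.one_mul]

theorem rk_mpow_mul_sub {A C : Mat n} (hA : A.IsHermitian) (hC : C.IsHermitian) (s : ℝ) :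
    rtr (mpow A s * (A - C)) =
      ∑ i, ∑ j, (hA.eigenvalues i ^ s * (hA.eigenvalues i - hC.eigenvalues j)) *
        swt hA hC 1 i j := by
  have h1 : rtr (mpow A s * A) =
      ∑ i, ∑ j, (hA.eigenvalues i ^ s * hA.eigenvalues i) * 1 * swt hA hC 1 i j := by
    rw [← rk_sum_left hA hC (fun t => t ^ s * t), ← cfc_mul_fun hA, cfc_id_fun hA]
    rfl
  have h2 : rtr (mpow A s * C) =
      ∑ i, ∑ j, hA.eigenvalues i ^ s * hC.eigenvalues j * swt hA hC 1 i j := by
    rw [← rk_sum_one hA hC (fun t => t ^ s) (fun t => t), cfc_id_fun hC]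
    rfl
  rw [Matrix.mul_sub, rtr_sub, h1, h2, ← Finset.sum_sub_distrib]
  refine Finset.sum_congr rfl fun i _ => ?_
  rw [← Finset.sum_sub_distrib]
  exact Finset.sum_congr rfl fun j _ => by ring

/-- RED-K1. Klein's inequality for the convex function `t^g`, `g ≥ 1`:
`tr A^g - tr C^g ≤ g tr (A^(g-1) (A - C))`. By `spec_sum` with `X = 1` it reduces to
`a^g - c^g ≤ g a^(g-1) (a - c)` for `a > 0`, `c ≥ 0`. -/
theorem klein_convex {A C : Mat n} (hA : A.PosDef) (hC : C.PosSemidef) {g : ℝ} (hg : 1 ≤ g) :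
    tracePow A g - tracePow C g ≤ g * rtr (mpow A (g - 1) * (A - C)) := by
  have h1 := rk_sum_left hA.isHermitian hC.isHermitian (fun t : ℝ => t ^ g)
  have h2 := rk_sum_right hA.isHermitian hC.isHermitian (fun t : ℝ => t ^ g)
  have e1 : tracePow A g = rtr (cfc (fun t : ℝ => t ^ g) A) := rfl
  have e2 : tracePow C g = rtr (cfc (fun t : ℝ => t ^ g) C) := rfl
  rw [e1, e2, h1, h2, rk_mpow_mul_sub hA.isHermitian hC.isHermitian, ← Finset.sum_sub_distrib,
    Finset.mul_sum]
  refine Finset.sum_le_sum fun i _ => ?_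
  rw [← Finset.sum_sub_distrib, Finset.mul_sum]
  refine Finset.sum_le_sum fun j _ => ?_
  have h := rk_scalar_convex (hA.eigenvalues_pos i) (hC.eigenvalues_nonneg j) hg
  have hw := swt_nonneg hA.isHermitian hC.isHermitian (1 : Mat n) i j
  calc _ = (hA.isHermitian.eigenvalues i ^ g - hC.isHermitian.eigenvalues j ^ g) *
        swt hA.isHermitian hC.isHermitian 1 i j := by ring
    _ ≤ (g * (hA.isHermitian.eigenvalues i ^ (g - 1) *
          (hA.isHermitian.eigenvalues i - hC.isHermitian.eigenvalues j))) *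
        swt hA.isHermitian hC.isHermitian 1 i j := mul_le_mul_of_nonneg_right h hw
    _ = _ := by ring

/-- RED-K2. Klein's inequality for the concave function `t^g`, `0 < g ≤ 1`:
`tr A^g ≤ tr μ^g + g tr (μ^(g-1) (A - μ))`. -/
theorem klein_concave {A μ : Mat n} (hA : A.PosSemidef) (hμ : μ.PosDef) {g : ℝ} (hg0 : 0 < g)
    (hg : g ≤ 1) :
    tracePow A g ≤ tracePow μ g + g * rtr (mpow μ (g - 1) * (A - μ)) := by
  have h1 := rk_sum_left hμ.isHermitian hA.isHermitian (fun t : ℝ => t ^ g)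
  have h2 := rk_sum_right hμ.isHermitian hA.isHermitian (fun t : ℝ => t ^ g)
  have e1 : tracePow μ g = rtr (cfc (fun t : ℝ => t ^ g) μ) := rfl
  have e2 : tracePow A g = rtr (cfc (fun t : ℝ => t ^ g) A) := rfl
  have e3 : rtr (mpow μ (g - 1) * (A - μ)) = - rtr (mpow μ (g - 1) * (μ - A)) := by
    rw [← rtr_neg, ← Matrix.mul_neg, neg_sub]
  rw [e1, e2, e3, h1, h2, rk_mpow_mul_sub hμ.isHermitian hA.isHermitian, ← Finset.sum_neg_distrib,
    Finset.mul_sum, ← Finset.sum_add_distrib]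
  refine Finset.sum_le_sum fun i _ => ?_
  rw [← Finset.sum_neg_distrib, Finset.mul_sum, ← Finset.sum_add_distrib]
  refine Finset.sum_le_sum fun j _ => ?_
  have h := rk_scalar_concave (hμ.eigenvalues_pos i) (hA.eigenvalues_nonneg j) hg0 hg
  have hw := swt_nonneg hμ.isHermitian hA.isHermitian (1 : Mat n) i j
  calc _ = hA.isHermitian.eigenvalues j ^ g * swt hμ.isHermitian hA.isHermitian 1 i j := by ring
    _ ≤ (hμ.isHermitian.eigenvalues i ^ g + g * (hμ.isHermitian.eigenvalues i ^ (g - 1) *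
          (hA.isHermitian.eigenvalues j - hμ.isHermitian.eigenvalues i))) *
        swt hμ.isHermitian hA.isHermitian 1 i j := mul_le_mul_of_nonneg_right h hw
    _ = _ := by ring

/-- RED-K3. `k_i ≤ K` if `tr k^s ≤ C` (`s > 0`): all eigenvalues are at most `C^(1/s)`. -/
theorem eig_le_of_tracePow {k : Mat n} (hk : k.PosSemidef) {s C : ℝ} (hs : 0 < s)
    (h : tracePow k s ≤ C) (i : Fin n) : hk.isHermitian.eigenvalues i ≤ C ^ (1 / s) := by
  have e : tracePow k s = ∑ i, hk.isHermitian.eigenvalues i ^ s :=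
    rtr_cfc hk.isHermitian (fun t : ℝ => t ^ s)
  have h1 : hk.isHermitian.eigenvalues i ^ s ≤ C := by
    refine le_trans ?_ h
    rw [e]
    exact Finset.single_le_sum (f := fun i => hk.isHermitian.eigenvalues i ^ s)
      (fun j _ => Real.rpow_nonneg (hk.eigenvalues_nonneg j) s) (Finset.mem_univ i)
  have h0 := hk.eigenvalues_nonneg i
  calc hk.isHermitian.eigenvalues i = (hk.isHermitian.eigenvalues i ^ s) ^ (1 / s) := by
        rw [← Real.rpow_mul h0, mul_one_div_cancel hs.ne', Real.rpow_one]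
    _ ≤ C ^ (1 / s) :=
        Real.rpow_le_rpow (Real.rpow_nonneg h0 s) h1 (by positivity)

/-- RED-K4. `tr (k+ε)^s ≤ tr k^s + δ` for small `ε`, uniformly on `{tr k^s ≤ C}`. -/
theorem exists_shift (n : ℕ) {s C δ : ℝ} (hs : 0 < s) (hδ : 0 < δ) :
    ∃ ε : ℝ, 0 < ε ∧ ε ≤ 1 ∧ ∀ k : Mat n, k.PosSemidef → tracePow k s ≤ C →
      rtr (cfc (fun t : ℝ => (t + ε) ^ s) k) ≤ tracePow k s + δ := by
  set K : ℝ := |C ^ (1 / s)| + 1 with hK
  have hcont : ContinuousOn (fun t : ℝ => t ^ s) (Icc 0 K) :=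
    (Real.continuous_rpow_const hs.le).continuousOn
  have hunif := isCompact_Icc.uniformContinuousOn_of_continuous hcont
  rw [Metric.uniformContinuousOn_iff] at hunif
  obtain ⟨η, hη, H⟩ := hunif (δ / (n + 1)) (by positivity)
  refine ⟨min (η / 2) 1, by positivity, min_le_right _ _, fun k hk hC => ?_⟩
  set ε := min (η / 2) 1 with hε
  have hε0 : 0 < ε := by positivity
  have hε1 : ε ≤ 1 := min_le_right _ _
  have hε2 : ε < η := lt_of_le_of_lt (min_le_left _ _) (by linarith)
  have e : tracePow k s = ∑ i, hk.isHermitian.eigenvalues i ^ s :=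
    rtr_cfc hk.isHermitian (fun t : ℝ => t ^ s)
  rw [rtr_cfc hk.isHermitian, e]
  have hterm : ∀ i, (hk.isHermitian.eigenvalues i + ε) ^ s ≤
      hk.isHermitian.eigenvalues i ^ s + δ / (n + 1) := by
    intro i
    have h0 := hk.eigenvalues_nonneg i
    have h1 := eig_le_of_tracePow hk hs hC i
    have h2 : C ^ (1 / s) ≤ |C ^ (1 / s)| := le_abs_self _
    have := H (hk.isHermitian.eigenvalues i + ε) ⟨by linarith, by linarith⟩
      (hk.isHermitian.eigenvalues i) ⟨h0, by linarith⟩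
      (by rw [Real.dist_eq, add_sub_cancel_left, abs_of_pos hε0]; exact hε2)
    rw [Real.dist_eq] at this
    have := (abs_lt.1 this).2
    linarith
  calc ∑ i, (hk.isHermitian.eigenvalues i + ε) ^ s
      ≤ ∑ i, (hk.isHermitian.eigenvalues i ^ s + δ / (n + 1)) :=
        Finset.sum_le_sum fun i _ => hterm i
    _ = ∑ i, hk.isHermitian.eigenvalues i ^ s + n * (δ / (n + 1)) := by
        rw [Finset.sum_add_distrib]; simp
    _ ≤ _ := by
        have : (n : ℝ) * (δ / (n + 1)) ≤ δ := by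
          rw [mul_div_assoc', div_le_iff₀ (by positivity)]
          nlinarith
        linarith

end SLT
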