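import Crest.Agent.SLT.RedW
import Crest.Agent.SLT.RedKlein
import Crest.Agent.SLT.ExPos

/-!
# Row 332, reduction (R): the balance identity
-/

set_option autoImplicit false

open MeasureTheory Set Filter
open scoped ComplexOrder Matrix Topology

namespace SLT

open Crest.MathPhysics.LiebThirring

variable {m N : ℕ}

section DFamBasic

variable {W : ℝ → Mat m} (D : DFam W N)

theorem DFam.continuous : Continuous D.Φ := by
  refine continuous_matrix fun i j => continuous_iff_continuousAt.2 fun x => ?_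
  exact (hasDerivAt_mat.1 (D.hΦ x) i j).continuousAt

theorem DFam.hcs : HasCompactSupport D.Φ := by
  refine HasCompactSupport.intro (isCompact_Icc (a := -D.R) (b := D.R)) fun x hx => ?_
  refine D.supp x ?_
  by_contra h
  push Not at h
  exact hx ⟨(abs_lt.1 h).1.le, (abs_lt.1 h).2.le⟩

theorem DFam.supp' (x : ℝ) (hx : D.R < |x|) : D.Φ' x = 0 := by
  have h1 : ∀ᶠ y in 𝓝 x, D.Φ y = 0 := by
    have : ∀ᶠ y in 𝓝 x, D.R < |y| := (continuous_abs.tendsto x).eventually_const_lt hx
    filter_upwards [this] with y hy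
    exact D.supp y hy.le
  have h3 : ∀ i j, HasDerivAt (fun y => D.Φ y i j) (D.Φ' x i j) x := hasDerivAt_mat.1 (D.hΦ x)
  ext i j
  have h4 : (fun y => D.Φ y i j) =ᶠ[𝓝 x] fun _ => (0 : ℂ) := by
    filter_upwards [h1] with y hy
    rw [hy]; rfl
  exact ((h3 i j).congr_of_eventuallyEq h4.symm).unique (hasDerivAt_const x 0)

theorem DFam.hcs' : HasCompactSupport D.Φ' := by
  refine HasCompactSupport.intro (isCompact_Icc (a := -D.R) (b := D.R)) fun x hx => ?_
  refine D.supp' x ?_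
  by_contra h
  push Not at h
  exact hx ⟨(abs_le.1 h).1, (abs_le.1 h).2⟩

end DFamBasic

/-- RED-B0. -/
theorem integral_rtr_mul (A : Mat N) {G : ℝ → Mat N} (hG : ∀ i j, Integrable fun x => G x i j) :
    Integrable (fun x => rtr (A * G x)) ∧
      ∫ x, rtr (A * G x) = rtr (A * Matrix.of fun i j => ∫ x, G x i j) := by
  have e : ∀ B : Mat N, rtr (A * B) = ∑ i, ∑ j, (A i j * B j i).re := by
    intro B
    simp [rtr, Matrix.trace, Matrix.mul_apply]
  have hi : ∀ i j, Integrable fun x => (A i j * G x j i).re := fun i j =>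
    ((hG j i).const_mul (A i j)).re
  have h1 : ∀ i, Integrable fun x => ∑ j, (A i j * G x j i).re := fun i =>
    integrable_finsetSum _ fun j _ => hi i j
  refine ⟨?_, ?_⟩
  · simp only [e]
    exact integrable_finsetSum _ fun i _ => h1 i
  · simp only [e]
    rw [integral_finsetSum _ fun i _ => h1 i]
    refine Finset.sum_congr rfl fun i _ => ?_
    rw [integral_finsetSum _ fun j _ => hi i j]
    refine Finset.sum_congr rfl fun j _ => ?_
    have h2 := integral_re ((hG j i).const_mul (A i j))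
    have h3 : ∫ x, (A i j * G x j i).re = (∫ x, A i j * G x j i).re := by
      simpa using h2
    rw [h3, integral_const_mul, Matrix.of_apply]

theorem continuous_rtr_mat : Continuous (rtr : Mat N → ℝ) :=
  Complex.continuous_re.comp (continuous_id.matrix_trace)

/-- RED-B3. -/
theorem pot_continuous {q : ℝ} (hq : 0 < q) {U : ℝ → RMat N m} (hU : Continuous U) :
    Continuous (pot q U) := by
  have h : ContinuousOn (fun x => mpow (U x * (U x)ᴴ) (1 / q)) univ :=
    continuousOn_mpow (by positivity) (fun x _ => Matrix.posSemidef_self_mul_conjTranspose _)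
      (by fun_prop)
  exact continuousOn_univ.1 h

theorem pot_psd (q : ℝ) (U : ℝ → RMat N m) (x : ℝ) : (pot q U x).PosSemidef :=
  mpow_psd (Matrix.posSemidef_self_mul_conjTranspose _) _

theorem pot_zero {q : ℝ} (hq : 0 < q) {U : ℝ → RMat N m} {x : ℝ} (h : U x = 0) :
    pot q U x = 0 := by
  unfold pot
  rw [h, Matrix.zero_mul]
  exact mpow_zero_left (by positivity)

theorem pot_pow {q : ℝ} (hq : 0 < q) (U : ℝ → RMat N m) (x : ℝ) :
    tracePow (pot q U x) (1 + q) = rtr (mpow (U x * (U x)ᴴ) ((1 + q) / q)) := by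
  have h : (U x * (U x)ᴴ).PosSemidef := Matrix.posSemidef_self_mul_conjTranspose _
  change rtr (mpow (mpow (U x * (U x)ᴴ) (1 / q)) (1 + q)) = _
  rw [mpow_mpow_eq h]
  congr 2
  field_simp

theorem pot_mul {q : ℝ} (hq : 0 < q) (U : ℝ → RMat N m) (x : ℝ) :
    rtr (pot q U x * (U x * (U x)ᴴ)) = tracePow (pot q U x) (1 + q) := by
  have h : (U x * (U x)ᴴ).PosSemidef := Matrix.posSemidef_self_mul_conjTranspose _
  rw [pot_pow hq, pot, mpow_mul_self h (by positivity)]
  congr 2
  field_simp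

theorem pot_pow' {q : ℝ} (hq : 0 < q) (U : ℝ → RMat N m) (x : ℝ) :
    tracePow (pot q U x) (1 + q) = rtr (mpow ((U x)ᴴ * U x) ((1 + q) / q)) := by
  rw [pot_pow hq, rtr_mpow_conj _ (by positivity)]

/-- the trace of the power of the potential is continuous -/
theorem pot_pow_continuous {q : ℝ} (hq : 0 < q) {U : ℝ → RMat N m} (hU : Continuous U) :
    Continuous fun x => tracePow (pot q U x) (1 + q) := by
  have h : ContinuousOn (fun x => mpow (pot q U x) (1 + q)) univ :=
    continuousOn_mpow (by positivity) (fun x _ => pot_psd q U x)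
      (continuousOn_univ.2 (pot_continuous hq hU))
  exact continuous_rtr_mat.comp (continuousOn_univ.1 h)

theorem pot_pow_zero {q : ℝ} (hq : 0 < q) {U : ℝ → RMat N m} {x : ℝ} (h : U x = 0) :
    tracePow (pot q U x) (1 + q) = 0 := by
  rw [pot_zero hq h]
  change rtr (mpow 0 (1 + q)) = 0
  rw [mpow_zero_left (by positivity)]
  simp [rtr]

/-- entries of `Φ Φᴴ` etc. are integrable -/
theorem integrable_mul_conj {Φ : ℝ → RMat N m} (hΦ : Continuous Φ) (hs : HasCompactSupport Φ)
    (i j : Fin N) : Integrable fun x => (Φ x * (Φ x)ᴴ) i j := by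
  have hc : Continuous fun x => (Φ x * (Φ x)ᴴ) i j := by fun_prop
  refine hc.integrable_of_hasCompactSupport (hs.mono' ?_)
  intro x hx
  refine subset_tsupport _ ?_
  intro h
  apply hx
  simp [h]

/-- RED-B1 (balance). With `U = ZΦ`, `V = (U Uᴴ)^(1/q)` and a Riccati path `F` for `V`. `hsquare` is the
conclusion of `RPath.square`. -/
theorem balance {q : ℝ} (hq : 0 < q) {W : ℝ → Mat m}
    (hW : ∀ i j, Measurable fun x => W x i j) (hWp : ∀ x, (W x).PosSemidef)
    (hWi : Integrable fun x => tracePow (W x) (1 + q)) (D : DFam W N) {Z : Mat N}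
    (hZ : Z.IsHermitian) (k : Mat N) (F : ℝ → Mat N)
    (hsquare : ∫ x, hsq (Z * D.Φ' x - F x * (Z * D.Φ x)) =
      (∫ x, hsq (Z * D.Φ' x)) + (∫ x, rtr (k * k * ((Z * D.Φ x) * (Z * D.Φ x)ᴴ))) -
        ∫ x, rtr (pot q (fun y => Z * D.Φ y) x * ((Z * D.Φ x) * (Z * D.Φ x)ᴴ))) :
    (∫ x, hsq (Z * D.Φ' x - F x * (Z * D.Φ x))) +
      (∫ x, dY q (W x) ((Z * D.Φ x)ᴴ * (Z * D.Φ x))) +
      1 / (1 + q) * (∫ x, tracePow (pot q (fun y => Z * D.Φ y) x) (1 + q)) +
      rtr (Z * Z * (Matrix.diagonal (fun i => (D.lam i : ℂ)) - k * k)) =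
    1 / (1 + q) * ∫ x, tracePow (W x) (1 + q) := by
  have hp : (1 : ℝ) ≤ 1 + q := by linarith
  have hUc : Continuous fun y => Z * D.Φ y := by
    have := D.continuous
    fun_prop
  -- integrability
  have hG0 := integrable_mul_conj D.continuous D.hcs
  have hG1 := integrable_mul_conj D.hΦ' D.hcs'
  have hGW := integrable_sandwich hW hWp hp hWi D.Φ D.Φ D.continuous D.continuous D.hcs
  set M0 : Mat N := Matrix.of fun i j => ∫ x, (D.Φ x * (D.Φ x)ᴴ) i j with hM0
  set M1 : Mat N := Matrix.of fun i j => ∫ x, (D.Φ' x * (D.Φ' x)ᴴ) i j with hM1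
  set MW : Mat N := Matrix.of fun i j => ∫ x, (D.Φ x * W x * (D.Φ x)ᴴ) i j with hMW
  have eM0 : M0 = 1 := by
    ext i j
    rw [hM0, Matrix.of_apply, D.orth, Matrix.one_apply]
  have eM : M1 - MW = -Matrix.diagonal (fun i => (D.lam i : ℂ)) := by
    ext i j
    rw [Matrix.sub_apply, hM1, hMW, Matrix.of_apply, Matrix.of_apply,
      ← integral_sub (hG1 i j) (hGW i j)]
    have := D.energy i j
    simp only [Matrix.sub_apply] at this
    rw [this, Matrix.neg_apply, Matrix.diagonal_apply]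
    by_cases h : i = j <;> simp [h]
  -- (1)
  have t1 : ∫ x, hsq (Z * D.Φ' x) = rtr (Z * Z * M1) := by
    rw [← (integral_rtr_mul (Z * Z) hG1).2]
    refine integral_congr_ae (ae_of_all _ fun x => ?_)
    simp only
    rw [hsq_eq_rtr', Matrix.conjTranspose_mul, hZ.eq, ← Matrix.mul_assoc, rtr_mul_comm]
    simp only [Matrix.mul_assoc]
  -- (2)
  have t2 : ∫ x, rtr (k * k * ((Z * D.Φ x) * (Z * D.Φ x)ᴴ)) = rtr (Z * Z * (k * k)) := by
    have e1 : ∀ x, rtr (k * k * ((Z * D.Φ x) * (Z * D.Φ x)ᴴ)) =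
        rtr (Z * (k * k) * Z * (D.Φ x * (D.Φ x)ᴴ)) := by
      intro x
      rw [Matrix.conjTranspose_mul, hZ.eq]
      rw [show k * k * (Z * D.Φ x * ((D.Φ x)ᴴ * Z)) = (k * k * Z * (D.Φ x * (D.Φ x)ᴴ)) * Z by
        simp only [Matrix.mul_assoc]]
      rw [rtr_mul_comm]
      simp only [Matrix.mul_assoc]
    simp only [e1]
    rw [(integral_rtr_mul (Z * (k * k) * Z) hG0).2]
    rw [← hM0, eM0, Matrix.mul_one, rtr_mul_comm, ← Matrix.mul_assoc]
  -- (3)
  have t3 : ∫ x, rtr (pot q (fun y => Z * D.Φ y) x * ((Z * D.Φ x) * (Z * D.Φ x)ᴴ)) =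
      ∫ x, tracePow (pot q (fun y => Z * D.Φ y) x) (1 + q) :=
    integral_congr_ae (ae_of_all _ fun x => pot_mul hq (fun y => Z * D.Φ y) x)
  -- (4)
  have hWG := integral_rtr_mul (Z * Z) hGW
  have hV : Integrable fun x => tracePow (pot q (fun y => Z * D.Φ y) x) (1 + q) := by
    refine (pot_pow_continuous hq hUc).integrable_of_hasCompactSupport (D.hcs.mono' ?_)
    intro x hx
    refine subset_tsupport _ ?_
    intro h
    apply hx
    exact pot_pow_zero hq (by simp [h])
  have t4 : ∫ x, dY q (W x) ((Z * D.Φ x)ᴴ * (Z * D.Φ x)) =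
      1 / (1 + q) * (∫ x, tracePow (W x) (1 + q)) +
        q / (1 + q) * (∫ x, tracePow (pot q (fun y => Z * D.Φ y) x) (1 + q)) -
        rtr (Z * Z * MW) := by
    have e1 : ∀ x, dY q (W x) ((Z * D.Φ x)ᴴ * (Z * D.Φ x)) =
        1 / (1 + q) * tracePow (W x) (1 + q) +
        q / (1 + q) * tracePow (pot q (fun y => Z * D.Φ y) x) (1 + q) -
        rtr (Z * Z * (D.Φ x * W x * (D.Φ x)ᴴ)) := by
      intro x
      have e2 : rtr (W x * ((Z * D.Φ x)ᴴ * (Z * D.Φ x))) =
          rtr (Z * Z * (D.Φ x * W x * (D.Φ x)ᴴ)) := by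
        rw [Matrix.conjTranspose_mul, hZ.eq]
        rw [show W x * ((D.Φ x)ᴴ * Z * (Z * D.Φ x)) = (W x * (D.Φ x)ᴴ * (Z * Z)) * D.Φ x by
          simp only [Matrix.mul_assoc]]
        rw [rtr_mul_comm]
        rw [show D.Φ x * (W x * (D.Φ x)ᴴ * (Z * Z)) = (D.Φ x * W x * (D.Φ x)ᴴ) * (Z * Z) by
          simp only [Matrix.mul_assoc]]
        rw [rtr_mul_comm]
      rw [dY, e2, ← pot_pow' hq (fun y => Z * D.Φ y) x]
      change tracePow (W x) (1 + q) / (1 + q) + _ - _ = _
      ring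
    simp only [e1]
    have i1 : Integrable fun x => 1 / (1 + q) * tracePow (W x) (1 + q) +
        q / (1 + q) * tracePow (pot q (fun y => Z * D.Φ y) x) (1 + q) :=
      (hWi.const_mul _).add (hV.const_mul _)
    rw [integral_sub i1 hWG.1,
      integral_add (hWi.const_mul _) (hV.const_mul _), integral_const_mul, integral_const_mul,
      hWG.2]
  rw [hsquare, t1, t2, t3, t4]
  have e5 : rtr (Z * Z * M1) - rtr (Z * Z * MW) +
      rtr (Z * Z * Matrix.diagonal (fun i => (D.lam i : ℂ))) = 0 := by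
    rw [← rtr_sub, ← Matrix.mul_sub, eM, Matrix.mul_neg, ← rtr_add, neg_add_cancel]
    simp [rtr]
  rw [Matrix.mul_sub, rtr_sub]
  have h1q : (1 + q) ≠ 0 := by positivity
  have e6 : ∀ v : ℝ, q / (1 + q) * v + 1 / (1 + q) * v = v := by
    intro v; field_simp; ring
  linarith [e6 (∫ x, tracePow (pot q (fun y => Z * D.Φ y) x) (1 + q))]

/-- RED-B2. The potential of a nondegenerate transplantation does not annihilate any vector. -/
theorem pot_ne {q : ℝ} (hq : 0 < q) {W : ℝ → Mat m} (D : DFam W N) {Z : Mat N} (hZ : Z.PosDef)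
    (v : Fin N → ℂ) (hv : v ≠ 0) : ∃ x, (pot q (fun y => Z * D.Φ y) x).mulVec v ≠ 0 := by
  by_contra hcon
  push Not at hcon
  set X : RMat N 1 := Matrix.of fun i _ => v i with hX
  have hZu : IsUnit Z := hZ.isUnit
  have hcancel : ∀ Y : RMat N 1, Z * Y = 0 → Y = 0 := by
    intro Y hY
    obtain ⟨u, hu⟩ := hZu
    have h1 : (↑u⁻¹ : Mat N) * Z = 1 := by rw [← hu]; exact u.inv_mul
    calc Y = (↑u⁻¹ : Mat N) * Z * Y := by rw [h1, Matrix.one_mul]
      _ = 0 := by rw [Matrix.mul_assoc, hY, Matrix.mul_zero]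
  have h1 : ∀ x, pot q (fun y => Z * D.Φ y) x * X = 0 := by
    intro x
    ext i j
    have := congrFun (hcon x) i
    simpa [Matrix.mul_apply, Matrix.mulVec, dotProduct, hX] using this
  have h2 : ∀ x, (D.Φ x * (D.Φ x)ᴴ) * (Z * X) = 0 := by
    intro x
    have hA : ((Z * D.Φ x) * (Z * D.Φ x)ᴴ).PosSemidef :=
      Matrix.posSemidef_self_mul_conjTranspose _
    have h3 := cfc_intertwine' (pot_psd q (fun y => Z * D.Φ y) x).isHermitian
      (Matrix.isHermitian_zero (α := ℂ) (n := Fin 1)) X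
      (by rw [h1 x, Matrix.mul_zero]) (fun t => t ^ q)
    have h4 : cfc (fun t : ℝ => t ^ q) (0 : Mat 1) = 0 := mpow_zero_left hq.ne'
    have h5 : cfc (fun t : ℝ => t ^ q) (pot q (fun y => Z * D.Φ y) x) =
        (Z * D.Φ x) * (Z * D.Φ x)ᴴ := by
      change mpow (mpow ((Z * D.Φ x) * (Z * D.Φ x)ᴴ) (1 / q)) q = _
      rw [mpow_mpow_eq hA, one_div, inv_mul_cancel₀ hq.ne', mpow_one_eq hA.isHermitian]
    rw [h4, h5, Matrix.mul_zero, Matrix.conjTranspose_mul, hZ.isHermitian.eq] at h3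
    apply hcancel
    rw [← h3]
    simp only [Matrix.mul_assoc]
  have h6 : Z * X = 0 := by
    ext i j
    have hG0 := integrable_mul_conj D.continuous D.hcs
    have h7 : ∀ x, ∑ l, (D.Φ x * (D.Φ x)ᴴ) i l * (Z * X) l j = 0 := by
      intro x
      have := congrFun (congrFun (h2 x) i) j
      rwa [Matrix.mul_apply] at this
    have h8 : ∫ x, ∑ l, (D.Φ x * (D.Φ x)ᴴ) i l * (Z * X) l j = 0 := by
      simp [h7]
    rw [integral_finsetSum _ fun l _ => (hG0 i l).mul_const _] at h8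
    simp only [integral_mul_const, D.orth, ite_mul, one_mul, zero_mul] at h8
    simpa using h8
  have h9 := hcancel X h6
  apply hv
  funext i
  have := congrFun (congrFun h9 i) 0
  simpa [hX] using this

end SLT
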