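import Crest.Agent.SLT.Defs

/-!
# Row 332, reduction (R): common structures

`q = γ - 1/2 ∈ (0,1)`, `p = 1 + q`, `r = 1/q`; `m` = size of the potential `W`, `N` = number of negative
eigenvalues of the energy matrix.
-/

set_option autoImplicit false

open MeasureTheory
open scoped ComplexOrder Matrix

namespace SLT

open Crest.MathPhysics.LiebThirring

/-- A diagonalised trial family: `Φ` has rows `(φ_k(x))ᴴ` (`Φ x k j = star (φ_k(x)_j)`), where the
`φ_k` are orthonormal and diagonalise the energy form, with energies `-lam k < 0`. -/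
structure DFam {m : ℕ} (W : ℝ → Mat m) (N : ℕ) where
  Φ : ℝ → RMat N m
  Φ' : ℝ → RMat N m
  lam : Fin N → ℝ
  R : ℝ
  lam_pos : ∀ i, 0 < lam i
  R_pos : 0 < R
  hΦ : ∀ x, HasDerivAt Φ (Φ' x) x
  hΦ' : Continuous Φ'
  supp : ∀ x, R ≤ |x| → Φ x = 0
  orth : ∀ i j, ∫ x, (Φ x * (Φ x)ᴴ) i j = if i = j then 1 else 0
  energy : ∀ i j, ∫ x, (Φ' x * (Φ' x)ᴴ - Φ x * W x * (Φ x)ᴴ) i j =
    if i = j then -(lam i : ℂ) else 0

/-- The potential `V = (U Uᴴ)^(1/q)`. -/
noncomputable def pot {n m : ℕ} (q : ℝ) (U : ℝ → RMat n m) (x : ℝ) : Mat n :=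
  mpow (U x * (U x)ᴴ) (1 / q)

/-- Output of the reduction for one trial family with `negMoment = L`, with all deficits kept. -/
structure Red {m : ℕ} (q : ℝ) (W : ℝ → Mat m) (L δ : ℝ) where
  N : ℕ
  k : Mat N
  F : ℝ → Mat N
  U : ℝ → RMat N m
  U' : ℝ → RMat N m
  a : ℝ
  b : ℝ
  hab : a < b
  k_pd : k.PosDef
  path : RPath k (pot q U) F a b
  potc : Continuous (pot q U)
  hU : ∀ x, HasDerivAt U (U' x) x
  hU' : Continuous U'
  supp : ∀ x, x ≤ a ∨ b ≤ x → U x = 0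
  total : (1 + q) * cc q * (∫ x, hsq (U' x - F x * U x)) +
      (1 + q) * cc q * (∫ x, dY q (W x) ((U x)ᴴ * U x)) +
      (∫ x in a..b, dPI q k (F x) (pot q U x)) + BB q * L ≤
    cc q * (∫ x, tracePow (W x) (1 + q)) + δ

end SLT
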