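import Crest.Agent.SLT.RedDefs
import Crest.Agent.SLT.StabHS

/-!
# Row 332, reduction (R): powers of positive semidefinite matrices
-/

set_option autoImplicit false

open MeasureTheory Set Filter
open scoped ComplexOrder Matrix Topology

namespace SLT

open Crest.MathPhysics.LiebThirring

variable {n m : ℕ}

theorem eig_nonneg {A : Mat n} (hA : A.PosSemidef) (i : Fin n) :
    0 ≤ hA.isHermitian.eigenvalues i := hA.eigenvalues_nonneg i

/-- `cfc` depends only on the values at the eigenvalues. -/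
theorem cfc_congr_ev {A : Mat n} (hA : A.IsHermitian) {f g : ℝ → ℝ}
    (h : ∀ i, f (hA.eigenvalues i) = g (hA.eigenvalues i)) : cfc f A = cfc g A := by
  rw [cfc_spec hA, cfc_spec hA]
  simp only [h]

theorem eigU_mul {A : Mat n} (hA : A.IsHermitian) :
    (hA.eigenvectorUnitary : Mat n)ᴴ * (hA.eigenvectorUnitary : Mat n) = 1 :=
  Unitary.coe_star_mul_self hA.eigenvectorUnitary

theorem mul_eigU {A : Mat n} (hA : A.IsHermitian) :
    (hA.eigenvectorUnitary : Mat n) * (hA.eigenvectorUnitary : Mat n)ᴴ = 1 :=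
  Unitary.coe_mul_star_self hA.eigenvectorUnitary

/-- a nonnegative function of a Hermitian matrix is positive semidefinite -/
theorem cfc_psd {A : Mat n} (hA : A.IsHermitian) {f : ℝ → ℝ}
    (h : ∀ i, 0 ≤ f (hA.eigenvalues i)) : (cfc f A).PosSemidef := by
  rw [cfc_spec hA]
  refine Matrix.PosSemidef.mul_mul_conjTranspose_same ?_ _
  exact Matrix.PosSemidef.diagonal fun i => by
    simpa using h i

/-- a positive function of a Hermitian matrix is positive definite -/
theorem cfc_pd {A : Mat n} (hA : A.IsHermitian) {f : ℝ → ℝ}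
    (h : ∀ i, 0 < f (hA.eigenvalues i)) : (cfc f A).PosDef := by
  have h0 := cfc_psd hA (fun i => (h i).le)
  have hu : cfc f A * cfc (fun t => (f t)⁻¹) A = 1 := by
    rw [cfc_mul_fun hA, ← cfc_one_fun hA]
    exact cfc_congr_ev hA fun i => mul_inv_cancel₀ (h i).ne'
  have hdet : IsUnit (cfc f A) := IsUnit.of_mul_eq_one _ hu
  exact h0.posDef_iff_isUnit.2 hdet

/-- composition -/
theorem cfc_comp_eig {A : Mat n} (hA : A.IsHermitian) (f g : ℝ → ℝ) :
    cfc g (cfc f A) = cfc (fun t => g (f t)) A := by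
  have hc : ∀ h : ℝ → ℝ, ∀ B : Mat n, ContinuousOn h (spectrum ℝ B) := fun h B =>
    (Matrix.finite_real_spectrum (A := B)).continuousOn h
  have := cfc_comp (R := ℝ) g f A hA ?_ ?_
  · exact this.symm
  · exact ((Matrix.finite_real_spectrum (A := A)).image f).continuousOn g
  · exact hc f A

theorem mpow_mpow_eq {A : Mat n} (hA : A.PosSemidef) (s t : ℝ) :
    mpow (mpow A s) t = mpow A (s * t) := by
  unfold mpow
  rw [cfc_comp_eig hA.isHermitian]
  refine cfc_congr_ev hA.isHermitian fun i => ?_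
  rw [← Real.rpow_mul (eig_nonneg hA i)]

theorem mpow_one_eq {A : Mat n} (hA : A.IsHermitian) : mpow A 1 = A := by
  unfold mpow
  simp only [Real.rpow_one]
  exact cfc_id_fun hA

theorem mpow_add {A : Mat n} (hA : A.PosSemidef) {s t : ℝ} (hs : 0 < s) (ht : 0 < t) :
    mpow A s * mpow A t = mpow A (s + t) := by
  unfold mpow
  rw [cfc_mul_fun hA.isHermitian]
  refine cfc_congr_ev hA.isHermitian fun i => ?_
  rw [Real.rpow_add_of_nonneg (eig_nonneg hA i) hs.le ht.le]

theorem mpow_mul_self {A : Mat n} (hA : A.PosSemidef) {s : ℝ} (hs : 0 < s) :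
    mpow A s * A = mpow A (s + 1) := by
  conv_lhs => rw [← mpow_one_eq hA.isHermitian]
  rw [mpow_one_eq hA.isHermitian]
  have := mpow_add hA hs one_pos
  rwa [mpow_one_eq hA.isHermitian] at this

theorem mpow_add_pd {A : Mat n} (hA : A.PosDef) (s t : ℝ) :
    mpow A s * mpow A t = mpow A (s + t) := by
  unfold mpow
  rw [cfc_mul_fun hA.isHermitian]
  refine cfc_congr_ev hA.isHermitian fun i => ?_
  rw [Real.rpow_add (hA.eigenvalues_pos i)]

theorem mpow_zero_right {A : Mat n} (hA : A.IsHermitian) : mpow A 0 = 1 := by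
  unfold mpow
  simp only [Real.rpow_zero]
  exact cfc_one_fun hA

theorem mpow_two {A : Mat n} (hA : A.PosSemidef) : mpow A 2 = A * A := by
  have := mpow_add hA one_pos one_pos
  rw [mpow_one_eq hA.isHermitian] at this
  rw [this]; norm_num

theorem mpow_zero_left {s : ℝ} (hs : s ≠ 0) : mpow (0 : Mat n) s = 0 := by
  unfold mpow
  rw [cfc_apply_zero]
  simp [Real.zero_rpow hs]

/-- Intertwining: `A X = X B` implies `f(A) X = X f(B)`. -/
theorem cfc_intertwine' {A : Mat n} {B : Mat m} (hA : A.IsHermitian) (hB : B.IsHermitian)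
    (X : RMat n m) (h : A * X = X * B) (f : ℝ → ℝ) : cfc f A * X = X * cfc f B := by
  have h1 : hsq (cfc f A * X - X * cfc f B) = 0 := by
    have e0 : hsq (A * X - X * B) = 0 := by
      rw [h, sub_self]; simp [hsq]
    rw [hsq_spec_id hA hB] at e0
    rw [hsq_spec hA hB]
    have h2 : ∀ i, ∀ j, (hA.eigenvalues i - hB.eigenvalues j) ^ 2 * swt hA hB X i j = 0 := by
      intro i j
      have hnn : ∀ i j, 0 ≤ (hA.eigenvalues i - hB.eigenvalues j) ^ 2 * swt hA hB X i j :=
        fun i j => mul_nonneg (sq_nonneg _) (swt_nonneg _ _ _ _ _)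
      have h3 := (Finset.sum_eq_zero_iff_of_nonneg
        (fun i _ => Finset.sum_nonneg fun j _ => hnn i j)).1 e0 i (Finset.mem_univ _)
      exact (Finset.sum_eq_zero_iff_of_nonneg (fun j _ => hnn i j)).1 h3 j (Finset.mem_univ _)
    refine Finset.sum_eq_zero fun i _ => Finset.sum_eq_zero fun j _ => ?_
    rcases mul_eq_zero.1 (h2 i j) with h | h
    · have : hA.eigenvalues i = hB.eigenvalues j :=
        sub_eq_zero.1 (pow_eq_zero_iff (two_ne_zero)|>.1 h)
      rw [this]; simp
    · rw [h, mul_zero]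
  have h3 : ∀ i j, (cfc f A * X - X * cfc f B) i j = 0 := by
    intro i j
    unfold hsq at h1
    have h4 := (Finset.sum_eq_zero_iff_of_nonneg
      (fun i _ => Finset.sum_nonneg fun j _ => by positivity)).1 h1 i (Finset.mem_univ _)
    have h5 := (Finset.sum_eq_zero_iff_of_nonneg (fun j _ => by positivity)).1 h4 j
      (Finset.mem_univ _)
    simpa using h5
  exact sub_eq_zero.1 (by ext i j; exact h3 i j)

/-- `tr (U Uᴴ)^s = tr (Uᴴ U)^s` for `s > 0`. -/
theorem rtr_mpow_conj (U : RMat n m) {s : ℝ} (hs : 0 < s) :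
    rtr (mpow (U * Uᴴ) s) = rtr (mpow (Uᴴ * U) s) := by
  have hA : (U * Uᴴ).PosSemidef := Matrix.posSemidef_self_mul_conjTranspose U
  have hB : (Uᴴ * U).PosSemidef := Matrix.posSemidef_conjTranspose_mul_self U
  set g : ℝ → ℝ := fun t => if t = 0 then 0 else t ^ (s - 1) with hg
  have hgt : ∀ t : ℝ, 0 ≤ t → g t * t = t ^ s := by
    intro t ht
    rcases ht.eq_or_lt with rfl | ht'
    · simp [hg, Real.zero_rpow hs.ne']
    · simp only [hg, ht'.ne', if_false]
      rw [← Real.rpow_add_one ht'.ne']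
      congr 1; ring
  have h2 : cfc g (U * Uᴴ) * U = U * cfc g (Uᴴ * U) :=
    cfc_intertwine' hA.isHermitian hB.isHermitian U (Matrix.mul_assoc _ _ _) g
  have e1 : mpow (U * Uᴴ) s = cfc g (U * Uᴴ) * (U * Uᴴ) := by
    conv_rhs => rw [← cfc_id_fun hA.isHermitian]
    rw [cfc_id_fun hA.isHermitian]
    have := cfc_mul_fun hA.isHermitian g (fun t => t)
    rw [cfc_id_fun hA.isHermitian] at this
    rw [this]
    exact cfc_congr_ev hA.isHermitian fun i => (hgt _ (eig_nonneg hA i)).symm
  have e2 : mpow (Uᴴ * U) s = cfc g (Uᴴ * U) * (Uᴴ * U) := by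
    have := cfc_mul_fun hB.isHermitian g (fun t => t)
    rw [cfc_id_fun hB.isHermitian] at this
    rw [this]
    exact cfc_congr_ev hB.isHermitian fun i => (hgt _ (eig_nonneg hB i)).symm
  rw [e1, ← Matrix.mul_assoc, h2, e2, rtr_mul_comm (U * cfc g (Uᴴ * U)) Uᴴ, ← Matrix.mul_assoc,
    rtr_mul_comm]

/-- `tr A^s ≤ (tr A)^s` for `s ≥ 1`. -/
theorem rtr_mpow_le_rpow {A : Mat n} (hA : A.PosSemidef) {s : ℝ} (hs : 1 ≤ s) :
    rtr (mpow A s) ≤ (rtr A) ^ s := by
  have h1 : rtr A = ∑ i, hA.isHermitian.eigenvalues i := by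
    conv_lhs => rw [← cfc_id_fun hA.isHermitian]
    rw [rtr_cfc hA.isHermitian]
  rw [mpow, rtr_cfc hA.isHermitian, h1]
  set T := ∑ i, hA.isHermitian.eigenvalues i with hT
  have hT0 : 0 ≤ T := Finset.sum_nonneg fun i _ => eig_nonneg hA i
  rcases hT0.eq_or_lt with h | h
  · have h0 : ∀ i, hA.isHermitian.eigenvalues i = 0 := by
      intro i
      exact (Finset.sum_eq_zero_iff_of_nonneg (fun i _ => eig_nonneg hA i)).1 h.symm i
        (Finset.mem_univ _)
    simp only [h0, ← h]
    rw [Real.zero_rpow (by linarith)]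
    simp
  · have h2 : ∀ i, hA.isHermitian.eigenvalues i ^ s ≤
        hA.isHermitian.eigenvalues i * T ^ (s - 1) := by
      intro i
      have hi := eig_nonneg hA i
      have hiT : hA.isHermitian.eigenvalues i ≤ T :=
        Finset.single_le_sum (fun i _ => eig_nonneg hA i) (Finset.mem_univ i)
      rcases hi.eq_or_lt with h3 | h3
      · rw [← h3, Real.zero_rpow (by linarith)]; simp
      · have : hA.isHermitian.eigenvalues i ^ s =
            hA.isHermitian.eigenvalues i * hA.isHermitian.eigenvalues i ^ (s - 1) := by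
          rw [mul_comm, ← Real.rpow_add_one h3.ne']; congr 1; ring
        rw [this]
        exact mul_le_mul_of_nonneg_left (Real.rpow_le_rpow hi hiT (by linarith)) hi
    calc ∑ i, hA.isHermitian.eigenvalues i ^ s
        ≤ ∑ i, hA.isHermitian.eigenvalues i * T ^ (s - 1) := Finset.sum_le_sum fun i _ => h2 i
      _ = T * T ^ (s - 1) := by rw [← Finset.sum_mul]
      _ = T ^ s := by
        rw [mul_comm, ← Real.rpow_add_one h.ne']; congr 1; ring

/-- trace of a product of two positive semidefinite matrices -/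
theorem rtr_mul_psd_nonneg {A B : Mat n} (hA : A.PosSemidef) (hB : B.PosSemidef) :
    0 ≤ rtr (A * B) := by
  have h := spec_sum hA.isHermitian hB.isHermitian (1 : Mat n) (fun t => t) (fun t => t)
  rw [cfc_id_fun hA.isHermitian, cfc_id_fun hB.isHermitian, Matrix.conjTranspose_one,
    Matrix.mul_one, Matrix.mul_one] at h
  rw [h]
  refine Finset.sum_nonneg fun i _ => Finset.sum_nonneg fun j _ => ?_
  exact mul_nonneg (mul_nonneg (eig_nonneg hA i) (eig_nonneg hB j)) (swt_nonneg _ _ _ _ _)

/-- functions of a real diagonal matrix -/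
theorem cfc_diagonal (d : Fin n → ℝ) (f : ℝ → ℝ) :
    cfc f (Matrix.diagonal fun i => (d i : ℂ)) = Matrix.diagonal fun i => ((f (d i) : ℝ) : ℂ) := by
  have hD : (Matrix.diagonal fun i => (d i : ℂ)).IsHermitian := by
    rw [Matrix.isHermitian_diagonal_iff]
    intro i
    simp [IsSelfAdjoint]
  have key : ∀ i j, cfc f (Matrix.diagonal fun i => (d i : ℂ)) j i =
      (Matrix.diagonal fun i => ((f (d i) : ℝ) : ℂ)) j i := by
    intro i j
    set e : RMat n 1 := Matrix.of fun j _ => if j = i then 1 else 0 with he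
    set B : Mat 1 := algebraMap ℝ (Mat 1) (d i) with hB
    have hBh : B.IsHermitian := by
      rw [hB, Matrix.algebraMap_eq_diagonal, Matrix.isHermitian_diagonal_iff]
      intro i
      simp [IsSelfAdjoint, Pi.algebraMap_apply]
    have h1 := cfc_intertwine' hD hBh e (by
      ext a b
      rw [Matrix.diagonal_mul, hB, Matrix.algebraMap_eq_diagonal, Matrix.mul_diagonal]
      by_cases h : a = i
      · subst h; simp [he]
      · simp [he, h]) f
    rw [hB, cfc_algebraMap, Matrix.algebraMap_eq_diagonal] at h1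
    have h2 := congrFun (congrFun h1 j) 0
    rw [Matrix.mul_diagonal, Matrix.mul_apply] at h2
    rw [Finset.sum_eq_single i (by intro b _ hb; simp [he, hb]) (by simp)] at h2
    simp only [he, Matrix.of_apply, if_true, mul_one] at h2
    rw [h2]
    by_cases h : j = i
    · subst h; simp
    · simp [h]
  ext j i
  exact key i j

/-- powers of a real diagonal matrix -/
theorem mpow_diagonal (d : Fin n → ℝ) (s : ℝ) :
    mpow (Matrix.diagonal fun i => (d i : ℂ)) s = Matrix.diagonal fun i => ((d i ^ s : ℝ) : ℂ) :=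
  cfc_diagonal d _

open scoped Matrix.Norms.L2Operator in
/-- `x ↦ f (A x)` is continuous for a continuous function `f : ℝ → ℝ`. -/
theorem continuousOn_cfc_mat {X : Type*} [TopologicalSpace X] {A : X → Mat n} {S : Set X}
    {f : ℝ → ℝ} (hf : Continuous f) (hA : ∀ x ∈ S, (A x).IsHermitian) (hc : ContinuousOn A S) :
    ContinuousOn (fun x => cfc f (A x)) S := by
  refine ContinuousOn.cfc_of_mem_nhdsSet (s := univ) f (by simp) hc (fun x hx => hA x hx)
    hf.continuousOn

/-- Continuity of `x ↦ (A x)^s` (`s > 0`). -/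
theorem continuousOn_mpow {X : Type*} [TopologicalSpace X] {A : X → Mat n} {S : Set X} {s : ℝ}
    (hs : 0 < s) (hA : ∀ x ∈ S, (A x).PosSemidef) (hc : ContinuousOn A S) :
    ContinuousOn (fun x => mpow (A x) s) S :=
  continuousOn_cfc_mat (Real.continuous_rpow_const hs.le) (fun x hx => (hA x hx).isHermitian) hc

theorem cfc_smul_mat {A : Mat n} (hA : A.IsHermitian) (c : ℝ) (f : ℝ → ℝ) :
    cfc (fun t => c * f t) A = (c : ℂ) • cfc f A := by
  rw [cfc_spec hA, cfc_spec hA, ← Matrix.smul_mul, ← Matrix.mul_smul]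
  congr 2
  ext i j
  simp [Matrix.diagonal_apply]

/-- Joint continuity of `(t, κ) ↦ (κ + ε)^(t α)`. -/
theorem continuousOn_mpow_shift {ε : ℝ} (hε : 0 < ε) (α : ℝ) :
    ContinuousOn (fun z : ℝ × Mat n => cfc (fun s : ℝ => (s + ε) ^ (z.1 * α)) z.2)
      (univ ×ˢ {κ : Mat n | κ.PosSemidef}) := by
  have hg : Continuous fun s : ℝ => Real.log (max s 0 + ε) := by
    refine Continuous.log (by fun_prop) fun s => ?_
    have : 0 ≤ max s 0 := le_max_right _ _
    positivity
  have h1 : ContinuousOn (fun z : ℝ × Mat n => cfc (fun s : ℝ => Real.log (max s 0 + ε)) z.2)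
      (univ ×ˢ {κ : Mat n | κ.PosSemidef}) :=
    continuousOn_cfc_mat hg (fun z hz => hz.2.isHermitian) continuousOn_snd
  have h2 : ContinuousOn (fun z : ℝ × Mat n =>
      ((z.1 * α : ℝ) : ℂ) • cfc (fun s : ℝ => Real.log (max s 0 + ε)) z.2)
      (univ ×ˢ {κ : Mat n | κ.PosSemidef}) := by
    have hc : ContinuousOn (fun z : ℝ × Mat n => ((z.1 * α : ℝ) : ℂ))
        (univ ×ˢ {κ : Mat n | κ.PosSemidef}) := by fun_prop
    exact hc.smul h1
  have h3 : ContinuousOn (fun z : ℝ × Mat n => cfc Real.exp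
      (((z.1 * α : ℝ) : ℂ) • cfc (fun s : ℝ => Real.log (max s 0 + ε)) z.2))
      (univ ×ˢ {κ : Mat n | κ.PosSemidef}) := by
    refine continuousOn_cfc_mat Real.continuous_exp (fun z hz => ?_) h2
    rw [← cfc_smul_mat hz.2.isHermitian]
    exact cfc_herm _
  refine h3.congr fun z hz => ?_
  have hz2 : z.2.PosSemidef := hz.2
  simp only
  rw [← cfc_smul_mat hz2.isHermitian, cfc_comp_eig hz2.isHermitian]
  refine cfc_congr_ev hz2.isHermitian fun i => ?_
  have h := eig_nonneg hz2 i
  rw [max_eq_left h, Real.rpow_def_of_pos (by linarith), mul_comm]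

end SLT
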