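import Crest.Agent.SLT.RedMpow

/-!
# Row 332, reduction (R): integrability of expressions containing the potential `W`
-/

set_option autoImplicit false

open MeasureTheory Set Filter
open scoped ComplexOrder Matrix Topology

namespace SLT

open Crest.MathPhysics.LiebThirring

variable {N m : ℕ}

/-- rows of the eigenvector matrix are unit vectors -/
theorem redw_eigU_row_sq {A : Mat m} (hA : A.IsHermitian) (i : Fin m) :
    ∑ l, ‖(hA.eigenvectorUnitary : Mat m) i l‖ ^ 2 = 1 := by
  have h := congrFun (congrFun (mul_eigU hA) i) i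
  rw [Matrix.mul_apply, Matrix.one_apply_eq] at h
  have h2 : ∀ l, (hA.eigenvectorUnitary : Mat m) i l * (hA.eigenvectorUnitary : Mat m)ᴴ l i =
      ((‖(hA.eigenvectorUnitary : Mat m) i l‖ ^ 2 : ℝ) : ℂ) := by
    intro l
    rw [Matrix.conjTranspose_apply, Complex.star_def, Complex.mul_conj, Complex.normSq_eq_norm_sq]
  simp only [h2] at h
  rw [← Complex.ofReal_sum] at h
  exact_mod_cast h

theorem redw_tracePow_eq_sum {A : Mat m} (hA : A.IsHermitian) (p : ℝ) :
    tracePow A p = ∑ l, hA.eigenvalues l ^ p := rtr_cfc hA _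

theorem redw_tracePow_nonneg {A : Mat m} (hA : A.PosSemidef) (p : ℝ) : 0 ≤ tracePow A p := by
  rw [redw_tracePow_eq_sum hA.isHermitian]
  exact Finset.sum_nonneg fun l _ => Real.rpow_nonneg (eig_nonneg hA l) p

/-- RED-W1. Entries are bounded by `1 + tr A^p`: `|A i j| ≤ ‖A‖ ≤ λ_max ≤ 1 + λ_max^p`. (Without operator
norms: `|A i j|² ≤ hsq A = ∑ λ² ≤ (∑ λ)²`... simpler: `|A i j|² ≤ A i i * A j j` and
`A i i = ∑_l |u_il|² λ_l ≤ 1 + ∑_l λ_l^p` since `λ ≤ 1 + λ^p` and `∑_l |u_il|² = 1`.) -/
theorem entry_norm_le {A : Mat m} (hA : A.PosSemidef) {p : ℝ} (hp : 1 ≤ p) (i j : Fin m) :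
    ‖A i j‖ ≤ 1 + tracePow A p := by
  have hH := hA.isHermitian
  set U : Mat m := (hH.eigenvectorUnitary : Mat m) with hU
  set M : ℝ := 1 + tracePow A p with hM
  have hl : ∀ l, hH.eigenvalues l ≤ M := by
    intro l
    have h0 := eig_nonneg hA l
    have h1 : hH.eigenvalues l ≤ 1 + hH.eigenvalues l ^ p := by
      rcases le_total (hH.eigenvalues l) 1 with h | h
      · have : 0 ≤ hH.eigenvalues l ^ p := Real.rpow_nonneg h0 p
        linarith
      · have : hH.eigenvalues l ^ (1 : ℝ) ≤ hH.eigenvalues l ^ p :=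
          Real.rpow_le_rpow_of_exponent_le h hp
        rw [Real.rpow_one] at this
        linarith
    have h2 : hH.eigenvalues l ^ p ≤ tracePow A p := by
      rw [redw_tracePow_eq_sum hH]
      exact Finset.single_le_sum (f := fun l => hH.eigenvalues l ^ p)
        (fun l _ => Real.rpow_nonneg (eig_nonneg hA l) p) (Finset.mem_univ l)
    linarith
  have hM0 : 0 ≤ M := by
    have := redw_tracePow_nonneg hA p
    linarith
  have hA1 : A i j = ∑ l, U i l * ((hH.eigenvalues l : ℝ) : ℂ) * star (U j l) := by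
    have h := cfc_spec hH (fun t => t)
    rw [cfc_id_fun hH] at h
    conv_lhs => rw [h]
    rw [Matrix.mul_apply]
    refine Finset.sum_congr rfl fun l _ => ?_
    rw [Matrix.mul_diagonal, Matrix.conjTranspose_apply]
  rw [hA1]
  calc ‖∑ l, U i l * ((hH.eigenvalues l : ℝ) : ℂ) * star (U j l)‖
      ≤ ∑ l, ‖U i l * ((hH.eigenvalues l : ℝ) : ℂ) * star (U j l)‖ := norm_sum_le _ _
    _ ≤ ∑ l, (‖U i l‖ ^ 2 / 2 + ‖U j l‖ ^ 2 / 2) * M := by
        refine Finset.sum_le_sum fun l _ => ?_
        rw [norm_mul, norm_mul, norm_star, Complex.norm_real, Real.norm_eq_abs,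
          abs_of_nonneg (eig_nonneg hA l)]
        have h0 := eig_nonneg hA l
        have h3 : ‖U i l‖ * ‖U j l‖ ≤ ‖U i l‖ ^ 2 / 2 + ‖U j l‖ ^ 2 / 2 := by
          nlinarith [sq_nonneg (‖U i l‖ - ‖U j l‖)]
        calc ‖U i l‖ * hH.eigenvalues l * ‖U j l‖ = (‖U i l‖ * ‖U j l‖) * hH.eigenvalues l := by
              ring
          _ ≤ (‖U i l‖ ^ 2 / 2 + ‖U j l‖ ^ 2 / 2) * M :=
              mul_le_mul h3 (hl l) h0 (by positivity)
    _ = M := by
        rw [← Finset.sum_mul, Finset.sum_add_distrib, ← Finset.sum_div, ← Finset.sum_div,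
          redw_eigU_row_sq hH i, redw_eigU_row_sq hH j]
        ring

/-- RED-W2. `f W_ij` is integrable for continuous `f` vanishing outside `[-R,R]`. -/
theorem integrable_mul_entry {W : ℝ → Mat m} (hW : ∀ i j, Measurable fun x => W x i j)
    (hWp : ∀ x, (W x).PosSemidef) {p : ℝ} (hp : 1 ≤ p)
    (hWi : Integrable fun x => tracePow (W x) p) (f : ℝ → ℂ) (hf : Continuous f)
    (hfs : HasCompactSupport f) (i j : Fin m) : Integrable fun x => f x * W x i j := by
  obtain ⟨C, hC⟩ := hf.bounded_above_of_compact_support hfs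
  have hfi : Integrable f := hf.integrable_of_hasCompactSupport hfs
  have hg : Integrable fun x => ‖f x‖ + C * tracePow (W x) p :=
    hfi.norm.add (hWi.const_mul C)
  refine hg.mono' (hf.aestronglyMeasurable.mul (hW i j).aestronglyMeasurable) ?_
  refine Eventually.of_forall fun x => ?_
  have h1 := entry_norm_le (hWp x) hp i j
  have h2 := redw_tracePow_nonneg (hWp x) p
  rw [norm_mul]
  calc ‖f x‖ * ‖W x i j‖ ≤ ‖f x‖ * (1 + tracePow (W x) p) :=
        mul_le_mul_of_nonneg_left h1 (norm_nonneg _)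
    _ = ‖f x‖ + ‖f x‖ * tracePow (W x) p := by ring
    _ ≤ ‖f x‖ + C * tracePow (W x) p := by
        have := mul_le_mul_of_nonneg_right (hC x) h2
        linarith

/-- entries of a compactly supported matrix function -/
theorem redw_hasCompactSupport_entry {n k : ℕ} {Φ : ℝ → RMat n k} (h : HasCompactSupport Φ)
    (i : Fin n) (j : Fin k) : HasCompactSupport fun x => Φ x i j :=
  h.comp_left (g := fun A : RMat n k => A i j) rfl

/-- RED-W3. `(Φ W Ψᴴ)_ij` is integrable. -/
theorem integrable_sandwich {W : ℝ → Mat m} (hW : ∀ i j, Measurable fun x => W x i j)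
    (hWp : ∀ x, (W x).PosSemidef) {p : ℝ} (hp : 1 ≤ p)
    (hWi : Integrable fun x => tracePow (W x) p) (Φ Ψ : ℝ → RMat N m) (hΦ : Continuous Φ)
    (hΨ : Continuous Ψ) (hΦs : HasCompactSupport Φ) (i j : Fin N) :
    Integrable fun x => (Φ x * W x * (Ψ x)ᴴ) i j := by
  have e : (fun x => (Φ x * W x * (Ψ x)ᴴ) i j) =
      fun x => ∑ l, ∑ k, (Φ x i k * star (Ψ x j l)) * W x k l := by
    funext x
    rw [Matrix.mul_apply]
    refine Finset.sum_congr rfl fun l _ => ?_
    rw [Matrix.mul_apply, Finset.sum_mul, Matrix.conjTranspose_apply]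
    refine Finset.sum_congr rfl fun k _ => ?_
    ring
  rw [e]
  refine integrable_finsetSum _ fun l _ => integrable_finsetSum _ fun k _ => ?_
  refine integrable_mul_entry hW hWp hp hWi _ ?_ ?_ k l
  · have h1 : Continuous fun x => Φ x i k := hΦ.matrix_elem i k
    have h2 : Continuous fun x => Ψ x j l := hΨ.matrix_elem j l
    exact h1.mul h2.star
  · exact (redw_hasCompactSupport_entry hΦs i k).mul_right

/-- RED-W4. `tr (W Q)` is integrable for continuous compactly supported `Q`. -/
theorem integrable_rtr_mul {W : ℝ → Mat m} (hW : ∀ i j, Measurable fun x => W x i j)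
    (hWp : ∀ x, (W x).PosSemidef) {p : ℝ} (hp : 1 ≤ p)
    (hWi : Integrable fun x => tracePow (W x) p) (Q : ℝ → Mat m) (hQ : Continuous Q)
    (hQs : HasCompactSupport Q) : Integrable fun x => rtr (W x * Q x) := by
  have e : (fun x => rtr (W x * Q x)) = fun x => ∑ i, ∑ k, (Q x k i * W x i k).re := by
    funext x
    unfold rtr
    rw [Matrix.trace, Complex.re_sum]
    refine Finset.sum_congr rfl fun i _ => ?_
    rw [Matrix.diag_apply, Matrix.mul_apply, Complex.re_sum]
    refine Finset.sum_congr rfl fun k _ => ?_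
    rw [mul_comm]
  rw [e]
  refine integrable_finsetSum _ fun i _ => integrable_finsetSum _ fun k _ => ?_
  exact (integrable_mul_entry hW hWp hp hWi (fun x => Q x k i) (hQ.matrix_elem k i)
    (redw_hasCompactSupport_entry hQs k i) i k).re

theorem redw_continuous_rtr : Continuous (rtr : Mat m → ℝ) := by
  unfold rtr
  exact Complex.continuous_re.comp (continuous_id.matrix_trace)

/-- RED-W5. The Young deficit is integrable. -/
theorem integrable_dY {q : ℝ} (hq : 0 < q) {W : ℝ → Mat m}
    (hW : ∀ i j, Measurable fun x => W x i j)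
    (hWp : ∀ x, (W x).PosSemidef) (hWi : Integrable fun x => tracePow (W x) (1 + q))
    (Q : ℝ → Mat m) (hQ : Continuous Q) (hQp : ∀ x, (Q x).PosSemidef)
    (hQs : HasCompactSupport Q) : Integrable fun x => dY q (W x) (Q x) := by
  have hs : 0 < (1 + q) / q := by positivity
  have h1 : Integrable fun x => rtr (mpow (W x) (1 + q)) / (1 + q) := hWi.div_const _
  have h2 : Integrable fun x => q * rtr (mpow (Q x) ((1 + q) / q)) / (1 + q) := by
    have hc : Continuous fun x => mpow (Q x) ((1 + q) / q) := by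
      have := continuousOn_mpow (S := univ) hs (fun x _ => hQp x) hQ.continuousOn
      exact continuousOn_univ.1 this
    have hcs : HasCompactSupport fun x => rtr (mpow (Q x) ((1 + q) / q)) := by
      refine hQs.comp_left (g := fun A : Mat m => rtr (mpow A ((1 + q) / q))) ?_
      rw [mpow_zero_left hs.ne']
      simp [rtr]
    have := (redw_continuous_rtr.comp hc).integrable_of_hasCompactSupport (μ := volume) hcs
    exact (this.const_mul q).div_const _
  have h3 : Integrable fun x => rtr (W x * Q x) :=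
    integrable_rtr_mul hW hWp (by linarith) hWi Q hQ hQs
  exact (h1.add h2).sub h3

end SLT
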