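import Crest.Agent.SLT.RedBal

/-!
# Row 332, reduction (R): the transplantation matrix for `γ < 1`
-/

set_option autoImplicit false

open MeasureTheory Set Filter
open scoped ComplexOrder Matrix Topology

namespace SLT

open Crest.MathPhysics.LiebThirring

variable {m N : ℕ}

/-- The transplantation matrix `Z_{t,κ} = √κ₀ (κ + ε)^(t(γ-1))`. -/
noncomputable def Zt {N : ℕ} (κ₀ ε α : ℝ) (t : ℝ) (κ : Mat N) : Mat N :=
  (Real.sqrt κ₀ : ℂ) • cfc (fun s : ℝ => (s + ε) ^ (t * α)) κ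

/-- RED-C2a. -/
theorem Zt_posDef {κ₀ ε α : ℝ} (hκ₀ : 0 < κ₀) (hε : 0 < ε) (t : ℝ) {κ : Mat N}
    (hκ : κ.PosSemidef) : (Zt κ₀ ε α t κ).PosDef := by
  unfold Zt
  rw [smul_cfc hκ.1]
  refine cfc_posDef hκ.1 fun s hs => ?_
  have h0 := spec_nonneg hκ hs
  exact mul_pos (Real.sqrt_pos.2 hκ₀) (Real.rpow_pos_of_pos (by linarith) _)

/-- RED-C2b. -/
theorem Zt_sq {κ₀ ε α : ℝ} (hκ₀ : 0 < κ₀) (hε : 0 < ε) {κ : Mat N} (hκ : κ.PosSemidef) :
    Zt κ₀ ε α 1 κ * Zt κ₀ ε α 1 κ = (κ₀ : ℂ) • cfc (fun s : ℝ => (s + ε) ^ (2 * α)) κ := by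
  unfold Zt
  rw [Matrix.smul_mul, Matrix.mul_smul, smul_smul, cfc_mul_cfc hκ.1, ← Complex.ofReal_mul,
    Real.mul_self_sqrt hκ₀.le]
  congr 1
  refine cfc_congr_spec hκ.1 fun s hs => ?_
  have h0 := spec_nonneg hκ hs
  rw [← Real.rpow_add (by linarith)]
  congr 1
  ring

private theorem DFam.contΦ {W : ℝ → Mat m} (D : DFam W N) : Continuous D.Φ := by
  refine continuous_matrix fun i j => continuous_iff_continuousAt.2 fun x => ?_
  have h1 := (hasDerivAt_pi (φ := fun y => (D.Φ y : Fin N → Fin m → ℂ))).1 (D.hΦ x) i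
  exact (hasDerivAt_pi.1 h1 j).continuousAt

private theorem continuous_rtr : Continuous (rtr : Mat N → ℝ) :=
  Complex.continuous_re.comp continuous_id.matrix_trace

private theorem continuous_hsq : Continuous (hsq : RMat N m → ℝ) := by
  unfold hsq
  refine continuous_finsetSum _ fun i _ => continuous_finsetSum _ fun j _ => ?_
  exact ((continuous_apply_apply i j).norm).pow 2

/-- the norm of the transplantation matrix -/
private theorem hsq_Zt_mul_le {κ₀ ε α : ℝ} (hκ₀ : 0 < κ₀) (hε : 0 < ε) (hε1 : ε ≤ 1)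
    (hα : α ≤ 0) {t : ℝ} (ht : t ∈ Icc (0 : ℝ) 1) {κ : Mat N} (hκ : κ.PosSemidef) (X : RMat N m) :
    hsq (Zt κ₀ ε α t κ * X) ≤ (Real.sqrt κ₀ * ε ^ α) ^ 2 * hsq X := by
  have hZ : (Zt κ₀ ε α t κ).IsHermitian := (Zt_posDef hκ₀ hε t hκ).1
  have hbd : ∀ s ∈ spectrum ℝ κ, Real.sqrt κ₀ * (s + ε) ^ (t * α) ≤ Real.sqrt κ₀ * ε ^ α := by
    intro s hs
    have h0 := spec_nonneg hκ hs
    refine mul_le_mul_of_nonneg_left ?_ (Real.sqrt_nonneg _)
    have h1 : (s + ε) ^ (t * α) ≤ ε ^ (t * α) :=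
      Real.rpow_le_rpow_of_nonpos hε (by linarith) (mul_nonpos_of_nonneg_of_nonpos ht.1 hα)
    refine h1.trans (Real.rpow_le_rpow_of_exponent_ge hε hε1 ?_)
    nlinarith [ht.2]
  refine hsq_herm_mul_le hZ ?_ ?_ X
  · unfold Zt
    rw [smul_cfc hκ.1]
    exact cfc_le hκ.1 hbd
  · have h1 : (((Real.sqrt κ₀ * ε ^ α : ℝ) : ℂ) • (1 : Mat N)).PosSemidef := by
      have h2 : 0 ≤ Real.sqrt κ₀ * ε ^ α := by positivity
      exact Matrix.PosSemidef.one.smul (Complex.zero_le_real.mpr h2)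
    exact h1.add (Zt_posDef hκ₀ hε t hκ).posSemidef

/-- RED-C2c. Uniform bound on the trace of the potential: `tr (Z G Z)^r ≤ (tr (Z G Z))^r ≤ C`. -/
theorem pot_trace_le {q : ℝ} (hq : 0 < q) (hq1 : q ≤ 1) {W : ℝ → Mat m} (D : DFam W N)
    {κ₀ ε α : ℝ} (hκ₀ : 0 < κ₀) (hε : 0 < ε) (hε1 : ε ≤ 1) (hα : α ≤ 0) :
    ∃ K0 : ℝ, ∀ t ∈ Icc (0 : ℝ) 1, ∀ κ : Mat N, κ.PosSemidef →
      ∫ x in (-D.R)..D.R, rtr (pot q (fun y => Zt κ₀ ε α t κ * D.Φ y) x) ≤ 2 * K0 := by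
  refine ⟨(∫ x in (-D.R)..D.R, ((Real.sqrt κ₀ * ε ^ α) ^ 2 * hsq (D.Φ x)) ^ (1 / q)) / 2, ?_⟩
  intro t ht κ hκ
  rw [mul_div_cancel₀ _ (two_ne_zero)]
  have hr : 1 ≤ 1 / q := by rw [le_div_iff₀ hq]; linarith
  have hΦ : Continuous D.Φ := DFam.contΦ D
  refine intervalIntegral.integral_mono_on (by linarith [D.R_pos]) ?_ ?_ ?_
  · have hU : Continuous fun y => Zt κ₀ ε α t κ * D.Φ y := continuous_const.matrix_mul hΦ
    exact (continuous_rtr.comp (pot_continuous hq hU)).intervalIntegrable _ _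
  · refine Continuous.intervalIntegrable ?_ _ _
    exact (continuous_const.mul (continuous_hsq.comp hΦ)).rpow_const
      fun x => Or.inr (by positivity)
  · intro x _
    unfold pot
    have hA : (Zt κ₀ ε α t κ * D.Φ x * (Zt κ₀ ε α t κ * D.Φ x)ᴴ).PosSemidef :=
      Matrix.posSemidef_self_mul_conjTranspose _
    refine (rtr_mpow_le_rpow hA hr).trans ?_
    rw [← hsq_eq_rtr']
    exact Real.rpow_le_rpow (hsq_nonneg _) (hsq_Zt_mul_le hκ₀ hε hε1 hα ht hκ _) (by positivity)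

private theorem continuousOn_mul_conj {X : Type*} [TopologicalSpace X] {f : X → Mat N}
    {g : X → RMat N m} {S : Set X} (hf : ContinuousOn f S) (hg : ContinuousOn g S) :
    ContinuousOn (fun x => (f x * g x) * (f x * g x)ᴴ) S := by
  rw [continuousOn_iff_continuous_domRestrict] at hf hg ⊢
  have h1 : Continuous fun x : S => f x * g x := Continuous.matrix_mul hf hg
  exact Continuous.matrix_mul h1 h1.matrix_conjTranspose

/-- RED-C2d. Joint continuity of the potential. -/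
theorem pot_continuousOn {q : ℝ} (hq : 0 < q) {W : ℝ → Mat m} (D : DFam W N)
    {κ₀ ε α : ℝ} (hκ₀ : 0 < κ₀) (hε : 0 < ε) :
    ContinuousOn (fun p : ℝ × Mat N × ℝ => pot q (fun y => Zt κ₀ ε α p.1 p.2.1 * D.Φ y) p.2.2)
      (Icc (0 : ℝ) 1 ×ˢ {κ : Mat N | κ.PosSemidef} ×ˢ univ) := by
  set S : Set (ℝ × Mat N × ℝ) := Icc (0 : ℝ) 1 ×ˢ {κ : Mat N | κ.PosSemidef} ×ˢ univ with hS
  have h0 : ContinuousOn (fun p : ℝ × Mat N × ℝ =>
      cfc (fun s : ℝ => (s + ε) ^ (p.1 * α)) p.2.1) S := by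
    have h2 := continuousOn_mpow_shift (n := N) hε α
    have h3 : ContinuousOn (fun p : ℝ × Mat N × ℝ => (p.1, p.2.1)) S :=
      (continuous_fst.prodMk (continuous_fst.comp continuous_snd)).continuousOn
    have h4 : MapsTo (fun p : ℝ × Mat N × ℝ => (p.1, p.2.1)) S
        (univ ×ˢ {κ : Mat N | κ.PosSemidef}) := by
      intro p hp
      exact ⟨mem_univ _, hp.2.1⟩
    exact ContinuousOn.comp h2 h3 h4
  have h1 : ContinuousOn (fun p : ℝ × Mat N × ℝ => Zt κ₀ ε α p.1 p.2.1) S :=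
    ContinuousOn.const_smul h0 (Real.sqrt κ₀ : ℂ)
  have h3 : ContinuousOn (fun p : ℝ × Mat N × ℝ => D.Φ p.2.2) S :=
    ((DFam.contΦ D).comp (continuous_snd.comp continuous_snd)).continuousOn
  exact continuousOn_mpow (s := 1 / q) (by positivity)
    (fun p _ => Matrix.posSemidef_self_mul_conjTranspose _) (continuousOn_mul_conj h1 h3)

/-- RED-C2e. The scalar/matrix inequality for `γ < 1`. -/
theorem case2_klein {γ : ℝ} (hγ0 : 0 < γ) (hγ : γ ≤ 1) {ε : ℝ} (hε : 0 < ε) {k : Mat N}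
    (hk : k.PosSemidef) (lam : Fin N → ℝ) (hlam : ∀ i, 0 < lam i) :
    ∑ i, lam i ^ γ ≤ rtr (cfc (fun s : ℝ => (s + ε) ^ (2 * γ)) k) +
      γ * rtr (cfc (fun s : ℝ => (s + ε) ^ (2 * (γ - 1))) k *
        (Matrix.diagonal (fun i => (lam i : ℂ)) - k * k)) := by
  set A : Mat N := Matrix.diagonal (fun i => (lam i : ℂ)) with hA
  have hApsd : A.PosSemidef := by
    rw [hA, Matrix.posSemidef_diagonal_iff]
    intro i
    exact Complex.zero_le_real.mpr (hlam i).le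
  set μ : Mat N := cfc (fun s : ℝ => (s + ε) ^ (2 : ℕ)) k with hμ
  have hμpd : μ.PosDef := cfc_posDef hk.1 fun s hs => by
    have := spec_nonneg hk hs
    positivity
  have key := klein_concave hApsd hμpd hγ0 hγ
  have e1 : tracePow A γ = ∑ i, lam i ^ γ := by
    change rtr (mpow A γ) = _
    rw [hA, mpow_diagonal]
    simp [rtr, Matrix.trace]
  have epow : ∀ e : ℝ, cfc (fun t : ℝ => t ^ e) μ = cfc (fun s : ℝ => (s + ε) ^ (2 * e)) k := by
    intro e
    rw [hμ, cfc_comp_eig hk.1]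
    refine cfc_congr_spec hk.1 fun s hs => ?_
    have h0 := spec_nonneg hk hs
    rw [← Real.rpow_natCast, ← Real.rpow_mul (by linarith)]
    norm_num
  have e2 : tracePow μ γ = rtr (cfc (fun s : ℝ => (s + ε) ^ (2 * γ)) k) := by
    change rtr (mpow μ γ) = _
    unfold mpow
    rw [epow]
  have e3 : mpow μ (γ - 1) = cfc (fun s : ℝ => (s + ε) ^ (2 * (γ - 1))) k := by
    unfold mpow
    rw [epow]
  rw [e1, e2, e3] at key
  have e4 : rtr (cfc (fun s : ℝ => (s + ε) ^ (2 * (γ - 1))) k * (A - μ)) =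
      rtr (cfc (fun s : ℝ => (s + ε) ^ (2 * (γ - 1))) k * (A - k * k)) -
        rtr (cfc (fun s : ℝ => (s + ε) ^ (2 * (γ - 1))) k * (μ - k * k)) := by
    rw [← rtr_sub, ← Matrix.mul_sub]
    congr 2
    abel
  have e5 : 0 ≤ rtr (cfc (fun s : ℝ => (s + ε) ^ (2 * (γ - 1))) k * (μ - k * k)) := by
    have e6 : k * k = cfc (fun s : ℝ => s * s) k := by
      rw [← cfc_mul_cfc hk.1, cfc_fun_id hk.1]
    rw [e6, hμ, cfc_sub_cfc hk.1, cfc_mul_cfc hk.1]
    refine rtr_nonneg (cfc_posSemidef hk.1 fun s hs => ?_)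
    have h0 := spec_nonneg hk hs
    refine mul_nonneg (Real.rpow_nonneg (by linarith) _) ?_
    nlinarith
  rw [e4] at key
  nlinarith

/-- RED-C2f. The lower bound for the a priori estimate. -/
theorem case2_lower {γ : ℝ} (hγ0 : 0 < γ) (hγ : γ ≤ 1) {ε : ℝ} (hε : 0 < ε) {k : Mat N}
    (hk : k.PosDef) (lam : Fin N → ℝ) (hlam : ∀ i, 0 < lam i) :
    -tracePow k (2 * γ) ≤ rtr (cfc (fun s : ℝ => (s + ε) ^ (2 * (γ - 1))) k *
        (Matrix.diagonal (fun i => (lam i : ℂ)) - k * k)) := by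
  have hP : (cfc (fun s : ℝ => (s + ε) ^ (2 * (γ - 1))) k).PosSemidef :=
    cfc_posSemidef hk.1 fun s hs => by
      have := spec_pos hk hs
      exact Real.rpow_nonneg (by linarith) _
  have hA : (Matrix.diagonal (fun i => (lam i : ℂ)) : Mat N).PosSemidef := by
    rw [Matrix.posSemidef_diagonal_iff]
    intro i
    exact Complex.zero_le_real.mpr (hlam i).le
  have h1 := rtr_mul_psd_nonneg hP hA
  have e6 : k * k = cfc (fun s : ℝ => s * s) k := by
    rw [← cfc_mul_cfc hk.1, cfc_fun_id hk.1]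
  rw [Matrix.mul_sub, rtr_sub]
  have h2 : rtr (cfc (fun s : ℝ => (s + ε) ^ (2 * (γ - 1))) k * (k * k)) ≤
      tracePow k (2 * γ) := by
    change _ ≤ rtr (mpow k (2 * γ))
    unfold mpow
    rw [e6, cfc_mul_cfc hk.1, rtr_cfc hk.1, rtr_cfc hk.1]
    refine Finset.sum_le_sum fun i _ => ?_
    have h0 : 0 < hk.1.eigenvalues i := hk.eigenvalues_pos i
    set s := hk.1.eigenvalues i
    have h3 : (s + ε) ^ (2 * (γ - 1)) ≤ s ^ (2 * (γ - 1)) :=
      Real.rpow_le_rpow_of_nonpos h0 (by linarith) (by linarith)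
    calc (s + ε) ^ (2 * (γ - 1)) * (s * s) ≤ s ^ (2 * (γ - 1)) * (s * s) :=
          mul_le_mul_of_nonneg_right h3 (by positivity)
      _ = s ^ (2 * γ) := by
          rw [← sq, ← Real.rpow_natCast s 2, ← Real.rpow_add h0]
          congr 1
          push_cast
          ring
  linarith

end SLT
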