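import Crest.Agent.SLT.RigDefs

/-!
# Row 332, S0516: rectangular functional calculus and powers (chunk ALG1)
-/

set_option autoImplicit false

open MeasureTheory Filter Set
open scoped ComplexOrder Matrix Topology

namespace SLT

theorem ra1_spec {n : ℕ} {A : Mat n} (hA : A.IsHermitian) (f : ℝ → ℝ) :
    cfc f A = (hA.eigenvectorUnitary : Mat n) *
      Matrix.diagonal (fun i => ((f (hA.eigenvalues i) : ℝ) : ℂ)) *
        (hA.eigenvectorUnitary : Mat n)ᴴ := by
  rw [hA.cfc_eq f, Matrix.IsHermitian.cfc, Unitary.conjStarAlgAut_apply]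
  rfl

theorem ra1_id {n : ℕ} {A : Mat n} (hA : A.IsHermitian) : cfc (fun t : ℝ => t) A = A :=
  cfc_id' ℝ A hA.isSelfAdjoint

theorem ra1_spec_id {n : ℕ} {A : Mat n} (hA : A.IsHermitian) :
    A = (hA.eigenvectorUnitary : Mat n) *
      Matrix.diagonal (fun i => ((hA.eigenvalues i : ℝ) : ℂ)) *
        (hA.eigenvectorUnitary : Mat n)ᴴ := by
  have h := ra1_spec hA (fun t => t)
  rw [ra1_id hA] at h
  exact h

theorem ra1_unit {n : ℕ} {A : Mat n} (hA : A.IsHermitian) :
    (hA.eigenvectorUnitary : Mat n)ᴴ * (hA.eigenvectorUnitary : Mat n) = 1 := by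
  have := Unitary.coe_star_mul_self hA.eigenvectorUnitary
  simpa [Matrix.star_eq_conjTranspose] using this

theorem ra1_unit' {n : ℕ} {A : Mat n} (hA : A.IsHermitian) :
    (hA.eigenvectorUnitary : Mat n) * (hA.eigenvectorUnitary : Mat n)ᴴ = 1 := by
  have := Unitary.coe_mul_star_self hA.eigenvectorUnitary
  simpa [Matrix.star_eq_conjTranspose] using this

/-- If `A X = X B` then `f(A) X = X f(B)`. -/
theorem ra1_intertwine {n m : ℕ} (f : ℝ → ℝ) {A : Mat n} {B : Mat m} (hA : A.IsHermitian)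
    (hB : B.IsHermitian) (X : RMat n m) (h : A * X = X * B) :
    cfc f A * X = X * cfc f B := by
  rw [ra1_spec hA, ra1_spec hB]
  set V : Mat n := (hA.eigenvectorUnitary : Mat n) with hV
  set W : Mat m := (hB.eigenvectorUnitary : Mat m) with hW
  have hVV : Vᴴ * V = 1 := ra1_unit hA
  have hVV' : V * Vᴴ = 1 := ra1_unit' hA
  have hWW : Wᴴ * W = 1 := ra1_unit hB
  have hWW' : W * Wᴴ = 1 := ra1_unit' hB
  have key : Matrix.diagonal (fun i => ((hA.eigenvalues i : ℝ) : ℂ)) * (Vᴴ * X * W) =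
      (Vᴴ * X * W) * Matrix.diagonal (fun i => ((hB.eigenvalues i : ℝ) : ℂ)) := by
    have e1 : Vᴴ * (A * X) * W = Matrix.diagonal (fun i => ((hA.eigenvalues i : ℝ) : ℂ)) *
        (Vᴴ * X * W) := by
      conv_lhs => rw [ra1_spec_id hA]
      rw [← hV]
      calc Vᴴ * (V * Matrix.diagonal (fun i => ((hA.eigenvalues i : ℝ) : ℂ)) * Vᴴ * X) * W
          = (Vᴴ * V) * Matrix.diagonal (fun i => ((hA.eigenvalues i : ℝ) : ℂ)) *
            (Vᴴ * X * W) := by simp only [Matrix.mul_assoc]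
        _ = _ := by rw [hVV, Matrix.one_mul]
    have e2 : Vᴴ * (X * B) * W = (Vᴴ * X * W) *
        Matrix.diagonal (fun i => ((hB.eigenvalues i : ℝ) : ℂ)) := by
      conv_lhs => rw [ra1_spec_id hB]
      rw [← hW]
      calc Vᴴ * (X * (W * Matrix.diagonal (fun i => ((hB.eigenvalues i : ℝ) : ℂ)) * Wᴴ)) * W
          = (Vᴴ * X * W) * Matrix.diagonal (fun i => ((hB.eigenvalues i : ℝ) : ℂ)) *
            (Wᴴ * W) := by simp only [Matrix.mul_assoc]
        _ = _ := by rw [hWW, Matrix.mul_one]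
    rw [← e1, ← e2, h]
  have key2 : Matrix.diagonal (fun i => ((f (hA.eigenvalues i) : ℝ) : ℂ)) * (Vᴴ * X * W) =
      (Vᴴ * X * W) * Matrix.diagonal (fun i => ((f (hB.eigenvalues i) : ℝ) : ℂ)) := by
    ext i j
    have hk := congrFun (congrFun key i) j
    rw [Matrix.diagonal_mul, Matrix.mul_diagonal] at hk ⊢
    by_cases hx : (Vᴴ * X * W) i j = 0
    · simp [hx]
    · have h1 : ((hA.eigenvalues i : ℝ) : ℂ) = ((hB.eigenvalues j : ℝ) : ℂ) := by
        rw [mul_comm ((Vᴴ * X * W) i j)] at hk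
        exact mul_right_cancel₀ hx hk
      have h2 : hA.eigenvalues i = hB.eigenvalues j := by exact_mod_cast h1
      rw [h2, mul_comm]
  calc V * Matrix.diagonal (fun i => ((f (hA.eigenvalues i) : ℝ) : ℂ)) * Vᴴ * X
      = V * (Matrix.diagonal (fun i => ((f (hA.eigenvalues i) : ℝ) : ℂ)) * (Vᴴ * X * W)) * Wᴴ := by
        simp only [Matrix.mul_assoc]
        rw [hWW', Matrix.mul_one]
    _ = V * ((Vᴴ * X * W) * Matrix.diagonal (fun i => ((f (hB.eigenvalues i) : ℝ) : ℂ))) * Wᴴ := by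
        rw [key2]
    _ = (V * Vᴴ) * (X * (W * Matrix.diagonal (fun i => ((f (hB.eigenvalues i) : ℝ) : ℂ)) *
          Wᴴ)) := by simp only [Matrix.mul_assoc]
    _ = _ := by rw [hVV', Matrix.one_mul]

theorem ra1_mul {n : ℕ} {A : Mat n} (hA : A.IsHermitian) (f g : ℝ → ℝ) :
    cfc f A * cfc g A = cfc (fun t => f t * g t) A := by
  rw [ra1_spec hA, ra1_spec hA, ra1_spec hA]
  set V : Mat n := (hA.eigenvectorUnitary : Mat n) with hV
  have hVV : Vᴴ * V = 1 := ra1_unit hA
  calc V * Matrix.diagonal (fun i => ((f (hA.eigenvalues i) : ℝ) : ℂ)) * Vᴴ *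
        (V * Matrix.diagonal (fun i => ((g (hA.eigenvalues i) : ℝ) : ℂ)) * Vᴴ)
      = V * Matrix.diagonal (fun i => ((f (hA.eigenvalues i) : ℝ) : ℂ)) * (Vᴴ * V) *
        Matrix.diagonal (fun i => ((g (hA.eigenvalues i) : ℝ) : ℂ)) * Vᴴ := by
        simp only [Matrix.mul_assoc]
    _ = V * (Matrix.diagonal (fun i => ((f (hA.eigenvalues i) : ℝ) : ℂ)) *
        Matrix.diagonal (fun i => ((g (hA.eigenvalues i) : ℝ) : ℂ))) * Vᴴ := by
        rw [hVV, Matrix.mul_one]; simp only [Matrix.mul_assoc]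
    _ = _ := by
        rw [Matrix.diagonal_mul_diagonal]
        congr 3
        ext i
        push_cast
        rfl

theorem ra1_congr {n : ℕ} {A : Mat n} (hA : A.IsHermitian) (f g : ℝ → ℝ)
    (h : ∀ i, f (hA.eigenvalues i) = g (hA.eigenvalues i)) : cfc f A = cfc g A := by
  rw [ra1_spec hA, ra1_spec hA]
  congr 3
  ext i
  rw [h i]

/-- `f(U U*) U = U f(U* U)`. Proof: choose (Lagrange interpolation, `Lagrange.interpolate`) a real
polynomial `p` with `p = f` on the finite set `spectrum (U U*) ∪ spectrum (U* U)`; then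
`cfc f = aeval p` for both (`cfc_congr`, `cfc_polynomial`-type lemma), and
`(U U*)^k U = U (U* U)^k` by induction. -/
theorem cfc_mul_intertwine {N m : ℕ} (f : ℝ → ℝ) (U : RMat N m) :
    cfc f (U * Uᴴ) * U = U * cfc f (Uᴴ * U) :=
  ra1_intertwine f (Matrix.isHermitian_mul_conjTranspose_self U)
    (Matrix.isHermitian_conjTranspose_mul_self U) U (by simp only [Matrix.mul_assoc])

/-- `A^(s+1) = A^s A` for `A ≥ 0`, `s > 0` (`cfc_mul`, `cfc_id`, `cfc_congr` on the nonnegative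
spectrum). -/
theorem mpow_add_one {n : ℕ} {s : ℝ} (hs : 0 < s) {A : Mat n} (hA : A.PosSemidef) :
    mpow A (s + 1) = mpow A s * A := by
  have h1 : mpow A s * A = cfc (fun t : ℝ => t ^ s * t) A := by
    have := ra1_mul hA.1 (fun t : ℝ => t ^ s) (fun t => t)
    rw [ra1_id hA.1] at this
    exact this
  rw [h1]
  refine ra1_congr hA.1 _ _ fun i => ?_
  have h0 := hA.eigenvalues_nonneg i
  exact Real.rpow_add_one' h0 (by positivity)

/-- `mpow A s` commutes with `A`. -/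
theorem mpow_comm {n : ℕ} (s : ℝ) (A : Mat n) : mpow A s * A = A * mpow A s := by
  by_cases hA : A.IsHermitian
  · exact ra1_intertwine _ hA hA A rfl
  · have : mpow A s = 0 := cfc_apply_of_not_predicate A hA
    rw [this, Matrix.zero_mul, Matrix.mul_zero]

/-- `(U U*)^s = U (U* U)^(s-1) U*` for `s > 1`: `mpow_add_one` and `cfc_mul_intertwine`. -/
theorem mpow_mul_conjTranspose {N m : ℕ} {s : ℝ} (hs : 1 < s) (U : RMat N m) :
    mpow (U * Uᴴ) s = U * mpow (Uᴴ * U) (s - 1) * Uᴴ := by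
  have h1 := mpow_add_one (s := s - 1) (by linarith) (Matrix.posSemidef_self_mul_conjTranspose U)
  rw [sub_add_cancel] at h1
  rw [h1, ← Matrix.mul_assoc]
  unfold mpow
  rw [cfc_mul_intertwine]

theorem mpow_psd_rig {n : ℕ} (s : ℝ) {A : Mat n} (hA : A.PosSemidef) :
    (mpow A s).PosSemidef := by
  unfold mpow
  rw [ra1_spec hA.1]
  refine Matrix.PosSemidef.mul_mul_conjTranspose_same ?_ _
  refine Matrix.PosSemidef.diagonal (Pi.le_def.2 fun i => ?_)
  have := Real.rpow_nonneg (hA.eigenvalues_nonneg i) s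
  show (0 : ℂ) ≤ _
  exact_mod_cast this

theorem mpow_mpow {n : ℕ} {s t : ℝ} {A : Mat n} (hA : A.PosSemidef) :
    mpow (mpow A s) t = mpow A (s * t) := by
  unfold mpow
  have h1 : cfc (fun x : ℝ => x ^ t) (cfc (fun x : ℝ => x ^ s) A) =
      cfc (fun x : ℝ => (x ^ s) ^ t) A :=
    (cfc_comp' (fun x : ℝ => x ^ t) (fun x : ℝ => x ^ s) A
    (Set.Finite.continuousOn (Set.Finite.image _ (Matrix.finite_real_spectrum)) _)
    (Set.Finite.continuousOn (Matrix.finite_real_spectrum) _) hA.1.isSelfAdjoint).symm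
  rw [h1]
  refine ra1_congr hA.1 _ _ fun i => ?_
  exact (Real.rpow_mul (hA.eigenvalues_nonneg i) s t).symm

theorem mpow_one {n : ℕ} {A : Mat n} (hA : A.PosSemidef) : mpow A 1 = A := by
  unfold mpow
  have : cfc (fun t : ℝ => t ^ (1 : ℝ)) A = cfc (fun t : ℝ => t) A :=
    ra1_congr hA.1 _ _ fun i => Real.rpow_one _
  rw [this, ra1_id hA.1]

end SLT
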