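import Crest.Agent.SLT.RigDefs

/-!
# Row 332, S0516: continuity of the power (chunk ALG2)
-/

set_option autoImplicit false

open MeasureTheory Filter Set
open scoped ComplexOrder Matrix Topology

namespace SLT

open scoped Matrix.Norms.L2Operator in
/-- Auxiliary version of `mpow_tendsto` (stated with the operator norm instances). -/
theorem mpow_tendsto_aux {n : ℕ} {s : ℝ} (hs : 0 < s) {ι : Type*} {l : Filter ι} {A : ι → Mat n}
    {A₀ : Mat n} (hA : ∀ i, (A i).PosSemidef) (h : Tendsto A l (𝓝 A₀)) :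
    Tendsto (fun i => mpow (A i) s) l (𝓝 (mpow A₀ s)) := by
  rcases l.eq_or_neBot with hl | hl
  · rw [hl]; exact tendsto_bot
  have hA₀ : IsSelfAdjoint A₀ := by
    have h1 : Tendsto (fun i => star (A i)) l (𝓝 (star A₀)) := (continuous_star.tendsto A₀).comp h
    have h2 : (fun i => star (A i)) = A := by
      funext i
      exact (hA i).1
    rw [h2] at h1
    exact tendsto_nhds_unique h1 h
  have hsub : ∀ B : Mat n, spectrum ℝ B ⊆ Metric.closedBall 0 (‖B‖ * ‖(1 : Mat n)‖) := fun B =>
    spectrum.subset_closedBall_norm_mul B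
  have hn : ∀ᶠ i in l, ‖A i‖ ≤ ‖A₀‖ + 1 := by
    have h1 : Tendsto (fun i => ‖A i‖) l (𝓝 ‖A₀‖) := h.norm
    exact (h1.eventually (gt_mem_nhds (lt_add_one _))).mono fun i hi => hi.le
  refine Filter.Tendsto.cfc (s := Metric.closedBall (0 : ℝ) ((‖A₀‖ + 1) * ‖(1 : Mat n)‖))
    (isCompact_closedBall _ _) (fun t : ℝ => t ^ s) h ?_ ?_ ?_ hA₀
    (Real.continuous_rpow_const hs.le).continuousOn
  · filter_upwards [hn] with i hi
    exact (hsub _).trans (Metric.closedBall_subset_closedBall (by gcongr))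
  · exact Eventually.of_forall fun i => (hA i).1
  · exact (hsub _).trans (Metric.closedBall_subset_closedBall (by gcongr; linarith))

/-- Continuity of the power on positive semidefinite matrices (`s > 0`). -/
theorem mpow_tendsto {n : ℕ} {s : ℝ} (hs : 0 < s) {ι : Type*} {l : Filter ι} {A : ι → Mat n}
    {A₀ : Mat n} (hA : ∀ i, (A i).PosSemidef) (h : Tendsto A l (𝓝 A₀)) :
    Tendsto (fun i => mpow (A i) s) l (𝓝 (mpow A₀ s)) :=
  mpow_tendsto_aux hs hA h

theorem mpow_continuous {n : ℕ} {s : ℝ} (hs : 0 < s) {A : ℝ → Mat n}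
    (hA : ∀ x, (A x).PosSemidef) (h : Continuous A) : Continuous fun x => mpow (A x) s := by
  rw [continuous_iff_continuousAt]
  intro x
  exact mpow_tendsto hs hA h.continuousAt

end SLT
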