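import Crest.Agent.SLT.RigDefs
import Crest.Agent.SLT.Spec

/-!
# Row 332, S0516: Frobenius norm and order (chunk ALG3)
-/

set_option autoImplicit false

open MeasureTheory Filter Set
open scoped ComplexOrder Matrix Topology

namespace SLT

open scoped Matrix.Norms.Frobenius in
/-- `‖X‖² = hsq X` (`Matrix.frobenius_norm_def`). -/
theorem norm_sq_eq_hsq {N m : ℕ} (X : RMat N m) : ‖X‖ ^ 2 = hsq X := by
  have h0 : 0 ≤ ∑ i, ∑ j, ‖X i j‖ ^ (2 : ℝ) :=
    Finset.sum_nonneg fun i _ => Finset.sum_nonneg fun j _ =>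
      Real.rpow_nonneg (norm_nonneg _) _
  rw [Matrix.frobenius_norm_def, ← Real.rpow_natCast, ← Real.rpow_mul h0]
  norm_num [hsq]

/-- `tr U* F² U ≤ K² tr U* U` if `-K ≤ F ≤ K`. Proof: `K² - F² = ((K-F)(K+F)+(K+F)(K-F))/2`,
and with `A = K - F ≥ 0`, `B = K + F ≥ 0`, `A B + B A = 2 A B = 2 √A B √A ≥ 0` (A, B commute). -/
theorem rig_sq_le {N : ℕ} {K : ℝ} {F : Mat N}
    (h1 : ((K : ℂ) • (1 : Mat N) - F).PosSemidef) (h2 : ((K : ℂ) • (1 : Mat N) + F).PosSemidef) :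
    (((K ^ 2 : ℝ) : ℂ) • (1 : Mat N) - F * F).PosSemidef := by
  open scoped MatrixOrder in
  have h3 : Commute ((K : ℂ) • (1 : Mat N) - F) ((K : ℂ) • (1 : Mat N) + F) := by
    have hK : ∀ X : Mat N, Commute ((K : ℂ) • (1 : Mat N)) X := fun X =>
      (Commute.one_left X).smul_left _
    exact Commute.sub_left (Commute.add_right (hK _) (hK _))
      (Commute.add_right (hK _).symm (Commute.refl F))
  have h4 : ((K : ℂ) • (1 : Mat N) - F) * ((K : ℂ) • (1 : Mat N) + F)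
      = ((K ^ 2 : ℝ) : ℂ) • (1 : Mat N) - F * F := by
    rw [sub_mul, mul_add, mul_add, smul_mul_smul_comm, one_mul, smul_mul_assoc, one_mul,
      mul_smul_comm, mul_one]
    push_cast
    rw [sq]
    abel
  rw [← h4]
  exact Matrix.nonneg_iff_posSemidef.mp (Commute.mul_nonneg h1.nonneg h2.nonneg h3)

end SLT
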