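import Crest.Agent.SLT.Defs

/-!
# Row 332, equality case (S0516): common structures

`q = γ - 1/2 ∈ (0,1)`, `r = 1/q > 1`, `m` the size of the potential `W`, `N` the (unbounded) number
of states. `hsq X = ∑ |X i j|²` is the squared Frobenius norm. In proofs you may
`open scoped Matrix.Norms.Frobenius` (then `‖X‖^2 = hsq X`, see `norm_sq_eq_hsq` in `RigAlg`).
-/

set_option autoImplicit false

open MeasureTheory Filter
open scoped ComplexOrder Matrix Topology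

namespace SLT

/-- What the chain of inequalities (reduction + calibration + stability of (PI)) produces for one
trial family whose total deficit is at most `δ`: a Riccati path `F` from `k` to `-k`, the
transplanted trial functions `U` (`N × m`) and a nonnegative integrable deficit density `e`. -/
structure ChainData (m : ℕ) (q K C₀ : ℝ) (Cf : ℝ → ℝ) (W : ℝ → Mat m) (δ : ℝ) where
  N : ℕ
  k : Mat N
  F : ℝ → Mat N
  U : ℝ → RMat N m
  U' : ℝ → RMat N m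
  e : ℝ → ℝ
  k_psd : k.PosSemidef
  k_le : ((K : ℂ) • (1 : Mat N) - k).PosSemidef
  F_le : ∀ x, (k - F x).PosSemidef
  F_ge : ∀ x, (k + F x).PosSemidef
  hF : ∀ x, HasDerivAt F (k * k - F x * F x - mpow (U x * (U x)ᴴ) (1 / q)) x
  hU : ∀ x, HasDerivAt U (U' x) x
  hU' : Continuous U'
  e_nonneg : ∀ x, 0 ≤ e x
  e_int : Integrable e
  e_le : ∫ x, e x ≤ δ
  /-- `|U' - F U|²` -/
  hE : ∀ x, hsq (U' x - F x * U x) ≤ C₀ * e x
  /-- Young deficit -/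
  hY : ∀ x, dY q (W x) ((U x)ᴴ * U x) ≤ C₀ * e x
  /-- near commutation of `F` and `V` -/
  hC : ∀ M x, rtr ((U x)ᴴ * U x) ≤ M →
    hsq (F x * mpow (U x * (U x)ᴴ) (1 / q) - mpow (U x * (U x)ᴴ) (1 / q) * F x) ≤ Cf M * e x
  /-- `V ≈ (1+r) (k² - F²)` -/
  hV : ∀ M x, rtr ((U x)ᴴ * U x) ≤ M →
    hsq (mpow (U x * (U x)ᴴ) (1 / q) - ((1 + 1 / q : ℝ) : ℂ) • (k * k - F x * F x)) ≤ Cf M * e x

/-- The `m × m` moment functions `Q = U*U`, `T = U*FU`, `S = U*F²U` and their approximate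
differential equations (errors controlled by the deficit density `e`); here `r = 1/q`. -/
structure MomData (m : ℕ) (r K : ℝ) (B : ℝ → ℝ) (W : ℝ → Mat m) (δ : ℝ) where
  Q : ℝ → Mat m
  T : ℝ → Mat m
  S : ℝ → Mat m
  dQ : ℝ → Mat m
  dT : ℝ → Mat m
  e : ℝ → ℝ
  e_nonneg : ∀ x, 0 ≤ e x
  e_int : Integrable e
  e_le : ∫ x, e x ≤ δ
  Q_psd : ∀ x, (Q x).PosSemidef
  T_herm : ∀ x, (T x).IsHermitian
  T_le : ∀ x, ((K : ℂ) • Q x - T x).PosSemidef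
  T_ge : ∀ x, ((K : ℂ) • Q x + T x).PosSemidef
  S_psd : ∀ x, (S x).PosSemidef
  S_le : ∀ x, (((K ^ 2 : ℝ) : ℂ) • Q x - S x).PosSemidef
  S_cont : Continuous S
  hQ : ∀ x, HasDerivAt Q (dQ x) x
  hT : ∀ x, HasDerivAt T (dT x) x
  dQ_cont : Continuous dQ
  dT_cont : Continuous dT
  trQ : ∀ x, |rtr (dQ x)| ≤ (2 * K + 1) * rtr (Q x) + B 0 * e x
  errQ : ∀ M x, rtr (Q x) ≤ M → hsq (dQ x - (2 : ℂ) • T x) ≤ B M * e x
  errT : ∀ M x, rtr (Q x) ≤ M →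
    hsq (dT x - ((2 : ℂ) • S x - ((r / (r + 1) : ℝ) : ℂ) • mpow (Q x) (r + 1))) ≤ B M * e x
  comm : ∀ M x, rtr (Q x) ≤ M → hsq (mpow (Q x) r * T x - T x * mpow (Q x) r) ≤ B M * e x
  quad : ∀ M x, rtr (Q x) ≤ M →
    hsq (mpow (Q x) r * S x - T x * mpow (Q x) (r - 1) * T x) ≤ B M * e x
  young : ∀ x, dY (1 / r) (W x) (Q x) ≤ B 0 * e x

/-- The closed limit equations: `Q' = 2T`, `T' = 2 (Q+P)⁻¹ T² - r/(r+1) Q^(r+1)`, `[Q,T] = 0`,
`P` = the constant orthogonal projection onto `ker Q(x)`, and `W = Q^r` almost everywhere. -/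
structure LimitODE (m : ℕ) (r : ℝ) (W : ℝ → Mat m) where
  Q : ℝ → Mat m
  T : ℝ → Mat m
  P : Mat m
  P_herm : P.IsHermitian
  P_idem : P * P = P
  Q_psd : ∀ x, (Q x).PosSemidef
  T_herm : ∀ x, (T x).IsHermitian
  QP : ∀ x, Q x * P = 0
  TP : ∀ x, T x * P = 0
  inv : ∀ x, (Q x + P).PosDef
  comm : ∀ x, Q x * T x = T x * Q x
  hQ : ∀ x, HasDerivAt Q ((2 : ℂ) • T x) x
  hT : ∀ x, HasDerivAt T ((2 : ℂ) • ((Q x + P)⁻¹ * T x * T x)
    - ((r / (r + 1) : ℝ) : ℂ) • mpow (Q x) (r + 1)) x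
  W_eq : ∀ᵐ x, W x = mpow (Q x) r

end SLT
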