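import Crest.Agent.SLT.RigDefs

/-!
# Row 332, S0516: real analysis I (chunk LA)
-/

set_option autoImplicit false

open MeasureTheory Filter Set
open scoped ComplexOrder Matrix Topology

namespace SLT

/-- (La) Nonnegative integrable functions with summable integrals tend to zero a.e. -/
theorem ae_tendsto_zero {e : ℕ → ℝ → ℝ} (h0 : ∀ j x, 0 ≤ e j x) (hi : ∀ j, Integrable (e j))
    (hle : ∀ j, ∫ x, e j x ≤ (1 / 4 : ℝ) ^ j) :
    ∀ᵐ x, Tendsto (fun j => e j x) atTop (𝓝 0) := by
  have hmeas : ∀ j, AEMeasurable (fun x => ENNReal.ofReal (e j x)) := fun j =>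
    (hi j).aestronglyMeasurable.aemeasurable.ennreal_ofReal
  have hfin : ∫⁻ x, ∑' j, ENNReal.ofReal (e j x) ≠ ⊤ := by
    rw [lintegral_tsum hmeas]
    have hj : ∀ j, ∫⁻ x, ENNReal.ofReal (e j x) ≤ ENNReal.ofReal ((1 / 4 : ℝ) ^ j) := by
      intro j
      rw [← ofReal_integral_eq_lintegral_ofReal (hi j) (Eventually.of_forall (h0 j))]
      exact ENNReal.ofReal_le_ofReal (hle j)
    have hs : Summable (fun j : ℕ => (1 / 4 : ℝ) ^ j) :=
      summable_geometric_of_lt_one (by norm_num) (by norm_num)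
    refine ne_top_of_le_ne_top ?_ (ENNReal.tsum_le_tsum hj)
    rw [← ENNReal.ofReal_tsum_of_nonneg (fun j => by positivity) hs]
    exact ENNReal.ofReal_ne_top
  have hm : AEMeasurable (fun x => ∑' j, ENNReal.ofReal (e j x)) := AEMeasurable.tsum hmeas
  filter_upwards [ae_lt_top' hm hfin] with x hx
  have ht := ENNReal.tendsto_atTop_zero_of_tsum_ne_top hx.ne
  have ht2 := (ENNReal.tendsto_toReal ENNReal.zero_ne_top).comp ht
  refine (tendsto_congr ?_).mp ht2
  intro j
  simp [ENNReal.toReal_ofReal (h0 j x)]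

/-- one-sided estimate used in `local_bound`. -/
theorem local_bound_aux {g g' e : ℝ → ℝ} {A B C x₀ : ℝ} (hA : 0 ≤ A) (hB : 0 ≤ B)
    (hg : ∀ x, HasDerivAt g (g' x) x) (hg' : Continuous g')
    (he0 : ∀ x, 0 ≤ e x) (hei : Integrable e) (hle : ∫ x, e x ≤ 1)
    (hbd : ∀ x, |g' x| ≤ A * g x + B * e x) (hC : g x₀ ≤ C) {x : ℝ} (hx : x₀ ≤ x) :
    g x ≤ Real.exp (A * (x - x₀)) * (C + B) := by
  have hgc : Continuous g := continuous_iff_continuousAt.mpr fun x => (hg x).continuousAt
  set h : ℝ → ℝ := fun y => Real.exp (-(A * (y - x₀))) * g y with hh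
  set h' : ℝ → ℝ := fun y => -A * Real.exp (-(A * (y - x₀))) * g y
    + Real.exp (-(A * (y - x₀))) * g' y with hh'
  have hder : ∀ y, HasDerivAt h (h' y) y := by
    intro y
    have h1 : HasDerivAt (fun y : ℝ => -(A * (y - x₀))) (-A) y := by
      have h0 : HasDerivAt (fun y : ℝ => A * (y - x₀)) (A * 1) y :=
        ((hasDerivAt_id y).sub_const x₀).const_mul A
      rw [mul_one] at h0
      exact h0.fun_neg
    have h2 : HasDerivAt h (Real.exp (-(A * (y - x₀))) * (-A) * g y
        + Real.exp (-(A * (y - x₀))) * g' y) y := (h1.exp).mul (hg y)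
    have h3 : h' y = Real.exp (-(A * (y - x₀))) * (-A) * g y
        + Real.exp (-(A * (y - x₀))) * g' y := by
      show -A * Real.exp (-(A * (y - x₀))) * g y + Real.exp (-(A * (y - x₀))) * g' y = _
      ring
    rw [h3]
    exact h2
  have hcont : Continuous h' := by
    simp only [hh']
    fun_prop
  have hFTC : ∫ y in x₀..x, h' y = h x - h x₀ :=
    intervalIntegral.integral_eq_sub_of_hasDerivAt (fun y _ => hder y)
      (hcont.intervalIntegrable _ _)
  have hle1 : ∫ y in x₀..x, h' y ≤ ∫ y in x₀..x, B * e y := by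
    apply intervalIntegral.integral_mono_on hx (hcont.intervalIntegrable _ _)
    · exact ((hei.const_mul B).intervalIntegrable)
    · intro y hy
      have he1 : Real.exp (-(A * (y - x₀))) ≤ 1 := by
        rw [Real.exp_le_one_iff]
        have : 0 ≤ A * (y - x₀) := mul_nonneg hA (by linarith [hy.1])
        linarith
      have hep : 0 < Real.exp (-(A * (y - x₀))) := Real.exp_pos _
      have h3 : g' y - A * g y ≤ B * e y := by
        have := (abs_le.mp (hbd y)).2
        linarith
      have h4 : h' y = Real.exp (-(A * (y - x₀))) * (g' y - A * g y) := by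
        simp only [hh']; ring
      rw [h4]
      have h5 : 0 ≤ B * e y := mul_nonneg hB (he0 y)
      calc Real.exp (-(A * (y - x₀))) * (g' y - A * g y)
          ≤ Real.exp (-(A * (y - x₀))) * (B * e y) := mul_le_mul_of_nonneg_left h3 hep.le
        _ ≤ 1 * (B * e y) := mul_le_mul_of_nonneg_right he1 h5
        _ = B * e y := one_mul _
  have hle2 : ∫ y in x₀..x, B * e y ≤ B := by
    rw [intervalIntegral.integral_const_mul]
    have : ∫ y in x₀..x, e y ≤ 1 := by
      rw [intervalIntegral.integral_of_le hx]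
      exact (setIntegral_le_integral hei (Eventually.of_forall he0)).trans hle
    nlinarith
  have h6 : h x ≤ C + B := by
    have : h x₀ = g x₀ := by simp [hh]
    linarith
  have h7 : g x = Real.exp (A * (x - x₀)) * h x := by
    simp only [hh]
    rw [← mul_assoc, ← Real.exp_add]
    simp
  rw [h7]
  exact mul_le_mul_of_nonneg_left h6 (Real.exp_pos _).le

/-- (Lc) Local uniform bound (Gronwall): `|g_j'| ≤ A g_j + B e_j`, `∫ e_j ≤ 1`, `g_j(x₀) ≤ C`.
Proof: `h(x) = g(x) e^{-A|x-x₀|}`... e.g. for `x ≥ x₀`: `(e^{-A(x-x₀)} g)' ≤ B e_j`, so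
`g_j(x) ≤ e^{A|x-x₀|} (C + B)`; symmetric on the left. -/
theorem local_bound {g g' e : ℕ → ℝ → ℝ} {A B C x₀ : ℝ} (hA : 0 ≤ A) (hB : 0 ≤ B)
    (hg : ∀ j x, HasDerivAt (g j) (g' j x) x) (hg' : ∀ j, Continuous (g' j))
    (he0 : ∀ j x, 0 ≤ e j x) (hei : ∀ j, Integrable (e j)) (hle : ∀ j, ∫ x, e j x ≤ 1)
    (hbd : ∀ j x, |g' j x| ≤ A * g j x + B * e j x) (hg0 : ∀ j x, 0 ≤ g j x)
    (hC : ∀ j, g j x₀ ≤ C) (L : ℝ) : ∃ M : ℝ, ∀ j x, |x| ≤ L → g j x ≤ M := by
  refine ⟨Real.exp (A * (L + |x₀|)) * (C + B), ?_⟩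
  intro j x hx
  have hC0 : 0 ≤ C := (hg0 j x₀).trans (hC j)
  have key : g j x ≤ Real.exp (A * |x - x₀|) * (C + B) := by
    rcases le_total x₀ x with h | h
    · rw [abs_of_nonneg (by linarith)]
      exact local_bound_aux hA hB (hg j) (hg' j) (he0 j) (hei j) (hle j) (hbd j) (hC j) h
    · rw [abs_of_nonpos (by linarith)]
      have := local_bound_aux (g := fun y => g j (-y)) (g' := fun y => - g' j (-y))
        (e := fun y => e j (-y)) (x₀ := -x₀) (x := -x) (C := C) hA hB
        (fun y => by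
          have h1 : HasDerivAt (fun y => g j (-y)) ((-1 : ℝ) • g' j (-y)) y :=
            (hg j (-y)).scomp y (hasDerivAt_neg y)
          simpa only [neg_smul, one_smul] using h1)
        ((hg' j).comp continuous_neg).neg
        (fun y => he0 j (-y)) ((hei j).comp_neg)
        (by rw [integral_neg_eq_self (fun y => e j y)]; exact hle j)
        (fun y => by simpa using hbd j (-y)) (by simpa using hC j) (by linarith)
      simp only [neg_neg] at this
      refine this.trans (le_of_eq ?_)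
      congr 2
      ring
  refine key.trans ?_
  apply mul_le_mul_of_nonneg_right _ (by linarith)
  apply Real.exp_le_exp.mpr
  apply mul_le_mul_of_nonneg_left _ hA
  have := abs_sub x x₀
  linarith

/-- Cauchy-Schwarz on an interval for a continuous real function. -/
theorem sq_integral_le {u : ℝ → ℝ} (hu : Continuous u) {L : ℝ} (hL : 0 ≤ L) :
    (∫ t in (-L)..L, u t) ^ 2 ≤ 2 * L * ∫ t in (-L)..L, (u t) ^ 2 := by
  rcases hL.eq_or_lt with h | h
  · subst h; simp
  · set I := ∫ t in (-L)..L, u t with hI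
    set c := I / (2 * L) with hc
    have h1 : 0 ≤ ∫ t in (-L)..L, (u t - c) ^ 2 :=
      intervalIntegral.integral_nonneg (by linarith) fun t _ => sq_nonneg _
    have h2 : ∫ t in (-L)..L, (u t - c) ^ 2
        = (∫ t in (-L)..L, (u t) ^ 2) - 2 * c * I + c ^ 2 * (2 * L) := by
      have e1 : ∀ t, (u t - c) ^ 2 = ((u t) ^ 2 - 2 * c * u t) + c ^ 2 := fun t => by ring
      simp_rw [e1]
      rw [intervalIntegral.integral_add, intervalIntegral.integral_sub,
        intervalIntegral.integral_const_mul, intervalIntegral.integral_const]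
      · simp only [smul_eq_mul]
        ring
      · exact (hu.pow 2).intervalIntegrable _ _
      · exact (continuous_const.mul hu).intervalIntegrable _ _
      · exact ((hu.pow 2).sub (continuous_const.mul hu)).intervalIntegrable _ _
      · exact intervalIntegrable_const
    rw [h2] at h1
    have hcI : c * (2 * L) = I := by
      rw [hc]; field_simp
    have h3 : 2 * L * (c ^ 2 * (2 * L)) = I ^ 2 := by rw [← hcI]; ring
    have h4 : 2 * L * (2 * c * I) = 2 * I ^ 2 := by rw [← hcI]; ring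
    nlinarith [mul_nonneg (by linarith : (0:ℝ) ≤ 2 * L) h1]

/-- (Ld) Approximate integral equation. `f' = g + error`, `|error|² ≤ B e`, `∫ e ≤ (1/4)^j`.
Proof: `f y - f x - ∫_x^y g = ∫_x^y (f' - g)`, norm `≤ ∫_{-L}^L √(B e) ≤ √(2 L B ∫ e)`
(Cauchy–Schwarz), `≤ √(2 L B) (1/2)^j`. -/
theorem integral_approx {E : Type*} [NormedAddCommGroup E] [NormedSpace ℝ E] [CompleteSpace E]
    {f f' g : ℝ → E} {e : ℝ → ℝ} {B L : ℝ} {j : ℕ} (hB : 0 ≤ B) (hL : 0 ≤ L)
    (hf : ∀ x, HasDerivAt f (f' x) x) (hf' : Continuous f') (hg : Continuous g)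
    (he0 : ∀ x, 0 ≤ e x) (hei : Integrable e) (hle : ∫ x, e x ≤ (1 / 4 : ℝ) ^ j)
    (herr : ∀ x, |x| ≤ L → ‖f' x - g x‖ ^ 2 ≤ B * e x) {x y : ℝ} (hx : |x| ≤ L) (hy : |y| ≤ L) :
    ‖f y - f x - ∫ t in x..y, g t‖ ≤ Real.sqrt (2 * L * B) * (1 / 2 : ℝ) ^ j := by
  have hu : Continuous (fun t => ‖f' t - g t‖) := (hf'.sub hg).norm
  have h1 : f y - f x - ∫ t in x..y, g t = ∫ t in x..y, (f' t - g t) := by
    rw [intervalIntegral.integral_sub (hf'.intervalIntegrable _ _) (hg.intervalIntegrable _ _),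
      intervalIntegral.integral_eq_sub_of_hasDerivAt (fun t _ => hf t)
        (hf'.intervalIntegrable _ _)]
  have h2 : ‖∫ t in x..y, (f' t - g t)‖ ≤ ∫ t in (-L)..L, ‖f' t - g t‖ := by
    refine (intervalIntegral.norm_integral_le_integral_norm_uIoc).trans ?_
    rw [intervalIntegral.integral_of_le (by linarith)]
    apply setIntegral_mono_set
    · exact (hu.integrableOn_Ioc)
    · exact Eventually.of_forall fun t => norm_nonneg _
    · apply HasSubset.Subset.eventuallyLE
      intro t ht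
      rw [uIoc, mem_Ioc] at ht
      have hx' := abs_le.mp hx
      have hy' := abs_le.mp hy
      constructor
      · refine lt_of_le_of_lt ?_ ht.1
        exact le_min hx'.1 hy'.1
      · exact ht.2.trans (max_le hx'.2 hy'.2)
  have h3 : ∫ t in (-L)..L, ‖f' t - g t‖ ^ 2 ≤ B * (1 / 4 : ℝ) ^ j := by
    calc ∫ t in (-L)..L, ‖f' t - g t‖ ^ 2 ≤ ∫ t in (-L)..L, B * e t := by
          apply intervalIntegral.integral_mono_on (by linarith)
            ((hu.pow 2).intervalIntegrable _ _) ((hei.const_mul B).intervalIntegrable)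
          intro t ht
          exact herr t (abs_le.mpr ⟨ht.1, ht.2⟩)
      _ = B * ∫ t in (-L)..L, e t := intervalIntegral.integral_const_mul _ _
      _ ≤ B * (1 / 4 : ℝ) ^ j := by
          apply mul_le_mul_of_nonneg_left _ hB
          rw [intervalIntegral.integral_of_le (by linarith)]
          exact (setIntegral_le_integral hei (Eventually.of_forall he0)).trans hle
  have h4 : (∫ t in (-L)..L, ‖f' t - g t‖) ^ 2 ≤ 2 * L * (B * (1 / 4 : ℝ) ^ j) :=
    (sq_integral_le hu hL).trans (mul_le_mul_of_nonneg_left h3 (by linarith))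
  have h5 : 2 * L * (B * (1 / 4 : ℝ) ^ j) = (Real.sqrt (2 * L * B) * (1 / 2 : ℝ) ^ j) ^ 2 := by
    rw [mul_pow, Real.sq_sqrt (by positivity), ← pow_mul, mul_comm j 2, pow_mul]
    norm_num
    ring
  rw [h1]
  refine h2.trans ?_
  rw [h5] at h4
  exact le_of_sq_le_sq h4 (by positivity)
where
  le_of_sq_le_sq {a b : ℝ} (h : a ^ 2 ≤ b ^ 2) (hb : 0 ≤ b) : a ≤ b :=
    le_trans (le_abs_self a) (by simpa [abs_of_nonneg hb] using sq_le_sq.mp h)

end SLT
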