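import Crest.Agent.SLT.RigAlg
import Crest.Agent.SLT.ExPos

/-!
# Row 332, S0516: the moment identities (MOM)
-/

set_option autoImplicit false

open MeasureTheory Filter
open scoped ComplexOrder Matrix Topology

namespace SLT

section Mom

theorem mom_hsq_nonneg {n m : ℕ} (A : RMat n m) : 0 ≤ hsq A :=
  Finset.sum_nonneg fun _ _ => Finset.sum_nonneg fun _ _ => sq_nonneg _

theorem mom_hsq_conj {n m : ℕ} (A : RMat n m) : hsq Aᴴ = hsq A := by
  unfold hsq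
  rw [Finset.sum_comm]
  refine Finset.sum_congr rfl fun i _ => Finset.sum_congr rfl fun j _ => ?_
  rw [Matrix.conjTranspose_apply, norm_star]

theorem mom_hsq_smul {n m : ℕ} (c : ℂ) (A : RMat n m) : hsq (c • A) = ‖c‖ ^ 2 * hsq A := by
  unfold hsq
  simp only [Matrix.smul_apply, smul_eq_mul, norm_mul, mul_pow, Finset.mul_sum]

theorem mom_hsq_neg {n m : ℕ} (A : RMat n m) : hsq (-A) = hsq A := by
  unfold hsq
  simp only [Matrix.neg_apply, norm_neg]

open scoped Matrix.Norms.Frobenius in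
theorem mom_hsq_mul {n m l : ℕ} (A : RMat n m) (B : RMat m l) : hsq (A * B) ≤ hsq A * hsq B := by
  rw [← norm_sq_eq_hsq, ← norm_sq_eq_hsq, ← norm_sq_eq_hsq, ← mul_pow]
  exact pow_le_pow_left₀ (norm_nonneg _) (Matrix.frobenius_norm_mul A B) 2

open scoped Matrix.Norms.Frobenius in
theorem mom_hsq_add {n m : ℕ} (A B : RMat n m) : hsq (A + B) ≤ 2 * hsq A + 2 * hsq B := by
  rw [← norm_sq_eq_hsq, ← norm_sq_eq_hsq, ← norm_sq_eq_hsq]
  have h := norm_add_le A B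
  have h0 := norm_nonneg (A + B)
  nlinarith [sq_nonneg (‖A‖ - ‖B‖), norm_nonneg A, norm_nonneg B]

open scoped Matrix.Norms.Frobenius in
theorem mom_hsq_add3 {n m : ℕ} (A B C : RMat n m) :
    hsq (A + B + C) ≤ 3 * hsq A + 3 * hsq B + 3 * hsq C := by
  rw [← norm_sq_eq_hsq, ← norm_sq_eq_hsq, ← norm_sq_eq_hsq, ← norm_sq_eq_hsq]
  have h := norm_add₃_le (a := A) (b := B) (c := C)
  have h0 := norm_nonneg (A + B + C)
  have hA := norm_nonneg A
  have hB := norm_nonneg B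
  have hC := norm_nonneg C
  have h1 : ‖A + B + C‖ ^ 2 ≤ (‖A‖ + ‖B‖ + ‖C‖) ^ 2 := pow_le_pow_left₀ h0 h 2
  nlinarith [sq_nonneg (‖A‖ - ‖B‖), sq_nonneg (‖A‖ - ‖C‖), sq_nonneg (‖B‖ - ‖C‖)]

theorem mom_rtr_add {n : ℕ} (A B : Mat n) : rtr (A + B) = rtr A + rtr B := by
  unfold rtr; rw [Matrix.trace_add, Complex.add_re]

theorem mom_rtr_sub {n : ℕ} (A B : Mat n) : rtr (A - B) = rtr A - rtr B := by
  unfold rtr; rw [Matrix.trace_sub, Complex.sub_re]

theorem mom_rtr_smul {n : ℕ} (c : ℝ) (A : Mat n) : rtr ((c : ℂ) • A) = c * rtr A := by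
  unfold rtr; rw [Matrix.trace_smul, smul_eq_mul, Complex.re_ofReal_mul]

theorem mom_rtr_nonneg {n : ℕ} {A : Mat n} (hA : A.PosSemidef) : 0 ≤ rtr A := by
  unfold rtr
  have := hA.trace_nonneg
  exact (Complex.le_def.1 this).1

theorem mom_rtr_conj {n : ℕ} (A : Mat n) : rtr Aᴴ = rtr A := by
  unfold rtr; rw [Matrix.trace_conjTranspose]; exact Complex.conj_re _

/-- `2 |tr A* B| ≤ |A|² + |B|²`. -/
theorem mom_rtr_mul_le {n m : ℕ} (A B : RMat n m) : 2 * |rtr (Aᴴ * B)| ≤ hsq A + hsq B := by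
  have h1 : |rtr (Aᴴ * B)| ≤ ∑ j : Fin m, ∑ i : Fin n, ‖A i j‖ * ‖B i j‖ := by
    unfold rtr
    refine (Complex.abs_re_le_norm _).trans ?_
    unfold Matrix.trace
    refine (norm_sum_le _ _).trans (Finset.sum_le_sum fun j _ => ?_)
    rw [Matrix.diag_apply, Matrix.mul_apply]
    refine (norm_sum_le _ _).trans (Finset.sum_le_sum fun i _ => ?_)
    rw [Matrix.conjTranspose_apply, norm_mul, norm_star]
  have h2 : 2 * ∑ j : Fin m, ∑ i : Fin n, ‖A i j‖ * ‖B i j‖ ≤ hsq A + hsq B := by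
    unfold hsq
    rw [Finset.sum_comm, ← Finset.sum_add_distrib, Finset.mul_sum]
    refine Finset.sum_le_sum fun i _ => ?_
    rw [← Finset.sum_add_distrib, Finset.mul_sum]
    refine Finset.sum_le_sum fun j _ => ?_
    nlinarith [sq_nonneg (‖A i j‖ - ‖B i j‖)]
  linarith

end Mom

/-- MOM. From the `N × N` data to the `m × m` moment functions; the constants `B M` do not depend
on `δ`, on `N` or on the data.

Proof. `Q = U*U`, `T = U*FU`, `S = U*F²U`, `V = (UU*)^(1/q)`, `E = U' - FU`, `r = 1/q`,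
`X = V - (1+r)(k²-F²)`.
* `Q' = U'*U + U*U'`, `Q' - 2T = E*U + U*E`; `hsq(E*U) ≤ hsq E * hsq U`, `hsq U = tr Q`.
* `|tr Q'| ≤ 2|tr T| + 2 |tr E*U| ≤ 2K tr Q + 2 √(hsq E) √(tr Q) ≤ (2K+1) tr Q + C₀ e`.
* `T' = U'*FU + U*(k²-F²-V)U + U*FU' = 2S + E*FU + U*FE + U*(k²-F²-V)U` and
  `k²-F²-V = -(r/(r+1)) V - X/(1+r)`, `U*VU = Q^(r+1)` (`cfc_mul_intertwine`). Hence
  `T' - (2S - r/(r+1) Q^(r+1)) = E*FU + U*FE - U*XU/(1+r)`; `hsq(FU) ≤ K² tr Q`,
  `hsq(U*XU) ≤ (tr Q)² hsq X`.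
* `U*V = Q^r U*`, so `Q^r T - T Q^r = U*(VF-FV)U` and, as `V = U Q^(r-1) U*`,
  `Q^r S - T Q^(r-1) T = U*(VF-FV)FU`.
* `-K ≤ F ≤ K` gives the bounds on `T`; `F² ≤ K²` (`rig_sq_le`) the one on `S`.
`F`, `U` are continuous because they are differentiable. -/
theorem mom_of_chain {m : ℕ} {q K C₀ : ℝ} {Cf : ℝ → ℝ} {W : ℝ → Mat m} (hq : 0 < q) (hq1 : q < 1)
    (hK : 0 ≤ K) (hC₀ : 0 ≤ C₀) :
    ∃ B : ℝ → ℝ, ∀ δ : ℝ, ChainData m q K C₀ Cf W δ → Nonempty (MomData m (1 / q) K B W δ) := by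
  refine ⟨fun M => C₀ + 4 * C₀ * |M| + (6 * C₀ * K ^ 2 * |M| + 3 * M ^ 2 * |Cf M|) +
    M ^ 2 * |Cf M| + K ^ 2 * M ^ 2 * |Cf M|, fun δ D => ?_⟩
  have hr : 1 < 1 / q := by rw [lt_div_iff₀ hq]; linarith
  have hr0 : (0 : ℝ) < 1 / q := by positivity
  -- abbreviations
  set r : ℝ := 1 / q with hrdef
  have hF : ∀ x, (D.F x).IsHermitian := by
    intro x
    have h1 := (D.F_le x).isHermitian
    have h3 : D.F x = D.k - (D.k - D.F x) := by abel
    rw [h3]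
    exact D.k_psd.isHermitian.sub h1
  have hFu : ∀ x, ((K : ℂ) • (1 : Mat D.N) - D.F x).PosSemidef := by
    intro x
    have : (K : ℂ) • (1 : Mat D.N) - D.F x = ((K : ℂ) • (1 : Mat D.N) - D.k) + (D.k - D.F x) := by
      abel
    rw [this]; exact D.k_le.add (D.F_le x)
  have hFl : ∀ x, ((K : ℂ) • (1 : Mat D.N) + D.F x).PosSemidef := by
    intro x
    have : (K : ℂ) • (1 : Mat D.N) + D.F x = ((K : ℂ) • (1 : Mat D.N) - D.k) + (D.k + D.F x) := by
      abel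
    rw [this]; exact D.k_le.add (D.F_ge x)
  have hFsq : ∀ x, (((K ^ 2 : ℝ) : ℂ) • (1 : Mat D.N) - D.F x * D.F x).PosSemidef := fun x =>
    rig_sq_le (hFu x) (hFl x)
  have hUc : Continuous D.U := by
    refine continuous_matrix fun i j => continuous_iff_continuousAt.2 fun x => ?_
    exact (hasDerivAt_mat.1 (D.hU x) i j).continuousAt
  have hFc : Continuous D.F := by
    refine continuous_matrix fun i j => continuous_iff_continuousAt.2 fun x => ?_
    exact (hasDerivAt_mat.1 (D.hF x) i j).continuousAt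
  have hUU : ∀ x, (D.U x * (D.U x)ᴴ).PosSemidef := fun x =>
    Matrix.posSemidef_self_mul_conjTranspose _
  have hQp : ∀ x, ((D.U x)ᴴ * D.U x).PosSemidef := fun x =>
    Matrix.posSemidef_conjTranspose_mul_self _
  have hVc : Continuous fun x => mpow (D.U x * (D.U x)ᴴ) r :=
    mpow_continuous hr0 hUU (hUc.matrix_mul hUc.matrix_conjTranspose)
  -- `hsq U = tr Q`
  have hsU : ∀ x, hsq (D.U x) = rtr ((D.U x)ᴴ * D.U x) := fun x => hsq_eq_rtr _
  have hTle : ∀ x, ((K : ℂ) • ((D.U x)ᴴ * D.U x) - (D.U x)ᴴ * D.F x * D.U x).PosSemidef := by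
    intro x
    have h := (hFu x).conjTranspose_mul_mul_same (D.U x)
    have e : (D.U x)ᴴ * ((K : ℂ) • (1 : Mat D.N) - D.F x) * D.U x =
        (K : ℂ) • ((D.U x)ᴴ * D.U x) - (D.U x)ᴴ * D.F x * D.U x := by
      rw [Matrix.mul_sub, Matrix.sub_mul, Matrix.mul_smul, Matrix.mul_one, Matrix.smul_mul]
    rwa [e] at h
  have hTge : ∀ x, ((K : ℂ) • ((D.U x)ᴴ * D.U x) + (D.U x)ᴴ * D.F x * D.U x).PosSemidef := by
    intro x
    have h := (hFl x).conjTranspose_mul_mul_same (D.U x)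
    have e : (D.U x)ᴴ * ((K : ℂ) • (1 : Mat D.N) + D.F x) * D.U x =
        (K : ℂ) • ((D.U x)ᴴ * D.U x) + (D.U x)ᴴ * D.F x * D.U x := by
      rw [Matrix.mul_add, Matrix.add_mul, Matrix.mul_smul, Matrix.mul_one, Matrix.smul_mul]
    rwa [e] at h
  have hSle : ∀ x, (((K ^ 2 : ℝ) : ℂ) • ((D.U x)ᴴ * D.U x) -
      (D.U x)ᴴ * (D.F x * D.F x) * D.U x).PosSemidef := by
    intro x
    have h := (hFsq x).conjTranspose_mul_mul_same (D.U x)
    have e : (D.U x)ᴴ * (((K ^ 2 : ℝ) : ℂ) • (1 : Mat D.N) - D.F x * D.F x) * D.U x =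
        ((K ^ 2 : ℝ) : ℂ) • ((D.U x)ᴴ * D.U x) - (D.U x)ᴴ * (D.F x * D.F x) * D.U x := by
      rw [Matrix.mul_sub, Matrix.sub_mul, Matrix.mul_smul, Matrix.mul_one, Matrix.smul_mul]
    rwa [e] at h
  have hSeq : ∀ x, (D.U x)ᴴ * (D.F x * D.F x) * D.U x = (D.F x * D.U x)ᴴ * (D.F x * D.U x) := by
    intro x
    rw [Matrix.conjTranspose_mul, (hF x).eq]
    simp only [Matrix.mul_assoc]
  have hsFU : ∀ x, hsq (D.F x * D.U x) ≤ K ^ 2 * rtr ((D.U x)ᴴ * D.U x) := by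
    intro x
    have h := mom_rtr_nonneg (hSle x)
    rw [mom_rtr_sub, mom_rtr_smul, hSeq] at h
    rw [hsq_eq_rtr]
    linarith
  have hQn : ∀ x, 0 ≤ rtr ((D.U x)ᴴ * D.U x) := fun x => mom_rtr_nonneg (hQp x)
  -- intertwining
  have hint : ∀ x, (D.U x)ᴴ * mpow (D.U x * (D.U x)ᴴ) r =
      mpow ((D.U x)ᴴ * D.U x) r * (D.U x)ᴴ := by
    intro x
    have h := cfc_mul_intertwine (fun t : ℝ => t ^ r) (D.U x)ᴴ
    rw [Matrix.conjTranspose_conjTranspose] at h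
    exact h.symm
  have hint' : ∀ x, mpow (D.U x * (D.U x)ᴴ) r * D.U x =
      D.U x * mpow ((D.U x)ᴴ * D.U x) r := fun x =>
    cfc_mul_intertwine (fun t : ℝ => t ^ r) (D.U x)
  have hVU : ∀ x, (D.U x)ᴴ * mpow (D.U x * (D.U x)ᴴ) r * D.U x =
      mpow ((D.U x)ᴴ * D.U x) (r + 1) := by
    intro x
    rw [hint, mpow_add_one hr0 (hQp x), Matrix.mul_assoc]
  -- the error term
  have hE' : ∀ x, D.U' x = (D.U' x - D.F x * D.U x) + D.F x * D.U x := fun x => by abel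
  have hdQ : ∀ x, (D.U' x)ᴴ * D.U x + (D.U x)ᴴ * D.U' x =
      (D.U' x - D.F x * D.U x)ᴴ * D.U x + (D.U x)ᴴ * (D.U' x - D.F x * D.U x) +
        ((2 : ℝ) : ℂ) • ((D.U x)ᴴ * D.F x * D.U x) := by
    intro x
    rw [Matrix.conjTranspose_sub, Matrix.conjTranspose_mul, (hF x).eq, Matrix.sub_mul,
      Matrix.mul_sub, ← Matrix.mul_assoc]
    push_cast
    rw [two_smul]
    abel
  have hCf : ∀ M x, rtr ((D.U x)ᴴ * D.U x) ≤ M →
      hsq (D.F x * mpow (D.U x * (D.U x)ᴴ) r - mpow (D.U x * (D.U x)ᴴ) r * D.F x) ≤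
        |Cf M| * D.e x := fun M x h =>
    (D.hC M x h).trans (mul_le_mul_of_nonneg_right (le_abs_self _) (D.e_nonneg x))
  have hVf : ∀ M x, rtr ((D.U x)ᴴ * D.U x) ≤ M →
      hsq (mpow (D.U x * (D.U x)ᴴ) r - ((1 + r : ℝ) : ℂ) • (D.k * D.k - D.F x * D.F x)) ≤
        |Cf M| * D.e x := fun M x h =>
    (D.hV M x h).trans (mul_le_mul_of_nonneg_right (le_abs_self _) (D.e_nonneg x))
  refine ⟨{ Q := fun x => (D.U x)ᴴ * D.U x
            T := fun x => (D.U x)ᴴ * D.F x * D.U x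
            S := fun x => (D.U x)ᴴ * (D.F x * D.F x) * D.U x
            dQ := fun x => (D.U' x)ᴴ * D.U x + (D.U x)ᴴ * D.U' x
            dT := fun x => ((D.U' x)ᴴ * D.F x + (D.U x)ᴴ *
              (D.k * D.k - D.F x * D.F x - mpow (D.U x * (D.U x)ᴴ) (1 / q))) * D.U x +
              (D.U x)ᴴ * D.F x * D.U' x
            e := D.e
            e_nonneg := D.e_nonneg
            e_int := D.e_int
            e_le := D.e_le
            Q_psd := hQp
            T_herm := ?_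
            T_le := hTle
            T_ge := hTge
            S_psd := ?_
            S_le := hSle
            S_cont := ?_
            hQ := ?_
            hT := ?_
            dQ_cont := ?_
            dT_cont := ?_
            trQ := ?_
            errQ := ?_
            errT := ?_
            comm := ?_
            quad := ?_
            young := ?_ }⟩
  · -- T_herm
    intro x
    exact Matrix.isHermitian_conjTranspose_mul_mul (D.U x) (hF x)
  · intro x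
    simp only [hSeq]
    exact Matrix.posSemidef_conjTranspose_mul_self _
  · exact (hUc.matrix_conjTranspose.matrix_mul (hFc.matrix_mul hFc)).matrix_mul hUc
  · intro x
    exact hasDerivAt_mat_mul (hasDerivAt_mat_conj (D.hU x)) (D.hU x)
  · intro x
    exact hasDerivAt_mat_mul (hasDerivAt_mat_mul (hasDerivAt_mat_conj (D.hU x)) (D.hF x)) (D.hU x)
  · exact (D.hU'.matrix_conjTranspose.matrix_mul hUc).add
      (hUc.matrix_conjTranspose.matrix_mul D.hU')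
  · refine ((( D.hU'.matrix_conjTranspose.matrix_mul hFc).add
      (hUc.matrix_conjTranspose.matrix_mul ?_)).matrix_mul hUc).add
      ((hUc.matrix_conjTranspose.matrix_mul hFc).matrix_mul D.hU')
    exact ((continuous_const).sub (hFc.matrix_mul hFc)).sub hVc
  · -- trQ
    intro x
    have h1 := mom_rtr_nonneg (hTle x)
    have h2 := mom_rtr_nonneg (hTge x)
    rw [mom_rtr_sub, mom_rtr_smul] at h1
    rw [mom_rtr_add, mom_rtr_smul] at h2
    have h3 := mom_rtr_mul_le (D.U' x - D.F x * D.U x) (D.U x)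
    rw [hsU] at h3
    have h4 := D.hE x
    have h5 : rtr ((D.U' x)ᴴ * D.U x + (D.U x)ᴴ * D.U' x) =
        2 * rtr ((D.U' x - D.F x * D.U x)ᴴ * D.U x) + 2 * rtr ((D.U x)ᴴ * D.F x * D.U x) := by
      have e1 : rtr ((D.U x)ᴴ * (D.U' x - D.F x * D.U x)) =
          rtr ((D.U' x - D.F x * D.U x)ᴴ * D.U x) := by
        rw [← mom_rtr_conj, Matrix.conjTranspose_mul, Matrix.conjTranspose_conjTranspose]
      rw [hdQ x, mom_rtr_add, mom_rtr_add, mom_rtr_smul, e1]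
      ring
    rw [h5]
    have h6 : |rtr ((D.U x)ᴴ * D.F x * D.U x)| ≤ K * rtr ((D.U x)ᴴ * D.U x) := by
      rw [abs_le]; constructor <;> linarith
    have h7 := abs_add_le (2 * rtr ((D.U' x - D.F x * D.U x)ᴴ * D.U x))
      (2 * rtr ((D.U x)ᴴ * D.F x * D.U x))
    rw [abs_mul, abs_mul, abs_two] at h7
    have h8 : C₀ + 4 * C₀ * |(0 : ℝ)| + (6 * C₀ * K ^ 2 * |(0 : ℝ)| + 3 * (0 : ℝ) ^ 2 * |Cf 0|) +
        (0 : ℝ) ^ 2 * |Cf 0| + K ^ 2 * (0 : ℝ) ^ 2 * |Cf 0| = C₀ := by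
      rw [abs_zero]; ring
    rw [h8]
    linarith
  · -- errQ
    intro M x hM
    have hM0 : 0 ≤ M := (hQn x).trans hM
    have e1 : (D.U' x)ᴴ * D.U x + (D.U x)ᴴ * D.U' x - (2 : ℂ) • ((D.U x)ᴴ * D.F x * D.U x) =
        (D.U' x - D.F x * D.U x)ᴴ * D.U x + (D.U x)ᴴ * (D.U' x - D.F x * D.U x) := by
      rw [hdQ x]; push_cast; abel
    rw [e1]
    have h1 := mom_hsq_add ((D.U' x - D.F x * D.U x)ᴴ * D.U x)
      ((D.U x)ᴴ * (D.U' x - D.F x * D.U x))
    have h2 := mom_hsq_mul (D.U' x - D.F x * D.U x)ᴴ (D.U x)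
    have h3 := mom_hsq_mul (D.U x)ᴴ (D.U' x - D.F x * D.U x)
    rw [mom_hsq_conj, hsU] at h2 h3
    have h4 := D.hE x
    have h5 : hsq (D.U' x - D.F x * D.U x) * rtr ((D.U x)ᴴ * D.U x) ≤ (C₀ * D.e x) * M :=
      mul_le_mul h4 hM (hQn x) (mul_nonneg hC₀ (D.e_nonneg x))
    rw [mul_comm] at h3
    refine le_trans (b := 4 * C₀ * |M| * D.e x) ?_ (mul_le_mul_of_nonneg_right ?_ (D.e_nonneg x))
    · rw [abs_of_nonneg hM0]; linarith
    · have := abs_nonneg M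
      have := abs_nonneg (Cf M)
      have : 0 ≤ 6 * C₀ * K ^ 2 * |M| + 3 * M ^ 2 * |Cf M| := by positivity
      have : 0 ≤ M ^ 2 * |Cf M| := by positivity
      have : 0 ≤ K ^ 2 * M ^ 2 * |Cf M| := by positivity
      linarith
  · -- errT
    intro M x hM
    have hM0 : 0 ≤ M := (hQn x).trans hM
    have hr1 : (1 : ℝ) + r ≠ 0 := by positivity
    have hr2 : r + (1 : ℝ) ≠ 0 := by positivity
    set X : Mat D.N := mpow (D.U x * (D.U x)ᴴ) r -
      ((1 + r : ℝ) : ℂ) • (D.k * D.k - D.F x * D.F x) with hX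
    set E : RMat D.N m := D.U' x - D.F x * D.U x with hE
    have e1 : D.k * D.k - D.F x * D.F x =
        ((1 / (1 + r) : ℝ) : ℂ) • (mpow (D.U x * (D.U x)ᴴ) r - X) := by
      rw [hX, sub_sub_cancel, smul_smul, ← Complex.ofReal_mul, one_div, inv_mul_cancel₀ hr1,
        Complex.ofReal_one, one_smul]
    have e2 : (D.U x)ᴴ * (D.k * D.k - D.F x * D.F x - mpow (D.U x * (D.U x)ᴴ) r) * D.U x =
        -(((r / (r + 1) : ℝ) : ℂ) • mpow ((D.U x)ᴴ * D.U x) (r + 1)) -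
          ((1 / (1 + r) : ℝ) : ℂ) • ((D.U x)ᴴ * X * D.U x) := by
      rw [Matrix.mul_sub, Matrix.sub_mul, hVU, e1, Matrix.mul_smul, Matrix.smul_mul,
        Matrix.mul_sub, Matrix.sub_mul, hVU, smul_sub]
      have e3 : ((r / (r + 1) : ℝ) : ℂ) = 1 - ((1 / (1 + r) : ℝ) : ℂ) := by
        rw [← Complex.ofReal_one, ← Complex.ofReal_sub]
        congr 1
        field_simp
        ring
      rw [e3, sub_smul, one_smul]
      abel
    have e4 : (D.U' x)ᴴ * D.F x * D.U x =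
        Eᴴ * (D.F x * D.U x) + (D.U x)ᴴ * (D.F x * D.F x) * D.U x := by
      rw [hE, Matrix.conjTranspose_sub, Matrix.conjTranspose_mul, (hF x).eq, Matrix.sub_mul]
      simp only [Matrix.mul_assoc]
      abel
    have e5 : (D.U x)ᴴ * D.F x * D.U' x =
        (D.F x * D.U x)ᴴ * E + (D.U x)ᴴ * (D.F x * D.F x) * D.U x := by
      rw [hE, Matrix.conjTranspose_mul, (hF x).eq, Matrix.mul_sub]
      simp only [Matrix.mul_assoc]
      abel
    have e6 : ((D.U' x)ᴴ * D.F x + (D.U x)ᴴ *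
          (D.k * D.k - D.F x * D.F x - mpow (D.U x * (D.U x)ᴴ) r)) * D.U x +
          (D.U x)ᴴ * D.F x * D.U' x -
          ((2 : ℂ) • ((D.U x)ᴴ * (D.F x * D.F x) * D.U x) -
            ((r / (r + 1) : ℝ) : ℂ) • mpow ((D.U x)ᴴ * D.U x) (r + 1)) =
        Eᴴ * (D.F x * D.U x) + (D.F x * D.U x)ᴴ * E +
          -(((1 / (1 + r) : ℝ) : ℂ) • ((D.U x)ᴴ * X * D.U x)) := by
      rw [Matrix.add_mul, e2, e4, e5, two_smul]
      abel
    have e7 : hsq (((D.U' x)ᴴ * D.F x + (D.U x)ᴴ *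
          (D.k * D.k - D.F x * D.F x - mpow (D.U x * (D.U x)ᴴ) r)) * D.U x +
          (D.U x)ᴴ * D.F x * D.U' x -
          ((2 : ℂ) • ((D.U x)ᴴ * (D.F x * D.F x) * D.U x) -
            ((r / (r + 1) : ℝ) : ℂ) • mpow ((D.U x)ᴴ * D.U x) (r + 1))) ≤
        (6 * C₀ * K ^ 2 * |M| + 3 * M ^ 2 * |Cf M|) * D.e x := by
      rw [e6]
      refine (mom_hsq_add3 _ _ _).trans ?_
      have h1 := mom_hsq_mul Eᴴ (D.F x * D.U x)
      have h2 := mom_hsq_mul (D.F x * D.U x)ᴴ E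
      rw [mom_hsq_conj] at h1 h2
      have h3 : hsq E ≤ C₀ * D.e x := D.hE x
      have h4 : hsq (D.F x * D.U x) ≤ K ^ 2 * M :=
        (hsFU x).trans (mul_le_mul_of_nonneg_left hM (sq_nonneg _))
      have h5 : hsq E * hsq (D.F x * D.U x) ≤ (C₀ * D.e x) * (K ^ 2 * M) :=
        mul_le_mul h3 h4 (mom_hsq_nonneg _) (mul_nonneg hC₀ (D.e_nonneg x))
      have h6 : hsq (-(((1 / (1 + r) : ℝ) : ℂ) • ((D.U x)ᴴ * X * D.U x))) ≤
          M ^ 2 * (|Cf M| * D.e x) := by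
        rw [mom_hsq_neg, mom_hsq_smul]
        have h7 : ‖((1 / (1 + r) : ℝ) : ℂ)‖ ^ 2 ≤ 1 := by
          rw [Complex.norm_real, Real.norm_of_nonneg (by positivity)]
          refine pow_le_one₀ (by positivity) ?_
          rw [div_le_one (by positivity)]
          linarith
        have h8 : hsq ((D.U x)ᴴ * X * D.U x) ≤ M * (|Cf M| * D.e x) * M := by
          refine (mom_hsq_mul _ _).trans ?_
          rw [hsU]
          refine mul_le_mul ?_ hM (hQn x) (mul_nonneg hM0 (mul_nonneg (abs_nonneg _)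
            (D.e_nonneg x)))
          refine (mom_hsq_mul _ _).trans ?_
          rw [mom_hsq_conj, hsU]
          exact mul_le_mul hM (hVf M x hM) (mom_hsq_nonneg _) hM0
        calc ‖((1 / (1 + r) : ℝ) : ℂ)‖ ^ 2 * hsq ((D.U x)ᴴ * X * D.U x)
            ≤ 1 * hsq ((D.U x)ᴴ * X * D.U x) :=
              mul_le_mul_of_nonneg_right h7 (mom_hsq_nonneg _)
          _ ≤ M ^ 2 * (|Cf M| * D.e x) := by rw [one_mul]; linarith
      rw [abs_of_nonneg hM0]
      rw [mul_comm] at h2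
      linarith
    refine e7.trans (mul_le_mul_of_nonneg_right ?_ (D.e_nonneg x))
    have := abs_nonneg M
    have := abs_nonneg (Cf M)
    have : 0 ≤ 4 * C₀ * |M| := by positivity
    have : 0 ≤ M ^ 2 * |Cf M| := by positivity
    have : 0 ≤ K ^ 2 * M ^ 2 * |Cf M| := by positivity
    linarith
  · -- comm
    intro M x hM
    have hM0 : 0 ≤ M := (hQn x).trans hM
    have e1 : mpow ((D.U x)ᴴ * D.U x) r * ((D.U x)ᴴ * D.F x * D.U x) -
        (D.U x)ᴴ * D.F x * D.U x * mpow ((D.U x)ᴴ * D.U x) r =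
        -((D.U x)ᴴ * (D.F x * mpow (D.U x * (D.U x)ᴴ) r -
          mpow (D.U x * (D.U x)ᴴ) r * D.F x) * D.U x) := by
      have e2 : mpow ((D.U x)ᴴ * D.U x) r * ((D.U x)ᴴ * D.F x * D.U x) =
          (D.U x)ᴴ * mpow (D.U x * (D.U x)ᴴ) r * (D.F x * D.U x) := by
        rw [hint]; simp only [Matrix.mul_assoc]
      have e3 : (D.U x)ᴴ * D.F x * D.U x * mpow ((D.U x)ᴴ * D.U x) r =
          (D.U x)ᴴ * D.F x * (mpow (D.U x * (D.U x)ᴴ) r * D.U x) := by
        rw [hint', Matrix.mul_assoc]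
      rw [e2, e3, Matrix.mul_sub, Matrix.sub_mul]
      simp only [Matrix.mul_assoc]
      abel
    refine le_trans (b := M ^ 2 * |Cf M| * D.e x) ?_
      (mul_le_mul_of_nonneg_right ?_ (D.e_nonneg x))
    · change hsq (mpow ((D.U x)ᴴ * D.U x) r * ((D.U x)ᴴ * D.F x * D.U x) -
        (D.U x)ᴴ * D.F x * D.U x * mpow ((D.U x)ᴴ * D.U x) r) ≤ _
      rw [e1, mom_hsq_neg]
      have h8 : hsq ((D.U x)ᴴ * (D.F x * mpow (D.U x * (D.U x)ᴴ) r -
          mpow (D.U x * (D.U x)ᴴ) r * D.F x) * D.U x) ≤ M * (|Cf M| * D.e x) * M := by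
        refine (mom_hsq_mul _ _).trans ?_
        rw [hsU]
        refine mul_le_mul ?_ hM (hQn x) (mul_nonneg hM0 (mul_nonneg (abs_nonneg _)
          (D.e_nonneg x)))
        refine (mom_hsq_mul _ _).trans ?_
        rw [mom_hsq_conj, hsU]
        exact mul_le_mul hM (hCf M x hM) (mom_hsq_nonneg _) hM0
      linarith
    · have := abs_nonneg M
      have := abs_nonneg (Cf M)
      have : 0 ≤ 4 * C₀ * |M| := by positivity
      have : 0 ≤ 6 * C₀ * K ^ 2 * |M| + 3 * M ^ 2 * |Cf M| := by positivity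
      have : 0 ≤ K ^ 2 * M ^ 2 * |Cf M| := by positivity
      linarith
  · -- quad
    intro M x hM
    have hM0 : 0 ≤ M := (hQn x).trans hM
    have e1 : mpow ((D.U x)ᴴ * D.U x) r * ((D.U x)ᴴ * (D.F x * D.F x) * D.U x) -
        (D.U x)ᴴ * D.F x * D.U x * mpow ((D.U x)ᴴ * D.U x) (r - 1) *
          ((D.U x)ᴴ * D.F x * D.U x) =
        -((D.U x)ᴴ * (D.F x * mpow (D.U x * (D.U x)ᴴ) r -
          mpow (D.U x * (D.U x)ᴴ) r * D.F x) * (D.F x * D.U x)) := by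
      have e2 : mpow ((D.U x)ᴴ * D.U x) r * ((D.U x)ᴴ * (D.F x * D.F x) * D.U x) =
          (D.U x)ᴴ * mpow (D.U x * (D.U x)ᴴ) r * (D.F x * (D.F x * D.U x)) := by
        rw [hint]; simp only [Matrix.mul_assoc]
      have e3 : (D.U x)ᴴ * D.F x * D.U x * mpow ((D.U x)ᴴ * D.U x) (r - 1) *
          ((D.U x)ᴴ * D.F x * D.U x) =
          (D.U x)ᴴ * D.F x * (mpow (D.U x * (D.U x)ᴴ) r) * (D.F x * D.U x) := by
        rw [mpow_mul_conjTranspose hr]; simp only [Matrix.mul_assoc]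
      rw [e2, e3, Matrix.mul_sub, Matrix.sub_mul]
      simp only [Matrix.mul_assoc]
      abel
    refine le_trans (b := K ^ 2 * M ^ 2 * |Cf M| * D.e x) ?_
      (mul_le_mul_of_nonneg_right ?_ (D.e_nonneg x))
    · change hsq (mpow ((D.U x)ᴴ * D.U x) r * ((D.U x)ᴴ * (D.F x * D.F x) * D.U x) -
        (D.U x)ᴴ * D.F x * D.U x * mpow ((D.U x)ᴴ * D.U x) (r - 1) *
          ((D.U x)ᴴ * D.F x * D.U x)) ≤ _
      rw [e1, mom_hsq_neg]
      have h4 : hsq (D.F x * D.U x) ≤ K ^ 2 * M :=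
        (hsFU x).trans (mul_le_mul_of_nonneg_left hM (sq_nonneg _))
      have h8 : hsq ((D.U x)ᴴ * (D.F x * mpow (D.U x * (D.U x)ᴴ) r -
          mpow (D.U x * (D.U x)ᴴ) r * D.F x) * (D.F x * D.U x)) ≤
            M * (|Cf M| * D.e x) * (K ^ 2 * M) := by
        refine (mom_hsq_mul _ _).trans ?_
        refine mul_le_mul ?_ h4 (mom_hsq_nonneg _) (mul_nonneg hM0 (mul_nonneg (abs_nonneg _)
          (D.e_nonneg x)))
        refine (mom_hsq_mul _ _).trans ?_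
        rw [mom_hsq_conj, hsU]
        exact mul_le_mul hM (hCf M x hM) (mom_hsq_nonneg _) hM0
      linarith
    · have := abs_nonneg M
      have := abs_nonneg (Cf M)
      have : 0 ≤ 4 * C₀ * |M| := by positivity
      have : 0 ≤ 6 * C₀ * K ^ 2 * |M| + 3 * M ^ 2 * |Cf M| := by positivity
      have : 0 ≤ M ^ 2 * |Cf M| := by positivity
      linarith
  · -- young
    intro x
    have e1 : (1 : ℝ) / r = q := by rw [hrdef, one_div_one_div]
    have h8 : C₀ + 4 * C₀ * |(0 : ℝ)| + (6 * C₀ * K ^ 2 * |(0 : ℝ)| + 3 * (0 : ℝ) ^ 2 * |Cf 0|) +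
        (0 : ℝ) ^ 2 * |Cf 0| + K ^ 2 * (0 : ℝ) ^ 2 * |Cf 0| = C₀ := by
      rw [abs_zero]; ring
    rw [h8, e1]
    exact D.hY x

end SLT
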