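import Crest.Agent.SLT.StabRes

/-!
# Row 332, STAB: the deficit `C_τ` as an integral, lower bound
-/

set_option autoImplicit false

open MeasureTheory Set
open scoped ComplexOrder Matrix

namespace SLT

variable {n m : ℕ}

theorem int_sq_scalar {a : ℝ} (ha : 0 < a) :
    IntegrableOn (fun s : ℝ => a * (a + s)⁻¹ * (a + s)⁻¹) (Ioi 0) ∧
      ∫ s in Ioi (0 : ℝ), a * (a + s)⁻¹ * (a + s)⁻¹ = 1 := by
  have hd : ∀ x ∈ Ici (0 : ℝ), HasDerivAt (fun s : ℝ => -a * (a + s)⁻¹)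
      (a * (a + x)⁻¹ * (a + x)⁻¹) x := by
    intro x hx
    have hx' : (0 : ℝ) ≤ x := hx
    have hne : a + x ≠ 0 := by positivity
    have h1 : HasDerivAt (fun s : ℝ => a + s) 1 x := (hasDerivAt_id x).const_add a
    have h2 : HasDerivAt (fun s : ℝ => -a * (a + s)⁻¹) (-a * (-1 / (a + x) ^ 2)) x :=
      (h1.inv hne).const_mul (-a)
    have e : a * (a + x)⁻¹ * (a + x)⁻¹ = -a * (-1 / (a + x) ^ 2) := by
      field_simp
    rw [e]
    exact h2
  have hlim : Filter.Tendsto (fun s : ℝ => -a * (a + s)⁻¹) Filter.atTop (nhds 0) := by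
    have h1 : Filter.Tendsto (fun s : ℝ => (a + s)⁻¹) Filter.atTop (nhds 0) :=
      tendsto_inv_atTop_zero.comp (Filter.tendsto_atTop_add_const_left _ a Filter.tendsto_id)
    simpa using h1.const_mul (-a)
  have hpos : ∀ x ∈ Ioi (0 : ℝ), 0 ≤ a * (a + x)⁻¹ * (a + x)⁻¹ := by
    intro x hx
    have hx' : (0 : ℝ) < x := hx
    positivity
  refine ⟨integrableOn_Ioi_deriv_of_nonneg' hd hpos hlim, ?_⟩
  rw [integral_Ioi_of_hasDerivAt_of_nonneg' hd hpos hlim]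
  simp [ha.ne']

theorem measurable_Rs {A : Mat n} (hA : A.IsHermitian) (i j : Fin n) :
    Measurable fun s : ℝ => Rs A s i j := by
  have e : (fun s : ℝ => Rs A s i j) = fun s : ℝ =>
      ∑ k, (hA.eigenvectorUnitary : Mat n) i k * (((hA.eigenvalues k + s)⁻¹ : ℝ) : ℂ) *
        (hA.eigenvectorUnitary : Mat n)ᴴ k j := by
    funext s
    rw [Rs, cfc_spec hA, Matrix.mul_apply]
    refine Finset.sum_congr rfl fun k _ => ?_
    rw [Matrix.mul_diagonal]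
  rw [e]
  fun_prop

theorem measurable_rtr4 {A : Mat n} (hA : A.IsHermitian) (Z X : Mat n) :
    Measurable fun s : ℝ => rtr (Z * Rs A s * X * Rs A s) := by
  have h := fun i j => measurable_Rs hA i j
  unfold rtr Matrix.trace
  simp only [Matrix.diag_apply, Matrix.mul_apply]
  fun_prop

/-- integrability of the integrand of `dlogt` -/
theorem integrableOn_rtr4 {A : Mat n} (hA : A.IsHermitian) (h0 : ∀ i, 0 < hA.eigenvalues i)
    (Z X : Mat n) : IntegrableOn (fun s : ℝ => rtr (Z * Rs A s * X * Rs A s)) (Ioi 0) := by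
  classical
  obtain ⟨c, hc, hc'⟩ : ∃ c : ℝ, 0 < c ∧ ∀ i, c ≤ hA.eigenvalues i := by
    rcases Nat.eq_zero_or_pos n with rfl | hn
    · exact ⟨1, one_pos, fun i => i.elim0⟩
    · have : Nonempty (Fin n) := ⟨⟨0, hn⟩⟩
      obtain ⟨i, hi⟩ := Finite.exists_min hA.eigenvalues
      exact ⟨hA.eigenvalues i, h0 i, hi⟩
  set C := Real.sqrt (hsq Z) * Real.sqrt (hsq X) / c
  have hbd : ∀ s ∈ Ioi (0 : ℝ), ‖rtr (Z * Rs A s * X * Rs A s)‖ ≤
      C * (c * (c + s)⁻¹ * (c + s)⁻¹) := by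
    intro s hs
    have hs' : (0 : ℝ) < s := hs
    have hcs : 0 < c + s := by positivity
    have hb : ∀ i, |(hA.eigenvalues i + s)⁻¹| ≤ (c + s)⁻¹ := fun i => by
      have := h0 i
      rw [abs_of_pos (by positivity)]
      exact inv_anti₀ hcs (by linarith [hc' i])
    have h1 : rtr (Z * Rs A s * X * Rs A s) = rtr ((Rs A s * Zᴴ)ᴴ * (X * Rs A s)) := by
      rw [Matrix.conjTranspose_mul, Matrix.conjTranspose_conjTranspose,
        show (Rs A s)ᴴ = Rs A s from (cfc_herm _).eq]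
      simp only [Matrix.mul_assoc]
    rw [Real.norm_eq_abs, h1]
    refine (rtr_mul_abs_le _ _).trans ?_
    have h2 : hsq (Rs A s * Zᴴ) ≤ (c + s)⁻¹ ^ 2 * hsq Z := by
      rw [← hsq_conjTranspose Z]
      exact hsq_cfc_mul_le hA hb _
    have h3 : hsq (X * Rs A s) ≤ (c + s)⁻¹ ^ 2 * hsq X := hsq_mul_cfc_le hA hb _
    have h4 : Real.sqrt (hsq (Rs A s * Zᴴ)) ≤ (c + s)⁻¹ * Real.sqrt (hsq Z) := by
      rw [← Real.sqrt_sq (inv_nonneg.mpr hcs.le), ← Real.sqrt_mul (sq_nonneg _)]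
      exact Real.sqrt_le_sqrt h2
    have h5 : Real.sqrt (hsq (X * Rs A s)) ≤ (c + s)⁻¹ * Real.sqrt (hsq X) := by
      rw [← Real.sqrt_sq (inv_nonneg.mpr hcs.le), ← Real.sqrt_mul (sq_nonneg _)]
      exact Real.sqrt_le_sqrt h3
    calc Real.sqrt (hsq (Rs A s * Zᴴ)) * Real.sqrt (hsq (X * Rs A s))
        ≤ ((c + s)⁻¹ * Real.sqrt (hsq Z)) * ((c + s)⁻¹ * Real.sqrt (hsq X)) := by
          gcongr
      _ = C * (c * (c + s)⁻¹ * (c + s)⁻¹) := by
          simp only [C]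
          field_simp
  have hint := (int_sq_scalar hc).1.const_mul C
  refine Integrable.mono' hint (measurable_rtr4 hA Z X).aestronglyMeasurable ?_
  exact (ae_restrict_iff' measurableSet_Ioi).mpr (Filter.Eventually.of_forall hbd)

/-- `dlogt` through the functional calculus -/
theorem dlogt_eq {A : Mat n} (hA : A.IsHermitian) (h0 : ∀ i, 0 < hA.eigenvalues i)
    (Z X : Mat n) : dlogt Z A X = ∫ s in Ioi (0 : ℝ), rtr (Z * Rs A s * X * Rs A s) := by
  unfold dlogt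
  refine setIntegral_congr_fun measurableSet_Ioi fun s hs => ?_
  have hs' : (0 : ℝ) < s := hs
  have hne : ∀ i, hA.eigenvalues i + s ≠ 0 := fun i => by have := h0 i; positivity
  simp only [inv_eq_Rs hA hne]

theorem trace_ARR {A : Mat n} (hA : A.IsHermitian) (h0 : ∀ i, 0 < hA.eigenvalues i) :
    IntegrableOn (fun s : ℝ => rtr (A * Rs A s * Rs A s)) (Ioi 0) ∧
      ∫ s in Ioi (0 : ℝ), rtr (A * Rs A s * Rs A s) = n := by
  have e : ∀ s : ℝ, rtr (A * Rs A s * Rs A s) = ∑ i, hA.eigenvalues i *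
      (hA.eigenvalues i + s)⁻¹ * (hA.eigenvalues i + s)⁻¹ := by
    intro s
    have : A * Rs A s * Rs A s = cfc (fun t : ℝ => t * (t + s)⁻¹ * (t + s)⁻¹) A := by
      rw [Rs, ← cfc_mul_fun hA (fun t => t * (t + s)⁻¹) (fun t => (t + s)⁻¹),
        ← cfc_mul_fun hA (fun t => t) (fun t => (t + s)⁻¹), cfc_id_fun hA]
    rw [this, rtr_cfc hA]
  simp only [e]
  have hi : ∀ i ∈ (Finset.univ : Finset (Fin n)), Integrable (fun s : ℝ => hA.eigenvalues i *
      (hA.eigenvalues i + s)⁻¹ * (hA.eigenvalues i + s)⁻¹) (volume.restrict (Ioi 0)) :=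
    fun i _ => (int_sq_scalar (h0 i)).1
  refine ⟨integrable_finsetSum _ hi, ?_⟩
  rw [integral_finsetSum _ hi]
  simp [(int_sq_scalar (h0 _)).2]

theorem trace_AARRT {A S : Mat n} (hA : A.IsHermitian) (h0 : ∀ i, 0 < hA.eigenvalues i)
    (hS : S.IsHermitian) (hσ : ∀ i, 0 < hS.eigenvalues i) :
    IntegrableOn (fun s : ℝ => rtr (A * A * Rs A s * Rs A s * S⁻¹)) (Ioi 0) ∧
      ∫ s in Ioi (0 : ℝ), rtr (A * A * Rs A s * Rs A s * S⁻¹) = rtr (A * S⁻¹) := by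
  have hT : S⁻¹ = cfc (fun t : ℝ => t⁻¹) S := inv_eq_cfc hS fun i => (hσ i).ne'
  have e : ∀ s : ℝ, rtr (A * A * Rs A s * Rs A s * S⁻¹) = ∑ i, ∑ j,
      (hA.eigenvalues i * (hA.eigenvalues i + s)⁻¹ * (hA.eigenvalues i + s)⁻¹) *
        (hA.eigenvalues i * (hS.eigenvalues j)⁻¹ * swt hA hS (1 : Mat n) i j) := by
    intro s
    have h1 : A * A * Rs A s * Rs A s =
        cfc (fun t : ℝ => t * t * (t + s)⁻¹ * (t + s)⁻¹) A := by
      rw [Rs, ← cfc_mul_fun hA (fun t => t * t * (t + s)⁻¹) (fun t => (t + s)⁻¹),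
        ← cfc_mul_fun hA (fun t => t * t) (fun t => (t + s)⁻¹),
        ← cfc_mul_fun hA (fun t => t) (fun t => t), cfc_id_fun hA]
    have h2 := spec_sum hA hS (1 : Mat n) (fun t : ℝ => t * t * (t + s)⁻¹ * (t + s)⁻¹)
      (fun t => t⁻¹)
    rw [Matrix.conjTranspose_one, Matrix.mul_one, Matrix.mul_one, ← h1, ← hT] at h2
    rw [h2]
    refine Finset.sum_congr rfl fun i _ => Finset.sum_congr rfl fun j _ => ?_
    ring
  have e2 : rtr (A * S⁻¹) = ∑ i, ∑ j,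
      (hA.eigenvalues i * (hS.eigenvalues j)⁻¹ * swt hA hS (1 : Mat n) i j) := by
    have h2 := spec_sum hA hS (1 : Mat n) (fun t : ℝ => t) (fun t => t⁻¹)
    rwa [Matrix.conjTranspose_one, Matrix.mul_one, Matrix.mul_one, cfc_id_fun hA, ← hT] at h2
  simp only [e]
  have hi : ∀ i j, Integrable (fun s : ℝ => (hA.eigenvalues i *
      (hA.eigenvalues i + s)⁻¹ * (hA.eigenvalues i + s)⁻¹) * (hA.eigenvalues i *
        (hS.eigenvalues j)⁻¹ * swt hA hS (1 : Mat n) i j)) (volume.restrict (Ioi 0)) :=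
    fun i j => (int_sq_scalar (h0 i)).1.mul_const _
  have hi2 : ∀ i ∈ (Finset.univ : Finset (Fin n)), Integrable (fun s : ℝ => ∑ j,
      (hA.eigenvalues i * (hA.eigenvalues i + s)⁻¹ * (hA.eigenvalues i + s)⁻¹) *
        (hA.eigenvalues i * (hS.eigenvalues j)⁻¹ * swt hA hS (1 : Mat n) i j))
          (volume.restrict (Ioi 0)) :=
    fun i _ => integrable_finsetSum _ fun j _ => hi i j
  refine ⟨integrable_finsetSum _ hi2, ?_⟩
  rw [integral_finsetSum _ hi2, e2]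
  refine Finset.sum_congr rfl fun i _ => ?_
  rw [integral_finsetSum _ fun j _ => hi i j]
  refine Finset.sum_congr rfl fun j _ => ?_
  rw [integral_mul_const, (int_sq_scalar (h0 i)).2, one_mul]

/-- one side (`A = K_τ ∓ F`, `S = 2 K_τ`) -/
theorem one_side {A S : Mat n} (hA : A.IsHermitian) (h0 : ∀ i, 0 < hA.eigenvalues i)
    (hS : S.IsHermitian) (hσ : ∀ i, 0 < hS.eigenvalues i) :
    IntegrableOn (fun s : ℝ => s * dfs A S s) (Ioi 0) ∧
      dlogt ((((1 / 2 : ℝ) : ℂ) • (A * S + S * A) - A * A)) A S⁻¹ =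
        n - rtr (A * S⁻¹) - ∫ s in Ioi (0 : ℝ), s * dfs A S s := by
  have hT : S⁻¹ = cfc (fun t : ℝ => t⁻¹) S := inv_eq_cfc hS fun i => (hσ i).ne'
  have hunit : S * S⁻¹ = 1 := by
    nth_rewrite 1 [← cfc_id_fun hS]
    rw [hT, cfc_mul_fun hS, ← cfc_one_fun hS]
    exact cfc_congr_eig hS fun i => mul_inv_cancel₀ (hσ i).ne'
  have hunit' : S⁻¹ * S = 1 := mul_eq_one_comm.mp hunit
  have key : ∀ s ∈ Ioi (0 : ℝ), rtr (((((1 / 2 : ℝ) : ℂ) • (A * S + S * A) - A * A)) * Rs A s *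
      S⁻¹ * Rs A s) = rtr (A * Rs A s * Rs A s) - rtr (A * A * Rs A s * Rs A s * S⁻¹) -
        s * dfs A S s := by
    intro s hs
    have hs' : (0 : ℝ) < s := hs
    have hne : ∀ i, hA.eigenvalues i + s ≠ 0 := fun i => by have := h0 i; positivity
    have h1 := add_mul_Rs hA hne
    have h2 := Rs_mul_add hA hne
    rw [Matrix.add_mul, Matrix.smul_mul, Matrix.one_mul] at h1
    rw [Matrix.mul_add, Matrix.mul_smul, Matrix.mul_one] at h2
    exact rtr_ARTR hunit hunit' (eq_sub_of_add_eq h1) (eq_sub_of_add_eq h2)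
  have i1 := integrableOn_rtr4 hA h0 ((((1 / 2 : ℝ) : ℂ) • (A * S + S * A) - A * A)) S⁻¹
  obtain ⟨i2, v2⟩ := trace_ARR hA h0
  obtain ⟨i3, v3⟩ := trace_AARRT hA h0 hS hσ
  have i4 : IntegrableOn (fun s : ℝ => s * dfs A S s) (Ioi 0) := by
    have : IntegrableOn (fun s : ℝ => rtr (A * Rs A s * Rs A s) -
        rtr (A * A * Rs A s * Rs A s * S⁻¹) - rtr (((((1 / 2 : ℝ) : ℂ) • (A * S + S * A) -
          A * A)) * Rs A s * S⁻¹ * Rs A s)) (Ioi 0) := (i2.sub i3).sub i1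
    refine this.congr_fun (fun s hs => ?_) measurableSet_Ioi
    simp only
    rw [key s hs]
    ring
  refine ⟨i4, ?_⟩
  have i23 : IntegrableOn (fun s : ℝ => rtr (A * Rs A s * Rs A s) -
      rtr (A * A * Rs A s * Rs A s * S⁻¹)) (Ioi 0) := i2.sub i3
  rw [dlogt_eq hA h0, setIntegral_congr_fun measurableSet_Ioi key, integral_sub i23 i4,
    integral_sub i2 i3, v2, v3]

theorem one_side_ge {A S : Mat n} (hA : A.IsHermitian) (hS : S.IsHermitian)
    (hσ : ∀ i, 0 < hS.eigenvalues i) {σ₁ c₁ : ℝ} (h1 : ∀ i, hS.eigenvalues i ≤ σ₁)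
    (h2 : ∀ i, 0 < hA.eigenvalues i) (h3 : ∀ i, hA.eigenvalues i ≤ c₁)
    (hn : 0 < σ₁) (hc : 0 < c₁) :
    hsq (A * S - S * A) ≤ (c₁ + 2) ^ 4 * (2 * σ₁ ^ 2) * ∫ s in Ioi (0 : ℝ), s * dfs A S s := by
  obtain ⟨i4, -⟩ := one_side hA h2 hS hσ
  have hpos : ∀ s ∈ Ioi (0 : ℝ), 0 ≤ s * dfs A S s := fun s hs =>
    mul_nonneg (le_of_lt hs) (dfs_nonneg hS hσ s)
  have hP : 0 < (c₁ + 2) ^ 4 * (2 * σ₁ ^ 2) := by positivity
  have hsub : Ioc (1 : ℝ) 2 ⊆ Ioi 0 := fun x hx => lt_trans one_pos hx.1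
  have hle : ∫ s in Ioc (1 : ℝ) 2, s * dfs A S s ≤ ∫ s in Ioi (0 : ℝ), s * dfs A S s :=
    setIntegral_mono_set i4 ((ae_restrict_iff' measurableSet_Ioi).mpr
      (Filter.Eventually.of_forall hpos)) (Filter.Eventually.of_forall hsub)
  have hlow : ∫ s in Ioc (1 : ℝ) 2, hsq (A * S - S * A) / ((c₁ + 2) ^ 4 * (2 * σ₁ ^ 2)) ≤
      ∫ s in Ioc (1 : ℝ) 2, s * dfs A S s := by
    refine setIntegral_mono_on (integrableOn_const (by simp)) (i4.mono_set hsub)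
      measurableSet_Ioc fun s hs => ?_
    have hs0 : 0 < s := hsub hs
    have h4 := dfs_ge hA hS hσ h1 h2 h3 hs0 hn hc
    have h5 := dfs_nonneg (A := A) hS hσ s
    rw [div_le_iff₀ hP]
    have h6 : (c₁ + s) ^ 4 ≤ (c₁ + 2) ^ 4 :=
      pow_le_pow_left₀ (by positivity) (by linarith [hs.2]) 4
    calc hsq (A * S - S * A) ≤ (c₁ + s) ^ 4 * (2 * σ₁ ^ 2) * dfs A S s := h4
      _ ≤ (c₁ + 2) ^ 4 * (2 * σ₁ ^ 2) * (s * dfs A S s) := by
          have h7 : dfs A S s ≤ s * dfs A S s := by nlinarith [hs.1]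
          gcongr
      _ = _ := by ring
  have hc2 : ∫ s in Ioc (1 : ℝ) 2, hsq (A * S - S * A) / ((c₁ + 2) ^ 4 * (2 * σ₁ ^ 2)) =
      hsq (A * S - S * A) / ((c₁ + 2) ^ 4 * (2 * σ₁ ^ 2)) := by
    rw [setIntegral_const]
    norm_num [Measure.real]
  rw [hc2] at hlow
  have := hlow.trans hle
  rwa [div_le_iff₀ hP, mul_comm] at this

end SLT
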