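import Crest.Agent.SLT.StabKtau
import Crest.Agent.SLT.ExPos
import Crest.Agent.SLT.ExFrob

/-!
# Row 332, STAB: Duhamel estimate `‖e^{log A + log B} - A B‖ ≤ C ‖[A, B]‖` (Hilbert–Schmidt norms)
-/

set_option autoImplicit false

open MeasureTheory Set
open scoped ComplexOrder Matrix

namespace SLT.Stab

variable {n : ℕ}

/-- `e^{u X}` -/
noncomputable def EE (X : Mat n) (u : ℝ) : Mat n := cfc (fun t : ℝ => Real.exp (u * t)) X

theorem EE_zero {X : Mat n} (hX : X.IsHermitian) : EE X 0 = 1 := by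
  unfold EE
  simp only [zero_mul, Real.exp_zero]
  exact cfc_one_fun hX

theorem EE_one (X : Mat n) : EE X 1 = mexp X := by
  unfold EE mexp
  simp only [one_mul]

theorem EE_comm {X : Mat n} (hX : X.IsHermitian) (u : ℝ) : X * EE X u = EE X u * X := by
  unfold EE
  nth_rewrite 1 [← cfc_id_fun hX]
  nth_rewrite 4 [← cfc_id_fun hX]
  rw [cfc_mul_fun hX, cfc_mul_fun hX]
  exact cfc_congr_eig hX fun i => mul_comm _ _

theorem hasDerivAt_EE {X : Mat n} (hX : X.IsHermitian) (s : ℝ) :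
    HasDerivAt (fun u : ℝ => EE X u) (X * EE X s) s := by
  have e1 : X * EE X s = cfc (fun t : ℝ => t * Real.exp (s * t)) X := by
    unfold EE
    nth_rewrite 1 [← cfc_id_fun hX]
    rw [cfc_mul_fun hX]
  rw [e1, hasDerivAt_mat]
  intro i j
  set U : Mat n := (hX.eigenvectorUnitary : Mat n)
  have e2 : (fun u : ℝ => EE X u i j) = fun u : ℝ => ∑ k, U i k *
      ((Real.exp (u * hX.eigenvalues k) : ℝ) : ℂ) * Uᴴ k j := by
    funext u
    rw [EE, cfc_spec hX, Matrix.mul_apply]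
    refine Finset.sum_congr rfl fun k _ => ?_
    rw [Matrix.mul_diagonal]
  have e3 : cfc (fun t : ℝ => t * Real.exp (s * t)) X i j = ∑ k, U i k *
      ((hX.eigenvalues k * Real.exp (s * hX.eigenvalues k) : ℝ) : ℂ) * Uᴴ k j := by
    rw [cfc_spec hX, Matrix.mul_apply]
    refine Finset.sum_congr rfl fun k _ => ?_
    rw [Matrix.mul_diagonal]
  rw [e2, e3]
  refine HasDerivAt.fun_sum fun k _ => ?_
  have h1 : HasDerivAt (fun u : ℝ => Real.exp (u * hX.eigenvalues k))
      (hX.eigenvalues k * Real.exp (s * hX.eigenvalues k)) s := by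
    have := ((hasDerivAt_id s).mul_const (hX.eigenvalues k)).exp
    refine HasDerivAt.congr_deriv this ?_
    simp only [id_eq]
    ring
  exact (h1.ofReal_comp.const_mul (U i k)).mul_const _

/-- the interpolation `e^{u(X+Y)} e^{(1-u)X} e^{(1-u)Y}` -/
noncomputable def hh (X Y : Mat n) (u : ℝ) : Mat n :=
  EE (X + Y) u * EE X (1 - u) * EE Y (1 - u)

theorem hasDerivAt_EE_one_sub {X : Mat n} (hX : X.IsHermitian) (s : ℝ) :
    HasDerivAt (fun u : ℝ => EE X (1 - u)) (-(X * EE X (1 - s))) s := by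
  have h := hasDerivAt_mat.1 (hasDerivAt_EE hX (1 - s))
  rw [hasDerivAt_mat]
  intro i j
  have h1 : HasDerivAt (fun u : ℝ => 1 - u) (-1) s := by
    simpa using (hasDerivAt_id s).const_sub 1
  have h2 : HasDerivAt (fun y : ℝ => EE X (1 - y) i j) ((-1 : ℝ) • (X * EE X (1 - s)) i j) s :=
    (h i j).scomp s h1
  rw [neg_one_smul] at h2
  exact h2

theorem hasDerivAt_hh {X Y : Mat n} (hX : X.IsHermitian) (hY : Y.IsHermitian) (s : ℝ) :
    HasDerivAt (hh X Y)
      (EE (X + Y) s * (Y * EE X (1 - s) - EE X (1 - s) * Y) * EE Y (1 - s)) s := by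
  have h1 := hasDerivAt_EE (hX.add hY) s
  have h2 := hasDerivAt_EE_one_sub hX s
  have h3 := hasDerivAt_EE_one_sub hY s
  have h4 := hasDerivAt_mat_mul (hasDerivAt_mat_mul h1 h2) h3
  have e : ((X + Y) * EE (X + Y) s * EE X (1 - s) + EE (X + Y) s * -(X * EE X (1 - s))) *
      EE Y (1 - s) + EE (X + Y) s * EE X (1 - s) * -(Y * EE Y (1 - s)) =
      EE (X + Y) s * (Y * EE X (1 - s) - EE X (1 - s) * Y) * EE Y (1 - s) := by
    rw [EE_comm (hX.add hY)]
    noncomm_ring
  rw [e] at h4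
  exact h4

open scoped Matrix.Norms.Frobenius in
theorem hsq_hh_le {X Y : Mat n} (hX : X.IsHermitian) (hY : Y.IsHermitian) {C : ℝ} (hC : 0 ≤ C)
    (h : ∀ u ∈ Ico (0 : ℝ) 1, hsq (EE (X + Y) u * (Y * EE X (1 - u) - EE X (1 - u) * Y) *
      EE Y (1 - u)) ≤ C) :
    hsq (mexp (X + Y) - mexp X * mexp Y) ≤ C := by
  have h1 : ‖hh X Y 1 - hh X Y 0‖ ≤ Real.sqrt C := by
    refine norm_image_sub_le_of_norm_deriv_le_segment_01'
      (fun x _ => (hasDerivAt_hh hX hY x).hasDerivWithinAt) fun x hx => ?_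
    refine Real.le_sqrt_of_sq_le ?_
    rw [frob_sq]
    exact h x hx
  have e1 : hh X Y 1 = mexp (X + Y) := by
    unfold hh
    rw [EE_one, sub_self, EE_zero hX, EE_zero hY, Matrix.mul_one, Matrix.mul_one]
  have e0 : hh X Y 0 = mexp X * mexp Y := by
    unfold hh
    rw [EE_zero (hX.add hY), sub_zero, EE_one, EE_one, Matrix.one_mul]
  rw [e1, e0] at h1
  rw [← frob_sq]
  calc ‖mexp (X + Y) - mexp X * mexp Y‖ ^ 2 ≤ Real.sqrt C ^ 2 :=
        pow_le_pow_left₀ (norm_nonneg _) h1 2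
    _ = C := Real.sq_sqrt hC

theorem exp_lip {a b L : ℝ} (ha : a ≤ L) (hb : b ≤ L) :
    |Real.exp a - Real.exp b| ≤ Real.exp L * |a - b| := by
  wlog hab : b ≤ a generalizing a b
  · rw [abs_sub_comm, abs_sub_comm a b]
    exact this hb ha (le_of_not_ge hab)
  rw [abs_of_nonneg (sub_nonneg.mpr (Real.exp_le_exp.mpr hab)), abs_of_nonneg (sub_nonneg.mpr hab)]
  have h1 : b - a + 1 ≤ Real.exp (b - a) := Real.add_one_le_exp _
  have h2 : Real.exp b = Real.exp a * Real.exp (b - a) := by rw [← Real.exp_add]; congr 1; ring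
  have h3 := Real.exp_pos a
  calc Real.exp a - Real.exp b = Real.exp a * (1 - Real.exp (b - a)) := by rw [h2]; ring
    _ ≤ Real.exp a * (a - b) := mul_le_mul_of_nonneg_left (by linarith) h3.le
    _ ≤ Real.exp L * (a - b) :=
        mul_le_mul_of_nonneg_right (Real.exp_le_exp.mpr ha) (by linarith)

theorem log_lip {a b c : ℝ} (hc : 0 < c) (ha : c ≤ a) (hb : c ≤ b) :
    |Real.log a - Real.log b| ≤ c⁻¹ * |a - b| := by
  wlog hab : b ≤ a generalizing a b
  · rw [abs_sub_comm, abs_sub_comm a b]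
    exact this hb ha (le_of_not_ge hab)
  have hb0 : 0 < b := lt_of_lt_of_le hc hb
  have ha0 : 0 < a := lt_of_lt_of_le hc ha
  rw [abs_of_nonneg (sub_nonneg.mpr (Real.log_le_log hb0 hab)),
    abs_of_nonneg (sub_nonneg.mpr hab), ← Real.log_div ha0.ne' hb0.ne']
  have h1 := Real.log_le_sub_one_of_pos (div_pos ha0 hb0)
  calc Real.log (a / b) ≤ a / b - 1 := h1
    _ = b⁻¹ * (a - b) := by field_simp
    _ ≤ c⁻¹ * (a - b) := mul_le_mul_of_nonneg_right (inv_anti₀ hc hb) (by linarith)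

theorem mexp_mlog {A : Mat n} (hA : A.PosDef) : mexp (mlog A) = A := by
  unfold mexp mlog
  have hc : ContinuousOn Real.log (spectrum ℝ A) :=
    Real.continuousOn_log.mono fun x hx => (spec_pos hA hx).ne'
  rw [← cfc_comp' Real.exp Real.log A (by fun_prop) hc hA.1.isSelfAdjoint]
  conv_rhs => rw [← cfc_id_fun hA.1]
  exact cfc_congr_spec hA.1 fun s hs => Real.exp_log (spec_pos hA hs)

/-- Duhamel -/
theorem duhamel {A B : Mat n} (hA : A.IsHermitian) (hB : B.IsHermitian) {c L : ℝ} (hc : 0 < c)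
    (hcA : (A - (c : ℂ) • (1 : Mat n)).PosSemidef) (hcB : (B - (c : ℂ) • (1 : Mat n)).PosSemidef)
    (hL : 0 ≤ L)
    (hA1 : ((L : ℂ) • (1 : Mat n) - mlog A).PosSemidef)
    (hA2 : ((L : ℂ) • (1 : Mat n) + mlog A).PosSemidef)
    (hB1 : ((L : ℂ) • (1 : Mat n) - mlog B).PosSemidef) :
    hsq (mexp (mlog A + mlog B) - A * B) ≤
      (Real.exp (2 * L)) ^ 2 * (Real.exp L ^ 2 * (Real.exp L ^ 2 * (c⁻¹ ^ 2 * (c⁻¹ ^ 2 *
        hsq (A * B - B * A))))) := by
  have hAd : A.PosDef := by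
    have := Matrix.PosDef.add_posSemidef (A := (c : ℂ) • (1 : Mat n))
      (Matrix.PosDef.one.smul (Complex.zero_lt_real.mpr hc)) hcA
    simpa using this
  have hBd : B.PosDef := by
    have := Matrix.PosDef.add_posSemidef (A := (c : ℂ) • (1 : Mat n))
      (Matrix.PosDef.one.smul (Complex.zero_lt_real.mpr hc)) hcB
    simpa using this
  set X := mlog A with hX
  set Y := mlog B with hY
  have hXh : X.IsHermitian := cfc_herm _
  have hYh : Y.IsHermitian := cfc_herm _
  have hXe : ∀ i, hXh.eigenvalues i ≤ L := fun i => eig_le hXh hA1 i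
  have hYe : ∀ i, hYh.eigenvalues i ≤ L := fun i => eig_le hYh hB1 i
  have hXY := hXh.add hYh
  have hXYe : ∀ i, hXY.eigenvalues i ≤ 2 * L := fun i => by
    refine eig_le hXY ?_ i
    have := hA1.add hB1
    convert this using 1
    push_cast
    rw [two_mul, add_smul]
    abel
  have hfin : hsq (X * Y - Y * X) ≤ c⁻¹ ^ 2 * (c⁻¹ ^ 2 * hsq (A * B - B * A)) := by
    have s1 : hsq (X * Y - Y * X) ≤ c⁻¹ ^ 2 * hsq (A * Y - Y * A) := by
      refine hsq_lip_eig hA hA Y Real.log Real.log c⁻¹ fun i j => ?_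
      exact log_lip hc (le_eig hA hcA i) (le_eig hA hcA j)
    have s2 : hsq (Y * A - A * Y) ≤ c⁻¹ ^ 2 * hsq (B * A - A * B) := by
      refine hsq_lip_eig hB hB A Real.log Real.log c⁻¹ fun i j => ?_
      exact log_lip hc (le_eig hB hcB i) (le_eig hB hcB j)
    rw [hsq_sub_comm (Y * A), hsq_sub_comm (B * A)] at s2
    exact s1.trans (mul_le_mul_of_nonneg_left s2 (by positivity))
  rw [← mexp_mlog hAd, ← mexp_mlog hBd, ← hX, ← hY]
  refine hsq_hh_le hXh hYh (by have := hsq_nonneg (mexp X * mexp Y - mexp Y * mexp X); positivity)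
    fun u hu => ?_
  have b1 : ∀ i, |Real.exp (u * hXY.eigenvalues i)| ≤ Real.exp (2 * L) := fun i => by
    rw [abs_of_pos (Real.exp_pos _)]
    refine Real.exp_le_exp.mpr ?_
    have h1 := hXYe i
    have h2 := hu.1
    have h3 := hu.2.le
    nlinarith
  have b2 : ∀ i, |Real.exp ((1 - u) * hYh.eigenvalues i)| ≤ Real.exp L := fun i => by
    rw [abs_of_pos (Real.exp_pos _)]
    refine Real.exp_le_exp.mpr ?_
    have h1 := hYe i
    have h2 := hu.1
    have h3 := hu.2.le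
    nlinarith
  rw [Matrix.mul_assoc]
  refine (hsq_cfc_mul_le hXY b1 _).trans ?_
  refine mul_le_mul_of_nonneg_left ?_ (by positivity)
  refine (hsq_mul_cfc_le hYh b2 _).trans ?_
  refine mul_le_mul_of_nonneg_left ?_ (by positivity)
  rw [hsq_sub_comm]
  have s3 : hsq (EE X (1 - u) * Y - Y * EE X (1 - u)) ≤ Real.exp L ^ 2 * hsq (X * Y - Y * X) := by
    refine hsq_lip_eig hXh hXh Y _ _ (Real.exp L) fun i j => ?_
    have h1 := hXe i
    have h1' := hXe j
    have h2 := hu.1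
    have h3 := hu.2.le
    refine (exp_lip (L := L) (by nlinarith) (by nlinarith)).trans ?_
    refine mul_le_mul_of_nonneg_left ?_ (Real.exp_pos _).le
    rw [← mul_sub, abs_mul, abs_of_nonneg (by linarith : 0 ≤ 1 - u)]
    nlinarith [abs_nonneg (hXh.eigenvalues i - hXh.eigenvalues j)]
  refine s3.trans (mul_le_mul_of_nonneg_left ?_ (by positivity))
  rw [mexp_mlog hAd, mexp_mlog hBd]
  exact hfin

end SLT.Stab
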