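import Crest.Agent.SLT.StabDefs

/-!
# Row 332, STAB: resolvents and the deficit `C_τ`
-/

set_option autoImplicit false

open MeasureTheory
open scoped ComplexOrder Matrix

namespace SLT

variable {n m : ℕ}

theorem cfc_congr_eig {A : Mat n} (hA : A.IsHermitian) {f g : ℝ → ℝ}
    (h : ∀ i, f (hA.eigenvalues i) = g (hA.eigenvalues i)) : cfc f A = cfc g A := by
  rw [cfc_spec hA, cfc_spec hA]
  simp only [h]

theorem cfc_sub_fun {A : Mat n} (hA : A.IsHermitian) (f g : ℝ → ℝ) :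
    cfc f A - cfc g A = cfc (fun t => f t - g t) A := by
  rw [cfc_spec hA, cfc_spec hA, cfc_spec hA, ← Matrix.sub_mul, ← Matrix.mul_sub,
    Matrix.diagonal_sub]
  simp only [Complex.ofReal_sub]

theorem cfc_add_fun {A : Mat n} (hA : A.IsHermitian) (f g : ℝ → ℝ) :
    cfc f A + cfc g A = cfc (fun t => f t + g t) A := by
  rw [cfc_spec hA, cfc_spec hA, cfc_spec hA, ← Matrix.add_mul, ← Matrix.mul_add,
    Matrix.diagonal_add]
  simp only [Complex.ofReal_add]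

theorem cfc_smul_fun {A : Mat n} (hA : A.IsHermitian) (c : ℝ) (f : ℝ → ℝ) :
    (c : ℂ) • cfc f A = cfc (fun t => c * f t) A := by
  rw [cfc_spec hA, cfc_spec hA, ← Matrix.smul_mul, ← Matrix.mul_smul, ← Matrix.diagonal_smul]
  congr 3
  funext i
  simp

theorem hsq_cfc_mul_le {A : Mat n} (hA : A.IsHermitian) {f : ℝ → ℝ} {p : ℝ}
    (h : ∀ i, |f (hA.eigenvalues i)| ≤ p) (X : RMat n m) :
    hsq (cfc f A * X) ≤ p ^ 2 * hsq X := by
  have hB : (0 : Mat m).IsHermitian := Matrix.isHermitian_zero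
  have e := hsq_spec hA hB X f (fun _ => 0)
  rw [show cfc (fun _ : ℝ => (0 : ℝ)) (0 : Mat m) = 0 from
    cfc_const_zero ℝ _, Matrix.mul_zero, sub_zero] at e
  rw [e, hsq_spec_wt hA hB X, Finset.mul_sum]
  refine Finset.sum_le_sum fun i _ => ?_
  rw [Finset.mul_sum]
  refine Finset.sum_le_sum fun j _ => ?_
  refine mul_le_mul_of_nonneg_right ?_ (swt_nonneg _ _ _ _ _)
  rw [sub_zero, ← sq_abs]
  exact pow_le_pow_left₀ (abs_nonneg _) (h i) 2

theorem hsq_mul_cfc_le {A : Mat m} (hA : A.IsHermitian) {f : ℝ → ℝ} {p : ℝ}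
    (h : ∀ i, |f (hA.eigenvalues i)| ≤ p) (X : RMat n m) :
    hsq (X * cfc f A) ≤ p ^ 2 * hsq X := by
  have := hsq_cfc_mul_le hA h Xᴴ
  rw [hsq_conjTranspose] at this
  have e : cfc f A * Xᴴ = (X * cfc f A)ᴴ := by
    rw [Matrix.conjTranspose_mul, (cfc_herm f).eq]
  rwa [e, hsq_conjTranspose] at this

/-- the resolvent `(A + s)⁻¹` through the functional calculus -/
noncomputable def Rs (A : Mat n) (s : ℝ) : Mat n := cfc (fun t : ℝ => (t + s)⁻¹) A

theorem add_smul_one_eq {A : Mat n} (hA : A.IsHermitian) (s : ℝ) :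
    A + (s : ℂ) • (1 : Mat n) = cfc (fun t : ℝ => t + s) A := by
  have := cfc_add_fun hA (fun t => t) (fun _ => s)
  rw [cfc_id_fun hA] at this
  rw [← this, ← cfc_one_fun hA, cfc_smul_fun hA]
  simp

theorem add_mul_Rs {A : Mat n} (hA : A.IsHermitian) {s : ℝ} (h : ∀ i, hA.eigenvalues i + s ≠ 0) :
    (A + (s : ℂ) • (1 : Mat n)) * Rs A s = 1 := by
  rw [add_smul_one_eq hA, Rs, cfc_mul_fun hA, ← cfc_one_fun hA]
  exact cfc_congr_eig hA fun i => mul_inv_cancel₀ (h i)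

theorem Rs_mul_add {A : Mat n} (hA : A.IsHermitian) {s : ℝ} (h : ∀ i, hA.eigenvalues i + s ≠ 0) :
    Rs A s * (A + (s : ℂ) • (1 : Mat n)) = 1 := by
  rw [add_smul_one_eq hA, Rs, cfc_mul_fun hA, ← cfc_one_fun hA]
  exact cfc_congr_eig hA fun i => inv_mul_cancel₀ (h i)

theorem inv_eq_Rs {A : Mat n} (hA : A.IsHermitian) {s : ℝ} (h : ∀ i, hA.eigenvalues i + s ≠ 0) :
    (A + (s : ℂ) • (1 : Mat n))⁻¹ = Rs A s :=
  Matrix.inv_eq_right_inv (add_mul_Rs hA h)

theorem inv_eq_cfc {S : Mat n} (hS : S.IsHermitian) (h : ∀ i, hS.eigenvalues i ≠ 0) :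
    S⁻¹ = cfc (fun t : ℝ => t⁻¹) S := by
  have := inv_eq_Rs hS (s := 0) (by simpa using h)
  simpa [Rs] using this

theorem rtr_ARTR {A S T R : Mat n} {s : ℝ} (hST : S * T = 1) (hTS : T * S = 1)
    (hAR : A * R = 1 - (s : ℂ) • R) (hRA : R * A = 1 - (s : ℂ) • R) :
    rtr ((((1 / 2 : ℝ) : ℂ) • (A * S + S * A) - A * A) * R * T * R) =
      rtr (A * R * R) - rtr (A * A * R * R * T) - s * (rtr (S * R * T * R) - rtr (R * R)) := by
  have e1 : rtr (A * S * R * T * R) = rtr R - s * rtr (S * R * T * R) := by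
    have : rtr (A * S * R * T * R) = rtr (S * R * T * (R * A)) := by
      rw [show A * S * R * T * R = A * (S * R * T * R) by simp only [Matrix.mul_assoc],
        rtr_mul_comm]
      simp only [Matrix.mul_assoc]
    rw [this, hRA, Matrix.mul_sub, rtr_sub, Matrix.mul_one, Matrix.mul_smul, rtr_smul,
      rtr_mul_comm (S * R) T, ← Matrix.mul_assoc, hTS, Matrix.one_mul]
  have e2 : rtr (S * A * R * T * R) = rtr R - s * rtr (S * R * T * R) := by
    rw [Matrix.mul_assoc S A R, hAR, Matrix.mul_sub, Matrix.mul_one, Matrix.sub_mul,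
      Matrix.sub_mul, hST, Matrix.one_mul, rtr_sub, Matrix.mul_smul, Matrix.smul_mul,
      Matrix.smul_mul, rtr_smul]
  have hcomm : R * A = A * R := by rw [hAR, hRA]
  have e3 : rtr (A * A * R * T * R) = rtr (A * A * R * R * T) := by
    rw [show A * A * R * T * R = (A * A * R * T) * R from rfl, rtr_mul_comm]
    congr 1
    calc R * (A * A * R * T) = (R * A) * (A * R * T) := by simp only [Matrix.mul_assoc]
      _ = (A * R) * (A * R * T) := by rw [hcomm]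
      _ = A * (R * A) * R * T := by simp only [Matrix.mul_assoc]
      _ = A * (A * R) * R * T := by rw [hcomm]
      _ = A * A * R * R * T := by simp only [Matrix.mul_assoc]
  have e4 : rtr (A * R * R) = rtr R - s * rtr (R * R) := by
    rw [hAR, Matrix.sub_mul, Matrix.one_mul, rtr_sub, Matrix.smul_mul, rtr_smul]
  have e5 : (((1 / 2 : ℝ) : ℂ) • (A * S + S * A) - A * A) * R * T * R
      = ((1 / 2 : ℝ) : ℂ) • (A * S * R * T * R + S * A * R * T * R) - A * A * R * T * R := by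
    simp only [Matrix.sub_mul, Matrix.smul_mul, Matrix.add_mul]
  rw [e5, rtr_sub, rtr_smul, rtr_add, e1, e2, e3, e4]
  ring

/-- the pointwise deficit -/
noncomputable def dfs (A S : Mat n) (s : ℝ) : ℝ :=
  rtr (S * Rs A s * S⁻¹ * Rs A s) - rtr (Rs A s * Rs A s)

theorem dfs_spec {A S : Mat n} (hS : S.IsHermitian)
    (hσ : ∀ i, 0 < hS.eigenvalues i) (s : ℝ) :
    2 * dfs A S s = ∑ i, ∑ j, (hS.eigenvalues i - hS.eigenvalues j) ^ 2 /
      (hS.eigenvalues i * hS.eigenvalues j) * swt hS hS (Rs A s) i j := by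
  have hT : S⁻¹ = cfc (fun t : ℝ => t⁻¹) S := inv_eq_cfc hS fun i => (hσ i).ne'
  have hR : (Rs A s)ᴴ = Rs A s := (cfc_herm _).eq
  have s1 : rtr (S * Rs A s * S⁻¹ * Rs A s) = ∑ i, ∑ j, hS.eigenvalues i * (hS.eigenvalues j)⁻¹ *
      swt hS hS (Rs A s) i j := by
    rw [← spec_sum hS hS (Rs A s) (fun t => t) (fun t => t⁻¹), cfc_id_fun hS, hR, ← hT]
  have s2 : rtr (S * Rs A s * S⁻¹ * Rs A s) = ∑ i, ∑ j, (hS.eigenvalues i)⁻¹ * hS.eigenvalues j *
      swt hS hS (Rs A s) i j := by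
    rw [← spec_sum hS hS (Rs A s) (fun t => t⁻¹) (fun t => t), cfc_id_fun hS, hR, ← hT]
    rw [Matrix.mul_assoc (S * Rs A s), rtr_mul_comm]
    simp only [Matrix.mul_assoc]
  have s3 : rtr (Rs A s * Rs A s) = ∑ i, ∑ j, 1 * 1 * swt hS hS (Rs A s) i j := by
    rw [← spec_sum hS hS (Rs A s) (fun _ => 1) (fun _ => 1), cfc_one_fun hS, hR]
    simp
  have : 2 * dfs A S s = rtr (S * Rs A s * S⁻¹ * Rs A s) + rtr (S * Rs A s * S⁻¹ * Rs A s)
      - 2 * rtr (Rs A s * Rs A s) := by unfold dfs; ring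
  rw [this]
  nth_rewrite 1 [s1]
  rw [s2, s3, Finset.mul_sum, ← Finset.sum_add_distrib, ← Finset.sum_sub_distrib]
  refine Finset.sum_congr rfl fun i _ => ?_
  rw [Finset.mul_sum, ← Finset.sum_add_distrib, ← Finset.sum_sub_distrib]
  refine Finset.sum_congr rfl fun j _ => ?_
  have h1 := (hσ i).ne'
  have h2 := (hσ j).ne'
  field_simp
  ring

theorem dfs_nonneg {A S : Mat n} (hS : S.IsHermitian)
    (hσ : ∀ i, 0 < hS.eigenvalues i) (s : ℝ) : 0 ≤ dfs A S s := by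
  have h : 0 ≤ 2 * dfs A S s := by
    rw [dfs_spec hS hσ]
    refine Finset.sum_nonneg fun i _ => Finset.sum_nonneg fun j _ =>
      mul_nonneg ?_ (swt_nonneg _ _ _ _ _)
    have h1 := hσ i
    have h2 := hσ j
    positivity
  linarith

theorem dfs_ge {A S : Mat n} (hA : A.IsHermitian) (hS : S.IsHermitian)
    (hσ : ∀ i, 0 < hS.eigenvalues i) {σ₁ c₁ : ℝ} (h1 : ∀ i, hS.eigenvalues i ≤ σ₁)
    (h2 : ∀ i, 0 < hA.eigenvalues i) (h3 : ∀ i, hA.eigenvalues i ≤ c₁) {s : ℝ} (hs : 0 < s)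
    (hn : 0 < σ₁) (hc : 0 < c₁) :
    hsq (A * S - S * A) ≤ (c₁ + s) ^ 4 * (2 * σ₁ ^ 2) * dfs A S s := by
  have hne : ∀ i, hA.eigenvalues i + s ≠ 0 := fun i => by have := h2 i; positivity
  have e0 : (A + (s : ℂ) • (1 : Mat n)) * ((S * Rs A s - Rs A s * S) *
      (A + (s : ℂ) • (1 : Mat n))) = A * S - S * A := by
    rw [Matrix.sub_mul, Matrix.mul_assoc S, Rs_mul_add hA hne, Matrix.mul_sub, Matrix.mul_one,
      Matrix.mul_assoc (Rs A s) S, ← Matrix.mul_assoc _ (Rs A s), add_mul_Rs hA hne,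
      Matrix.one_mul, Matrix.add_mul, Matrix.mul_add, Matrix.smul_mul, Matrix.mul_smul,
      Matrix.one_mul, Matrix.mul_one]
    abel
  have hb : ∀ i, |hA.eigenvalues i + s| ≤ c₁ + s := fun i => by
    rw [abs_of_pos (by have := h2 i; positivity)]
    linarith [h3 i]
  have e1 : hsq (A * S - S * A) ≤ (c₁ + s) ^ 2 * ((c₁ + s) ^ 2 *
      hsq (S * Rs A s - Rs A s * S)) := by
    rw [← e0, add_smul_one_eq hA s]
    refine (hsq_cfc_mul_le hA hb _).trans ?_
    exact mul_le_mul_of_nonneg_left (hsq_mul_cfc_le hA hb _) (by positivity)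
  have e2 : hsq (S * Rs A s - Rs A s * S) ≤ (2 * σ₁ ^ 2) * dfs A S s := by
    rw [hsq_spec_id hS hS, show 2 * σ₁ ^ 2 * dfs A S s = σ₁ ^ 2 * (2 * dfs A S s) by ring,
      dfs_spec hS hσ, Finset.mul_sum]
    refine Finset.sum_le_sum fun i _ => ?_
    rw [Finset.mul_sum]
    refine Finset.sum_le_sum fun j _ => ?_
    rw [← mul_assoc]
    refine mul_le_mul_of_nonneg_right ?_ (swt_nonneg _ _ _ _ _)
    have hi := hσ i
    have hj := hσ j
    have hij : hS.eigenvalues i * hS.eigenvalues j ≤ σ₁ ^ 2 := by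
      have := mul_le_mul (h1 i) (h1 j) hj.le hn.le
      nlinarith
    have hp : 0 < hS.eigenvalues i * hS.eigenvalues j := mul_pos hi hj
    rw [mul_div_assoc', le_div_iff₀ hp]
    nlinarith [sq_nonneg (hS.eigenvalues i - hS.eigenvalues j)]
  calc hsq (A * S - S * A) ≤ (c₁ + s) ^ 2 * ((c₁ + s) ^ 2 *
        hsq (S * Rs A s - Rs A s * S)) := e1
    _ ≤ (c₁ + s) ^ 2 * ((c₁ + s) ^ 2 * ((2 * σ₁ ^ 2) * dfs A S s)) := by
        gcongr
    _ = _ := by ring

end SLT
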