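import Crest.Agent.SLT.Spec

/-!
# Row 332, STAB: spectral double sums

For Hermitian `A` (eigenvalues `a i`), `B` (eigenvalues `b j`) and any `X`,
`tr (f(A) X g(B) Xᴴ) = ∑ f(a i) g(b j) w i j` with weights `w i j ≥ 0` that do not depend on `f, g`.
-/

set_option autoImplicit false

open MeasureTheory
open scoped ComplexOrder Matrix

namespace SLT

variable {n m : ℕ}

/-- the weights `|⟨u_i, X v_j⟩|²` -/
noncomputable def swt {A : Mat n} {B : Mat m} (hA : A.IsHermitian) (hB : B.IsHermitian)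
    (X : RMat n m) (i : Fin n) (j : Fin m) : ℝ :=
  ‖((hA.eigenvectorUnitary : Mat n)ᴴ * X * (hB.eigenvectorUnitary : Mat m)) i j‖ ^ 2

theorem swt_nonneg {A : Mat n} {B : Mat m} (hA : A.IsHermitian) (hB : B.IsHermitian)
    (X : RMat n m) (i : Fin n) (j : Fin m) : 0 ≤ swt hA hB X i j := by
  unfold swt; positivity

theorem cfc_spec {A : Mat n} (hA : A.IsHermitian) (f : ℝ → ℝ) :
    cfc f A = (hA.eigenvectorUnitary : Mat n) *
      Matrix.diagonal (fun i => ((f (hA.eigenvalues i) : ℝ) : ℂ)) *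
        (hA.eigenvectorUnitary : Mat n)ᴴ := by
  rw [hA.cfc_eq f, Matrix.IsHermitian.cfc, Unitary.conjStarAlgAut_apply]
  rfl

theorem spec_sum {A : Mat n} {B : Mat m} (hA : A.IsHermitian) (hB : B.IsHermitian)
    (X : RMat n m) (f g : ℝ → ℝ) :
    rtr (cfc f A * X * cfc g B * Xᴴ) =
      ∑ i, ∑ j, f (hA.eigenvalues i) * g (hB.eigenvalues j) * swt hA hB X i j := by
  rw [cfc_spec hA, cfc_spec hB]
  set U : Mat n := (hA.eigenvectorUnitary : Mat n)
  set V : Mat m := (hB.eigenvectorUnitary : Mat m)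
  set D := Matrix.diagonal (fun i => ((f (hA.eigenvalues i) : ℝ) : ℂ))
  set E := Matrix.diagonal (fun i => ((g (hB.eigenvalues i) : ℝ) : ℂ))
  have h1 : (U * D * Uᴴ * X * (V * E * Vᴴ) * Xᴴ).trace
      = (D * (Uᴴ * X * V) * E * (Uᴴ * X * V)ᴴ).trace := by
    have e1 : U * D * Uᴴ * X * (V * E * Vᴴ) * Xᴴ = U * (D * (Uᴴ * X * V) * E * (Vᴴ * Xᴴ)) := by
      simp only [Matrix.mul_assoc]
    have e2 : D * (Uᴴ * X * V) * E * (Uᴴ * X * V)ᴴ = D * (Uᴴ * X * V) * E * (Vᴴ * Xᴴ) * U := by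
      simp only [Matrix.conjTranspose_mul, Matrix.conjTranspose_conjTranspose, Matrix.mul_assoc]
    rw [e1, e2, Matrix.trace_mul_comm]
  unfold rtr
  rw [h1, Matrix.trace]
  simp only [Matrix.diag_apply, Complex.re_sum]
  refine Finset.sum_congr rfl fun i _ => ?_
  rw [Matrix.mul_apply, Complex.re_sum]
  refine Finset.sum_congr rfl fun j _ => ?_
  rw [Matrix.mul_diagonal, Matrix.diagonal_mul, Matrix.conjTranspose_apply]
  set z := (Uᴴ * X * V) i j
  have hz : swt hA hB X i j = ‖z‖ ^ 2 := rfl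
  rw [hz]
  have h2 : ((f (hA.eigenvalues i) : ℝ) : ℂ) * z * ((g (hB.eigenvalues j) : ℝ) : ℂ) * star z
      = (((f (hA.eigenvalues i)) * (g (hB.eigenvalues j)) * ‖z‖ ^ 2 : ℝ) : ℂ) := by
    have : z * star z = ((‖z‖ ^ 2 : ℝ) : ℂ) := by
      rw [Complex.star_def, Complex.mul_conj, Complex.normSq_eq_norm_sq]
    calc ((f (hA.eigenvalues i) : ℝ) : ℂ) * z * ((g (hB.eigenvalues j) : ℝ) : ℂ) * star z
        = ((f (hA.eigenvalues i) : ℝ) : ℂ) * ((g (hB.eigenvalues j) : ℝ) : ℂ) * (z * star z) := by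
          ring
      _ = _ := by rw [this]; push_cast; ring
  rw [h2, Complex.ofReal_re]

theorem hsq_eq_trace (X : RMat n m) : hsq X = rtr (X * Xᴴ) := by
  unfold hsq rtr
  rw [Matrix.trace, Complex.re_sum]
  refine Finset.sum_congr rfl fun i _ => ?_
  rw [Matrix.diag_apply, Matrix.mul_apply, Complex.re_sum]
  refine Finset.sum_congr rfl fun j _ => ?_
  rw [Matrix.conjTranspose_apply, Complex.star_def, Complex.mul_conj, Complex.normSq_eq_norm_sq,
    Complex.ofReal_re]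

theorem cfc_herm {A : Mat n} (f : ℝ → ℝ) : (cfc f A).IsHermitian :=
  cfc_predicate (R := ℝ) f A

end SLT
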